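import Vale.Agent.Lib.P232.Defs

/-! JOB P5: one dimension: a periodic set on the circle approximated with energy at most three is an arc. -/

open MeasureTheory Set Filter Topology Real

noncomputable section

namespace Vale.Agent.Lib.P232

private theorem arc_inc {v : ℝ → ℝ} (hv : C1P1 v) {a b : ℝ} (hab : a ≤ b) :
    |v b - v a| ≤ ∫ x in a..b, |deriv v x| := by
  have hc : Continuous (deriv v) := hv.smooth.continuous_deriv le_rfl
  have hd : ∀ x ∈ uIcc a b, HasDerivAt v (deriv v x) x := fun x _ =>
    (hv.smooth.differentiable (by norm_num) x).hasDerivAt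
  rw [← intervalIntegral.integral_eq_sub_of_hasDerivAt hd (hc.intervalIntegrable _ _)]
  exact intervalIntegral.abs_integral_le_integral_abs hab

/-- The variation over four consecutive arcs of a period is below the energy. -/
theorem four_arcs {v : ℝ → ℝ} (hv : C1P1 v) {p a b c : ℝ} (h1 : p ≤ a) (h2 : a ≤ b) (h3 : b ≤ c)
    (h4 : c ≤ p + 1) :
    |v a - v p| + |v b - v a| + |v c - v b| + |v p - v c| ≤ En1 v := by
  have hc : Continuous (fun x => |deriv v x|) := (hv.smooth.continuous_deriv le_rfl).abs
  have hper : Function.Periodic (fun x => |deriv v x|) 1 := by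
    intro x
    have h : deriv v (x + 1) = deriv v x := by
      have h := deriv_comp_add_const v 1 x
      rw [← h]
      congr 1
      funext y
      exact hv.per y
    simp only [h]
  have hE : En1 v = ∫ x in p..(p + 1), |deriv v x| := by
    unfold En1
    have h := hper.intervalIntegral_add_eq 0 p
    simpa using h
  rw [hE]
  have i := fun s t => hc.intervalIntegrable (μ := volume) s t
  rw [← intervalIntegral.integral_add_adjacent_intervals (i p a) (i a (p + 1)),
    ← intervalIntegral.integral_add_adjacent_intervals (i a b) (i b (p + 1)),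
    ← intervalIntegral.integral_add_adjacent_intervals (i b c) (i c (p + 1))]
  have e1 := arc_inc hv h1
  have e2 := arc_inc hv h2
  have e3 := arc_inc hv h3
  have e4 := arc_inc hv h4
  rw [hv.per] at e4
  linarith

/-- A periodic indicator approximated by `C¹` functions of energy at most three along a subsequence,
neither null nor conull, is a.e. the indicator of an arc. -/
theorem arc_of_energy {v : ℕ → ℝ → ℝ} {χ : ℝ → ℝ} (h : Approx1 v χ)
    (hfreq : ∃ᶠ k in atTop, En1 (v k) ≤ 3)
    (h0 : 0 < ∫ x in (0 : ℝ)..1, χ x) (h1 : ∫ x in (0 : ℝ)..1, χ x < 1) :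
    ∃ a l : ℝ, 0 < l ∧ l < 1 ∧ ∀ᵐ x, (χ x = 1 ↔ Int.fract (x - a) < l) := by
  classical
  set Good : ℝ → Prop := fun x => Tendsto (fun k => v k x) atTop (𝓝 (χ x)) with hGood
  have hgood : ∀ᵐ x, Good x := h.conv
  have hχper : Function.Periodic χ 1 := h.ind.per
  have hvper : ∀ k, Function.Periodic (v k) 1 := fun k => (h.c1 k).per
  have hχint : ∀ (n : ℤ) (x : ℝ), χ (x + n) = χ x := by
    intro n x
    have := hχper.int_mul n x
    simpa using this
  have hvint : ∀ k (n : ℤ) (x : ℝ), v k (x + n) = v k x := by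
    intro k n x
    have := (hvper k).int_mul n x
    simpa using this
  have hGint : ∀ (n : ℤ) {x : ℝ}, Good x → Good (x + n) := by
    intro n x hx
    simp only [hGood] at hx ⊢
    simp only [hχint, hvint]
    exact hx
  -- no alternation
  have no_alt : ∀ p a b c : ℝ, Good p → Good a → Good b → Good c → χ p = 0 → χ a = 1 → χ b = 0 →
      χ c = 1 → p ≤ a → a ≤ b → b ≤ c → c ≤ p + 1 → False := by
    intro p a b c gp ga gb gc xp xa xb xc h1 h2 h3 h4
    simp only [hGood] at gp ga gb gc
    rw [xp] at gp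
    rw [xa] at ga
    rw [xb] at gb
    rw [xc] at gc
    have hT : Tendsto (fun k => |v k a - v k p| + |v k b - v k a| + |v k c - v k b| + |v k p - v k c|)
        atTop (𝓝 (|(1 : ℝ) - 0| + |(0 : ℝ) - 1| + |(1 : ℝ) - 0| + |(0 : ℝ) - 1|)) :=
      (((ga.sub gp).abs.add (gb.sub ga).abs).add (gc.sub gb).abs).add (gp.sub gc).abs
    have hval : |(1 : ℝ) - 0| + |(0 : ℝ) - 1| + |(1 : ℝ) - 0| + |(0 : ℝ) - 1| = 4 := by
      norm_num
    rw [hval] at hT
    have hev := hT.eventually_const_lt (show (3 : ℝ) < 4 by norm_num)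
    obtain ⟨k, hk1, hk2⟩ := (hfreq.and_eventually hev).exists
    have := four_arcs (h.c1 k) h1 h2 h3 h4
    linarith
  -- a good point of the complement
  have hbool := h.ind.bool
  have ex0 : ∃ p, Good p ∧ χ p = 0 := by
    by_contra hcon
    push Not at hcon
    have hae : ∀ᵐ x, χ x = 1 := hgood.mono fun x hx => (hbool x).resolve_left (hcon x hx)
    have e : ∫ x in (0 : ℝ)..1, χ x = ∫ _x in (0 : ℝ)..1, (1 : ℝ) :=
      intervalIntegral.integral_congr_ae (hae.mono fun x hx _ => hx)
    rw [e] at h1
    simp at h1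
  have ex1 : ∃ c, Good c ∧ χ c = 1 := by
    by_contra hcon
    push Not at hcon
    have hae : ∀ᵐ x, χ x = 0 := hgood.mono fun x hx => (hbool x).resolve_right (hcon x hx)
    have e : ∫ x in (0 : ℝ)..1, χ x = ∫ _x in (0 : ℝ)..1, (0 : ℝ) :=
      intervalIntegral.integral_congr_ae (hae.mono fun x hx _ => hx)
    rw [e] at h0
    simp at h0
  obtain ⟨p, gp, xp⟩ := ex0
  obtain ⟨c0, gc0, xc0⟩ := ex1
  -- bring an integer translate of `x` into `(p, p + 1]`
  have htrans : ∀ x : ℝ, ∃ n : ℤ, p < x + n ∧ x + n ≤ p + 1 := by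
    intro x
    refine ⟨⌊p - x⌋ + 1, ?_, ?_⟩
    · have := Int.lt_floor_add_one (p - x)
      push_cast
      linarith
    · have := Int.floor_le (p - x)
      push_cast
      linarith
  set S : Set ℝ := {x | p < x ∧ x < p + 1 ∧ Good x ∧ χ x = 1} with hS
  have hSne : S.Nonempty := by
    obtain ⟨n, hn1, hn2⟩ := htrans c0
    refine ⟨c0 + n, hn1, ?_, hGint n gc0, by rw [hχint]; exact xc0⟩
    rcases lt_or_eq_of_le hn2 with hlt | heq
    · exact hlt
    · exfalso
      have e1 : χ (c0 + n) = 1 := by rw [hχint]; exact xc0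
      rw [heq] at e1
      have e2 : χ (p + 1) = χ p := hχper p
      rw [e2, xp] at e1
      norm_num at e1
  have hSb : BddBelow S := ⟨p, fun x hx => hx.1.le⟩
  have hSa : BddAbove S := ⟨p + 1, fun x hx => hx.2.1.le⟩
  set a := sInf S with ha
  set b := sSup S with hb
  have hpa : p ≤ a := le_csInf hSne fun x hx => hx.1.le
  have hbp : b ≤ p + 1 := csSup_le hSne fun x hx => hx.2.1.le
  have hab : a ≤ b := by
    obtain ⟨x, hx⟩ := hSne
    exact (csInf_le hSb hx).trans (le_csSup hSa hx)
  have factA : ∀ x, Good x → a < x → x < b → χ x = 1 := by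
    intro x gx hax hxb
    by_contra hne
    have hx0 : χ x = 0 := (hbool x).resolve_right hne
    obtain ⟨a1, ha1, ha1x⟩ := exists_lt_of_csInf_lt hSne hax
    obtain ⟨b1, hb1, hxb1⟩ := exists_lt_of_lt_csSup hSne hxb
    exact no_alt p a1 x b1 gp ha1.2.2.1 gx hb1.2.2.1 xp ha1.2.2.2 hx0 hb1.2.2.2 ha1.1.le ha1x.le
      hxb1.le hb1.2.1.le
  have factB : ∀ x, p < x → x < p + 1 → Good x → χ x = 1 → a ≤ x ∧ x ≤ b := by
    intro x h1 h2 h3 h4
    have hx : x ∈ S := ⟨h1, h2, h3, h4⟩
    exact ⟨csInf_le hSb hx, le_csSup hSa hx⟩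
  -- the points off the three orbits
  have hoff : ∀ y : ℝ, ∀ᵐ x : ℝ, ∀ n : ℤ, x ≠ y + n := by
    intro y
    refine ae_all_iff.2 fun n => ?_
    have : ∀ᵐ x : ℝ, x ∉ ({y + (n : ℝ)} : Set ℝ) := (Set.countable_singleton _).ae_notMem volume
    exact this.mono fun x hx => by simpa using hx
  have hae : ∀ᵐ x, (χ x = 1 ↔ Int.fract (x - a) < b - a) := by
    filter_upwards [hgood, hoff p, hoff a, hoff b] with x gx op oa ob
    obtain ⟨n, hn1, hn2⟩ := htrans x
    set x' : ℝ := x + n with hx'
    have hn3 : x' < p + 1 := by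
      rcases lt_or_eq_of_le hn2 with hlt | heq
      · exact hlt
      · exfalso
        refine op (1 - n) ?_
        push_cast
        rw [hx'] at heq
        linarith
    have ga : x' ≠ a := by
      intro e
      refine oa (-n) ?_
      push_cast
      rw [hx'] at e
      linarith
    have gb : x' ≠ b := by
      intro e
      refine ob (-n) ?_
      push_cast
      rw [hx'] at e
      linarith
    have gx' : Good x' := hGint n gx
    have ex : χ x = χ x' := (hχint n x).symm
    have ef : Int.fract (x - a) = Int.fract (x' - a) := by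
      have : x' - a = (x - a) + n := by rw [hx']; ring
      rw [this, Int.fract_add_intCast]
    rw [ex, ef]
    constructor
    · intro hone
      obtain ⟨h1', h2'⟩ := factB x' hn1 hn3 gx' hone
      have h3' : a < x' := lt_of_le_of_ne h1' (Ne.symm ga)
      have h4' : x' < b := lt_of_le_of_ne h2' gb
      have hf : Int.fract (x' - a) = x' - a := by
        rw [Int.fract_eq_iff]
        refine ⟨by linarith, by linarith, 0, by simp⟩
      rw [hf]
      linarith
    · intro hlt
      rcases lt_or_gt_of_ne ga with hxa | hxa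
      · exfalso
        have hf : Int.fract (x' - a) = x' - a + 1 := by
          rw [Int.fract_eq_iff]
          refine ⟨by linarith, by linarith, -1, by simp⟩
        rw [hf] at hlt
        linarith
      · rcases lt_or_gt_of_ne gb with hxb | hxb
        · exact factA x' gx' hxa hxb
        · exfalso
          have hf : Int.fract (x' - a) = x' - a := by
            rw [Int.fract_eq_iff]
            refine ⟨by linarith, by linarith, 0, by simp⟩
          rw [hf] at hlt
          linarith
  refine ⟨a, b - a, ?_, ?_, hae⟩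
  · by_contra hl
    push Not at hl
    have hae0 : ∀ᵐ x, χ x = 0 := hae.mono fun x hx => by
      refine (hbool x).resolve_right fun hone => ?_
      have := hx.mp hone
      have h' := Int.fract_nonneg (x - a)
      linarith
    have e : ∫ x in (0 : ℝ)..1, χ x = ∫ _x in (0 : ℝ)..1, (0 : ℝ) :=
      intervalIntegral.integral_congr_ae (hae0.mono fun x hx _ => hx)
    rw [e] at h0
    simp at h0
  · by_contra hl
    push Not at hl
    have hae1 : ∀ᵐ x, χ x = 1 := hae.mono fun x hx => hx.mpr
      (lt_of_lt_of_le (Int.fract_lt_one (x - a)) hl)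
    have e : ∫ x in (0 : ℝ)..1, χ x = ∫ _x in (0 : ℝ)..1, (1 : ℝ) :=
      intervalIntegral.integral_congr_ae (hae1.mono fun x hx _ => hx)
    rw [e] at h1
    simp at h1

/-- JOB P5. One dimension: a periodic indicator of mass in `(0,1)` with approximate variation `2` is an arc.
Four alternating good points give variation `≥ 4 - o(1)` (`path4` idea with `g = 1`); no alternation means arc. -/
theorem arc1D {v : ℕ → ℝ → ℝ} {f : ℝ → ℝ} (hv : ∀ k, C1P1 (v k)) (hf : Ind1 f)
    (hconv : ∀ᵐ x, Tendsto (fun k => v k x) atTop (𝓝 (f x)))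
    (h0 : 0 < ∫ x in (0 : ℝ)..1, f x) (h1 : (∫ x in (0 : ℝ)..1, f x) < 1)
    (hP : ∀ ε > 0, ∃ᶠ k in atTop, ∫ x in (0 : ℝ)..1, |deriv (v k) x| ≤ 2 + ε) :
    ∃ x₀ : ℝ, ∀ᵐ x, (f x = 1 ↔ ∃ n : ℤ, x₀ + n < x ∧ x < x₀ + n + ∫ x in (0 : ℝ)..1, f x) := by
  have happ : Approx1 v f := ⟨hv, hf, hconv⟩
  have hfreq : ∃ᶠ k in atTop, En1 (v k) ≤ 3 := by
    have := hP 1 one_pos
    refine this.mono fun k hk => ?_
    unfold En1
    linarith
  obtain ⟨a, l, hl0, hl1, hae⟩ := arc_of_energy happ hfreq h0 h1
  -- the mass of the arc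
  have hbool := hf.bool
  have hm : Measurable f := hf.meas
  have hbd : ∀ x, |f x| ≤ 1 := by
    intro x
    rcases hbool x with h | h <;> simp [h]
  have hfi : ∀ s t : ℝ, IntervalIntegrable f volume s t := by
    intro s t
    rw [intervalIntegrable_iff]
    refine Measure.integrableOn_of_bounded (M := 1) ?_ hm.aestronglyMeasurable ?_
    · simp [uIoc]
    · exact Eventually.of_forall fun x => by simpa using hbd x
  have hper : Function.Periodic f 1 := hf.per
  have hne : ∀ y : ℝ, ∀ᵐ x : ℝ, x ≠ y := by
    intro y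
    have : ∀ᵐ x : ℝ, x ∉ ({y} : Set ℝ) := (Set.countable_singleton _).ae_notMem volume
    exact this.mono fun x hx => by simpa using hx
  have hmass : (∫ x in (0 : ℝ)..1, f x) = l := by
    have e0 : (∫ x in (0 : ℝ)..1, f x) = ∫ x in a..(a + 1), f x := by
      have h := hper.intervalIntegral_add_eq 0 a
      simpa using h
    rw [e0, ← intervalIntegral.integral_add_adjacent_intervals (hfi a (a + l)) (hfi (a + l) (a + 1))]
    have e1 : (∫ x in a..(a + l), f x) = ∫ _x in a..(a + l), (1 : ℝ) := by
      refine intervalIntegral.integral_congr_ae ?_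
      filter_upwards [hae, hne (a + l)] with x hx hxne hmem
      rw [uIoc_of_le (by linarith)] at hmem
      have hlt : x < a + l := lt_of_le_of_ne hmem.2 hxne
      refine hx.mpr ?_
      have hf' : Int.fract (x - a) = x - a := by
        rw [Int.fract_eq_iff]
        refine ⟨by linarith [hmem.1], by linarith, 0, by simp⟩
      rw [hf']
      linarith
    have e2 : (∫ x in (a + l)..(a + 1), f x) = ∫ _x in (a + l)..(a + 1), (0 : ℝ) := by
      refine intervalIntegral.integral_congr_ae ?_
      filter_upwards [hae, hne (a + 1)] with x hx hxne hmem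
      rw [uIoc_of_le (by linarith)] at hmem
      have hlt : x < a + 1 := lt_of_le_of_ne hmem.2 hxne
      refine (hbool x).resolve_right fun hone => ?_
      have h' := hx.mp hone
      have hf' : Int.fract (x - a) = x - a := by
        rw [Int.fract_eq_iff]
        refine ⟨by linarith [hmem.1], by linarith, 0, by simp⟩
      rw [hf'] at h'
      linarith [hmem.1]
    rw [e1, e2]
    simp
  refine ⟨a, ?_⟩
  rw [hmass]
  have hoff : ∀ᵐ x : ℝ, ∀ n : ℤ, x ≠ a + n := ae_all_iff.2 fun n => hne _
  filter_upwards [hae, hoff] with x hx hxoff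
  rw [hx]
  constructor
  · intro hlt
    refine ⟨⌊x - a⌋, ?_, ?_⟩
    · have h1' := Int.floor_le (x - a)
      have h2' : x ≠ a + ⌊x - a⌋ := hxoff _
      have h3' : a + (⌊x - a⌋ : ℝ) ≤ x := by linarith
      exact lt_of_le_of_ne h3' (Ne.symm h2')
    · have h4' : Int.fract (x - a) = x - a - ⌊x - a⌋ := rfl
      rw [h4'] at hlt
      linarith
  · rintro ⟨n, hn1, hn2⟩
    have hf' : Int.fract (x - a) = x - a - n := by
      rw [Int.fract_eq_iff]
      refine ⟨by linarith, by linarith, n, by ring⟩
    rw [hf']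
    linarith

end Vale.Agent.Lib.P232
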