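import Vale.Agent.Lib.P232.Torus3a

/-! JOB J1 of stage 4: Pythagoras for the gradient, and sets invariant in a coordinate.

`√(X²+T²) ≥ α |X| + β |T|` for `α² + β² ≤ 1`. If the energy is at most `P + o(1)` and one part of the
gradient carries `P - o(1)`, the other part tends to zero (along the same subsequence), and then the
limit indicator does not depend on the corresponding coordinates. -/

open MeasureTheory Set Filter Topology

noncomputable section

namespace Vale.Agent.Lib.P232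

variable {U : ℕ → ℝ → ℝ → ℝ → ℝ} {χ : ℝ → ℝ → ℝ → ℝ} {w : ℕ → ℝ → ℝ → ℝ} {η : ℝ → ℝ → ℝ}

/-! ### The real lemma -/

/-- If `α H + β T ≤ E` for all `α, β ≥ 0` in the unit disc, `H ≥ P - δ`, `E ≤ P + δ`, then `T ≤ ε`. -/
theorem pyth_small {P ε : ℝ} (hP : 0 ≤ P) (hε : 0 < ε) :
    ∃ δ > 0, ∀ H T E : ℝ, (∀ α β : ℝ, 0 ≤ α → 0 ≤ β → α ^ 2 + β ^ 2 ≤ 1 → α * H + β * T ≤ E) →
      P - δ ≤ H → E ≤ P + δ → T ≤ ε := by
  set e := min 1 (ε / (2 * (P + 1))) with he
  have he0 : 0 < e := lt_min one_pos (by positivity)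
  have he1 : e ≤ 1 := min_le_left _ _
  have heP : e * P ≤ ε / 2 := by
    have h1 : e ≤ ε / (2 * (P + 1)) := min_le_right _ _
    have h2 : e * (2 * (P + 1)) ≤ ε := (le_div_iff₀ (by positivity)).1 h1
    nlinarith
  refine ⟨e * ε / 4, by positivity, ?_⟩
  intro H T E hE hH hEP
  have hu : 0 ≤ 1 - e ^ 2 := by nlinarith
  set α := Real.sqrt (1 - e ^ 2) with hα
  have hα2 : α ^ 2 = 1 - e ^ 2 := Real.sq_sqrt hu
  have hα0 : 0 ≤ α := Real.sqrt_nonneg _
  have hα1 : α ≤ 1 := Real.sqrt_le_one.mpr (by nlinarith)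
  have hαge : 1 - e ^ 2 ≤ α := by nlinarith
  have key := hE α e hα0 he0.le (by rw [hα2]; linarith)
  have h1 : α * (P - e * ε / 4) ≤ α * H := mul_le_mul_of_nonneg_left hH hα0
  have h2 : (1 - e ^ 2) * P ≤ α * P := mul_le_mul_of_nonneg_right hαge hP
  have h3 : α * (e * ε / 4) ≤ 1 * (e * ε / 4) := mul_le_mul_of_nonneg_right hα1 (by positivity)
  have h4 : e * T ≤ e * ε := by nlinarith
  exact le_of_mul_le_mul_left h4 he0

/-! ### Splitting the energies -/

theorem py_abs_point {X Y T α β : ℝ} (_hβ : 0 ≤ β) (hαβ : α ^ 2 + β ^ 2 ≤ 1) :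
    α * Real.sqrt (X ^ 2 + Y ^ 2) + β * |T| ≤ Real.sqrt (X ^ 2 + Y ^ 2 + T ^ 2) := by
  rcases le_total 0 T with h0 | h0
  · rw [abs_of_nonneg h0]
    exact t3_point' hαβ
  · rw [abs_of_nonpos h0]
    have := t3_point' (X := X) (Y := Y) (T := T) (α := α) (β := -β) (by nlinarith)
    linarith

/-- The energy on the three-torus controls the horizontal and the vertical part. -/
theorem En3_split {W : ℝ → ℝ → ℝ → ℝ} (h : C1P3 W) {α β : ℝ} (hβ : 0 ≤ β) (hαβ : α ^ 2 + β ^ 2 ≤ 1) :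
    α * (∫ t in (0 : ℝ)..1, En2 (slc W t)) +
      β * (∫ t in (0 : ℝ)..1, ∫ y in (0 : ℝ)..1, ∫ x in (0 : ℝ)..1, |dT W x y t|) ≤ En3 W := by
  have hcT : Continuous (fun p : R3 => |dT W p.1 p.2.1 p.2.2|) := h.continuous_dT.abs
  rw [t3_En3]
  refine t3_lin_le (t3_cont_A h) (t3_cont_double (G := fun x y t => |dT W x y t|) hcT)
    (t3_cont_double (t3_cont_Nr h)) α β fun t => ?_
  rw [t3_En2_slc]
  refine t3_lin_le (t3_cont_row (t3_cont_Hr h) t) (t3_cont_row (G := fun x y t => |dT W x y t|) hcT t)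
    (t3_cont_row (t3_cont_Nr h) t) α β fun y => ?_
  refine t3_lin_le (t3_cont_col (t3_cont_Hr h) y t)
    (t3_cont_col (G := fun x y t => |dT W x y t|) hcT y t)
    (t3_cont_col (t3_cont_Nr h) y t) α β fun x => ?_
  exact py_abs_point hβ hαβ

/-- The same with the vertical part first. -/
theorem En3_split' {W : ℝ → ℝ → ℝ → ℝ} (h : C1P3 W) {α β : ℝ} (hα : 0 ≤ α) (hαβ : α ^ 2 + β ^ 2 ≤ 1) :
    α * (∫ t in (0 : ℝ)..1, ∫ y in (0 : ℝ)..1, ∫ x in (0 : ℝ)..1, |dT W x y t|) +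
      β * (∫ t in (0 : ℝ)..1, En2 (slc W t)) ≤ En3 W := by
  have := En3_split h (α := β) (β := α) hα (by linarith)
  linarith

theorem py_cont_d1 {v : ℝ → ℝ → ℝ} (h : C1P2 v) :
    Continuous (fun p : ℝ × ℝ => d1 v p.1 p.2) := h.continuous_d1
theorem py_cont_d2 {v : ℝ → ℝ → ℝ} (h : C1P2 v) :
    Continuous (fun p : ℝ × ℝ => d2 v p.1 p.2) := h.continuous_d2

theorem py_inner_cont {F : ℝ → ℝ → ℝ} (hF : Continuous (fun p : ℝ × ℝ => F p.1 p.2)) :
    Continuous (fun y => ∫ x in (0 : ℝ)..1, F x y) := by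
  refine intervalIntegral.continuous_parametric_intervalIntegral_of_continuous'
    (f := fun (y : ℝ) x => F x y) ?_ 0 1
  exact hF.comp (continuous_snd.prodMk continuous_fst)

theorem py_col_cont {F : ℝ → ℝ → ℝ} (hF : Continuous (fun p : ℝ × ℝ => F p.1 p.2)) (y : ℝ) :
    Continuous (fun x => F x y) := hF.comp (continuous_id.prodMk continuous_const)

/-- Two weighted integrals below a third one, in both variables. -/
private theorem py_lin2 {f g k : ℝ → ℝ → ℝ} (hf : Continuous (fun p : ℝ × ℝ => f p.1 p.2))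
    (hg : Continuous (fun p : ℝ × ℝ => g p.1 p.2)) (hk : Continuous (fun p : ℝ × ℝ => k p.1 p.2))
    (α β : ℝ) (hle : ∀ x y, α * f x y + β * g x y ≤ k x y) :
    α * (∫ y in (0 : ℝ)..1, ∫ x in (0 : ℝ)..1, f x y) +
      β * (∫ y in (0 : ℝ)..1, ∫ x in (0 : ℝ)..1, g x y) ≤
      ∫ y in (0 : ℝ)..1, ∫ x in (0 : ℝ)..1, k x y := by
  refine t3_lin_le (py_inner_cont hf) (py_inner_cont hg) (py_inner_cont hk) α β fun y => ?_
  exact t3_lin_le (py_col_cont hf y) (py_col_cont hg y) (py_col_cont hk y) α β fun x => hle x y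

private theorem py_cont_En2 {v : ℝ → ℝ → ℝ} (h : C1P2 v) :
    Continuous (fun p : ℝ × ℝ => Real.sqrt (d1 v p.1 p.2 ^ 2 + d2 v p.1 p.2 ^ 2)) :=
  (((py_cont_d1 h).pow 2).add ((py_cont_d2 h).pow 2)).sqrt

/-- The energy on the two-torus controls the two directions. -/
theorem En2_split {v : ℝ → ℝ → ℝ} (h : C1P2 v) {α β : ℝ} (_hα : 0 ≤ α) (_hβ : 0 ≤ β)
    (hαβ : α ^ 2 + β ^ 2 ≤ 1) :
    α * (∫ y in (0 : ℝ)..1, ∫ x in (0 : ℝ)..1, |d1 v x y|) +
      β * (∫ y in (0 : ℝ)..1, ∫ x in (0 : ℝ)..1, |d2 v x y|) ≤ En2 v := by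
  refine py_lin2 (py_cont_d1 h).abs (py_cont_d2 h).abs (py_cont_En2 h) α β fun x y => ?_
  have key := t3_point (r := |d1 v x y|) (T := |d2 v x y|) hαβ
  rwa [sq_abs, sq_abs] at key

/-! ### The part that vanishes -/

/-- Level three, horizontal part full: the vertical part is small along a subsequence. -/
theorem pyth3_vert (h : Approx3 U χ) {P : ℝ} (hP0 : 0 ≤ P)
    (hP : ∀ ε > 0, ∃ᶠ k in atTop, En3 (U k) ≤ P + ε ∧ P - ε ≤ ∫ t in (0 : ℝ)..1, En2 (slc (U k) t)) :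
    ∀ ε > 0, ∃ᶠ k in atTop,
      (∫ t in (0 : ℝ)..1, ∫ y in (0 : ℝ)..1, ∫ x in (0 : ℝ)..1, |dT (U k) x y t|) ≤ ε := by
  intro ε hε
  obtain ⟨δ, hδ, key⟩ := pyth_small hP0 hε
  refine (hP δ hδ).mono fun k hk => ?_
  exact key _ _ _ (fun α β _ hβ hαβ => En3_split (h.c1 k) hβ hαβ) hk.2 hk.1

/-- Level three, vertical part full: the horizontal part is small along a subsequence. -/
theorem pyth3_horiz (h : Approx3 U χ) {P : ℝ} (hP0 : 0 ≤ P)
    (hP : ∀ ε > 0, ∃ᶠ k in atTop, En3 (U k) ≤ P + ε ∧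
      P - ε ≤ ∫ t in (0 : ℝ)..1, ∫ y in (0 : ℝ)..1, ∫ x in (0 : ℝ)..1, |dT (U k) x y t|) :
    ∀ ε > 0, ∃ᶠ k in atTop, (∫ t in (0 : ℝ)..1, En2 (slc (U k) t)) ≤ ε := by
  intro ε hε
  obtain ⟨δ, hδ, key⟩ := pyth_small hP0 hε
  refine (hP δ hδ).mono fun k hk => ?_
  exact key _ _ _ (fun α β hα _ hαβ => En3_split' (h.c1 k) hα hαβ) hk.2 hk.1

/-- Level two, rows full: the column part is small along a subsequence. -/
theorem pyth2_d2 (h : Approx2 w η) {P : ℝ} (hP0 : 0 ≤ P)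
    (hP : ∀ ε > 0, ∃ᶠ k in atTop, En2 (w k) ≤ P + ε ∧
      P - ε ≤ ∫ y in (0 : ℝ)..1, ∫ x in (0 : ℝ)..1, |d1 (w k) x y|) :
    ∀ ε > 0, ∃ᶠ k in atTop, (∫ y in (0 : ℝ)..1, ∫ x in (0 : ℝ)..1, |d2 (w k) x y|) ≤ ε := by
  intro ε hε
  obtain ⟨δ, hδ, key⟩ := pyth_small hP0 hε
  refine (hP δ hδ).mono fun k hk => ?_
  exact key _ _ _ (fun α β hα hβ hαβ => En2_split (h.c1 k) hα hβ hαβ) hk.2 hk.1

/-- Level two, columns full: the row part is small along a subsequence. -/
theorem pyth2_d1 (h : Approx2 w η) {P : ℝ} (hP0 : 0 ≤ P)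
    (hP : ∀ ε > 0, ∃ᶠ k in atTop, En2 (w k) ≤ P + ε ∧
      P - ε ≤ ∫ y in (0 : ℝ)..1, ∫ x in (0 : ℝ)..1, |d2 (w k) x y|) :
    ∀ ε > 0, ∃ᶠ k in atTop, (∫ y in (0 : ℝ)..1, ∫ x in (0 : ℝ)..1, |d1 (w k) x y|) ≤ ε := by
  intro ε hε
  obtain ⟨δ, hδ, key⟩ := pyth_small hP0 hε
  refine (hP δ hδ).mono fun k hk => ?_
  refine key _ _ _ (fun α β hα hβ hαβ => ?_) hk.2 hk.1
  have := En2_split (h.c1 k) hβ hα (α := β) (β := α) (by linarith)
  linarith

/-! ### Fatou: almost every slice is almost optimal -/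

/-- If `∫ f_k ≤ P + o(1)` along a subsequence, `liminf f_k ≥ c` a.e. and `∫ c ≥ P`, then a.e.
`liminf f_k = c` along a further subsequence depending on the point. -/
theorem ae_frequently_le {f : ℕ → ℝ → ℝ} {c : ℝ → ℝ} {P C : ℝ} (hf : ∀ k, Continuous (f k))
    (hf0 : ∀ k t, 0 ≤ f k t) (hcm : Measurable c) (hc0 : ∀ t, 0 ≤ c t) (hcb : ∀ t, c t ≤ C)
    (hc : ∀ᵐ t, ∀ ε > 0, ∀ᶠ k in atTop, c t - ε ≤ f k t)
    (hP : ∀ ε > 0, ∃ᶠ k in atTop, ∫ t in (0 : ℝ)..1, f k t ≤ P + ε)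
    (hcP : P ≤ ∫ t in (0 : ℝ)..1, c t) :
    ∀ᵐ t ∂(volume.restrict (Ioc (0 : ℝ) 1)), ∀ ε > 0, ∃ᶠ k in atTop, f k t ≤ c t + ε := by
  -- the bad sets
  have hnull : ∀ ε > 0, volume ({t | ∀ᶠ k in atTop, c t + ε < f k t} ∩ Ioc (0 : ℝ) 1) = 0 := by
    intro ε hε
    set B : Set ℝ := {t | ∀ᶠ k in atTop, c t + ε < f k t} with hB
    have hBm : MeasurableSet B := by
      have e : B = ⋃ K : ℕ, ⋂ k : ℕ, ⋂ (_ : K ≤ k), {t | c t + ε < f k t} := by
        ext t
        simp only [hB, Set.mem_ofPred_eq, eventually_atTop, mem_iUnion, mem_iInter]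
      rw [e]
      refine MeasurableSet.iUnion fun K => MeasurableSet.iInter fun k => MeasurableSet.iInter fun _ => ?_
      exact measurableSet_lt (hcm.add measurable_const) (hf k).measurable
    have hφ : ∃ φ : ℕ → ℕ, StrictMono φ ∧ ∀ n : ℕ,
        ∫ t in (0 : ℝ)..1, f (φ n) t ≤ P + 1 / ((n : ℝ) + 1) :=
      extraction_forall_of_frequently fun n => hP _ (by positivity)
    obtain ⟨φ, hφm, hφP⟩ := hφ
    have hφt : Tendsto φ atTop atTop := hφm.tendsto_atTop
    set g : ℝ → ℝ := fun t => c t + B.indicator (fun _ => ε) t with hg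
    have hgm : Measurable g := hcm.add (measurable_const.indicator hBm)
    have hg0 : ∀ t, 0 ≤ g t := fun t => add_nonneg (hc0 t)
      (indicator_nonneg (fun _ _ => hε.le) t)
    have hgle : ∀ δ > 0, ∫ t in (0 : ℝ)..1, g t ≤ P + δ := by
      intro δ hδ
      refine fatou_interval (f := fun n => f (φ n)) (fun n => hf _) (fun n t => hf0 _ t)
        (hgm.aestronglyMeasurable) hg0 ?_ ?_
      · filter_upwards [hc] with t ht ρ hρ
        by_cases htB : t ∈ B
        · have h1 : g t = c t + ε := by simp [hg, htB]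
          have h2 : ∀ᶠ k in atTop, c t + ε < f k t := htB
          filter_upwards [hφt.eventually h2] with n hn
          rw [h1] at hρ
          exact hρ.trans hn
        · have h1 : g t = c t := by simp [hg, htB]
          rw [h1] at hρ
          have h2 := ht ((c t - ρ) / 2) (by linarith)
          filter_upwards [hφt.eventually h2] with n hn
          linarith
      · obtain ⟨N, hN⟩ := exists_nat_one_div_lt hδ
        filter_upwards [eventually_ge_atTop N] with n hn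
        refine (hφP n).trans ?_
        have h0 : (0 : ℝ) < (N : ℝ) + 1 := by positivity
        have hnN : (N : ℝ) ≤ n := Nat.cast_le.2 hn
        have := one_div_le_one_div_of_le h0 (by linarith : (N : ℝ) + 1 ≤ (n : ℝ) + 1)
        linarith
    have hgle2 : ∫ t in (0 : ℝ)..1, g t ≤ P := le_of_forall_pos_le_add hgle
    have hci : IntervalIntegrable c volume 0 1 :=
      intervalIntegrable_of_bdd hcm (C := C) fun t => by
        rw [abs_of_nonneg (hc0 t)]
        exact hcb t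
    have hii : IntervalIntegrable (fun t => B.indicator (fun _ => ε) t) volume 0 1 := by
      apply intervalIntegrable_of_bdd (C := ε) (measurable_const.indicator hBm)
      intro t
      by_cases ht : t ∈ B
      · simp [ht, abs_of_pos hε]
      · simpa [ht] using hε.le
    have hval : ∫ t in (0 : ℝ)..1, B.indicator (fun _ => ε) t =
        (volume (B ∩ Ioc (0 : ℝ) 1)).toReal * ε := by
      rw [intervalIntegral.integral_of_le zero_le_one, setIntegral_indicator hBm, setIntegral_const,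
        inter_comm]
      simp [Measure.real, mul_comm]
    have hsum : ∫ t in (0 : ℝ)..1, g t = (∫ t in (0 : ℝ)..1, c t) +
        (volume (B ∩ Ioc (0 : ℝ) 1)).toReal * ε := by
      rw [← hval]
      exact intervalIntegral.integral_add hci hii
    have h0 : (volume (B ∩ Ioc (0 : ℝ) 1)).toReal * ε ≤ 0 := by linarith
    have h1 : (volume (B ∩ Ioc (0 : ℝ) 1)).toReal ≤ 0 := by
      by_contra hcon
      have := mul_pos (not_le.1 hcon) hε
      linarith
    have hfin : volume (B ∩ Ioc (0 : ℝ) 1) ≠ ⊤ :=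
      ne_top_of_le_ne_top (by simp) (measure_mono inter_subset_right)
    rcases (ENNReal.toReal_eq_zero_iff _).1 (le_antisymm h1 ENNReal.toReal_nonneg) with h2 | h2
    · exact h2
    · exact absurd h2 hfin
  have hall : ∀ n : ℕ, ∀ᵐ t ∂(volume.restrict (Ioc (0 : ℝ) 1)),
      ¬ ∀ᶠ k in atTop, c t + 1 / ((n : ℝ) + 1) < f k t := by
    intro n
    rw [ae_restrict_iff' measurableSet_Ioc]
    refine measure_mono_null ?_ (hnull (1 / ((n : ℝ) + 1)) (by positivity))
    intro t ht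
    have ht' : ¬ (t ∈ Ioc (0 : ℝ) 1 → ¬ ∀ᶠ k in atTop, c t + 1 / ((n : ℝ) + 1) < f k t) := ht
    push Not at ht'
    exact ⟨ht'.2, ht'.1⟩
  filter_upwards [ae_all_iff.2 hall] with t ht ε hε
  obtain ⟨N, hN⟩ := exists_nat_one_div_lt hε
  have h1 := ht N
  rw [not_eventually] at h1
  refine h1.mono fun k hk => ?_
  have := not_lt.1 hk
  linarith

/-- Almost every slice carries the right energy. -/
theorem ae_slice_energy (h : Approx3 U χ) {c : ℝ → ℝ} {P C : ℝ} (hcm : Measurable c) (hc0 : ∀ t, 0 ≤ c t)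
    (hcb : ∀ t, c t ≤ C) (hc : ∀ᵐ t, ∀ ε > 0, ∀ᶠ k in atTop, c t - ε ≤ En2 (slc (U k) t))
    (hP : ∀ ε > 0, ∃ᶠ k in atTop, En3 (U k) ≤ P + ε) (hcP : P ≤ ∫ t in (0 : ℝ)..1, c t) :
    ∀ᵐ t ∂(volume.restrict (Ioc (0 : ℝ) 1)), ∀ ε > 0, ∃ᶠ k in atTop, En2 (slc (U k) t) ≤ c t + ε := by
  refine ae_frequently_le (f := fun k t => En2 (slc (U k) t)) (fun k => t3_cont_A (h.c1 k))
    (fun k t => En2_nonneg _) hcm hc0 hcb hc (fun ε hε => (hP ε hε).mono fun k hk => ?_) hcP
  have := En3_split (h.c1 k) (α := 1) (β := 0) le_rfl (by norm_num)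
  simp only [one_mul, zero_mul, add_zero] at this
  exact this.trans hk

/-! ### Invariance -/

theorem py_swap {F : ℝ → ℝ → ℝ} (hF : Continuous (fun p : ℝ × ℝ => F p.1 p.2)) :
    ∫ y in (0 : ℝ)..1, ∫ x in (0 : ℝ)..1, F x y = ∫ x in (0 : ℝ)..1, ∫ y in (0 : ℝ)..1, F x y := by
  have hG : Continuous (Function.uncurry (fun y x => F x y)) := by
    have : Function.uncurry (fun y x => F x y) = (fun p : ℝ × ℝ => F p.1 p.2) ∘ Prod.swap := by
      funext p
      rfl
    rw [this]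
    exact hF.comp continuous_swap
  apply intervalIntegral_intervalIntegral_swap (F := fun y x => F x y)
  have hc : IsCompact (Set.uIcc (0 : ℝ) 1 ×ˢ Set.uIcc (0 : ℝ) 1) := isCompact_uIcc.prod isCompact_uIcc
  refine (hG.continuousOn.integrableOn_compact hc).mono_set ?_
  exact Set.prod_mono uIoc_subset_uIcc uIoc_subset_uIcc

/-- Order of the three integrals. -/
theorem py_swap3 {F : ℝ → ℝ → ℝ → ℝ} (hcT : Continuous (fun p : R3 => F p.1 p.2.1 p.2.2)) :
    ∫ s in (0 : ℝ)..1, ∫ y in (0 : ℝ)..1, ∫ x in (0 : ℝ)..1, F x y s =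
      ∫ y in (0 : ℝ)..1, ∫ x in (0 : ℝ)..1, ∫ s in (0 : ℝ)..1, F x y s := by
  have hswap1 : ∀ y, ∫ x in (0 : ℝ)..1, ∫ s in (0 : ℝ)..1, F x y s =
      ∫ s in (0 : ℝ)..1, ∫ x in (0 : ℝ)..1, F x y s := fun y =>
    py_swap (F := fun s x => F x y s)
      (hcT.comp (by fun_prop : Continuous (fun p : ℝ × ℝ => ((p.2, y, p.1) : R3))))
  have hcI : Continuous (fun p : ℝ × ℝ => ∫ x in (0 : ℝ)..1, F x p.1 p.2) := by
    refine intervalIntegral.continuous_parametric_intervalIntegral_of_continuous'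
      (f := fun (p : ℝ × ℝ) x => F x p.1 p.2) ?_ 0 1
    exact hcT.comp (by fun_prop : Continuous (fun q : (ℝ × ℝ) × ℝ => ((q.2, q.1.1, q.1.2) : R3)))
  have hswap2 : ∫ y in (0 : ℝ)..1, ∫ s in (0 : ℝ)..1, ∫ x in (0 : ℝ)..1, F x y s =
      ∫ s in (0 : ℝ)..1, ∫ y in (0 : ℝ)..1, ∫ x in (0 : ℝ)..1, F x y s :=
    py_swap (F := fun s y => ∫ x in (0 : ℝ)..1, F x y s)
      (hcI.comp continuous_swap)
  rw [← hswap2]
  simp_rw [← hswap1]

theorem py_ae_of_periodic {P : ℝ → Prop} (hper : ∀ t, P (t + 1) ↔ P t)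
    (h : ∀ᵐ t ∂(volume.restrict (Ioc (0 : ℝ) 1)), P t) : ∀ᵐ t : ℝ, P t := by
  have h0 : ∀ᵐ t : ℝ, t ∈ Ioc (0 : ℝ) 1 → P t := (ae_restrict_iff' measurableSet_Ioc).1 h
  have hP : Function.Periodic P 1 := fun t => propext (hper t)
  have hn : ∀ n : ℤ, ∀ᵐ t : ℝ, t + (n : ℝ) ∈ Ioc (0 : ℝ) 1 → P (t + (n : ℝ)) := by
    intro n
    exact (measurePreserving_add_right volume (n : ℝ)).quasiMeasurePreserving.ae h0
  filter_upwards [ae_all_iff.2 hn] with t ht
  have hmem : t + ((1 - ⌈t⌉ : ℤ) : ℝ) ∈ Ioc (0 : ℝ) 1 := by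
    push_cast
    constructor
    · have := Int.ceil_lt_add_one t
      linarith
    · have := Int.le_ceil t
      linarith
  have hPt := ht (1 - ⌈t⌉) hmem
  have hper2 := (hP.int_mul (1 - ⌈t⌉)) t
  rw [mul_one] at hper2
  rw [hper2] at hPt
  exact hPt

/-- One dimension: the oscillation is at most the total variation. -/
theorem py_one_d {v : ℝ → ℝ} (hv : ContDiff ℝ 1 v) {a b : ℝ} (ha : a ∈ Icc (0 : ℝ) 1)
    (hb : b ∈ Icc (0 : ℝ) 1) : |v a - v b| ≤ ∫ s in (0 : ℝ)..1, |deriv v s| := by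
  have hc : Continuous (deriv v) := hv.continuous_deriv le_rfl
  have hd : ∀ s, HasDerivAt v (deriv v s) s := fun s =>
    (hv.differentiable (by norm_num) s).hasDerivAt
  have hmono : ∀ p q : ℝ, 0 ≤ p → p ≤ q → q ≤ 1 → ∫ s in p..q, |deriv v s| ≤ ∫ s in (0 : ℝ)..1, |deriv v s| := by
    intro p q hp hpq hq
    refine intervalIntegral.integral_mono_interval hp hpq hq ?_ (hc.abs.intervalIntegrable _ _)
    exact Eventually.of_forall fun s => abs_nonneg _
  have key : ∀ p q : ℝ, 0 ≤ p → p ≤ q → q ≤ 1 → |v q - v p| ≤ ∫ s in (0 : ℝ)..1, |deriv v s| := by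
    intro p q hp hpq hq
    have e : ∫ s in p..q, deriv v s = v q - v p :=
      intervalIntegral.integral_eq_sub_of_hasDerivAt (fun s _ => hd s) (hc.intervalIntegrable _ _)
    rw [← e]
    exact (intervalIntegral.abs_integral_le_integral_abs hpq).trans (hmono p q hp hpq hq)
  rcases le_total a b with h | h
  · rw [abs_sub_comm]
    exact key a b ha.1 h hb.2
  · exact key b a hb.1 h ha.2

/-- A nonnegative periodic function with zero integral vanishes a.e. -/
theorem py_zero1 {g : ℝ → ℝ} (hm : Measurable g) (h0 : ∀ x, 0 ≤ g x) {C : ℝ}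
    (hb : ∀ x, |g x| ≤ C) (hper : ∀ x, g (x + 1) = g x) (hz : ∫ x in (0 : ℝ)..1, g x = 0) :
    ∀ᵐ x, g x = 0 := by
  rw [intervalIntegral.integral_of_le zero_le_one] at hz
  have hi : IntegrableOn g (Ioc (0 : ℝ) 1) volume :=
    (intervalIntegrable_iff_integrableOn_Ioc_of_le zero_le_one).1 (intervalIntegrable_of_bdd hm hb)
  have hae := (integral_eq_zero_iff_of_nonneg_ae (Eventually.of_forall h0) hi).1 hz
  exact py_ae_of_periodic (P := fun x => g x = 0) (fun x => by rw [hper]) hae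

theorem py_abs_diff {a b : ℝ} (ha : 0 ≤ a) (ha1 : a ≤ 1) (hb : 0 ≤ b) (hb1 : b ≤ 1) :
    |a - b| ≤ 1 := by
  rw [abs_le]
  constructor <;> linarith

/-- Level two: small `x`-variation, the limit does not depend on `x`. -/
theorem py_cyl_x (h : Approx2 w η)
    (h1 : ∀ ε > 0, ∃ᶠ k in atTop, (∫ y in (0 : ℝ)..1, ∫ x in (0 : ℝ)..1, |d1 (w k) x y|) ≤ ε) :
    ∀ᵐ x₀, ∀ᵐ x, ∀ᵐ y, η x y = η x₀ y := by
  have hi := h.ind
  have hconv := ae_cols (P := fun x y => Tendsto (fun k => w k x y) atTop (𝓝 (η x y))) h.conv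
  have hmy : ∀ x, Measurable (fun y => η x y) := fun x =>
    hi.meas.comp (by fun_prop : Measurable (fun y : ℝ => ((x, y) : ℝ × ℝ)))
  have habs : ∀ x y, |η x y| ≤ 1 := fun x y => by
    rcases hi.bool x y with h0 | h0 <;> simp [h0]
  have hpair : ∀ x x₀ : ℝ, x ∈ Ioc (0 : ℝ) 1 → x₀ ∈ Ioc (0 : ℝ) 1 →
      (∀ᵐ y, Tendsto (fun k => w k x y) atTop (𝓝 (η x y))) →
      (∀ᵐ y, Tendsto (fun k => w k x₀ y) atTop (𝓝 (η x₀ y))) → ∀ᵐ y, η x y = η x₀ y := by
    intro x x₀ hx hx₀ hc1 hc2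
    have hcont : ∀ k a, Continuous (fun y => w k a y) := fun k a =>
      (h.c1 k).smooth.continuous.comp (by fun_prop : Continuous (fun y : ℝ => ((a, y) : ℝ × ℝ)))
    have hlim : Tendsto (fun k => ∫ y in (0 : ℝ)..1, |w k x y - w k x₀ y|) atTop
        (𝓝 (∫ y in (0 : ℝ)..1, |η x y - η x₀ y|)) := by
      refine t3_dct (fun k => ((hcont k x).sub (hcont k x₀)).abs) (fun k y => ?_) ?_
      · rw [abs_of_nonneg (abs_nonneg _)]
        exact py_abs_diff ((h.c1 k).nonneg _ _) ((h.c1 k).le_one _ _) ((h.c1 k).nonneg _ _)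
          ((h.c1 k).le_one _ _)
      · filter_upwards [hc1, hc2] with y h1' h2'
        exact (h1'.sub h2').abs
    have hle : ∀ k, ∫ y in (0 : ℝ)..1, |w k x y - w k x₀ y| ≤
        ∫ y in (0 : ℝ)..1, ∫ s in (0 : ℝ)..1, |d1 (w k) s y| := by
      intro k
      refine intervalIntegral.integral_mono_on zero_le_one
        (((hcont k x).sub (hcont k x₀)).abs.intervalIntegrable _ _)
        ((py_inner_cont (py_cont_d1 (h.c1 k)).abs).intervalIntegrable _ _) (fun y _ => ?_)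
      exact py_one_d ((h.c1 k).line y).smooth (Ioc_subset_Icc_self hx) (Ioc_subset_Icc_self hx₀)
    have hzero : ∫ y in (0 : ℝ)..1, |η x y - η x₀ y| ≤ 0 := by
      refine le_of_forall_pos_le_add fun ε hε => ?_
      rw [zero_add]
      exact le_of_tendsto_of_frequently hlim ((h1 ε hε).mono fun k hk => (hle k).trans hk)
    have h0 : ∫ y in (0 : ℝ)..1, |η x y - η x₀ y| = 0 :=
      le_antisymm hzero (intervalIntegral.integral_nonneg zero_le_one fun y _ => abs_nonneg _)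
    have := py_zero1 (g := fun y => |η x y - η x₀ y|) ((hmy x).sub (hmy x₀)).abs
      (fun y => abs_nonneg _) (C := 1) (fun y => ?_) (fun y => by simp only [hi.per_y]) h0
    · filter_upwards [this] with y hy
      have hy' : |η x y - η x₀ y| = 0 := hy
      rw [abs_eq_zero] at hy'
      linarith
    · rw [abs_of_nonneg (abs_nonneg _)]
      have h3 := hi.bool x y
      have h4 := hi.bool x₀ y
      rcases h3 with h3 | h3 <;> rcases h4 with h4 | h4 <;> simp [h3, h4]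
  have hconvR := ae_restrict_of_ae (s := Ioc (0 : ℝ) 1) hconv
  have hmem := self_mem_ae_restrict (μ := (volume : Measure ℝ)) (s := Ioc (0 : ℝ) 1) measurableSet_Ioc
  refine py_ae_of_periodic (P := fun x₀ => ∀ᵐ x, ∀ᵐ y, η x y = η x₀ y) (fun x₀ => ?_) ?_
  · simp only [hi.per_x]
  filter_upwards [hconvR, hmem] with x₀ hx₀ hm₀
  refine py_ae_of_periodic (P := fun x => ∀ᵐ y, η x y = η x₀ y) (fun x => ?_) ?_
  · simp only [hi.per_x]
  filter_upwards [hconvR, hmem] with x hx hm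
  exact hpair x x₀ hm hm₀ hx hx₀

/-- Level two: small `y`-variation, the limit does not depend on `y`. -/
theorem py_cyl_y (h : Approx2 w η)
    (h2 : ∀ ε > 0, ∃ᶠ k in atTop, (∫ y in (0 : ℝ)..1, ∫ x in (0 : ℝ)..1, |d2 (w k) x y|) ≤ ε) :
    ∀ᵐ y₀, ∀ᵐ y, ∀ᵐ x, η x y = η x y₀ := by
  have hs := h.swap
  refine py_cyl_x hs (fun ε hε => (h2 ε hε).mono fun k hk => ?_)
  have e : (∫ y in (0 : ℝ)..1, ∫ x in (0 : ℝ)..1, |d1 (fun a b => w k b a) x y|) =
      ∫ y in (0 : ℝ)..1, ∫ x in (0 : ℝ)..1, |d2 (w k) x y| := by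
    exact (py_swap (F := fun a b => |d2 (w k) a b|) (py_cont_d2 (h.c1 k)).abs).symm
  rw [e]
  exact hk

/-- Level two: vanishing energy, the limit is constant. -/
theorem const_of_small (h : Approx2 w η) (hs : ∀ ε > 0, ∃ᶠ k in atTop, En2 (w k) ≤ ε) :
    ∀ᵐ y, ∀ᵐ x, η x y = area η := by
  have hi := h.ind
  have h1 : ∀ ε > 0, ∃ᶠ k in atTop, (∫ y in (0 : ℝ)..1, ∫ x in (0 : ℝ)..1, |d1 (w k) x y|) ≤ ε := by
    intro ε hε
    refine (hs ε hε).mono fun k hk => ?_
    have := En2_split (h.c1 k) (α := 1) (β := 0) zero_le_one le_rfl (by norm_num)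
    simp only [one_mul, zero_mul, add_zero] at this
    exact this.trans hk
  have h2 : ∀ ε > 0, ∃ᶠ k in atTop, (∫ y in (0 : ℝ)..1, ∫ x in (0 : ℝ)..1, |d2 (w k) x y|) ≤ ε := by
    intro ε hε
    refine (hs ε hε).mono fun k hk => ?_
    have := En2_split (h.c1 k) (α := 0) (β := 1) le_rfl zero_le_one (by norm_num)
    simp only [one_mul, zero_mul, zero_add] at this
    exact this.trans hk
  have hA := py_cyl_x h h1
  have hB := py_cyl_y h h2
  obtain ⟨x₀, hx₀⟩ := hA.exists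
  have hSm : MeasurableSet {p : ℝ × ℝ | η p.1 p.2 = η x₀ p.2} := by
    refine measurableSet_eq_fun hi.meas ?_
    exact hi.meas.comp (by fun_prop : Measurable (fun p : ℝ × ℝ => ((x₀, p.2) : ℝ × ℝ)))
  have hcomm : ∀ᵐ y, ∀ᵐ x, η x y = η x₀ y :=
    (Measure.ae_ae_comm (p := fun x y => η x y = η x₀ y) hSm).1 hx₀
  obtain ⟨y₀, hy₀, hy₁⟩ := (hB.and hcomm).exists
  have hfin : ∀ᵐ y, ∀ᵐ x, η x y = η x₀ y₀ := by
    filter_upwards [hy₀] with y hy
    filter_upwards [hy, hy₁] with x e1 e2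
    rw [e1, e2]
  have harea : area η = η x₀ y₀ := by
    unfold area
    have e : ∀ᵐ y ∂(volume.restrict (Ioc (0 : ℝ) 1)),
        ∫ x in (0 : ℝ)..1, η x y = η x₀ y₀ := by
      filter_upwards [ae_restrict_of_ae hfin] with y hy
      have : ∫ x in (0 : ℝ)..1, η x y = ∫ x in (0 : ℝ)..1, η x₀ y₀ := by
        rw [intervalIntegral.integral_of_le zero_le_one, intervalIntegral.integral_of_le zero_le_one]
        exact integral_congr_ae (ae_restrict_of_ae hy)
      rw [this]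
      simp
    rw [intervalIntegral.integral_of_le zero_le_one, integral_congr_ae e]
    simp
  rw [harea]
  exact hfin

/-- Level three: small vertical variation, the limit does not depend on `t`. -/
theorem py_cyl_t (h : Approx3 U χ)
    (hT : ∀ ε > 0, ∃ᶠ k in atTop,
      (∫ t in (0 : ℝ)..1, ∫ y in (0 : ℝ)..1, ∫ x in (0 : ℝ)..1, |dT (U k) x y t|) ≤ ε) :
    ∀ᵐ t₀, ∀ᵐ t, ∀ᵐ y, ∀ᵐ x, χ x y t = χ x y t₀ := by
  have hi := h.ind
  have hslc := h.slices
  have hpair : ∀ t t₀ : ℝ, t ∈ Ioc (0 : ℝ) 1 → t₀ ∈ Ioc (0 : ℝ) 1 →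
      Approx2 (fun k => slc (U k) t) (slc χ t) → Approx2 (fun k => slc (U k) t₀) (slc χ t₀) →
      ∀ᵐ y, ∀ᵐ x, χ x y t = χ x y t₀ := by
    intro t t₀ ht ht₀ ha1 ha2
    have hcW : ∀ k, Continuous (fun p : R3 => U k p.1 p.2.1 p.2.2) := fun k => (h.c1 k).smooth.continuous
    have hcont : ∀ k a, Continuous (fun p : ℝ × ℝ => U k p.1 p.2 a) := fun k a =>
      (hcW k).comp (by fun_prop : Continuous (fun p : ℝ × ℝ => ((p.1, p.2, a) : R3)))
    have hbd : ∀ k x y a b, |U k x y a - U k x y b| ≤ 1 := fun k x y a b =>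
      py_abs_diff ((h.c1 k).nonneg _ _ _) ((h.c1 k).le_one _ _ _) ((h.c1 k).nonneg _ _ _)
        ((h.c1 k).le_one _ _ _)
    have hc1 := ae_rows (P := fun x y => Tendsto (fun k => slc (U k) t x y) atTop (𝓝 (slc χ t x y))) ha1.conv
    have hc2 := ae_rows (P := fun x y => Tendsto (fun k => slc (U k) t₀ x y) atTop (𝓝 (slc χ t₀ x y))) ha2.conv
    have hF : ∀ k, Continuous (fun p : ℝ × ℝ => |U k p.1 p.2 t - U k p.1 p.2 t₀|) := fun k =>
      ((hcont k t).sub (hcont k t₀)).abs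
    have hlim : Tendsto (fun k => ∫ y in (0 : ℝ)..1, ∫ x in (0 : ℝ)..1, |U k x y t - U k x y t₀|) atTop
        (𝓝 (∫ y in (0 : ℝ)..1, ∫ x in (0 : ℝ)..1, |χ x y t - χ x y t₀|)) := by
      refine t3_dct (fun k => py_inner_cont (F := fun x y => |U k x y t - U k x y t₀|) (hF k)) (fun k y => ?_) ?_
      · refine t3_abs_int_le (fun x => ?_)
        rw [abs_of_nonneg (abs_nonneg _)]
        exact hbd k x y t t₀
      · filter_upwards [hc1, hc2] with y h1' h2'
        refine t3_dct (fun k => py_col_cont (F := fun x y => |U k x y t - U k x y t₀|) (hF k) y) (fun k x => ?_) ?_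
        · rw [abs_of_nonneg (abs_nonneg _)]
          exact hbd k x y t t₀
        · filter_upwards [h1', h2'] with x e1 e2
          exact (e1.sub e2).abs
    have hle : ∀ k, ∫ y in (0 : ℝ)..1, ∫ x in (0 : ℝ)..1, |U k x y t - U k x y t₀| ≤
        ∫ s in (0 : ℝ)..1, ∫ y in (0 : ℝ)..1, ∫ x in (0 : ℝ)..1, |dT (U k) x y s| := by
      intro k
      have hcT : Continuous (fun p : R3 => |dT (U k) p.1 p.2.1 p.2.2|) := (h.c1 k).continuous_dT.abs
      have hswap1 : ∀ y, ∫ x in (0 : ℝ)..1, ∫ s in (0 : ℝ)..1, |dT (U k) x y s| =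
          ∫ s in (0 : ℝ)..1, ∫ x in (0 : ℝ)..1, |dT (U k) x y s| := fun y =>
        py_swap (F := fun s x => |dT (U k) x y s|)
          (hcT.comp (by fun_prop : Continuous (fun p : ℝ × ℝ => ((p.2, y, p.1) : R3))))
      have hcI : Continuous (fun p : ℝ × ℝ => ∫ x in (0 : ℝ)..1, |dT (U k) x p.1 p.2|) := by
        refine intervalIntegral.continuous_parametric_intervalIntegral_of_continuous'
          (f := fun (p : ℝ × ℝ) x => |dT (U k) x p.1 p.2|) ?_ 0 1
        exact hcT.comp (by fun_prop : Continuous (fun q : (ℝ × ℝ) × ℝ => ((q.2, q.1.1, q.1.2) : R3)))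
      have hswap2 : ∫ y in (0 : ℝ)..1, ∫ s in (0 : ℝ)..1, ∫ x in (0 : ℝ)..1, |dT (U k) x y s| =
          ∫ s in (0 : ℝ)..1, ∫ y in (0 : ℝ)..1, ∫ x in (0 : ℝ)..1, |dT (U k) x y s| :=
        py_swap (F := fun s y => ∫ x in (0 : ℝ)..1, |dT (U k) x y s|)
          (hcI.comp continuous_swap)
      rw [← hswap2]
      simp_rw [← hswap1]
      have hcL : Continuous (fun p : ℝ × ℝ => ∫ s in (0 : ℝ)..1, |dT (U k) p.1 p.2 s|) := by
        refine intervalIntegral.continuous_parametric_intervalIntegral_of_continuous'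
          (f := fun (p : ℝ × ℝ) s => |dT (U k) p.1 p.2 s|) ?_ 0 1
        exact hcT.comp (by fun_prop : Continuous (fun q : (ℝ × ℝ) × ℝ => ((q.1.1, q.1.2, q.2) : R3)))
      refine intervalIntegral.integral_mono_on zero_le_one
        ((py_inner_cont (F := fun x y => |U k x y t - U k x y t₀|) (hF k)).intervalIntegrable _ _)
        ((py_inner_cont (F := fun x y => ∫ s in (0 : ℝ)..1, |dT (U k) x y s|) hcL).intervalIntegrable _ _)
        (fun y _ => ?_)
      refine intervalIntegral.integral_mono_on zero_le_one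
        ((py_col_cont (F := fun x y => |U k x y t - U k x y t₀|) (hF k) y).intervalIntegrable _ _)
        ((py_col_cont (F := fun x y => ∫ s in (0 : ℝ)..1, |dT (U k) x y s|) hcL y).intervalIntegrable _ _)
        (fun x _ => ?_)
      have hv : ContDiff ℝ 1 (fun s => U k x y s) :=
        (h.c1 k).smooth.comp (by fun_prop : ContDiff ℝ 1 (fun s : ℝ => ((x, y, s) : R3)))
      exact py_one_d hv (Ioc_subset_Icc_self ht) (Ioc_subset_Icc_self ht₀)
    have hzero : ∫ y in (0 : ℝ)..1, ∫ x in (0 : ℝ)..1, |χ x y t - χ x y t₀| ≤ 0 := by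
      refine le_of_forall_pos_le_add fun ε hε => ?_
      rw [zero_add]
      exact le_of_tendsto_of_frequently hlim ((hT ε hε).mono fun k hk => (hle k).trans hk)
    have hgm : ∀ a, Measurable (fun p : ℝ × ℝ => χ p.1 p.2 a) := fun a =>
      hi.meas.comp (by fun_prop : Measurable (fun p : ℝ × ℝ => ((p.1, p.2, a) : R3)))
    have habs : ∀ x y a b, |χ x y a - χ x y b| ≤ 1 := fun x y a b => by
      rcases hi.bool x y a with h3 | h3 <;> rcases hi.bool x y b with h4 | h4 <;> simp [h3, h4]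
    have hg2 : Measurable (fun p : ℝ × ℝ => |χ p.1 p.2 t - χ p.1 p.2 t₀|) :=
      ((hgm t).sub (hgm t₀)).abs
    have hfm : Measurable (fun y => ∫ x in (0 : ℝ)..1, |χ x y t - χ x y t₀|) := by
      refine measurable_intervalIntegral_param (F := fun y x => |χ x y t - χ x y t₀|) ?_
      exact hg2.comp (by fun_prop : Measurable (fun q : ℝ × ℝ => ((q.2, q.1) : ℝ × ℝ)))
    have h0 : ∫ y in (0 : ℝ)..1, ∫ x in (0 : ℝ)..1, |χ x y t - χ x y t₀| = 0 :=
      le_antisymm hzero (intervalIntegral.integral_nonneg zero_le_one fun y _ =>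
        intervalIntegral.integral_nonneg zero_le_one fun x _ => abs_nonneg _)
    have hfz := py_zero1 hfm
      (fun y => intervalIntegral.integral_nonneg zero_le_one fun x _ => abs_nonneg _) (C := 1)
      (fun y => t3_abs_int_le fun x => by
        rw [abs_of_nonneg (abs_nonneg _)]
        exact habs x y t t₀)
      (fun y => by simp only [hi.per_y]) h0
    filter_upwards [hfz] with y hy
    have hm1 : Measurable (fun x => |χ x y t - χ x y t₀|) :=
      hg2.comp (by fun_prop : Measurable (fun x : ℝ => ((x, y) : ℝ × ℝ)))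
    have hgz := py_zero1 hm1 (fun x => abs_nonneg _) (C := 1)
      (fun x => by
        rw [abs_of_nonneg (abs_nonneg _)]
        exact habs x y t t₀)
      (fun x => by simp only [hi.per_x]) hy
    filter_upwards [hgz] with x hx
    rw [abs_eq_zero] at hx
    linarith
  have hconvR := ae_restrict_of_ae (s := Ioc (0 : ℝ) 1) hslc
  have hmem := self_mem_ae_restrict (μ := (volume : Measure ℝ)) (s := Ioc (0 : ℝ) 1) measurableSet_Ioc
  refine py_ae_of_periodic (P := fun t₀ => ∀ᵐ t, ∀ᵐ y, ∀ᵐ x, χ x y t = χ x y t₀) (fun t₀ => ?_) ?_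
  · simp only [hi.per_t]
  filter_upwards [hconvR, hmem] with t₀ hx₀ hm₀
  refine py_ae_of_periodic (P := fun t => ∀ᵐ y, ∀ᵐ x, χ x y t = χ x y t₀) (fun t => ?_) ?_
  · simp only [hi.per_t]
  filter_upwards [hconvR, hmem] with t hx hm
  exact hpair t t₀ hm hm₀ hx hx₀

/-- Level three, vertical part full: the limit is a function of `t` only. -/
theorem slab_of_vert (h : Approx3 U χ) {P : ℝ} (hP0 : 0 ≤ P)
    (hP : ∀ ε > 0, ∃ᶠ k in atTop, En3 (U k) ≤ P + ε ∧
      P - ε ≤ ∫ t in (0 : ℝ)..1, ∫ y in (0 : ℝ)..1, ∫ x in (0 : ℝ)..1, |dT (U k) x y t|) :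
    ∀ᵐ t, ∀ᵐ y, ∀ᵐ x, χ x y t = massT χ t := by
  have hi := h.ind
  have hsmall := pyth3_horiz h hP0 hP
  have hae := ae_frequently_le (f := fun k t => En2 (slc (U k) t)) (c := fun _ => 0) (P := 0) (C := 0)
    (fun k => t3_cont_A (h.c1 k)) (fun k t => En2_nonneg _) measurable_const (fun _ => le_rfl)
    (fun _ => le_rfl) (Eventually.of_forall fun t ε hε => Eventually.of_forall fun k => by
      have := En2_nonneg (slc (U k) t)
      linarith)
    (fun ε hε => by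
      simpa using hsmall ε hε) (by simp)
  refine py_ae_of_periodic (P := fun t => ∀ᵐ y, ∀ᵐ x, χ x y t = massT χ t) (fun t => ?_) ?_
  · have e : massT χ (t + 1) = massT χ t := by
      simp only [massT, area, slc, hi.per_t]
    simp only [hi.per_t, e]
  filter_upwards [hae, ae_restrict_of_ae h.slices] with t ht hs
  exact const_of_small hs (fun ε hε => (ht ε hε).mono fun k hk => by linarith)

end Vale.Agent.Lib.P232
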