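import Vale.Agent.Lib.P232.Torus3b
import Vale.Agent.Lib.P232.Torus2c
import Vale.Agent.Lib.P232.Class.Pyth

/-! JOB P4: level two -/

open MeasureTheory Set Filter Topology Real

noncomputable section

namespace Vale.Agent.Lib.P232

variable {U : ℕ → ℝ → ℝ → ℝ → ℝ} {χ : ℝ → ℝ → ℝ → ℝ} {w : ℕ → ℝ → ℝ → ℝ} {ψ : ℝ → ℝ → ℝ}

/-- All rows mixed: the rows carry at least `2 - o(1)`. -/
theorem rows_low (h : Approx2 w ψ) (hrows : ∀ᵐ y : ℝ, 0 < rowM ψ y ∧ rowM ψ y < 1) :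
    ∀ ε > 0, ∀ᶠ k in atTop,
      2 - ε ≤ ∫ y in (0 : ℝ)..1, ∫ x in (0 : ℝ)..1, |d1 (w k) x y| := by
  intro ε hε
  have hi := h.ind
  have hT := to_T2 h
  have hmix : ∫ y in (0 : ℝ)..1, T2.Approx2.mixW (lvl ψ) y = 2 := by
    have e : ∫ y in (0 : ℝ)..1, T2.Approx2.mixW (lvl ψ) y = ∫ _y in (0 : ℝ)..1, (2 : ℝ) := by
      apply intervalIntegral.integral_congr_ae
      filter_upwards [hrows] with y hy _
      unfold T2.Approx2.mixW
      have hm : y ∈ {y | 0 < T2.rowMass (lvl ψ) y ∧ T2.rowMass (lvl ψ) y < 1} := by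
        show 0 < T2.rowMass (lvl ψ) y ∧ T2.rowMass (lvl ψ) y < 1
        rw [rowMass_lvl hi]
        exact hy
      rw [indicator_of_mem hm]
    rw [e]
    simp
  have key := hT.eventually_row hε
  rw [hmix] at key
  exact key

/-- JOB P4. Level two: all rows mixed and energy at most `2 + o(1)`: the set depends on `x` only. -/
theorem cyl2_rows (h : Approx2 w ψ) (hrows : ∀ᵐ y : ℝ, 0 < rowM ψ y ∧ rowM ψ y < 1)
    (hP : ∀ ε > 0, ∃ᶠ k in atTop, En2 (w k) ≤ 2 + ε) :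
    ∀ᵐ p : ℝ × ℝ, ψ p.1 p.2 = colM ψ p.1 := by
  have hi := h.ind
  have hsmall := pyth2_d2 h (P := 2) (by norm_num) (fun ε hε =>
    (hP ε hε).and_eventually (rows_low h hrows ε hε))
  obtain ⟨y₀, hy₀⟩ := (py_cyl_y h hsmall).exists
  have hS0 : MeasurableSet {p : ℝ × ℝ | ψ p.1 p.2 = ψ p.1 y₀} := by
    refine measurableSet_eq_fun hi.meas ?_
    exact hi.meas.comp (by fun_prop : Measurable (fun p : ℝ × ℝ => ((p.1, y₀) : ℝ × ℝ)))
  have hcomm : ∀ᵐ x, ∀ᵐ y, ψ x y = ψ x y₀ :=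
    (Measure.ae_ae_comm (p := fun y x => ψ x y = ψ x y₀)
      (hS0.preimage measurable_swap)).1 hy₀
  have hcol : ∀ᵐ x, ∀ᵐ y, ψ x y = colM ψ x := by
    filter_upwards [hcomm] with x hx
    have e : colM ψ x = ψ x y₀ := by
      unfold colM
      have : ∫ y in (0 : ℝ)..1, ψ x y = ∫ _y in (0 : ℝ)..1, ψ x y₀ := by
        apply intervalIntegral.integral_congr_ae
        filter_upwards [hx] with y hy _
        exact hy
      rw [this]
      simp
    filter_upwards [hx] with y hy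
    rw [hy, e]
  have hS : MeasurableSet {p : ℝ × ℝ | ψ p.1 p.2 = colM ψ p.1} :=
    measurableSet_eq_fun hi.meas (hi.measurable_colM.comp measurable_fst)
  rw [Measure.volume_eq_prod]
  exact (Measure.ae_prod_iff_ae_ae hS).2 hcol

end Vale.Agent.Lib.P232
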