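import Vale.Agent.Lib.P232.Class.Class2Defs
import Vale.Agent.Lib.P232.Class.Cyl2
import Vale.Agent.Lib.P232.Class.Arc1D

/-! JOB K2 -/

open MeasureTheory Set Filter Topology Real

noncomputable section

namespace Vale.Agent.Lib.P232

variable {U : ℕ → ℝ → ℝ → ℝ → ℝ} {χ : ℝ → ℝ → ℝ → ℝ} {w : ℕ → ℝ → ℝ → ℝ} {ψ : ℝ → ℝ → ℝ}

private theorem k2_pos_of_ae {g : ℝ → ℝ} (hm : Measurable g) {C : ℝ} (hb : ∀ x, |g x| ≤ C)
    (hg : ∀ᵐ x, 0 < g x) : 0 < ∫ x in (0 : ℝ)..1, g x := by
  rw [intervalIntegral.integral_pos_iff_support_of_nonneg_ae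
    (by filter_upwards [hg] with x hx using hx.le) (intervalIntegrable_of_bdd hm hb)]
  refine ⟨zero_lt_one, ?_⟩
  have h1 : volume (Ioc (0 : ℝ) 1) ≤ volume (Function.support g ∩ Ioc (0 : ℝ) 1) := by
    apply measure_mono_ae
    filter_upwards [hg] with x hx hmem
    exact ⟨hx.ne', hmem⟩
  refine lt_of_lt_of_le ?_ h1
  simp

/-- JOB K2. All rows mixed, or empty and full rows: `cyl2_rows` (swap), `arc1D`: a strip. -/
theorem strip_of_rows (h : Approx2 w ψ) (hrows : ∀ᵐ y : ℝ, 0 < rowM ψ y ∧ rowM ψ y < 1)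
    (hP : ∀ ε > 0, ∃ᶠ k in atTop, En2 (w k) ≤ 2 + ε) : IsStrip ψ := by
  classical
  have hi := h.ind
  have hcyl := cyl2_rows h hrows hP
  have hcols : ∀ᵐ x, ∀ᵐ y, ψ x y = colM ψ x :=
    ae_cols (P := fun x y => ψ x y = colM ψ x) hcyl
  -- the cross-section
  set f : ℝ → ℝ := fun x => if colM ψ x = 1 then 1 else 0 with hf
  have hfi : Ind1 f :=
    { meas := Measurable.ite (measurableSet_eq_fun hi.measurable_colM measurable_const)
        measurable_const measurable_const
      bool := fun x => by by_cases hx : colM ψ x = 1 <;> simp [hf, hx]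
      per := fun x => by
        have e : colM ψ (x + 1) = colM ψ x := by simp only [colM, hi.per_x]
        simp only [hf, e] }
  have hf1 : ∀ x, f x = 1 ↔ colM ψ x = 1 := fun x => by
    by_cases hx : colM ψ x = 1 <;> simp [hf, hx]
  have hfae : ∀ᵐ x, colM ψ x = f x := by
    filter_upwards [hcols] with x hx
    obtain ⟨y, hy⟩ := hx.exists
    rcases hi.bool x y with h0 | h1
    · have e : colM ψ x = 0 := by rw [← hy, h0]
      simp [hf, e]
    · have e : colM ψ x = 1 := by rw [← hy, h1]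
      simp [hf, e]
  have hint : ∫ x in (0 : ℝ)..1, f x = area ψ := by
    rw [hi.area_eq_cols]
    apply intervalIntegral.integral_congr_ae
    filter_upwards [hfae] with x hx _
    exact hx.symm
  have hrb : ∀ y, |rowM ψ y| ≤ 1 := fun y =>
    abs_le.2 ⟨by linarith [(hi.rowM_mem y).1], (hi.rowM_mem y).2⟩
  have h0 : 0 < ∫ x in (0 : ℝ)..1, f x := by
    rw [hint]
    exact k2_pos_of_ae hi.measurable_rowM hrb (by filter_upwards [hrows] with y hy using hy.1)
  have h1 : ∫ x in (0 : ℝ)..1, f x < 1 := by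
    rw [hint]
    have hm : Measurable (fun y => 1 - rowM ψ y) := measurable_const.sub hi.measurable_rowM
    have key := k2_pos_of_ae hm (C := 1)
      (fun y => abs_le.2 ⟨by linarith [(hi.rowM_mem y).2], by linarith [(hi.rowM_mem y).1]⟩)
      (by filter_upwards [hrows] with y hy using sub_pos.2 hy.2)
    rw [intervalIntegral.integral_sub intervalIntegrable_const
      (intervalIntegrable_of_bdd hi.measurable_rowM hrb)] at key
    simp only [intervalIntegral.integral_const, sub_zero, one_smul] at key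
    have e : area ψ = ∫ y in (0 : ℝ)..1, rowM ψ y := rfl
    linarith
  -- the averaged approximants
  have hT := (to_T2 h).swap
  set v : ℕ → ℝ → ℝ := fun k => T2.aRow (fun a b => w k b a) with hv
  have hder : ∀ k x, HasDerivAt (v k) (∫ y in (0 : ℝ)..1, d1 (w k) x y) x := fun k x =>
    hT.hasDerivAt_aRow k x
  have hvc : ∀ k, C1P1 (v k) := fun k =>
    { smooth := hT.contDiff_aRow k
      per := hT.aRow_per k
      nonneg := fun x => (hT.aRow_range k x).1
      le_one := fun x => (hT.aRow_range k x).2 }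
  have hconv : ∀ᵐ x, Tendsto (fun k => v k x) atTop (𝓝 (f x)) := by
    filter_upwards [ae_cols (P := fun x y => Tendsto (fun k => w k x y) atTop (𝓝 (ψ x y))) h.conv,
      hfae] with x hx hxf
    rw [← hxf]
    apply intervalIntegral.tendsto_integral_filter_of_dominated_convergence (fun _ => (1 : ℝ))
    · refine Eventually.of_forall fun k => ?_
      exact ((h.c1 k).smooth.continuous.comp
        (by fun_prop : Continuous (fun y : ℝ => ((x, y) : ℝ × ℝ)))).aestronglyMeasurable
    · refine Eventually.of_forall fun k => Eventually.of_forall fun y _ => ?_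
      rw [Real.norm_eq_abs, abs_of_nonneg ((h.c1 k).nonneg x y)]
      exact (h.c1 k).le_one x y
    · exact intervalIntegrable_const
    · filter_upwards [hx] with y hy _
      exact hy
  have hen : ∀ k, ∫ x in (0 : ℝ)..1, |deriv (v k) x| ≤ En2 (w k) := by
    intro k
    have hc := h.c1 k
    have hcd : Continuous (fun p : ℝ × ℝ => |d1 (w k) p.1 p.2|) := (py_cont_d1 hc).abs
    have hsw : ∫ y in (0 : ℝ)..1, ∫ x in (0 : ℝ)..1, |d1 (w k) x y| =
        ∫ x in (0 : ℝ)..1, ∫ y in (0 : ℝ)..1, |d1 (w k) x y| :=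
      py_swap (F := fun x y => |d1 (w k) x y|) hcd
    have hsplit := En2_split hc (α := 1) (β := 0) zero_le_one le_rfl (by norm_num)
    simp only [one_mul, zero_mul, add_zero] at hsplit
    refine le_trans ?_ hsplit
    rw [hsw]
    have hdc : Continuous (deriv (v k)) := (hvc k).smooth.continuous_deriv le_rfl
    have hinner : Continuous (fun x => ∫ y in (0 : ℝ)..1, |d1 (w k) x y|) :=
      py_inner_cont (F := fun y x => |d1 (w k) x y|) (hcd.comp continuous_swap)
    refine intervalIntegral.integral_mono_on zero_le_one (hdc.abs.intervalIntegrable _ _)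
      (hinner.intervalIntegrable _ _) fun x _ => ?_
    rw [(hder k x).deriv]
    exact intervalIntegral.abs_integral_le_integral_abs zero_le_one
  have hPv : ∀ ε > 0, ∃ᶠ k in atTop, ∫ x in (0 : ℝ)..1, |deriv (v k) x| ≤ 2 + ε := fun ε hε =>
    (hP ε hε).mono fun k hk => (hen k).trans hk
  obtain ⟨x₀, hx₀⟩ := arc1D hvc hfi hconv h0 h1 hPv
  refine ⟨x₀, ∫ x in (0 : ℝ)..1, f x, h0, h1, Or.inl ?_⟩
  have hfst : ∀ᵐ p : ℝ × ℝ, (f p.1 = 1 ↔
      ∃ n : ℤ, x₀ + n < p.1 ∧ p.1 < x₀ + n + ∫ x in (0 : ℝ)..1, f x) := by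
    have hq := (Measure.quasiMeasurePreserving_fst (μ := (volume : Measure ℝ))
      (ν := (volume : Measure ℝ))).ae hx₀
    rw [Measure.volume_eq_prod]
    exact hq
  filter_upwards [hcyl, hfst] with p hp hq
  rw [← hq, hf1, hp]

end Vale.Agent.Lib.P232
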