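import Vale.Agent.Lib.P232.Class.K1
import Vale.Agent.Lib.P232.Class.K2
import Vale.Agent.Lib.P232.T2Slices

/-! JOB K3 -/

open MeasureTheory Set Filter Topology Real

noncomputable section

namespace Vale.Agent.Lib.P232

variable {U : ℕ → ℝ → ℝ → ℝ → ℝ} {χ : ℝ → ℝ → ℝ → ℝ} {w : ℕ → ℝ → ℝ → ℝ} {ψ : ℝ → ℝ → ℝ}

/-- Exchange of the variables for strips. -/
private theorem k3_strip_swap (h : IsStrip (fun x y => ψ y x)) : IsStrip ψ := by
  obtain ⟨a, v, h0, h1, h2⟩ := h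
  refine ⟨a, v, h0, h1, ?_⟩
  rcases h2 with h2 | h2
  · exact Or.inr (ae_swap (P := fun x y => ψ y x = 1 ↔ ∃ n : ℤ, a + n < x ∧ x < a + n + v) h2)
  · exact Or.inl (ae_swap (P := fun x y => ψ y x = 1 ↔ ∃ n : ℤ, a + n < y ∧ y < a + n + v) h2)

/-- A periodic property that holds a.e. on the unit interval holds a.e. -/
private theorem k3_ae_of_Icc {P : ℝ → Prop} (hper : ∀ t, P (t + 1) ↔ P t)
    (h : ∀ᵐ t : ℝ, t ∈ Icc (0 : ℝ) 1 → P t) : ∀ᵐ t : ℝ, P t := by
  have hP : Function.Periodic P 1 := fun t => propext (hper t)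
  have hn : ∀ n : ℤ, ∀ᵐ t : ℝ, t + (n : ℝ) ∈ Icc (0 : ℝ) 1 → P (t + (n : ℝ)) := by
    intro n
    exact (measurePreserving_add_right volume (n : ℝ)).quasiMeasurePreserving.ae h
  filter_upwards [ae_all_iff.2 hn] with t ht
  have hmem : t + ((1 - ⌈t⌉ : ℤ) : ℝ) ∈ Icc (0 : ℝ) 1 := by
    push_cast
    constructor
    · have := Int.ceil_lt_add_one t
      linarith
    · have := Int.le_ceil t
      linarith
  have hPt := ht (1 - ⌈t⌉) hmem
  have hper2 := (hP.int_mul (1 - ⌈t⌉)) t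
  rw [mul_one] at hper2
  rw [hper2] at hPt
  exact hPt

private theorem k3_rowMass (hi : Ind2 ψ) : T2.rowMass (lvl ψ) = rowM ψ := rowMass_lvl hi

private theorem k3_per_rowM (hi : Ind2 ψ) (y : ℝ) : rowM ψ (y + 1) = rowM ψ y := by
  simp only [rowM, hi.per_y]

/-- Rows not all mixed and small energy: empty rows. -/
private theorem k3_empty (h : Approx2 w ψ) (h1 : area ψ ≤ 1 / 2)
    (hP : ∀ ε > 0, ∃ᶠ k in atTop, En2 (w k) ≤ 2 + ε)
    (hrows : ¬ ∀ᵐ y : ℝ, 0 < rowM ψ y ∧ rowM ψ y < 1) :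
    0 < volume {y | y ∈ Icc (0 : ℝ) 1 ∧ rowM ψ y = 0} := by
  have H := to_T2 h
  have hi := h.ind
  have hrow := k3_rowMass hi
  rw [pos_iff_ne_zero]
  intro hZ
  by_cases hO : volume {y | y ∈ Icc (0 : ℝ) 1 ∧ rowM ψ y = 1} = 0
  · apply hrows
    apply k3_ae_of_Icc (P := fun y => 0 < rowM ψ y ∧ rowM ψ y < 1)
    · intro t
      rw [k3_per_rowM hi]
    · rw [measure_eq_zero_iff_ae_notMem] at hZ hO
      filter_upwards [hZ, hO] with y hy1 hy2 hmem
      have h0 : 0 ≤ rowM ψ y := by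
        rw [← hrow]
        exact T2.rowMass_nonneg _ y
      have h1 : rowM ψ y ≤ 1 := by
        rw [← hrow]
        exact T2.rowMass_le_one H.meas y
      exact ⟨lt_of_le_of_ne h0 fun h => hy1 ⟨hmem, h.symm⟩, lt_of_le_of_ne h1 fun h => hy2 ⟨hmem, h⟩⟩
  · have hO' : 0 < volume {t | t ∈ Icc (0 : ℝ) 1 ∧ T2.rowMass (lvl ψ) t = 1} := by
      rw [hrow]
      exact pos_iff_ne_zero.mpr hO
    have hZ' : volume {t | t ∈ Icc (0 : ℝ) 1 ∧ T2.rowMass (lvl ψ) t = 0} = 0 := by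
      rw [hrow]
      exact hZ
    have key : ∀ ε > 0, 2 * √(π * (1 - area ψ)) ≤ 2 + ε := by
      intro ε hε
      obtain ⟨φ, hφ, hle⟩ := extraction_of_frequently_atTop (hP ε hε)
      have := (H.comp φ hφ).compl_disc (P := 2 + ε) hle hO' hZ'
      rwa [area2_lvl hi] at this
    have h2 : 2 * √(π * (1 - area ψ)) ≤ 2 := le_of_forall_pos_le_add key
    have h3 : 1 < π * (1 - area ψ) := by
      have := Real.pi_gt_three
      nlinarith
    have h4 : 1 < √(π * (1 - area ψ)) := by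
      rw [Real.lt_sqrt (by norm_num)]
      simpa using h3
    linarith

/-- JOB K3. **Minimizers on the two-torus.** Case analysis as in `torus2_E1`, rows and columns. -/
theorem class2 (h : Approx2 w ψ) (h0 : 0 < area ψ) (h1 : area ψ ≤ 1 / 2)
    (hP : ∀ ε > 0, ∃ᶠ k in atTop, En2 (w k) ≤ IT (area ψ) + ε) : IsDisc ψ ∨ IsStrip ψ := by
  have hle2 : IT (area ψ) ≤ 2 := (min_le_left _ _).trans (min_le_right _ _)
  have hledisc : IT (area ψ) ≤ 2 * √(π * area ψ) := (min_le_left _ _).trans (min_le_left _ _)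
  have hP2 : ∀ ε > 0, ∃ᶠ k in atTop, En2 (w k) ≤ 2 + ε := fun ε hε =>
    (hP ε hε).mono fun k hk => by linarith
  have hs := h.swap
  have hP2s : ∀ ε > 0, ∃ᶠ k in atTop, En2 (fun x y => w k y x) ≤ 2 + ε := fun ε hε =>
    (hP2 ε hε).mono fun k hk => by rw [En2_swap (h.c1 k)]; exact hk
  have harea : area (fun x y => ψ y x) = area ψ := by
    rw [h.ind.area_eq_cols]
    rfl
  by_cases hrows : ∀ᵐ y : ℝ, 0 < rowM ψ y ∧ rowM ψ y < 1
  · exact Or.inr (strip_of_rows h hrows hP2)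
  by_cases hcols : ∀ᵐ x : ℝ, 0 < colM ψ x ∧ colM ψ x < 1
  · exact Or.inr (k3_strip_swap (strip_of_rows hs hcols hP2s))
  have hr := k3_empty h h1 hP2 hrows
  have hc : 0 < volume {x | x ∈ Icc (0 : ℝ) 1 ∧ colM ψ x = 0} :=
    k3_empty hs (by rwa [harea]) hP2s hcols
  refine Or.inl ?_
  have hπ := Real.pi_pos
  set R := √(area ψ / π) with hRdef
  have hRsq : R ^ 2 = area ψ / π := Real.sq_sqrt (by positivity)
  have hR0 : 0 < R := Real.sqrt_pos.2 (by positivity)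
  have hR1 : R < 1 / 2 := by
    have h2 : R ^ 2 < (1 / 2) ^ 2 := by
      rw [hRsq, div_lt_iff₀ hπ]
      nlinarith [Real.pi_gt_three]
    exact lt_of_abs_lt (abs_lt_of_sq_lt_sq h2 (by norm_num))
  have hareaR : area ψ = π * R ^ 2 := by
    rw [hRsq]
    field_simp
  have hEn : 2 * √(π * area ψ) = 2 * π * R := by
    have : π * area ψ = (π * R) ^ 2 := by
      rw [mul_pow, hRsq]
      field_simp
    rw [this, Real.sqrt_sq (by positivity)]
    ring
  refine disc_of_tight h hR0 hR1 hareaR (fun ε hε => (hP ε hε).mono fun k hk => ?_) hr hc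
  rw [← hEn]
  linarith

end Vale.Agent.Lib.P232
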