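import Vale.Agent.Lib.P232.Torus3b
import Vale.Agent.Lib.P232.Torus2c
import Vale.Agent.Lib.P232.Class.Pyth

/-! JOB P1: Pythagoras, slices exhaust -/

open MeasureTheory Set Filter Topology Real

noncomputable section

namespace Vale.Agent.Lib.P232

variable {U : ℕ → ℝ → ℝ → ℝ → ℝ} {χ : ℝ → ℝ → ℝ → ℝ} {w : ℕ → ℝ → ℝ → ℝ} {ψ : ℝ → ℝ → ℝ}

/-- Total variation in `t` at level three. -/
def VarT (W : ℝ → ℝ → ℝ → ℝ) : ℝ :=
  ∫ t in (0 : ℝ)..1, ∫ y in (0 : ℝ)..1, ∫ x in (0 : ℝ)..1, |dT W x y t|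

/-- Horizontal energy at level three. -/
def EnH (W : ℝ → ℝ → ℝ → ℝ) : ℝ := ∫ t in (0 : ℝ)..1, En2 (slc W t)

/-- Iterated almost everywhere statements for a measurable condition give an almost everywhere
statement in space. -/
theorem ae_R3_of_iter {Q : ℝ → ℝ → ℝ → Prop} (hQ : MeasurableSet {p : R3 | Q p.1 p.2.1 p.2.2})
    (h : ∀ᵐ t, ∀ᵐ y, ∀ᵐ x, Q x y t) : ∀ᵐ p : R3, Q p.1 p.2.1 p.2.2 := by
  have hs : ∀ t, MeasurableSet {q : ℝ × ℝ | Q q.1 q.2 t} := fun t =>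
    hQ.preimage (by fun_prop : Measurable (fun q : ℝ × ℝ => ((q.1, q.2, t) : R3)))
  have hs' : ∀ t, MeasurableSet {q : ℝ × ℝ | Q q.2 q.1 t} := fun t =>
    hQ.preimage (by fun_prop : Measurable (fun q : ℝ × ℝ => ((q.2, q.1, t) : R3)))
  have h1 : ∀ᵐ t, ∀ᵐ q : ℝ × ℝ, Q q.1 q.2 t := by
    filter_upwards [h] with t ht
    have h2 := (Measure.ae_ae_comm (p := fun y x => Q x y t) (hs' t)).1 ht
    exact (Measure.ae_prod_iff_ae_ae (hs t)).2 h2
  have hm : MeasurableSet {r : R3 | Q r.2.1 r.2.2 r.1} :=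
    hQ.preimage (by fun_prop : Measurable (fun r : R3 => ((r.2.1, r.2.2, r.1) : R3)))
  have h2 : ∀ᵐ r : R3, Q r.2.1 r.2.2 r.1 := (Measure.ae_prod_iff_ae_ae hm).2 h1
  have h3 := ae_perm (P := fun a b c => Q b c a) h2
  exact ae_perm (P := fun a b c => Q c a b) h3

theorem En3_nonneg' {W : ℝ → ℝ → ℝ → ℝ} (h : C1P3 W) : 0 ≤ En3 W := by
  have := En3_split h (α := 0) (β := 0) le_rfl (by norm_num)
  simpa using this

/-- JOB P1. Horizontal energy exhausts: the slices do not depend on `t`, and almost every slice has energy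
close to `P` along a subsequence. -/
theorem cyl_t (h : Approx3 U χ) {P : ℝ} (hP : ∀ k, En3 (U k) ≤ P)
    (hc : ∀ᵐ t, ∀ ε > 0, ∀ᶠ k in atTop, P - ε ≤ En2 (slc (U k) t)) :
    ∃ t₀ : ℝ, Approx2 (fun k => slc (U k) t₀) (slc χ t₀) ∧
      (∀ ε > 0, ∃ᶠ k in atTop, En2 (slc (U k) t₀) ≤ P + ε) ∧
      (∀ᵐ p : R3, χ p.1 p.2.1 p.2.2 = χ p.1 p.2.1 t₀) := by
  have hi := h.ind
  have hP0 : 0 ≤ P := (En3_nonneg' (h.c1 0)).trans (hP 0)
  -- the horizontal energy is asymptotically full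
  have hfreq : ∀ ε > 0, ∃ᶠ k in atTop, En3 (U k) ≤ P + ε ∧
      P - ε ≤ ∫ t in (0 : ℝ)..1, En2 (slc (U k) t) := by
    intro ε hε
    by_contra hcon
    rw [not_frequently] at hcon
    have hle : ∀ᶠ k in atTop, ∫ t in (0 : ℝ)..1, En2 (slc (U k) t) ≤ P - ε := by
      filter_upwards [hcon] with k hk
      by_contra h2
      exact hk ⟨(hP k).trans (by linarith), (not_le.1 h2).le⟩
    have hF := fatou_interval (f := fun k t => En2 (slc (U k) t)) (h := fun _ => P) (L := P - ε)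
      (fun k => t3_cont_A (h.c1 k)) (fun k t => En2_nonneg _) aestronglyMeasurable_const
      (fun _ => hP0) (by
        filter_upwards [hc] with t ht ρ hρ
        filter_upwards [ht ((P - ρ) / 2) (by linarith)] with k hk
        linarith) hle
    simp at hF
    linarith
  have hsmall := pyth3_vert h hP0 hfreq
  have hinv := py_cyl_t h hsmall
  have hen := ae_slice_energy h (c := fun _ => P) (P := P) (C := P) measurable_const
    (fun _ => hP0) (fun _ => le_rfl) hc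
    (fun ε hε => (Eventually.of_forall fun k => (hP k).trans (by linarith)).frequently) (by simp)
  have hall : ∀ᵐ t ∂(volume.restrict (Ioc (0 : ℝ) 1)),
      (∀ ε > 0, ∃ᶠ k in atTop, En2 (slc (U k) t) ≤ P + ε) ∧
      Approx2 (fun k => slc (U k) t) (slc χ t) ∧
      ∀ᵐ s, ∀ᵐ y, ∀ᵐ x, χ x y s = χ x y t := by
    filter_upwards [hen, ae_restrict_of_ae h.slices, ae_restrict_of_ae hinv] with t h1 h2 h3
    exact ⟨h1, h2, h3⟩
  have hne : (ae ((volume : Measure ℝ).restrict (Ioc (0 : ℝ) 1))).NeBot := by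
    rw [ae_neBot]
    intro h0
    have := Measure.restrict_eq_zero.1 h0
    simp at this
  obtain ⟨t₀, h1, h2, h3⟩ := hall.exists
  refine ⟨t₀, h2, h1, ?_⟩
  refine ae_R3_of_iter (Q := fun x y t => χ x y t = χ x y t₀) ?_ h3
  refine measurableSet_eq_fun hi.meas ?_
  exact hi.meas.comp (by fun_prop : Measurable (fun p : R3 => ((p.1, p.2.1, t₀) : R3)))

end Vale.Agent.Lib.P232
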