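import Vale.Agent.Lib.P232.Class.TieDefs
import Vale.Agent.Lib.P232.Class.Class2
import Vale.Agent.Lib.P232.Class.CylT
import Vale.Agent.Lib.P232.Lines

/-! JOB A1 -/

open MeasureTheory Set Filter Topology Real

noncomputable section

namespace Vale.Agent.Lib.P232

variable {U : ℕ → ℝ → ℝ → ℝ → ℝ} {χ : ℝ → ℝ → ℝ → ℝ}

/-- Pull back an a.e. statement from the plane to `R3`. -/
private lemma a1_ae_pull {Q : ℝ × ℝ → Prop} (h : ∀ᵐ q : ℝ × ℝ, Q q) : ∀ᵐ p : R3, Q (p.1, p.2.1) := by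
  have h1 : ∀ᵐ z : (ℝ × ℝ) × ℝ, Q z.1 := Measure.quasiMeasurePreserving_fst.ae h
  have h2 := (MeasurePreserving.symm _ (measurePreserving_prodAssoc (volume : Measure ℝ)
    (volume : Measure ℝ) (volume : Measure ℝ))).quasiMeasurePreserving.ae h1
  exact h2

/-- Equal a.e. on the plane: equal areas. -/
private lemma a1_area_congr {f g : ℝ → ℝ → ℝ} (hf : Ind2 f) (hg : Ind2 g)
    (h : ∀ᵐ q : ℝ × ℝ, f q.1 q.2 = g q.1 q.2) : area f = area g := by
  rw [hf.area_eq_cols, hg.area_eq_cols]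
  have h1 := Measure.ae_ae_of_ae_prod h
  refine intervalIntegral.integral_congr_ae ?_
  filter_upwards [h1] with x hx _
  unfold colM
  refine intervalIntegral.integral_congr_ae ?_
  filter_upwards [hx] with y hy _ using hy

/-- JOB A1. The slices exhaust `P`: `E1`, `cyl_t`, `class2` for the slice `t₀`: a tube or a slab. -/
theorem canon_of_slices (h : Approx3 U χ) {P : ℝ} (hP : ∀ k, En3 (U k) ≤ P) (hV0 : 0 < vol χ)
    (hV : vol χ ≤ 1 / 2) (hPV : P = IT (vol χ)) (hI : ∀ᵐ t, P ≤ IT (massT χ t)) : CanonInd χ := by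
  have hI2 : ∀ᵐ t, ∀ ε > 0, ∀ᶠ k in atTop, P - ε ≤ En2 (slc (U k) t) := by
    filter_upwards [hI, h.slices] with t ht hs ε hε
    filter_upwards [E1 hs ε hε] with k hk
    have e : IT (area (slc χ t)) = IT (massT χ t) := rfl
    linarith
  obtain ⟨t₀, hA, hfreq, hdep⟩ := cyl_t h hP hI2
  have hvol : vol χ = area (slc χ t₀) := by
    have h1 := ae_slices (P := fun x y t => χ x y t = χ x y t₀) hdep
    have h2 : ∀ᵐ t : ℝ, massT χ t = area (slc χ t₀) := by
      filter_upwards [h1] with t ht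
      exact a1_area_congr (h.ind.slice_ind t) (h.ind.slice_ind t₀) ht
    unfold vol
    rw [intervalIntegral.integral_congr_ae (g := fun _ => area (slc χ t₀))
      (by filter_upwards [h2] with t ht _ using ht)]
    simp
  have hclass := class2 hA (by rw [← hvol]; exact hV0) (by rw [← hvol]; exact hV)
    (by intro ε hε; rw [← hvol, ← hPV]; exact hfreq ε hε)
  rcases hclass with ⟨x₀, y₀, R, hR, hd⟩ | ⟨a, w, hw0, hw1, hs | hs⟩
  · refine ⟨tubeT x₀ y₀ R, Or.inr (Or.inl ⟨x₀, y₀, R, hR, ae_eq_refl _⟩), ?_⟩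
    filter_upwards [hdep, a1_ae_pull hd] with p hp1 hp2
    rw [hp1]
    have e : slc χ t₀ p.1 p.2.1 = χ p.1 p.2.1 t₀ := rfl
    rw [← e, hp2]
    by_cases hm : p ∈ tubeT x₀ y₀ R
    · rw [indicator_of_mem hm, indicator_of_mem (show (p.1, p.2.1) ∈ discSet x₀ y₀ R from hm)]
    · rw [indicator_of_notMem hm, indicator_of_notMem (show (p.1, p.2.1) ∉ discSet x₀ y₀ R from hm)]
  · refine ⟨slabX a w, Or.inr (Or.inr (Or.inr (Or.inr (Or.inr (Or.inl
      ⟨a, w, hw0, hw1, ae_eq_refl _⟩))))), ?_⟩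
    filter_upwards [hdep, a1_ae_pull hs] with p hp1 hp2
    rw [hp1]
    have e : slc χ t₀ p.1 p.2.1 = χ p.1 p.2.1 t₀ := rfl
    rw [← e]
    by_cases hm : p ∈ slabX a w
    · rw [indicator_of_mem hm]
      exact hp2.2 hm
    · rw [indicator_of_notMem hm]
      rcases hA.ind.bool p.1 p.2.1 with h0 | h0
      · exact h0
      · exact absurd (hp2.1 h0) hm
  · refine ⟨slabY a w, Or.inr (Or.inr (Or.inr (Or.inr (Or.inr (Or.inr
      ⟨a, w, hw0, hw1, ae_eq_refl _⟩))))), ?_⟩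
    filter_upwards [hdep, a1_ae_pull hs] with p hp1 hp2
    rw [hp1]
    have e : slc χ t₀ p.1 p.2.1 = χ p.1 p.2.1 t₀ := rfl
    rw [← e]
    by_cases hm : p ∈ slabY a w
    · rw [indicator_of_mem hm]
      exact hp2.2 hm
    · rw [indicator_of_notMem hm]
      rcases hA.ind.bool p.1 p.2.1 with h0 | h0
      · exact h0
      · exact absurd (hp2.1 h0) hm


end Vale.Agent.Lib.P232
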