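import Vale.Agent.Lib.P232.Class.CylT

/-! JOBS P2, P3, tv bounds: Pythagoras, vertical energy exhausts -/

open MeasureTheory Set Filter Topology Real

noncomputable section

namespace Vale.Agent.Lib.P232

variable {U : ℕ → ℝ → ℝ → ℝ → ℝ} {χ : ℝ → ℝ → ℝ → ℝ} {w : ℕ → ℝ → ℝ → ℝ} {ψ : ℝ → ℝ → ℝ}

/-- JOB P3. Same, with the vertical energy in the form given by `tv_of_lines`. -/
theorem cyl_h' (h : Approx3 U χ) {P : ℝ} (hP : ∀ k, En3 (U k) ≤ P)
    (hT : ∀ ε > 0, ∀ᶠ k in atTop, P - ε ≤ VarT (U k)) :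
    (∀ᵐ p : R3, χ p.1 p.2.1 p.2.2 = massT χ p.2.2) := by
  have hi := h.ind
  have hP0 : 0 ≤ P := (En3_nonneg' (h.c1 0)).trans (hP 0)
  have hs := slab_of_vert h hP0 (fun ε hε =>
    ((hT ε hε).mono fun k hk => ⟨(hP k).trans (by linarith), hk⟩).frequently)
  refine ae_R3_of_iter (Q := fun x y t => χ x y t = massT χ t) ?_ hs
  refine measurableSet_eq_fun hi.meas ?_
  exact hi.measurable_massT.comp (by fun_prop : Measurable (fun p : R3 => p.2.2))

/-- The variation of the area is at most the vertical variation. -/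
theorem abs_deriv_mass_le {W : ℝ → ℝ → ℝ → ℝ} (h : C1P3 W) :
    ∫ t in (0 : ℝ)..1, |deriv (massT W) t| ≤ VarT W := by
  unfold VarT
  have hcT : Continuous (fun p : R3 => |dT W p.1 p.2.1 p.2.2|) := h.continuous_dT.abs
  refine intervalIntegral.integral_mono_on zero_le_one
    (((t3_contDiff_mass h).continuous_deriv le_rfl).abs.intervalIntegrable _ _)
    ((t3_cont_double (G := fun x y t => |dT W x y t|) hcT).intervalIntegrable _ _) fun t _ => ?_
  rw [(t3_hasDerivAt_mass h t).deriv]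
  have h1 := intervalIntegral.abs_integral_le_integral_abs (a := (0 : ℝ)) (b := 1)
    (f := fun y => ∫ x in (0 : ℝ)..1, dT W x y t) (μ := volume) zero_le_one
  refine h1.trans ?_
  refine intervalIntegral.integral_mono_on zero_le_one
    (((t3_cont_row (G := fun x y t => dT W x y t) h.continuous_dT t).abs).intervalIntegrable _ _)
    ((t3_cont_row (G := fun x y t => |dT W x y t|) hcT t).intervalIntegrable _ _) fun y _ => ?_
  exact intervalIntegral.abs_integral_le_integral_abs zero_le_one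

/-- JOB P2. Vertical energy exhausts: the indicator depends on `t` only, and the areas are approximated
with total variation at most `P`. -/
theorem cyl_h (h : Approx3 U χ) {P : ℝ} (hP : ∀ k, En3 (U k) ≤ P)
    (hT : ∀ ε > 0, ∀ᶠ k in atTop, P - ε ≤ ∫ t in (0 : ℝ)..1, |deriv (massT (U k)) t|) :
    (∀ᵐ p : R3, χ p.1 p.2.1 p.2.2 = massT χ p.2.2) :=
  cyl_h' h hP fun ε hε => (hT ε hε).mono fun k hk => hk.trans (abs_deriv_mass_le (h.c1 k))

private theorem exists_good_of_pos {S : Set ℝ} (hS : 0 < volume S) {Q : ℝ → Prop} (hQ : ∀ᵐ t, Q t) :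
    ∃ t ∈ S, Q t := by
  by_contra hcon
  push Not at hcon
  have : volume S = 0 := measure_mono_null (fun t ht hq => hcon t ht hq) hQ
  rw [this] at hS
  exact lt_irrefl _ hS

/-- The oscillation of the area bounds the vertical variation (`two_osc_le_variation`): if ess inf is `0` and
ess sup is `1` the hypothesis of `cyl_h` holds with `P = 2`. -/
theorem tv_of_bounds (h : Approx3 U χ) (hb : EssBounds (massT χ) 0 1) :
    ∀ ε > 0, ∀ᶠ k in atTop, 2 - ε ≤ ∫ t in (0 : ℝ)..1, |deriv (massT (U k)) t| := by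
  intro ε hε
  have hconv := t3_conv_mass h
  obtain ⟨t₁, ⟨ht₁, ht₁'⟩, hc₁⟩ := exists_good_of_pos (hb.near_m (ε / 8) (by positivity)) hconv
  obtain ⟨t₂, ⟨ht₂, ht₂'⟩, hc₂⟩ := exists_good_of_pos (hb.near_M (ε / 8) (by positivity)) hconv
  have e₁ := hc₁.eventually (gt_mem_nhds (show massT χ t₁ < ε / 8 by linarith))
  have e₂ := hc₂.eventually (lt_mem_nhds (show 1 - ε / 8 < massT χ t₂ by linarith))
  filter_upwards [e₁, e₂] with k h1 h2
  have hcd := t3_contDiff_mass (h.c1 k)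
  have key := T2.two_osc_le_variation (massT (U k)) (deriv (massT (U k)))
    (fun t => (hcd.differentiable (by norm_num) t).hasDerivAt) (hcd.continuous_deriv le_rfl)
    (t3_mass_per (h.c1 k)) t₂ t₁ (Ioc_subset_Icc_self ht₂) (Ioc_subset_Icc_self ht₁)
  have h3 := le_abs_self (massT (U k) t₂ - massT (U k) t₁)
  linarith

/-- A lower bound for the integrals from an almost everywhere asymptotic lower bound. -/
theorem liminf_int_of_ae {f : ℕ → ℝ → ℝ} (hf : ∀ k, Continuous (f k)) (hf0 : ∀ k t, 0 ≤ f k t) {c : ℝ}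
    (hc0 : 0 ≤ c) (hlim : ∀ᵐ t, ∀ ε > 0, ∀ᶠ k in atTop, c - ε ≤ f k t) :
    ∀ ε > 0, ∀ᶠ k in atTop, c - ε ≤ ∫ t in (0 : ℝ)..1, f k t := by
  intro ε hε
  by_contra hcon
  rw [not_eventually] at hcon
  obtain ⟨φ, hφ, hφ2⟩ := extraction_of_frequently_atTop hcon
  have hF := fatou_interval (f := fun n t => f (φ n) t) (h := fun _ => c) (L := c - ε)
    (fun n => hf _) (fun n t => hf0 _ t) aestronglyMeasurable_const (fun _ => hc0)
    (by
      filter_upwards [hlim] with t ht ρ hρ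
      filter_upwards [hφ.tendsto_atTop.eventually (ht ((c - ρ) / 2) (by linarith))] with n hn
      linarith)
    (Eventually.of_forall fun n => (not_le.1 (hφ2 n)).le)
  simp at hF
  linarith

/-- On a line with mixed mass there are points of both values. -/
private theorem line_pts {v : ℝ → ℝ} (hb : ∀ t, v t = 0 ∨ v t = 1) {Q : ℝ → Prop} (hQ : ∀ᵐ t, Q t)
    (h0 : 0 < ∫ t in (0 : ℝ)..1, v t) (h1 : (∫ t in (0 : ℝ)..1, v t) < 1) :
    (∃ t ∈ Ioc (0 : ℝ) 1, v t = 0 ∧ Q t) ∧ (∃ t ∈ Ioc (0 : ℝ) 1, v t = 1 ∧ Q t) := by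
  constructor
  · by_contra hcon
    push Not at hcon
    have e : ∫ t in (0 : ℝ)..1, v t = ∫ t in (0 : ℝ)..1, (1 : ℝ) := by
      refine intervalIntegral.integral_congr_ae ?_
      filter_upwards [hQ] with t ht hmem
      rw [uIoc_of_le zero_le_one] at hmem
      rcases hb t with h2 | h2
      · exact absurd ht (hcon t hmem h2)
      · exact h2
    rw [e] at h1
    simp at h1
  · by_contra hcon
    push Not at hcon
    have e : ∫ t in (0 : ℝ)..1, v t = ∫ t in (0 : ℝ)..1, (0 : ℝ) := by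
      refine intervalIntegral.integral_congr_ae ?_
      filter_upwards [hQ] with t ht hmem
      rw [uIoc_of_le zero_le_one] at hmem
      rcases hb t with h2 | h2
      · exact h2
      · exact absurd ht (hcon t hmem h2)
    rw [e] at h0
    simp at h0

/-- Fubini for a.e. statements along the `t`-lines. -/
theorem ae_tlines {Q : ℝ → ℝ → ℝ → Prop} (h : ∀ᵐ p : R3, Q p.1 p.2.1 p.2.2) :
    ∀ᵐ q : ℝ × ℝ, ∀ᵐ t, Q q.1 q.2 t := by
  have h1 : ∀ᵐ r : (ℝ × ℝ) × ℝ, Q r.1.1 r.1.2 r.2 :=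
    (measurePreserving_prodAssoc (volume : Measure ℝ) (volume : Measure ℝ)
      (volume : Measure ℝ)).quasiMeasurePreserving.ae h
  exact Measure.ae_ae_of_ae_prod h1

/-- All `t`-lines are mixed with constant mass: hypothesis of `cyl_h` with `P = 2`. -/
theorem tv_of_lines (h : Approx3 U χ) (hl : ∀ᵐ q : ℝ × ℝ, 0 < ∫ t in (0 : ℝ)..1, χ q.1 q.2 t ∧
      (∫ t in (0 : ℝ)..1, χ q.1 q.2 t) < 1) :
    ∀ ε > 0, ∀ᶠ k in atTop, 2 - ε ≤ ∫ t in (0 : ℝ)..1, ∫ y in (0 : ℝ)..1, ∫ x in (0 : ℝ)..1, |dT (U k) x y t| := by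
  have hi := h.ind
  have hconv := ae_tlines (Q := fun x y t => Tendsto (fun k => U k x y t) atTop (𝓝 (χ x y t))) h.conv
  have hpt : ∀ᵐ q : ℝ × ℝ, ∀ ε > 0, ∀ᶠ k in atTop,
      2 - ε ≤ ∫ t in (0 : ℝ)..1, |dT (U k) q.1 q.2 t| := by
    filter_upwards [hl, hconv] with q hq hq2 ε hε
    obtain ⟨⟨t₁, ht₁, h1, hc₁⟩, ⟨t₂, ht₂, h2, hc₂⟩⟩ := line_pts (v := fun t => χ q.1 q.2 t)
      (fun t => hi.bool _ _ _) hq2 hq.1 hq.2
    rw [h1] at hc₁
    rw [h2] at hc₂
    have e₁ := hc₁.eventually (gt_mem_nhds (show (0 : ℝ) < ε / 8 by positivity))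
    have e₂ := hc₂.eventually (lt_mem_nhds (show 1 - ε / 8 < (1 : ℝ) by linarith))
    filter_upwards [e₁, e₂] with k h3 h4
    have hc1 := h.c1 k
    have key := T2.two_osc_le_variation (fun s => U k q.1 q.2 s) (fun s => dT (U k) q.1 q.2 s)
      (fun t => t3_hasDerivAt_point hc1 q.1 q.2 t)
      (hc1.continuous_dT.comp (by fun_prop : Continuous (fun s : ℝ => ((q.1, q.2, s) : R3))))
      (fun t => hc1.per_t _ _ _) t₂ t₁ (Ioc_subset_Icc_self ht₂) (Ioc_subset_Icc_self ht₁)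
    have h5 := le_abs_self (U k q.1 q.2 t₂ - U k q.1 q.2 t₁)
    linarith
  have hrows := ae_rows (P := fun x y => ∀ ε > 0, ∀ᶠ k in atTop,
      2 - ε ≤ ∫ t in (0 : ℝ)..1, |dT (U k) x y t|) hpt
  have hcL : ∀ k, Continuous (fun p : ℝ × ℝ => ∫ t in (0 : ℝ)..1, |dT (U k) p.1 p.2 t|) := by
    intro k
    refine intervalIntegral.continuous_parametric_intervalIntegral_of_continuous'
      (f := fun (p : ℝ × ℝ) s => |dT (U k) p.1 p.2 s|) ?_ 0 1
    exact (h.c1 k).continuous_dT.abs.comp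
      (by fun_prop : Continuous (fun q : (ℝ × ℝ) × ℝ => ((q.1.1, q.1.2, q.2) : R3)))
  have hlines : ∀ᵐ y, ∀ ε > 0, ∀ᶠ k in atTop, 2 - ε ≤ ∫ x in (0 : ℝ)..1, ∫ t in (0 : ℝ)..1, |dT (U k) x y t| := by
    filter_upwards [hrows] with y hy
    exact liminf_int_of_ae (f := fun k x => ∫ t in (0 : ℝ)..1, |dT (U k) x y t|)
      (fun k => py_col_cont (F := fun x y => ∫ t in (0 : ℝ)..1, |dT (U k) x y t|) (hcL k) y)
      (fun k x => intervalIntegral.integral_nonneg zero_le_one fun t _ => abs_nonneg _) (by norm_num) hy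
  have hall := liminf_int_of_ae (f := fun k y => ∫ x in (0 : ℝ)..1, ∫ t in (0 : ℝ)..1, |dT (U k) x y t|)
    (fun k => py_inner_cont (F := fun x y => ∫ t in (0 : ℝ)..1, |dT (U k) x y t|) (hcL k))
    (fun k y => intervalIntegral.integral_nonneg zero_le_one fun x _ =>
      intervalIntegral.integral_nonneg zero_le_one fun t _ => abs_nonneg _) (by norm_num : (0 : ℝ) ≤ 2) hlines
  intro ε hε
  filter_upwards [hall ε hε] with k hk
  rw [py_swap3 (F := fun x y t => |dT (U k) x y t|) (h.c1 k).continuous_dT.abs]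
  exact hk

end Vale.Agent.Lib.P232
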