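import Vale.Agent.Lib.P232.Class.TieDefs
import Vale.Agent.Lib.P232.Class.CylH
import Vale.Agent.Lib.P232.Class.Arc1D
import Vale.Agent.Lib.P232.Lines

/-! JOBS A2, A3, A4 -/

open MeasureTheory Set Filter Topology Real

noncomputable section

namespace Vale.Agent.Lib.P232

variable {U : ℕ → ℝ → ℝ → ℝ → ℝ} {χ : ℝ → ℝ → ℝ → ℝ}

/-- The variation of the areas is at most the energy. -/
private theorem a2_var_le {W : ℝ → ℝ → ℝ → ℝ} (h : C1P3 W) :
    ∫ t in (0 : ℝ)..1, |deriv (massT W) t| ≤ En3 W := by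
  rw [t3_En3]
  have hc : Continuous (fun t => ∫ y in (0 : ℝ)..1, ∫ x in (0 : ℝ)..1, t3Nr W x y t) :=
    t3_cont_double (t3_cont_Nr h)
  have hd : Continuous (deriv (massT W)) := (t3_contDiff_mass h).continuous_deriv_one
  refine intervalIntegral.integral_mono_on (by norm_num) (hd.abs.intervalIntegrable _ _)
    (hc.intervalIntegrable _ _) (fun t _ => ?_)
  rw [abs_le]
  constructor
  · have := t3_key h t 0 (-1) (by norm_num)
    linarith
  · have := t3_key h t 0 1 (by norm_num)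
    linarith

/-- A property of `t` that holds on almost all of space holds for almost all `t`. -/
private theorem a2_ae_of_ae {Q : ℝ → Prop} (h : ∀ᵐ p : R3, Q p.2.2) : ∀ᵐ t : ℝ, Q t := by
  have h1 : ∀ᵐ x : ℝ, ∀ᵐ q : ℝ × ℝ, Q q.2 :=
    Measure.ae_ae_of_ae_prod (μ := (volume : Measure ℝ)) (ν := (volume : Measure (ℝ × ℝ))) h
  obtain ⟨_, hx⟩ := h1.exists
  have h2 : ∀ᵐ y : ℝ, ∀ᵐ t : ℝ, Q t :=
    Measure.ae_ae_of_ae_prod (μ := (volume : Measure ℝ)) (ν := (volume : Measure ℝ)) hx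
  obtain ⟨_, hy⟩ := h2.exists
  exact hy

/-- A property of almost all `t` holds on almost all of space. -/
private theorem a2_ae_lift {Q : ℝ → Prop} (h : ∀ᵐ t : ℝ, Q t) : ∀ᵐ p : R3, Q p.2.2 := by
  have h1 : ∀ᵐ q : ℝ × ℝ, Q q.2 :=
    (Measure.quasiMeasurePreserving_snd (μ := (volume : Measure ℝ)) (ν := (volume : Measure ℝ))).ae h
  exact (Measure.quasiMeasurePreserving_snd (μ := (volume : Measure ℝ))
    (ν := (volume : Measure (ℝ × ℝ)))).ae h1

/-- JOB A2. A function of `t` only, with energy at most `2`: `arc1D` for `massT (U k)`: a slab. -/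
theorem slab_of_dep (h : Approx3 U χ) (hP : ∀ k, En3 (U k) ≤ 2) (hV0 : 0 < vol χ) (hV1 : vol χ < 1)
    (hd : DepT χ) : CanonInd χ := by
  have hbool : ∀ᵐ t : ℝ, massT χ t = 0 ∨ massT χ t = 1 := by
    refine a2_ae_of_ae (Q := fun t => massT χ t = 0 ∨ massT χ t = 1) ?_
    filter_upwards [hd] with p hp
    rw [← hp]
    exact h.ind.bool _ _ _
  have hfeq : ∀ᵐ t : ℝ, fullInd (massT χ t) = massT χ t := by
    filter_upwards [hbool] with t ht
    rcases ht with ht | ht <;> simp [fullInd, ht]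
  have hInd : Ind1 (fun t => fullInd (massT χ t)) := by
    refine ⟨t3_measurable_fullInd.comp h.ind.measurable_massT, ?_, ?_⟩
    · intro t
      by_cases ht : massT χ t = 1 <;> simp [fullInd, ht]
    · intro t
      have e : massT χ (t + 1) = massT χ t := by
        simp only [massT, area, slc, h.ind.per_t]
      simp only [e]
  have hint : (∫ t in (0 : ℝ)..1, fullInd (massT χ t)) = vol χ := by
    refine intervalIntegral.integral_congr_ae ?_
    filter_upwards [hfeq] with t ht _ using ht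
  have hC1 : ∀ k, C1P1 (massT (U k)) := by
    intro k
    have hk := h.c1 k
    refine ⟨t3_contDiff_mass hk, t3_mass_per hk, ?_, ?_⟩
    · intro t
      refine intervalIntegral.integral_nonneg (by norm_num) (fun y _ => ?_)
      exact intervalIntegral.integral_nonneg (by norm_num) (fun x _ => hk.nonneg _ _ _)
    · intro t
      exact (le_abs_self _).trans (t3_abs_int_le fun y => t3_abs_int_le fun x => t3_abs_le hk x y t)
  have hconv : ∀ᵐ t : ℝ, Tendsto (fun k => massT (U k) t) atTop (𝓝 (fullInd (massT χ t))) := by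
    filter_upwards [t3_conv_mass h, hfeq] with t ht ht2
    rw [ht2]
    exact ht
  obtain ⟨x₀, hx₀⟩ := arc1D (v := fun k => massT (U k)) hC1 hInd hconv
    (by rw [hint]; exact hV0) (by rw [hint]; exact hV1)
    (fun ε hε => Eventually.frequently (Eventually.of_forall fun k =>
      (a2_var_le (h.c1 k)).trans ((hP k).trans (by linarith))))
  rw [hint] at hx₀
  refine ⟨slabT x₀ (vol χ), ?_, ?_⟩
  · exact Or.inr (Or.inr (Or.inr (Or.inr (Or.inl ⟨x₀, vol χ, hV0, hV1, Filter.EventuallyEq.rfl⟩))))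
  · filter_upwards [hd, a2_ae_lift hx₀, a2_ae_lift hfeq] with p hp hp1 hp2
    rw [hp, ← hp2]
    by_cases hm : massT χ p.2.2 = 1
    · have hmem : p ∈ slabT x₀ (vol χ) := by
        have := hp1.1 (by simp [fullInd, hm])
        obtain ⟨n, hn⟩ := this
        exact ⟨n, hn⟩
      rw [indicator_of_mem hmem]
      simp [fullInd, hm]
    · have hmem : p ∉ slabT x₀ (vol χ) := by
        intro hmem
        obtain ⟨n, hn⟩ := hmem
        have := hp1.2 ⟨n, hn⟩
        simp [fullInd, hm] at this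
      rw [indicator_of_notMem hmem]
      simp [fullInd, hm]

/-- JOB A3. `tv_of_bounds`, `cyl_h`. -/
theorem dep_of_bounds (h : Approx3 U χ) (hP : ∀ k, En3 (U k) ≤ 2) (hb : EssBounds (massT χ) 0 1) :
    DepT χ :=
  cyl_h h hP (tv_of_bounds h hb)

/-- JOB A4. `tv_of_lines`, `cyl_h'`. -/
theorem dep_of_lines (h : Approx3 U χ) (hP : ∀ k, En3 (U k) ≤ 2)
    (hl : ∀ᵐ q : ℝ × ℝ, 0 < ∫ t in (0 : ℝ)..1, χ q.1 q.2 t ∧ (∫ t in (0 : ℝ)..1, χ q.1 q.2 t) < 1) :
    DepT χ :=
  cyl_h' h hP (tv_of_lines h hl)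


end Vale.Agent.Lib.P232
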