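import Vale.Agent.Lib.P232.Defs

/-! The canonical regions (periodic objects on R^3). -/

open MeasureTheory Set Filter Topology Real

noncomputable section

namespace Vale.Agent.Lib.P232

/-- The periodic ball of radius `r` about `(x₀, y₀, t₀)`. -/
def ballSet (x₀ y₀ t₀ r : ℝ) : Set R3 :=
  {p | ∃ a b c : ℤ, (p.1 - x₀ - a) ^ 2 + (p.2.1 - y₀ - b) ^ 2 + (p.2.2 - t₀ - c) ^ 2 < r ^ 2}

/-- The periodic solid tube of radius `r` about the geodesic through `(x₀, y₀)` in direction `t`. -/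
def tubeT (x₀ y₀ r : ℝ) : Set R3 := {p | ∃ a b : ℤ, (p.1 - x₀ - a) ^ 2 + (p.2.1 - y₀ - b) ^ 2 < r ^ 2}
/-- Tube in direction `x`. -/
def tubeX (y₀ t₀ r : ℝ) : Set R3 := {p | ∃ b c : ℤ, (p.2.1 - y₀ - b) ^ 2 + (p.2.2 - t₀ - c) ^ 2 < r ^ 2}
/-- Tube in direction `y`. -/
def tubeY (x₀ t₀ r : ℝ) : Set R3 := {p | ∃ a c : ℤ, (p.1 - x₀ - a) ^ 2 + (p.2.2 - t₀ - c) ^ 2 < r ^ 2}

/-- The periodic slab `{t₀ < t < t₀ + w}`. -/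
def slabT (t₀ w : ℝ) : Set R3 := {p | ∃ c : ℤ, t₀ + c < p.2.2 ∧ p.2.2 < t₀ + c + w}
/-- Slab in `x`. -/
def slabX (x₀ w : ℝ) : Set R3 := {p | ∃ a : ℤ, x₀ + a < p.1 ∧ p.1 < x₀ + a + w}
/-- Slab in `y`. -/
def slabY (y₀ w : ℝ) : Set R3 := {p | ∃ b : ℤ, y₀ + b < p.2.1 ∧ p.2.1 < y₀ + b + w}

/-- The three types of regions of the conjecture. -/
def IsCanonical (S : Set R3) : Prop :=
  (∃ x₀ y₀ t₀ r, 0 < r ∧ S =ᵐ[volume] ballSet x₀ y₀ t₀ r) ∨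
  (∃ x₀ y₀ r, 0 < r ∧ S =ᵐ[volume] tubeT x₀ y₀ r) ∨
  (∃ y₀ t₀ r, 0 < r ∧ S =ᵐ[volume] tubeX y₀ t₀ r) ∨
  (∃ x₀ t₀ r, 0 < r ∧ S =ᵐ[volume] tubeY x₀ t₀ r) ∨
  (∃ t₀ w, 0 < w ∧ w < 1 ∧ S =ᵐ[volume] slabT t₀ w) ∨
  (∃ x₀ w, 0 < w ∧ w < 1 ∧ S =ᵐ[volume] slabX x₀ w) ∨
  (∃ y₀ w, 0 < w ∧ w < 1 ∧ S =ᵐ[volume] slabY y₀ w)

/-- An indicator of a canonical region. -/
def CanonInd (χ : ℝ → ℝ → ℝ → ℝ) : Prop :=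
  ∃ S : Set R3, IsCanonical S ∧ ∀ᵐ p : R3, χ p.1 p.2.1 p.2.2 = S.indicator (fun _ => (1 : ℝ)) p

/-- The periodic disc. -/
def discSet (x₀ y₀ R : ℝ) : Set (ℝ × ℝ) := {p | ∃ a b : ℤ, (p.1 - x₀ - a) ^ 2 + (p.2 - y₀ - b) ^ 2 < R ^ 2}


end Vale.Agent.Lib.P232
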