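import Vale.Agent.Lib.P232.MonoFacts
import Vale.Agent.Lib.P232.Class.CanonDefs
import Vale.Agent.Lib.P232.Lines
import Vale.Agent.Lib.P232.Torus3a

/-! JOB J8 (helper89): the competitors on the torus, the bathtub principle, discs and balls from their
marginals. -/

open MeasureTheory Set Filter Topology
open scoped ENNReal

noncomputable section

namespace Vale.Agent.Lib.P232

/-- Distance from `x` to `c + ℤ`, written with the tent coordinate. -/
def tdist (c x : ℝ) : ℝ := uu (x - c + 1 / 2) / 2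

/-- A geodesic ball of the torus, of radius `r` and centre `(c₁, c₂, c₃)`. -/
def tBall (c₁ c₂ c₃ r : ℝ) : Set R3 :=
  {p | tdist c₁ p.1 ^ 2 + tdist c₂ p.2.1 ^ 2 + tdist c₃ p.2.2 ^ 2 < r ^ 2}

/-- Solid tube of radius `r` about the closed geodesic `{x = a, y = b}` in direction `t`. -/
def tTubeT (a b r : ℝ) : Set R3 := {p | tdist a p.1 ^ 2 + tdist b p.2.1 ^ 2 < r ^ 2}
/-- Solid tube of radius `r` about the closed geodesic `{y = a, t = b}` in direction `x`. -/
def tTubeX (a b r : ℝ) : Set R3 := {p | tdist a p.2.1 ^ 2 + tdist b p.2.2 ^ 2 < r ^ 2}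
/-- Solid tube of radius `r` about the closed geodesic `{t = a, x = b}` in direction `y`. -/
def tTubeY (a b r : ℝ) : Set R3 := {p | tdist a p.2.2 ^ 2 + tdist b p.1 ^ 2 < r ^ 2}

/-- Slab of width `v` between two coordinate tori, normal to `x`. -/
def tSlabX (a v : ℝ) : Set R3 := {p | 2 * tdist a p.1 < v}
/-- Slab of width `v` between two coordinate tori, normal to `y`. -/
def tSlabY (a v : ℝ) : Set R3 := {p | 2 * tdist a p.2.1 < v}
/-- Slab of width `v` between two coordinate tori, normal to `t`. -/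
def tSlabT (a v : ℝ) : Set R3 := {p | 2 * tdist a p.2.2 < v}

/-- Equality of periodic sets up to a null set. -/
def AEEq3 (E S : Set R3) : Prop := volume (symmDiff E S ∩ Q3) = 0

/-- The mass of the slice `x = u`. -/
def margX (χ : ℝ → ℝ → ℝ → ℝ) (u : ℝ) : ℝ := ∫ t in (0 : ℝ)..1, ∫ y in (0 : ℝ)..1, χ u y t
/-- The mass of the slice `y = u`. -/
def margY (χ : ℝ → ℝ → ℝ → ℝ) (u : ℝ) : ℝ := ∫ t in (0 : ℝ)..1, ∫ x in (0 : ℝ)..1, χ x u t

/-! ### Basic facts on the torus distance -/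

theorem tdist_measurable (c : ℝ) : Measurable (tdist c) := by
  unfold tdist
  exact (uu_measurable.comp ((measurable_id.sub_const c).add_const (1 / 2))).div_const 2

theorem tdist_nonneg (c x : ℝ) : 0 ≤ tdist c x := by
  unfold tdist
  have := uu_nonneg (x - c + 1 / 2)
  linarith

theorem tdist_le (c x : ℝ) : tdist c x ≤ 1 / 2 := by
  unfold tdist
  have := uu_le_one (x - c + 1 / 2)
  linarith

theorem tdist_add_one (c x : ℝ) : tdist c (x + 1) = tdist c x := by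
  unfold tdist
  have : x + 1 - c + 1 / 2 = (x - c + 1 / 2) + 1 := by ring
  rw [this, uu_add_one]

private theorem uu_interval {w : ℝ} (h0 : -(1 / 2) ≤ w) (h1 : w ≤ 1 / 2) : uu (w + 1 / 2) / 2 = |w| := by
  rcases lt_or_eq_of_le h1 with h | rfl
  · unfold uu
    have : Int.fract (w + 1 / 2) = w + 1 / 2 := Int.fract_eq_self.mpr ⟨by linarith, by linarith⟩
    rw [this]
    have h2 : 2 * (w + 1 / 2) - 1 = 2 * w := by ring
    rw [h2, abs_mul]
    simp
  · have h2 : (1 / 2 : ℝ) + 1 / 2 = 0 + 1 := by norm_num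
    rw [h2, uu_add_one]
    unfold uu
    simp

theorem tdist_eq {c w : ℝ} (h0 : -(1 / 2) ≤ w) (h1 : w ≤ 1 / 2) : tdist c (c + w) = |w| := by
  unfold tdist
  have : c + w - c + 1 / 2 = w + 1 / 2 := by ring
  rw [this, uu_interval h0 h1]

/-- Integrals over a period of a function of the torus distance. -/
theorem period_integral {g : ℝ → ℝ} (hg : Continuous g) (c : ℝ) :
    ∫ s in (0 : ℝ)..1, g (tdist c s) = 2 * ∫ u in (0 : ℝ)..(1 / 2), g u := by
  have hper : Function.Periodic (fun s => g (tdist c s)) 1 := fun s => by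
    simp only [tdist_add_one]
  have h1 := hper.intervalIntegral_add_eq 0 (c - 1 / 2)
  have h2 : (0 : ℝ) + 1 = 1 := by norm_num
  rw [h2] at h1
  rw [h1]
  have h3 : c - 1 / 2 + 1 = c + 1 / 2 := by ring
  rw [h3]
  have h4 : ∫ s in (c - 1 / 2)..(c + 1 / 2), g (tdist c s)
      = ∫ w in (-(1 / 2) : ℝ)..(1 / 2), g (tdist c (c + w)) := by
    have := intervalIntegral.integral_comp_add_left (a := -(1 / 2)) (b := 1 / 2)
      (fun s => g (tdist c s)) c
    rw [this]
    congr 1 <;> ring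
  rw [h4]
  have h5 : ∫ w in (-(1 / 2) : ℝ)..(1 / 2), g (tdist c (c + w))
      = ∫ w in (-(1 / 2) : ℝ)..(1 / 2), g |w| := by
    refine intervalIntegral.integral_congr fun w hw => ?_
    have hw' : w ∈ Icc (-(1 / 2) : ℝ) (1 / 2) := by
      rwa [uIcc_of_le (by norm_num)] at hw
    simp only [tdist_eq hw'.1 hw'.2]
  rw [h5]
  have hc : Continuous (fun w : ℝ => g |w|) := hg.comp continuous_abs
  have h6 := intervalIntegral.integral_add_adjacent_intervals (μ := volume) (a := -(1 / 2)) (b := 0)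
    (c := 1 / 2) (hc.intervalIntegrable _ _) (hc.intervalIntegrable _ _)
  rw [← h6]
  have h7 : ∫ w in (-(1 / 2) : ℝ)..0, g |w| = ∫ u in (0 : ℝ)..(1 / 2), g u := by
    have h8 := intervalIntegral.integral_comp_neg (a := 0) (b := 1 / 2) (fun w => g |w|)
    simp only [abs_neg, neg_zero] at h8
    rw [← h8]
    refine intervalIntegral.integral_congr fun w hw => ?_
    have hw' : w ∈ Icc (0 : ℝ) (1 / 2) := by
      rwa [uIcc_of_le (by norm_num)] at hw
    simp only [abs_of_nonneg hw'.1]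
  have h9 : ∫ w in (0 : ℝ)..(1 / 2), g |w| = ∫ u in (0 : ℝ)..(1 / 2), g u := by
    refine intervalIntegral.integral_congr fun w hw => ?_
    have hw' : w ∈ Icc (0 : ℝ) (1 / 2) := by
      rwa [uIcc_of_le (by norm_num)] at hw
    simp only [abs_of_nonneg hw'.1]
  rw [h7, h9]
  ring

/-- The measure of a sublevel set of the torus distance. -/
theorem integral_tdist_lt (c : ℝ) {s : ℝ} (h0 : 0 ≤ s) (h1 : s ≤ 1 / 2) :
    ∫ v in (0 : ℝ)..1, (if tdist c v < s then (1 : ℝ) else 0) = 2 * s := by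
  have hper : Function.Periodic (fun v => if tdist c v < s then (1 : ℝ) else 0) 1 := fun v => by
    simp only [tdist_add_one]
  have h2 := hper.intervalIntegral_add_eq 0 (c - 1 / 2)
  have h3 : (0 : ℝ) + 1 = 1 := by norm_num
  rw [h3] at h2
  rw [h2]
  have h4 := intervalIntegral.integral_comp_add_left (a := 0) (b := 1)
    (fun v => if tdist c v < s then (1 : ℝ) else 0) (c - 1 / 2)
  have h5 : c - 1 / 2 + 0 = c - 1 / 2 := by ring
  rw [h5] at h4
  rw [← h4]
  have h6 : ∀ u : ℝ, tdist c (c - 1 / 2 + u) < s ↔ uu u < 2 * s := by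
    intro u
    unfold tdist
    have : c - 1 / 2 + u - c + 1 / 2 = u := by ring
    rw [this, div_lt_iff₀ (by norm_num : (0 : ℝ) < 2)]
    constructor <;> intro h <;> linarith
  simp only [h6]
  exact integral_uu_lt (by linarith) (by linarith)

/-! ### The area of a disc -/

private theorem integral_sqrt_disc {ρ : ℝ} (hρ : 0 < ρ) :
    ∫ u in (0 : ℝ)..ρ, Real.sqrt (ρ ^ 2 - u ^ 2) = Real.pi * ρ ^ 2 / 4 := by
  have h1 : ∫ u in (0 : ℝ)..ρ, Real.sqrt (ρ ^ 2 - u ^ 2)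
      = ∫ u in (0 : ℝ)..ρ, ρ * Real.sqrt (1 - (u / ρ) ^ 2) := by
    refine intervalIntegral.integral_congr fun u _ => ?_
    beta_reduce
    have : ρ ^ 2 - u ^ 2 = ρ ^ 2 * (1 - (u / ρ) ^ 2) := by
      field_simp
    rw [this, Real.sqrt_mul (sq_nonneg ρ), Real.sqrt_sq hρ.le]
  rw [h1, intervalIntegral.integral_const_mul]
  have h2 := intervalIntegral.integral_comp_div (a := 0) (b := ρ)
    (fun x => Real.sqrt (1 - x ^ 2)) hρ.ne'
  rw [h2]
  have h3 : ∫ x in (0 : ℝ)..1, Real.sqrt (1 - x ^ 2) = Real.pi / 4 := by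
    have h4 := integral_sqrt_one_sub_sq
    have hc : Continuous fun x : ℝ => Real.sqrt (1 - x ^ 2) := by fun_prop
    have h5 := intervalIntegral.integral_add_adjacent_intervals (μ := volume) (a := -1) (b := 0) (c := 1)
      (hc.intervalIntegrable _ _) (hc.intervalIntegrable _ _)
    have h6 : ∫ x in (-1 : ℝ)..0, Real.sqrt (1 - x ^ 2) = ∫ x in (0 : ℝ)..1, Real.sqrt (1 - x ^ 2) := by
      have := intervalIntegral.integral_comp_neg (a := 0) (b := 1) (fun x : ℝ => Real.sqrt (1 - x ^ 2))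
      simpa [neg_sq] using this.symm
    rw [h6, h4] at h5
    linarith
  rw [zero_div, div_self hρ.ne', h3, smul_eq_mul]
  field_simp

/-- The truncated semicircle function. -/
def semi (w : ℝ) : ℝ := Real.sqrt (max w 0)

private theorem semi_eq_sqrt (w : ℝ) : semi w = Real.sqrt w := by
  unfold semi
  by_cases h : 0 ≤ w
  · rw [max_eq_left h]
  · push Not at h
    rw [max_eq_right h.le, Real.sqrt_zero, Real.sqrt_eq_zero_of_nonpos h.le]

/-- The mass of a chord of a disc. -/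
theorem chord_mass (c : ℝ) {w : ℝ} (hw : w ≤ 1 / 4) :
    ∫ v in (0 : ℝ)..1, (if tdist c v ^ 2 < w then (1 : ℝ) else 0) = 2 * Real.sqrt w := by
  have hs0 : 0 ≤ Real.sqrt w := Real.sqrt_nonneg w
  have hs1 : Real.sqrt w ≤ 1 / 2 := by
    have : Real.sqrt w ≤ Real.sqrt ((1 / 2) ^ 2) := Real.sqrt_le_sqrt (by norm_num; linarith)
    rwa [Real.sqrt_sq (by norm_num)] at this
  rw [← integral_tdist_lt c hs0 hs1]
  refine intervalIntegral.integral_congr fun v _ => ?_
  beta_reduce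
  have hv := tdist_nonneg c v
  by_cases h : tdist c v ^ 2 < w
  · rw [if_pos h, if_pos (Real.lt_sqrt_of_sq_lt h)]
  · rw [if_neg h, if_neg]
    intro h2
    apply h
    have := Real.sq_sqrt (le_of_lt (lt_of_le_of_lt hv h2 |> fun h3 => Real.sqrt_pos.mp h3))
    nlinarith [Real.sqrt_nonneg w]

/-- The area of a disc of the two-torus. -/
theorem disc_area (c c' : ℝ) {ρ : ℝ} (hρ : 0 < ρ) (hρ' : ρ ≤ 1 / 2) :
    ∫ s in (0 : ℝ)..1, ∫ v in (0 : ℝ)..1, (if tdist c v ^ 2 + tdist c' s ^ 2 < ρ ^ 2 then (1 : ℝ) else 0)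
      = Real.pi * ρ ^ 2 := by
  have h1 : ∀ s, ∫ v in (0 : ℝ)..1, (if tdist c v ^ 2 + tdist c' s ^ 2 < ρ ^ 2 then (1 : ℝ) else 0)
      = 2 * Real.sqrt (ρ ^ 2 - tdist c' s ^ 2) := by
    intro s
    have hw : ρ ^ 2 - tdist c' s ^ 2 ≤ 1 / 4 := by
      nlinarith [sq_nonneg (tdist c' s)]
    rw [← chord_mass c hw]
    refine intervalIntegral.integral_congr fun v _ => ?_
    simp only [lt_sub_iff_add_lt]
  simp only [h1]
  have hg : Continuous (fun u : ℝ => 2 * Real.sqrt (ρ ^ 2 - u ^ 2)) := by fun_prop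
  rw [period_integral hg c']
  rw [intervalIntegral.integral_const_mul]
  have h2 : ∫ u in (0 : ℝ)..(1 / 2), Real.sqrt (ρ ^ 2 - u ^ 2)
      = ∫ u in (0 : ℝ)..ρ, Real.sqrt (ρ ^ 2 - u ^ 2) := by
    have hc : Continuous fun u : ℝ => Real.sqrt (ρ ^ 2 - u ^ 2) := by fun_prop
    have h3 := intervalIntegral.integral_add_adjacent_intervals (μ := volume) (a := 0) (b := ρ)
      (c := 1 / 2) (hc.intervalIntegrable _ _) (hc.intervalIntegrable _ _)
    have h4 : ∫ u in ρ..(1 / 2), Real.sqrt (ρ ^ 2 - u ^ 2) = 0 := by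
      rw [intervalIntegral.integral_congr (g := fun _ => (0 : ℝ))]
      · simp
      · intro u hu
        have hu' : u ∈ Icc ρ (1 / 2) := by rwa [uIcc_of_le hρ'] at hu
        beta_reduce
        apply Real.sqrt_eq_zero_of_nonpos
        nlinarith [hu'.1]
    rw [← h3, h4, add_zero]
  rw [h2, integral_sqrt_disc hρ]
  ring

/-! ### The bathtub principle -/

/-- Bathtub: `B` is a sublevel set of `f`; `E` has the same measure and not more energy. -/
theorem bathtub {α : Type*} [MeasurableSpace α] {μ : Measure α} [IsFiniteMeasure μ] {E B : Set α}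
    (hE : MeasurableSet E) (hB : MeasurableSet B) {f : α → ℝ} (hf : Measurable f) {C : ℝ}
    (hC : ∀ x, |f x| ≤ C) {c : ℝ} (h1 : ∀ x ∈ B, f x < c) (h2 : ∀ x, x ∉ B → c ≤ f x)
    (hμ : μ E = μ B) (hint : ∫ x in E, f x ∂μ ≤ ∫ x in B, f x ∂μ) : μ (symmDiff E B) = 0 := by
  have hfi : Integrable f μ := Integrable.of_bound hf.aestronglyMeasurable C
    (ae_of_all _ fun x => by simpa using hC x)
  have hgi : Integrable (fun x => c - f x) μ := (integrable_const c).sub hfi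
  -- energy of the function `c - f`
  have e1 : ∫ x in E, (c - f x) ∂μ = μ.real E * c - ∫ x in E, f x ∂μ := by
    rw [integral_sub (integrable_const c).integrableOn hfi.integrableOn, setIntegral_const, smul_eq_mul]
  have e2 : ∫ x in B, (c - f x) ∂μ = μ.real B * c - ∫ x in B, f x ∂μ := by
    rw [integral_sub (integrable_const c).integrableOn hfi.integrableOn, setIntegral_const, smul_eq_mul]
  have hreal : μ.real E = μ.real B := by
    simp only [Measure.real, hμ]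
  have e3 : ∫ x in B, (c - f x) ∂μ ≤ ∫ x in E, (c - f x) ∂μ := by
    rw [e1, e2, hreal]
    linarith
  -- decomposition
  have d1 := integral_inter_add_sdiff (μ := μ) (f := fun x => c - f x) hB (s := E) hgi.integrableOn
  have d2 := integral_inter_add_sdiff (μ := μ) (f := fun x => c - f x) hE (s := B) hgi.integrableOn
  rw [inter_comm B E] at d2
  have n1 : ∫ x in E \ B, (c - f x) ∂μ ≤ 0 := by
    refine setIntegral_nonpos (hE.diff hB) fun x hx => ?_
    linarith [h2 x hx.2]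
  have n2 : ∫ x in B \ E, (c - f x) ∂μ ≤ 0 := by linarith
  -- the difference is null
  have z1 : μ (B \ E) = 0 := by
    by_contra hne
    have hpos : 0 < μ (B \ E) := pos_iff_ne_zero.mpr hne
    have hmeas : MeasurableSet (B \ E) := hB.diff hE
    have : 0 < ∫ x in B \ E, (c - f x) ∂μ := by
      rw [setIntegral_pos_iff_support_of_nonneg_ae]
      · have hsub : B \ E ⊆ Function.support (fun x => c - f x) := fun x hx => by
          simp only [Function.mem_support]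
          have := h1 x hx.1
          intro h0
          linarith
        have : μ (B \ E) ≤ μ (Function.support (fun x => c - f x) ∩ (B \ E)) :=
          measure_mono (subset_inter hsub (subset_refl _))
        exact hpos.trans_le this
      · refine (ae_restrict_iff' hmeas).mpr (ae_of_all _ fun x hx => ?_)
        simp only [Pi.zero_apply]
        linarith [h1 x hx.1]
      · exact hgi.integrableOn
    linarith
  have z2 : μ (E \ B) = 0 := by
    have a1 : μ (E ∩ B) + μ (E \ B) = μ E := measure_inter_add_sdiff E hB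
    have a2 : μ (B ∩ E) + μ (B \ E) = μ B := measure_inter_add_sdiff B hE
    rw [inter_comm B E, z1, add_zero] at a2
    rw [← a2] at hμ
    rw [hμ] at a1
    have hfin : μ (E ∩ B) ≠ ∞ := measure_ne_top _ _
    exact (ENNReal.add_right_inj hfin).mp (a1.trans (add_zero _).symm)
  have hsd : symmDiff E B = (E \ B) ∪ (B \ E) := rfl
  rw [hsd]
  exact measure_union_null z2 z1


/-! ### Fubini on the cube and on the square -/

private abbrev cmu : Measure ℝ := volume.restrict (Ico (0 : ℝ) 1)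

private theorem cmu_ico (f : ℝ → ℝ) : ∫ x, f x ∂cmu = ∫ x in (0 : ℝ)..1, f x := by
  rw [intervalIntegral.integral_of_le zero_le_one, integral_Ico_eq_integral_Ioo,
    integral_Ioc_eq_integral_Ioo]

private theorem cmu_restrict : volume.restrict Q3 = cmu.prod (cmu.prod cmu) := by
  unfold Q3 cmu
  rw [Measure.prod_restrict, Measure.prod_restrict]
  rfl

private theorem cmu_restrict2 :
    (volume : Measure (ℝ × ℝ)).restrict (Ico (0 : ℝ) 1 ×ˢ Ico (0 : ℝ) 1) = cmu.prod cmu := by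
  unfold cmu
  rw [Measure.prod_restrict]
  rfl

/-- Cube integral, `t` outermost, `x` innermost. -/
theorem cube_t {F : R3 → ℝ} (hF : IntegrableOn F Q3) :
    ∫ p in Q3, F p = ∫ t in (0 : ℝ)..1, ∫ y in (0 : ℝ)..1, ∫ x in (0 : ℝ)..1, F (x, y, t) := by
  have hi : Integrable F (cmu.prod (cmu.prod cmu)) := by
    rw [← cmu_restrict]
    exact hF
  rw [cmu_restrict, integral_prod_symm _ hi, integral_prod_symm _ hi.integral_prod_right, cmu_ico]
  refine intervalIntegral.integral_congr fun t _ => ?_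
  beta_reduce
  rw [cmu_ico]
  refine intervalIntegral.integral_congr fun y _ => ?_
  beta_reduce
  rw [cmu_ico]

/-- Cube integral, `y` outermost, `x` innermost. -/
theorem cube_y {F : R3 → ℝ} (hF : IntegrableOn F Q3) :
    ∫ p in Q3, F p = ∫ y in (0 : ℝ)..1, ∫ t in (0 : ℝ)..1, ∫ x in (0 : ℝ)..1, F (x, y, t) := by
  have hi : Integrable F (cmu.prod (cmu.prod cmu)) := by
    rw [← cmu_restrict]
    exact hF
  rw [cmu_restrict, integral_prod_symm _ hi, integral_prod _ hi.integral_prod_right, cmu_ico]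
  refine intervalIntegral.integral_congr fun y _ => ?_
  beta_reduce
  rw [cmu_ico]
  refine intervalIntegral.integral_congr fun t _ => ?_
  beta_reduce
  rw [cmu_ico]

/-- Cube integral, `x` outermost, `y` innermost. -/
theorem cube_x {F : R3 → ℝ} (hF : IntegrableOn F Q3) :
    ∫ p in Q3, F p = ∫ x in (0 : ℝ)..1, ∫ t in (0 : ℝ)..1, ∫ y in (0 : ℝ)..1, F (x, y, t) := by
  have hi : Integrable F (cmu.prod (cmu.prod cmu)) := by
    rw [← cmu_restrict]
    exact hF
  rw [cmu_restrict, integral_prod _ hi, cmu_ico]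
  have h1 : ∀ᵐ x ∂cmu, ∫ q, F (x, q) ∂(cmu.prod cmu)
      = ∫ t in (0 : ℝ)..1, ∫ y in (0 : ℝ)..1, F (x, y, t) := by
    filter_upwards [hi.prod_right_ae] with x hx
    rw [integral_prod_symm _ hx, cmu_ico]
    refine intervalIntegral.integral_congr fun t _ => ?_
    beta_reduce
    rw [cmu_ico]
  have h2 : ∫ x in (0 : ℝ)..1, ∫ q, F (x, q) ∂(cmu.prod cmu)
      = ∫ x, ∫ q, F (x, q) ∂(cmu.prod cmu) ∂cmu := (cmu_ico _).symm
  have h3 : ∫ x in (0 : ℝ)..1, ∫ t in (0 : ℝ)..1, ∫ y in (0 : ℝ)..1, F (x, y, t)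
      = ∫ x, (∫ t in (0 : ℝ)..1, ∫ y in (0 : ℝ)..1, F (x, y, t)) ∂cmu := (cmu_ico _).symm
  rw [h2, h3]
  exact integral_congr_ae h1

/-- Square integral, `y` outermost. -/
theorem square_y {F : ℝ × ℝ → ℝ} (hF : IntegrableOn F (Ico (0 : ℝ) 1 ×ˢ Ico (0 : ℝ) 1)) :
    ∫ q in Ico (0 : ℝ) 1 ×ˢ Ico (0 : ℝ) 1, F q = ∫ y in (0 : ℝ)..1, ∫ x in (0 : ℝ)..1, F (x, y) := by
  have hi : Integrable F (cmu.prod cmu) := by
    rw [← cmu_restrict2]
    exact hF
  rw [cmu_restrict2, integral_prod_symm _ hi, cmu_ico]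
  refine intervalIntegral.integral_congr fun y _ => ?_
  beta_reduce
  rw [cmu_ico]

/-- Square integral, `x` outermost. -/
theorem square_x {F : ℝ × ℝ → ℝ} (hF : IntegrableOn F (Ico (0 : ℝ) 1 ×ˢ Ico (0 : ℝ) 1)) :
    ∫ q in Ico (0 : ℝ) 1 ×ˢ Ico (0 : ℝ) 1, F q = ∫ x in (0 : ℝ)..1, ∫ y in (0 : ℝ)..1, F (x, y) := by
  have hi : Integrable F (cmu.prod cmu) := by
    rw [← cmu_restrict2]
    exact hF
  rw [cmu_restrict2, integral_prod _ hi, cmu_ico]
  refine intervalIntegral.integral_congr fun y _ => ?_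
  beta_reduce
  rw [cmu_ico]

/-! ### Moments from marginals, level three -/

/-- The measure on `(0, 1]` used in the statements. -/
private abbrev nuU : Measure ℝ := volume.restrict (Ioc (0 : ℝ) 1)

private theorem ind_bdd (E : Set R3) (x y t : ℝ) : |ind E x y t| ≤ 1 := by
  unfold ind
  by_cases h : (x, y, t) ∈ E
  · simp [indicator_of_mem h]
  · simp [indicator_of_notMem h]

private theorem ind_meas {E : Set R3} (hE : MeasurableSet E) :
    Measurable (fun p : R3 => ind E p.1 p.2.1 p.2.2) :=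
  measurable_const.indicator hE

private theorem cube_finite : volume Q3 ≠ ∞ := by
  have : volume Q3 = 1 := by
    unfold Q3
    simp [Measure.volume_eq_prod, Measure.prod_prod]
  simp [this]

private theorem integrableOn_bdd {F : R3 → ℝ} (hF : Measurable F) {C : ℝ} (hC : ∀ p, |F p| ≤ C) :
    IntegrableOn F Q3 := by
  refine Measure.integrableOn_of_bounded (M := C) cube_finite hF.aestronglyMeasurable ?_
  exact ae_of_all _ fun p => by simpa using hC p

private theorem moment_x {E : Set R3} (hE : MeasurableSet E) {g : ℝ → ℝ} (hg : Measurable g) {C : ℝ}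
    (hC : ∀ u, |g u| ≤ C) :
    ∫ p in Q3, ind E p.1 p.2.1 p.2.2 * g p.1 = ∫ u in (0 : ℝ)..1, margX (ind E) u * g u := by
  have hm : Measurable (fun p : R3 => ind E p.1 p.2.1 p.2.2 * g p.1) :=
    (ind_meas hE).mul (hg.comp measurable_fst)
  have hb : ∀ p : R3, |ind E p.1 p.2.1 p.2.2 * g p.1| ≤ 1 * C := fun p => by
    rw [abs_mul]
    exact mul_le_mul (ind_bdd _ _ _ _) (hC _) (abs_nonneg _) zero_le_one
  rw [cube_x (F := fun p => ind E p.1 p.2.1 p.2.2 * g p.1) (integrableOn_bdd hm hb)]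
  refine intervalIntegral.integral_congr fun u _ => ?_
  change (∫ t in (0 : ℝ)..1, ∫ y in (0 : ℝ)..1, ind E u y t * g u) = _
  unfold margX
  rw [← intervalIntegral.integral_mul_const]
  refine intervalIntegral.integral_congr fun t _ => ?_
  beta_reduce
  rw [intervalIntegral.integral_mul_const]

private theorem moment_y {E : Set R3} (hE : MeasurableSet E) {g : ℝ → ℝ} (hg : Measurable g) {C : ℝ}
    (hC : ∀ u, |g u| ≤ C) :
    ∫ p in Q3, ind E p.1 p.2.1 p.2.2 * g p.2.1 = ∫ u in (0 : ℝ)..1, margY (ind E) u * g u := by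
  have hm : Measurable (fun p : R3 => ind E p.1 p.2.1 p.2.2 * g p.2.1) :=
    (ind_meas hE).mul (hg.comp (measurable_fst.comp measurable_snd))
  have hb : ∀ p : R3, |ind E p.1 p.2.1 p.2.2 * g p.2.1| ≤ 1 * C := fun p => by
    rw [abs_mul]
    exact mul_le_mul (ind_bdd _ _ _ _) (hC _) (abs_nonneg _) zero_le_one
  rw [cube_y (F := fun p => ind E p.1 p.2.1 p.2.2 * g p.2.1) (integrableOn_bdd hm hb)]
  refine intervalIntegral.integral_congr fun u _ => ?_
  change (∫ t in (0 : ℝ)..1, ∫ x in (0 : ℝ)..1, ind E x u t * g u) = _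
  unfold margY
  rw [← intervalIntegral.integral_mul_const]
  refine intervalIntegral.integral_congr fun t _ => ?_
  beta_reduce
  rw [intervalIntegral.integral_mul_const]

private theorem moment_t {E : Set R3} (hE : MeasurableSet E) {g : ℝ → ℝ} (hg : Measurable g) {C : ℝ}
    (hC : ∀ u, |g u| ≤ C) :
    ∫ p in Q3, ind E p.1 p.2.1 p.2.2 * g p.2.2 = ∫ u in (0 : ℝ)..1, massT (ind E) u * g u := by
  have hm : Measurable (fun p : R3 => ind E p.1 p.2.1 p.2.2 * g p.2.2) :=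
    (ind_meas hE).mul (hg.comp (measurable_snd.comp measurable_snd))
  have hb : ∀ p : R3, |ind E p.1 p.2.1 p.2.2 * g p.2.2| ≤ 1 * C := fun p => by
    rw [abs_mul]
    exact mul_le_mul (ind_bdd _ _ _ _) (hC _) (abs_nonneg _) zero_le_one
  rw [cube_t (F := fun p => ind E p.1 p.2.1 p.2.2 * g p.2.2) (integrableOn_bdd hm hb)]
  refine intervalIntegral.integral_congr fun u _ => ?_
  change (∫ y in (0 : ℝ)..1, ∫ x in (0 : ℝ)..1, ind E x y u * g u)
    = (∫ y in (0 : ℝ)..1, ∫ x in (0 : ℝ)..1, ind E x y u) * g u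
  rw [← intervalIntegral.integral_mul_const]
  refine intervalIntegral.integral_congr fun t _ => ?_
  beta_reduce
  rw [intervalIntegral.integral_mul_const]

private theorem integral_congr_nuU {f f' : ℝ → ℝ} (h : ∀ᵐ u ∂nuU, f u = f' u) (g : ℝ → ℝ) :
    ∫ u in (0 : ℝ)..1, f u * g u = ∫ u in (0 : ℝ)..1, f' u * g u := by
  rw [intervalIntegral.integral_of_le zero_le_one, intervalIntegral.integral_of_le zero_le_one]
  refine integral_congr_ae ?_
  filter_upwards [h] with u hu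
  rw [hu]

/-- The set integral over `E` as a cube integral of the indicator. -/
private theorem setIntegral_eq_cube {E : Set R3} (hE : MeasurableSet E) (f : R3 → ℝ) :
    ∫ p in E, f p ∂(volume.restrict Q3) = ∫ p in Q3, ind E p.1 p.2.1 p.2.2 * f p := by
  rw [← integral_indicator hE]
  refine integral_congr_ae (ae_of_all _ fun p => ?_)
  change E.indicator f p = E.indicator (fun _ => (1 : ℝ)) (p.1, p.2.1, p.2.2) * f p
  have hp : (p.1, p.2.1, p.2.2) = p := rfl
  rw [hp]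
  by_cases h : p ∈ E
  · simp [indicator_of_mem h]
  · simp [indicator_of_notMem h]

/-- The measure of `E` in the cube as a cube integral of the indicator. -/
private theorem measure_eq_cube {E : Set R3} (hE : MeasurableSet E) :
    (volume.restrict Q3).real E = ∫ p in Q3, ind E p.1 p.2.1 p.2.2 * 1 := by
  have h := setIntegral_eq_cube hE (fun _ => (1 : ℝ))
  rw [setIntegral_const, smul_eq_mul, mul_one] at h
  exact h

/-- Equal marginals give equal integrals of separated functions. -/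
private theorem moments_eq {E B : Set R3} (hE : MeasurableSet E) (hB : MeasurableSet B)
    (hX : ∀ᵐ u ∂nuU, margX (ind E) u = margX (ind B) u)
    (hY : ∀ᵐ u ∂nuU, margY (ind E) u = margY (ind B) u)
    (hT : ∀ᵐ u ∂nuU, massT (ind E) u = massT (ind B) u)
    {g₁ g₂ g₃ : ℝ → ℝ} (m₁ : Measurable g₁) (m₂ : Measurable g₂) (m₃ : Measurable g₃) {C : ℝ}
    (b₁ : ∀ u, |g₁ u| ≤ C) (b₂ : ∀ u, |g₂ u| ≤ C) (b₃ : ∀ u, |g₃ u| ≤ C) :
    ∫ p in Q3, ind E p.1 p.2.1 p.2.2 * (g₁ p.1 + g₂ p.2.1 + g₃ p.2.2)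
      = ∫ p in Q3, ind B p.1 p.2.1 p.2.2 * (g₁ p.1 + g₂ p.2.1 + g₃ p.2.2) := by
  have key : ∀ {G : Set R3}, MeasurableSet G →
      ∫ p in Q3, ind G p.1 p.2.1 p.2.2 * (g₁ p.1 + g₂ p.2.1 + g₃ p.2.2)
        = (∫ p in Q3, ind G p.1 p.2.1 p.2.2 * g₁ p.1) + (∫ p in Q3, ind G p.1 p.2.1 p.2.2 * g₂ p.2.1)
          + ∫ p in Q3, ind G p.1 p.2.1 p.2.2 * g₃ p.2.2 := by
    intro G hG
    have i₁ : IntegrableOn (fun p : R3 => ind G p.1 p.2.1 p.2.2 * g₁ p.1) Q3 :=
      integrableOn_bdd (C := 1 * C) ((ind_meas hG).mul (m₁.comp measurable_fst)) fun p => by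
        rw [abs_mul]
        exact mul_le_mul (ind_bdd _ _ _ _) (b₁ _) (abs_nonneg _) zero_le_one
    have i₂ : IntegrableOn (fun p : R3 => ind G p.1 p.2.1 p.2.2 * g₂ p.2.1) Q3 :=
      integrableOn_bdd (C := 1 * C)
        ((ind_meas hG).mul (m₂.comp (measurable_fst.comp measurable_snd))) fun p => by
        rw [abs_mul]
        exact mul_le_mul (ind_bdd _ _ _ _) (b₂ _) (abs_nonneg _) zero_le_one
    have i₃ : IntegrableOn (fun p : R3 => ind G p.1 p.2.1 p.2.2 * g₃ p.2.2) Q3 :=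
      integrableOn_bdd (C := 1 * C)
        ((ind_meas hG).mul (m₃.comp (measurable_snd.comp measurable_snd))) fun p => by
        rw [abs_mul]
        exact mul_le_mul (ind_bdd _ _ _ _) (b₃ _) (abs_nonneg _) zero_le_one
    have e₁ := integral_add i₁ i₂
    have e₂ := integral_add (f := fun a : R3 => ind G a.1 a.2.1 a.2.2 * g₁ a.1 + ind G a.1 a.2.1 a.2.2 * g₂ a.2.1)
      (g := fun a : R3 => ind G a.1 a.2.1 a.2.2 * g₃ a.2.2) (i₁.add i₂) i₃
    rw [← e₁, ← e₂]
    refine integral_congr_ae (ae_of_all _ fun p => ?_)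
    beta_reduce
    ring
  rw [key hE, key hB, moment_x hE m₁ b₁, moment_y hE m₂ b₂, moment_t hE m₃ b₃, moment_x hB m₁ b₁,
    moment_y hB m₂ b₂, moment_t hB m₃ b₃, integral_congr_nuU hX, integral_congr_nuU hY,
    integral_congr_nuU hT]

/-- The measure is read off from a marginal. -/
private theorem measure_eq_of_marg {E B : Set R3} (hE : MeasurableSet E) (hB : MeasurableSet B)
    (hT : ∀ᵐ u ∂nuU, massT (ind E) u = massT (ind B) u) :
    (volume.restrict Q3) E = (volume.restrict Q3) B := by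
  have h1 := measure_eq_cube hE
  have h2 := measure_eq_cube hB
  have h3 := moment_t hE (g := fun _ => (1 : ℝ)) measurable_const (C := 1) (fun _ => by simp)
  have h4 := moment_t hB (g := fun _ => (1 : ℝ)) measurable_const (C := 1) (fun _ => by simp)
  have h5 := integral_congr_nuU hT (fun _ => (1 : ℝ))
  have h6 : (volume.restrict Q3).real E = (volume.restrict Q3).real B := by
    rw [h1, h2, h3, h4, h5]
  haveI : IsFiniteMeasure ((volume : Measure R3).restrict Q3) := ⟨by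
    rw [Measure.restrict_apply_univ]
    exact cube_finite.lt_top⟩
  exact (measureReal_eq_measureReal_iff).mp h6

/-- Two measurable sets, the second a sublevel set of a separated function, with the same three
marginals, coincide on the cube up to a null set. -/
theorem aeEq_of_marginals {E B : Set R3} (hE : MeasurableSet E) (hB : MeasurableSet B)
    (hX : ∀ᵐ u ∂nuU, margX (ind E) u = margX (ind B) u)
    (hY : ∀ᵐ u ∂nuU, margY (ind E) u = margY (ind B) u)
    (hT : ∀ᵐ u ∂nuU, massT (ind E) u = massT (ind B) u)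
    {g₁ g₂ g₃ : ℝ → ℝ} (m₁ : Measurable g₁) (m₂ : Measurable g₂) (m₃ : Measurable g₃) {C : ℝ}
    (b₁ : ∀ u, |g₁ u| ≤ C) (b₂ : ∀ u, |g₂ u| ≤ C) (b₃ : ∀ u, |g₃ u| ≤ C) {c : ℝ}
    (hlt : ∀ p ∈ B, g₁ p.1 + g₂ p.2.1 + g₃ p.2.2 < c)
    (hge : ∀ p, p ∉ B → c ≤ g₁ p.1 + g₂ p.2.1 + g₃ p.2.2) : AEEq3 E B := by
  haveI : IsFiniteMeasure ((volume : Measure R3).restrict Q3) := ⟨by
    rw [Measure.restrict_apply_univ]
    exact cube_finite.lt_top⟩
  have hf : Measurable (fun p : R3 => g₁ p.1 + g₂ p.2.1 + g₃ p.2.2) :=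
    ((m₁.comp measurable_fst).add (m₂.comp (measurable_fst.comp measurable_snd))).add
      (m₃.comp (measurable_snd.comp measurable_snd))
  have hbd : ∀ p : R3, |g₁ p.1 + g₂ p.2.1 + g₃ p.2.2| ≤ 3 * C := fun p => by
    have h1 := abs_add_le (g₁ p.1 + g₂ p.2.1) (g₃ p.2.2)
    have h2 := abs_add_le (g₁ p.1) (g₂ p.2.1)
    linarith [b₁ p.1, b₂ p.2.1, b₃ p.2.2]
  have hint : ∫ p in E, (g₁ p.1 + g₂ p.2.1 + g₃ p.2.2) ∂(volume.restrict Q3)
      ≤ ∫ p in B, (g₁ p.1 + g₂ p.2.1 + g₃ p.2.2) ∂(volume.restrict Q3) := by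
    rw [setIntegral_eq_cube hE, setIntegral_eq_cube hB]
    exact le_of_eq (moments_eq hE hB hX hY hT m₁ m₂ m₃ b₁ b₂ b₃)
  have := bathtub hE hB hf hbd hlt hge (measure_eq_of_marg hE hB hT) hint
  unfold AEEq3
  rwa [Measure.restrict_apply (hE.symmDiff hB)] at this

/-! ### The ball -/

theorem tdist_sq_le (c x : ℝ) : tdist c x ^ 2 ≤ 1 / 4 := by
  have h0 := tdist_nonneg c x
  have h1 := tdist_le c x
  nlinarith

private theorem sq_measurable (c : ℝ) : Measurable (fun u => tdist c u ^ 2) :=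
  (tdist_measurable c).pow_const 2

private theorem sq_bdd (c u : ℝ) : |tdist c u ^ 2| ≤ 1 / 4 := by
  rw [abs_of_nonneg (sq_nonneg _)]
  exact tdist_sq_le c u

theorem measurableSet_tBall (c₁ c₂ c₃ r : ℝ) : MeasurableSet (tBall c₁ c₂ c₃ r) := by
  unfold tBall
  refine measurableSet_lt ?_ measurable_const
  exact (((sq_measurable c₁).comp measurable_fst).add
    ((sq_measurable c₂).comp (measurable_fst.comp measurable_snd))).add
      ((sq_measurable c₃).comp (measurable_snd.comp measurable_snd))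

/-- A disc of radius `√w`, when `w` may be nonpositive. -/
private theorem disc_area' (c c' : ℝ) {w : ℝ} (hw : w ≤ 1 / 4) :
    ∫ s in (0 : ℝ)..1, ∫ v in (0 : ℝ)..1, (if tdist c v ^ 2 + tdist c' s ^ 2 < w then (1 : ℝ) else 0)
      = Real.pi * max w 0 := by
  by_cases h : 0 < w
  · have h1 := disc_area c c' (Real.sqrt_pos.mpr h) (by
      have : Real.sqrt w ≤ Real.sqrt ((1 / 2) ^ 2) := Real.sqrt_le_sqrt (by norm_num; linarith)
      rwa [Real.sqrt_sq (by norm_num)] at this)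
    rw [Real.sq_sqrt h.le] at h1
    rw [h1, max_eq_left h.le]
  · push Not at h
    rw [max_eq_right h, mul_zero]
    have : ∀ s v, tdist c v ^ 2 + tdist c' s ^ 2 < w ↔ False := fun s v => by
      constructor
      · intro h2
        nlinarith [sq_nonneg (tdist c v), sq_nonneg (tdist c' s)]
      · exact False.elim
    simp [this]

/-- The `x`-marginal of a ball. -/
theorem margX_tBall (c₁ c₂ c₃ : ℝ) {r : ℝ} (hr : r ^ 2 ≤ 1 / 4) (u : ℝ) :
    margX (ind (tBall c₁ c₂ c₃ r)) u = Real.pi * max (r ^ 2 - tdist c₁ u ^ 2) 0 := by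
  have hw : r ^ 2 - tdist c₁ u ^ 2 ≤ 1 / 4 := by nlinarith [sq_nonneg (tdist c₁ u)]
  rw [← disc_area' c₂ c₃ hw]
  unfold margX
  refine intervalIntegral.integral_congr fun t _ => ?_
  beta_reduce
  refine intervalIntegral.integral_congr fun y _ => ?_
  beta_reduce
  unfold ind
  by_cases h : tdist c₁ u ^ 2 + tdist c₂ y ^ 2 + tdist c₃ t ^ 2 < r ^ 2
  · rw [indicator_of_mem (by exact h), if_pos (by linarith)]
  · rw [indicator_of_notMem (by exact h), if_neg (by linarith)]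

/-- The `y`-marginal of a ball. -/
theorem margY_tBall (c₁ c₂ c₃ : ℝ) {r : ℝ} (hr : r ^ 2 ≤ 1 / 4) (u : ℝ) :
    margY (ind (tBall c₁ c₂ c₃ r)) u = Real.pi * max (r ^ 2 - tdist c₂ u ^ 2) 0 := by
  have hw : r ^ 2 - tdist c₂ u ^ 2 ≤ 1 / 4 := by nlinarith [sq_nonneg (tdist c₂ u)]
  rw [← disc_area' c₁ c₃ hw]
  unfold margY
  refine intervalIntegral.integral_congr fun t _ => ?_
  beta_reduce
  refine intervalIntegral.integral_congr fun x _ => ?_
  beta_reduce
  unfold ind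
  by_cases h : tdist c₁ x ^ 2 + tdist c₂ u ^ 2 + tdist c₃ t ^ 2 < r ^ 2
  · rw [indicator_of_mem (by exact h), if_pos (by linarith)]
  · rw [indicator_of_notMem (by exact h), if_neg (by linarith)]

/-- The `t`-marginal of a ball. -/
theorem massT_tBall (c₁ c₂ c₃ : ℝ) {r : ℝ} (hr : r ^ 2 ≤ 1 / 4) (u : ℝ) :
    massT (ind (tBall c₁ c₂ c₃ r)) u = Real.pi * max (r ^ 2 - tdist c₃ u ^ 2) 0 := by
  have hw : r ^ 2 - tdist c₃ u ^ 2 ≤ 1 / 4 := by nlinarith [sq_nonneg (tdist c₃ u)]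
  rw [← disc_area' c₁ c₂ hw]
  change (∫ y in (0 : ℝ)..1, ∫ x in (0 : ℝ)..1, ind (tBall c₁ c₂ c₃ r) x y u) = _
  refine intervalIntegral.integral_congr fun y _ => ?_
  beta_reduce
  refine intervalIntegral.integral_congr fun x _ => ?_
  beta_reduce
  unfold ind
  by_cases h : tdist c₁ x ^ 2 + tdist c₂ y ^ 2 + tdist c₃ u ^ 2 < r ^ 2
  · rw [indicator_of_mem (by exact h), if_pos (by linarith)]
  · rw [indicator_of_notMem (by exact h), if_neg (by linarith)]

/-- THE BALL FROM ITS THREE MARGINALS: `L4`. -/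
theorem ball_of_marginals {E : Set R3} (hE : MeasurableSet E) {c₁ c₂ c₃ r : ℝ} (hr : r ^ 2 ≤ 1 / 4)
    (hX : ∀ᵐ u ∂(volume.restrict (Ioc (0 : ℝ) 1)),
      margX (ind E) u = Real.pi * max (r ^ 2 - tdist c₁ u ^ 2) 0)
    (hY : ∀ᵐ u ∂(volume.restrict (Ioc (0 : ℝ) 1)),
      margY (ind E) u = Real.pi * max (r ^ 2 - tdist c₂ u ^ 2) 0)
    (hT : ∀ᵐ u ∂(volume.restrict (Ioc (0 : ℝ) 1)),
      massT (ind E) u = Real.pi * max (r ^ 2 - tdist c₃ u ^ 2) 0) :
    AEEq3 E (tBall c₁ c₂ c₃ r) := by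
  refine aeEq_of_marginals (g₁ := fun u => tdist c₁ u ^ 2) (g₂ := fun u => tdist c₂ u ^ 2)
    (g₃ := fun u => tdist c₃ u ^ 2) (c := r ^ 2) (C := 1 / 4) hE (measurableSet_tBall _ _ _ _) ?_ ?_ ?_
    (sq_measurable _) (sq_measurable _) (sq_measurable _) (sq_bdd _) (sq_bdd _) (sq_bdd _)
    (fun p hp => hp) (fun p hp => not_lt.mp hp)
  · filter_upwards [hX] with u hu
    rw [hu, margX_tBall _ _ _ hr]
  · filter_upwards [hY] with u hu
    rw [hu, margY_tBall _ _ _ hr]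
  · filter_upwards [hT] with u hu
    rw [hu, massT_tBall _ _ _ hr]

/-! ### Level two: the disc -/

/-- The open disc of the two-torus, of centre `(a, b)` and radius `R`. -/
def tDisc (a b R : ℝ) : Set (ℝ × ℝ) := {q | tdist a q.1 ^ 2 + tdist b q.2 ^ 2 < R ^ 2}

/-- Indicator of a disc. -/
def discInd (a b R : ℝ) (x y : ℝ) : ℝ := if tdist a x ^ 2 + tdist b y ^ 2 < R ^ 2 then 1 else 0

private abbrev sq01 : Set (ℝ × ℝ) := Ico (0 : ℝ) 1 ×ˢ Ico (0 : ℝ) 1

private theorem sq_finite : volume sq01 ≠ ∞ := by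
  have : volume sq01 = 1 := by
    simp [Measure.volume_eq_prod, Measure.prod_prod]
  simp [this]

private theorem integrableOn_bdd2 {F : ℝ × ℝ → ℝ} (hF : Measurable F) {C : ℝ} (hC : ∀ p, |F p| ≤ C) :
    IntegrableOn F sq01 := by
  refine Measure.integrableOn_of_bounded (M := C) sq_finite hF.aestronglyMeasurable ?_
  exact ae_of_all _ fun p => by simpa using hC p

private theorem bool_abs {χ : ℝ → ℝ → ℝ} (hb : ∀ x y, χ x y = 0 ∨ χ x y = 1) (x y : ℝ) : |χ x y| ≤ 1 := by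
  rcases hb x y with h | h <;> simp [h]

private theorem setIntegral_eq_square {χ : ℝ → ℝ → ℝ} (hm : Measurable (fun q : ℝ × ℝ => χ q.1 q.2))
    (hb : ∀ x y, χ x y = 0 ∨ χ x y = 1) (f : ℝ × ℝ → ℝ) :
    ∫ q in {q : ℝ × ℝ | χ q.1 q.2 = 1}, f q ∂(volume.restrict sq01) = ∫ q in sq01, χ q.1 q.2 * f q := by
  have hS : MeasurableSet {q : ℝ × ℝ | χ q.1 q.2 = 1} := hm (measurableSet_singleton 1)
  rw [← integral_indicator hS]
  refine integral_congr_ae (ae_of_all _ fun q => ?_)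
  rcases hb q.1 q.2 with h | h
  · have hq : q ∉ {q : ℝ × ℝ | χ q.1 q.2 = 1} := by
      simp only [mem_setOf_eq, h]
      norm_num
    rw [indicator_of_notMem hq]
    change (0 : ℝ) = χ q.1 q.2 * f q
    rw [h, zero_mul]
  · have hq : q ∈ {q : ℝ × ℝ | χ q.1 q.2 = 1} := h
    rw [indicator_of_mem hq]
    change f q = χ q.1 q.2 * f q
    rw [h, one_mul]

private theorem moment2_x {χ : ℝ → ℝ → ℝ} (hm : Measurable (fun q : ℝ × ℝ => χ q.1 q.2))
    (hb : ∀ x y, χ x y = 0 ∨ χ x y = 1) {g : ℝ → ℝ} (hg : Measurable g) {C : ℝ} (hC : ∀ u, |g u| ≤ C) :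
    ∫ q in sq01, χ q.1 q.2 * g q.1 = ∫ u in (0 : ℝ)..1, colM χ u * g u := by
  have hm' : Measurable (fun q : ℝ × ℝ => χ q.1 q.2 * g q.1) := hm.mul (hg.comp measurable_fst)
  have hb' : ∀ q : ℝ × ℝ, |χ q.1 q.2 * g q.1| ≤ 1 * C := fun q => by
    rw [abs_mul]
    exact mul_le_mul (bool_abs hb _ _) (hC _) (abs_nonneg _) zero_le_one
  rw [square_x (F := fun q => χ q.1 q.2 * g q.1) (integrableOn_bdd2 hm' hb')]
  refine intervalIntegral.integral_congr fun u _ => ?_
  change (∫ y in (0 : ℝ)..1, χ u y * g u) = (∫ y in (0 : ℝ)..1, χ u y) * g u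
  rw [intervalIntegral.integral_mul_const]

private theorem moment2_y {χ : ℝ → ℝ → ℝ} (hm : Measurable (fun q : ℝ × ℝ => χ q.1 q.2))
    (hb : ∀ x y, χ x y = 0 ∨ χ x y = 1) {g : ℝ → ℝ} (hg : Measurable g) {C : ℝ} (hC : ∀ u, |g u| ≤ C) :
    ∫ q in sq01, χ q.1 q.2 * g q.2 = ∫ u in (0 : ℝ)..1, rowM χ u * g u := by
  have hm' : Measurable (fun q : ℝ × ℝ => χ q.1 q.2 * g q.2) := hm.mul (hg.comp measurable_snd)
  have hb' : ∀ q : ℝ × ℝ, |χ q.1 q.2 * g q.2| ≤ 1 * C := fun q => by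
    rw [abs_mul]
    exact mul_le_mul (bool_abs hb _ _) (hC _) (abs_nonneg _) zero_le_one
  rw [square_y (F := fun q => χ q.1 q.2 * g q.2) (integrableOn_bdd2 hm' hb')]
  refine intervalIntegral.integral_congr fun u _ => ?_
  change (∫ x in (0 : ℝ)..1, χ x u * g u) = (∫ x in (0 : ℝ)..1, χ x u) * g u
  rw [intervalIntegral.integral_mul_const]

/-- Two indicators on the square with the same rows and columns, the second one being a sublevel set of
a separated function, coincide on the square up to a null set. -/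
theorem aeEq2_of_marginals {χ χ' : ℝ → ℝ → ℝ} (hm : Measurable (fun q : ℝ × ℝ => χ q.1 q.2))
    (hb : ∀ x y, χ x y = 0 ∨ χ x y = 1) (hm' : Measurable (fun q : ℝ × ℝ => χ' q.1 q.2))
    (hb' : ∀ x y, χ' x y = 0 ∨ χ' x y = 1)
    (hrow : ∀ᵐ u ∂nuU, rowM χ u = rowM χ' u) (hcol : ∀ᵐ u ∂nuU, colM χ u = colM χ' u)
    {g₁ g₂ : ℝ → ℝ} (m₁ : Measurable g₁) (m₂ : Measurable g₂) {C : ℝ}
    (b₁ : ∀ u, |g₁ u| ≤ C) (b₂ : ∀ u, |g₂ u| ≤ C) {c : ℝ}
    (hlt : ∀ q : ℝ × ℝ, χ' q.1 q.2 = 1 → g₁ q.1 + g₂ q.2 < c)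
    (hge : ∀ q : ℝ × ℝ, χ' q.1 q.2 ≠ 1 → c ≤ g₁ q.1 + g₂ q.2) :
    volume (symmDiff {q : ℝ × ℝ | χ q.1 q.2 = 1} {q : ℝ × ℝ | χ' q.1 q.2 = 1} ∩ sq01) = 0 := by
  have hfin : IsFiniteMeasure ((volume : Measure (ℝ × ℝ)).restrict sq01) := ⟨by
    rw [Measure.restrict_apply_univ]
    exact sq_finite.lt_top⟩
  have hS : MeasurableSet {q : ℝ × ℝ | χ q.1 q.2 = 1} := hm (measurableSet_singleton 1)
  have hS' : MeasurableSet {q : ℝ × ℝ | χ' q.1 q.2 = 1} := hm' (measurableSet_singleton 1)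
  have hf : Measurable (fun q : ℝ × ℝ => g₁ q.1 + g₂ q.2) :=
    (m₁.comp measurable_fst).add (m₂.comp measurable_snd)
  have hbd : ∀ q : ℝ × ℝ, |g₁ q.1 + g₂ q.2| ≤ 2 * C := fun q => by
    have h2 := abs_add_le (g₁ q.1) (g₂ q.2)
    linarith [b₁ q.1, b₂ q.2]
  -- moments
  have key : ∀ {η : ℝ → ℝ → ℝ}, Measurable (fun q : ℝ × ℝ => η q.1 q.2) →
      (∀ x y, η x y = 0 ∨ η x y = 1) →
      ∫ q in sq01, η q.1 q.2 * (g₁ q.1 + g₂ q.2) = (∫ u in (0 : ℝ)..1, colM η u * g₁ u)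
        + ∫ u in (0 : ℝ)..1, rowM η u * g₂ u := by
    intro η hη hη'
    rw [← moment2_x hη hη' m₁ b₁, ← moment2_y hη hη' m₂ b₂]
    have i₁ : IntegrableOn (fun q : ℝ × ℝ => η q.1 q.2 * g₁ q.1) sq01 :=
      integrableOn_bdd2 (C := 1 * C) (hη.mul (m₁.comp measurable_fst)) fun q => by
        rw [abs_mul]
        exact mul_le_mul (bool_abs hη' _ _) (b₁ _) (abs_nonneg _) zero_le_one
    have i₂ : IntegrableOn (fun q : ℝ × ℝ => η q.1 q.2 * g₂ q.2) sq01 :=
      integrableOn_bdd2 (C := 1 * C) (hη.mul (m₂.comp measurable_snd)) fun q => by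
        rw [abs_mul]
        exact mul_le_mul (bool_abs hη' _ _) (b₂ _) (abs_nonneg _) zero_le_one
    rw [← integral_add i₁ i₂]
    refine integral_congr_ae (ae_of_all _ fun q => ?_)
    beta_reduce
    ring
  have hint : ∫ q in {q : ℝ × ℝ | χ q.1 q.2 = 1}, (g₁ q.1 + g₂ q.2) ∂(volume.restrict sq01)
      ≤ ∫ q in {q : ℝ × ℝ | χ' q.1 q.2 = 1}, (g₁ q.1 + g₂ q.2) ∂(volume.restrict sq01) := by
    rw [setIntegral_eq_square hm hb, setIntegral_eq_square hm' hb', key hm hb, key hm' hb',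
      integral_congr_nuU hcol, integral_congr_nuU hrow]
  have hμ : ((volume : Measure (ℝ × ℝ)).restrict sq01) {q : ℝ × ℝ | χ q.1 q.2 = 1}
      = ((volume : Measure (ℝ × ℝ)).restrict sq01) {q : ℝ × ℝ | χ' q.1 q.2 = 1} := by
    have e : ∀ {η : ℝ → ℝ → ℝ}, Measurable (fun q : ℝ × ℝ => η q.1 q.2) →
        (∀ x y, η x y = 0 ∨ η x y = 1) →
        ((volume : Measure (ℝ × ℝ)).restrict sq01).real {q : ℝ × ℝ | η q.1 q.2 = 1}
          = ∫ u in (0 : ℝ)..1, rowM η u * 1 := by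
      intro η hη hη'
      have h := setIntegral_eq_square hη hη' (fun _ => (1 : ℝ))
      rw [setIntegral_const, smul_eq_mul, mul_one] at h
      rw [h]
      exact moment2_y hη hη' (g := fun _ => (1 : ℝ)) measurable_const (C := 1) (fun _ => by simp)
    have h6 : ((volume : Measure (ℝ × ℝ)).restrict sq01).real {q : ℝ × ℝ | χ q.1 q.2 = 1}
        = ((volume : Measure (ℝ × ℝ)).restrict sq01).real {q : ℝ × ℝ | χ' q.1 q.2 = 1} := by
      rw [e hm hb, e hm' hb', integral_congr_nuU hrow]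
    exact (measureReal_eq_measureReal_iff).mp h6
  have := bathtub hS hS' hf hbd (fun q hq => hlt q hq) (fun q hq => hge q hq) hμ hint
  rwa [Measure.restrict_apply (hS.symmDiff hS')] at this

theorem discInd_meas (a b R : ℝ) : Measurable (fun q : ℝ × ℝ => discInd a b R q.1 q.2) := by
  unfold discInd
  refine Measurable.ite ?_ measurable_const measurable_const
  exact measurableSet_lt (((sq_measurable a).comp measurable_fst).add
    ((sq_measurable b).comp measurable_snd)) measurable_const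

theorem discInd_bool (a b R x y : ℝ) : discInd a b R x y = 0 ∨ discInd a b R x y = 1 := by
  unfold discInd
  by_cases h : tdist a x ^ 2 + tdist b y ^ 2 < R ^ 2
  · right
    rw [if_pos h]
  · left
    rw [if_neg h]

theorem rowM_discInd (a b : ℝ) {R : ℝ} (hR : R ^ 2 ≤ 1 / 4) (u : ℝ) :
    rowM (discInd a b R) u = 2 * Real.sqrt (R ^ 2 - tdist b u ^ 2) := by
  have hw : R ^ 2 - tdist b u ^ 2 ≤ 1 / 4 := by nlinarith [sq_nonneg (tdist b u)]
  rw [← chord_mass a hw]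
  unfold rowM discInd
  refine intervalIntegral.integral_congr fun x _ => ?_
  simp only [lt_sub_iff_add_lt]

theorem colM_discInd (a b : ℝ) {R : ℝ} (hR : R ^ 2 ≤ 1 / 4) (u : ℝ) :
    colM (discInd a b R) u = 2 * Real.sqrt (R ^ 2 - tdist a u ^ 2) := by
  have hw : R ^ 2 - tdist a u ^ 2 ≤ 1 / 4 := by nlinarith [sq_nonneg (tdist a u)]
  rw [← chord_mass b hw]
  unfold colM discInd
  refine intervalIntegral.integral_congr fun y _ => ?_
  simp only [lt_sub_iff_add_lt, add_comm]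

/-- THE DISC FROM ITS ROWS AND COLUMNS: `L4`, level two. -/
theorem disc_of_marginals {χ : ℝ → ℝ → ℝ} (hm : Measurable (fun q : ℝ × ℝ => χ q.1 q.2))
    (hb : ∀ x y, χ x y = 0 ∨ χ x y = 1) {a b R : ℝ} (hR : R ^ 2 ≤ 1 / 4)
    (hrow : ∀ᵐ u ∂(volume.restrict (Ioc (0 : ℝ) 1)), rowM χ u = 2 * Real.sqrt (R ^ 2 - tdist b u ^ 2))
    (hcol : ∀ᵐ u ∂(volume.restrict (Ioc (0 : ℝ) 1)), colM χ u = 2 * Real.sqrt (R ^ 2 - tdist a u ^ 2)) :
    volume (symmDiff {q : ℝ × ℝ | χ q.1 q.2 = 1} (tDisc a b R) ∩ (Ico (0 : ℝ) 1 ×ˢ Ico (0 : ℝ) 1)) = 0 := by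
  have hset : tDisc a b R = {q : ℝ × ℝ | discInd a b R q.1 q.2 = 1} := by
    ext q
    change tdist a q.1 ^ 2 + tdist b q.2 ^ 2 < R ^ 2 ↔ discInd a b R q.1 q.2 = 1
    unfold discInd
    by_cases h : tdist a q.1 ^ 2 + tdist b q.2 ^ 2 < R ^ 2
    · simp [h]
    · simp [h]
  rw [hset]
  refine aeEq2_of_marginals (χ' := discInd a b R) (g₁ := fun u => tdist a u ^ 2)
    (g₂ := fun u => tdist b u ^ 2) (c := R ^ 2) (C := 1 / 4) hm hb (discInd_meas a b R)
    (discInd_bool a b R) ?_ ?_ (sq_measurable _) (sq_measurable _) (sq_bdd _) (sq_bdd _) ?_ ?_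
  · filter_upwards [hrow] with u hu
    rw [hu, rowM_discInd a b hR]
  · filter_upwards [hcol] with u hu
    rw [hu, colM_discInd a b hR]
  · intro q hq
    unfold discInd at hq
    by_contra hne
    rw [if_neg hne] at hq
    norm_num at hq
  · intro q hq
    unfold discInd at hq
    by_contra hne
    rw [if_pos (not_le.mp hne)] at hq
    exact hq rfl

/-! ### Passing from slices to the solid -/

/-- Iterated null sets on the cube, `t` outermost. -/
theorem aeEq3_of_iter_t {E S : Set R3} (hE : MeasurableSet E) (hS : MeasurableSet S)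
    (h : ∀ᵐ t ∂(volume.restrict (Ioc (0 : ℝ) 1)), ∀ᵐ y ∂(volume.restrict (Ioc (0 : ℝ) 1)),
      ∀ᵐ x ∂(volume.restrict (Ioc (0 : ℝ) 1)), ((x, y, t) ∈ E ↔ (x, y, t) ∈ S)) : AEEq3 E S := by
  have hm : MeasurableSet (symmDiff E S) := hE.symmDiff hS
  have hfin : IsFiniteMeasure ((volume : Measure R3).restrict Q3) := ⟨by
    rw [Measure.restrict_apply_univ]
    exact cube_finite.lt_top⟩
  have h1 : ((volume : Measure R3).restrict Q3).real (symmDiff E S)
      = ∫ p in Q3, ind (symmDiff E S) p.1 p.2.1 p.2.2 * 1 := measure_eq_cube hm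
  have h2 : ∫ p in Q3, ind (symmDiff E S) p.1 p.2.1 p.2.2 * 1
      = ∫ u in (0 : ℝ)..1, massT (ind (symmDiff E S)) u * 1 :=
    moment_t hm (g := fun _ => (1 : ℝ)) measurable_const (C := 1) (fun _ => by simp)
  have h3 : ∫ u in (0 : ℝ)..1, massT (ind (symmDiff E S)) u * 1 = 0 := by
    rw [intervalIntegral.integral_of_le zero_le_one]
    refine integral_eq_zero_of_ae ?_
    filter_upwards [h] with t ht
    simp only [Pi.zero_apply, mul_one]
    change (∫ y in (0 : ℝ)..1, ∫ x in (0 : ℝ)..1, ind (symmDiff E S) x y t) = 0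
    rw [intervalIntegral.integral_of_le zero_le_one]
    refine integral_eq_zero_of_ae ?_
    filter_upwards [ht] with y hy
    simp only [Pi.zero_apply]
    rw [intervalIntegral.integral_of_le zero_le_one]
    refine integral_eq_zero_of_ae ?_
    filter_upwards [hy] with x hx
    simp only [Pi.zero_apply]
    unfold ind
    refine indicator_of_notMem ?_ _
    intro hmem
    rcases hmem with hmem | hmem
    · exact hmem.2 (hx.mp hmem.1)
    · exact hmem.2 (hx.mpr hmem.1)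
  have h4 : ((volume : Measure R3).restrict Q3) (symmDiff E S) = 0 := by
    have h5 := h1.trans (h2.trans h3)
    exact (measureReal_eq_zero_iff).mp h5
  unfold AEEq3
  rwa [Measure.restrict_apply hm] at h4

/-! ### The distance to the nearest integer and the canonical regions -/

theorem tdist_eq_round (c x : ℝ) : tdist c x = |x - c - round (x - c)| := by
  unfold tdist uu
  rw [round_eq, Int.fract]
  have : 2 * (x - c + 1 / 2 - (⌊x - c + 1 / 2⌋ : ℝ)) - 1 = 2 * (x - c - (⌊x - c + 1 / 2⌋ : ℝ)) := by ring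
  rw [this, abs_mul]
  norm_num

theorem tdist_le_abs (c x : ℝ) (a : ℤ) : tdist c x ≤ |x - c - a| := by
  rw [tdist_eq_round]
  exact round_le (x - c) a

theorem tdist_add_int (c x : ℝ) (a : ℤ) : tdist c (x + a) = tdist c x := by
  have h : Function.Periodic (tdist c) 1 := tdist_add_one c
  have := (h.int_mul a) x
  rwa [mul_one] at this

theorem sq_tdist_le (c x : ℝ) (a : ℤ) : tdist c x ^ 2 ≤ (x - c - a) ^ 2 := by
  have h1 := tdist_le_abs c x a
  have h0 := tdist_nonneg c x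
  calc tdist c x ^ 2 ≤ |x - c - a| ^ 2 := by gcongr
    _ = (x - c - a) ^ 2 := sq_abs _

theorem exists_sq_tdist (c x : ℝ) : ∃ a : ℤ, (x - c - a) ^ 2 = tdist c x ^ 2 :=
  ⟨round (x - c), by rw [tdist_eq_round, sq_abs]⟩

theorem ballSet_eq (x₀ y₀ t₀ r : ℝ) : ballSet x₀ y₀ t₀ r = tBall x₀ y₀ t₀ r := by
  ext p
  constructor
  · rintro ⟨a, b, c, h⟩
    have h1 := sq_tdist_le x₀ p.1 a
    have h2 := sq_tdist_le y₀ p.2.1 b
    have h3 := sq_tdist_le t₀ p.2.2 c
    change tdist x₀ p.1 ^ 2 + tdist y₀ p.2.1 ^ 2 + tdist t₀ p.2.2 ^ 2 < r ^ 2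
    linarith
  · intro h
    have h' : tdist x₀ p.1 ^ 2 + tdist y₀ p.2.1 ^ 2 + tdist t₀ p.2.2 ^ 2 < r ^ 2 := h
    obtain ⟨a, ha⟩ := exists_sq_tdist x₀ p.1
    obtain ⟨b, hb⟩ := exists_sq_tdist y₀ p.2.1
    obtain ⟨c, hc⟩ := exists_sq_tdist t₀ p.2.2
    exact ⟨a, b, c, by rw [ha, hb, hc]; exact h'⟩

theorem discSet_eq (x₀ y₀ R : ℝ) : discSet x₀ y₀ R = tDisc x₀ y₀ R := by
  ext p
  constructor
  · rintro ⟨a, b, h⟩
    have h1 := sq_tdist_le x₀ p.1 a
    have h2 := sq_tdist_le y₀ p.2 b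
    change tdist x₀ p.1 ^ 2 + tdist y₀ p.2 ^ 2 < R ^ 2
    linarith
  · intro h
    have h' : tdist x₀ p.1 ^ 2 + tdist y₀ p.2 ^ 2 < R ^ 2 := h
    obtain ⟨a, ha⟩ := exists_sq_tdist x₀ p.1
    obtain ⟨b, hb⟩ := exists_sq_tdist y₀ p.2
    exact ⟨a, b, by rw [ha, hb]; exact h'⟩

theorem tubeT_eq (x₀ y₀ r : ℝ) : tubeT x₀ y₀ r = tTubeT x₀ y₀ r := by
  ext p
  constructor
  · rintro ⟨a, b, h⟩
    have h1 := sq_tdist_le x₀ p.1 a
    have h2 := sq_tdist_le y₀ p.2.1 b
    change tdist x₀ p.1 ^ 2 + tdist y₀ p.2.1 ^ 2 < r ^ 2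
    linarith
  · intro h
    have h' : tdist x₀ p.1 ^ 2 + tdist y₀ p.2.1 ^ 2 < r ^ 2 := h
    obtain ⟨a, ha⟩ := exists_sq_tdist x₀ p.1
    obtain ⟨b, hb⟩ := exists_sq_tdist y₀ p.2.1
    exact ⟨a, b, by rw [ha, hb]; exact h'⟩

theorem tubeX_eq (y₀ t₀ r : ℝ) : tubeX y₀ t₀ r = tTubeX y₀ t₀ r := by
  ext p
  constructor
  · rintro ⟨a, b, h⟩
    have h1 := sq_tdist_le y₀ p.2.1 a
    have h2 := sq_tdist_le t₀ p.2.2 b
    change tdist y₀ p.2.1 ^ 2 + tdist t₀ p.2.2 ^ 2 < r ^ 2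
    linarith
  · intro h
    have h' : tdist y₀ p.2.1 ^ 2 + tdist t₀ p.2.2 ^ 2 < r ^ 2 := h
    obtain ⟨a, ha⟩ := exists_sq_tdist y₀ p.2.1
    obtain ⟨b, hb⟩ := exists_sq_tdist t₀ p.2.2
    exact ⟨a, b, by rw [ha, hb]; exact h'⟩

theorem tubeY_eq (x₀ t₀ r : ℝ) : tubeY x₀ t₀ r = tTubeY t₀ x₀ r := by
  ext p
  constructor
  · rintro ⟨a, b, h⟩
    have h1 := sq_tdist_le x₀ p.1 a
    have h2 := sq_tdist_le t₀ p.2.2 b
    change tdist t₀ p.2.2 ^ 2 + tdist x₀ p.1 ^ 2 < r ^ 2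
    linarith
  · intro h
    have h' : tdist t₀ p.2.2 ^ 2 + tdist x₀ p.1 ^ 2 < r ^ 2 := h
    obtain ⟨a, ha⟩ := exists_sq_tdist x₀ p.1
    obtain ⟨b, hb⟩ := exists_sq_tdist t₀ p.2.2
    exact ⟨a, b, by rw [ha, hb]; linarith⟩

/-! ### From the window to a period -/

/-- A bound on the window about `c` is a bound on the whole line, for periodic functions. -/
theorem ae_tdist_of_window {f : ℝ → ℝ} (hf : Function.Periodic f 1) {c : ℝ} {G : ℝ → ℝ}
    (h : ∀ᵐ t : ℝ, |t - c| ≤ 1 / 2 → f t ≤ G |t - c|) : ∀ᵐ t : ℝ, f t ≤ G (tdist c t) := by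
  have h1 : ∀ n : ℤ, ∀ᵐ t : ℝ, |(t - n) - c| ≤ 1 / 2 → f (t - n) ≤ G |(t - n) - c| := fun n =>
    (measurePreserving_sub_right volume (n : ℝ)).quasiMeasurePreserving.ae h
  have h2 := ae_all_iff.mpr h1
  filter_upwards [h2] with t ht
  have h3 := ht (round (t - c))
  have e : |t - round (t - c) - c| = tdist c t := by
    rw [tdist_eq_round]
    congr 1
    ring
  rw [e] at h3
  have e2 : f (t - round (t - c)) = f t := by
    have := (hf.int_mul (-round (t - c))) t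
    rw [mul_one] at this
    rw [← this]
    congr 1
    push_cast
    ring
  rw [e2] at h3
  exact h3 (tdist_le c t)

/-- A function below another one, with the same integral, agrees with it a.e. -/
theorem ae_eq_of_le_of_integral {f g : ℝ → ℝ} (hf : IntervalIntegrable f volume 0 1)
    (hg : IntervalIntegrable g volume 0 1)
    (hle : ∀ᵐ t ∂(volume.restrict (Ioc (0 : ℝ) 1)), f t ≤ g t)
    (hint : ∫ t in (0 : ℝ)..1, g t ≤ ∫ t in (0 : ℝ)..1, f t) :
    ∀ᵐ t ∂(volume.restrict (Ioc (0 : ℝ) 1)), f t = g t := by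
  have h1 := (intervalIntegrable_iff_integrableOn_Ioc_of_le zero_le_one).mp hf
  have h2 := (intervalIntegrable_iff_integrableOn_Ioc_of_le zero_le_one).mp hg
  have hnn : 0 ≤ᵐ[volume.restrict (Ioc (0 : ℝ) 1)] (fun t => g t - f t) := by
    filter_upwards [hle] with t ht
    simp only [Pi.zero_apply]
    linarith
  have hz : ∫ t in Ioc (0 : ℝ) 1, (g t - f t) = 0 := by
    refine le_antisymm ?_ (integral_nonneg_of_ae hnn)
    rw [integral_sub h2 h1, ← intervalIntegral.integral_of_le zero_le_one,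
      ← intervalIntegral.integral_of_le zero_le_one]
    linarith
  have h3 := (integral_eq_zero_iff_of_nonneg_ae hnn (h2.sub h1)).mp hz
  filter_upwards [h3] with t ht
  simp only [Pi.zero_apply] at ht
  linarith

private theorem iI_of_bdd {f : ℝ → ℝ} (hf : Measurable f) {C : ℝ} (hC : ∀ t, |f t| ≤ C) :
    IntervalIntegrable f volume 0 1 := by
  rw [intervalIntegrable_iff_integrableOn_Ioc_of_le zero_le_one]
  refine Measure.integrableOn_of_bounded (M := C) (by simp) hf.aestronglyMeasurable ?_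
  exact ae_of_all _ fun p => by simpa using hC p

/-- The total mass of the profile of a ball. -/
theorem integral_ball_profile (c : ℝ) {r : ℝ} (hr : 0 < r) (hr2 : r ≤ 1 / 2) :
    ∫ s in (0 : ℝ)..1, Real.pi * max (r ^ 2 - tdist c s ^ 2) 0 = 4 / 3 * Real.pi * r ^ 3 := by
  have hg : Continuous (fun u : ℝ => Real.pi * max (r ^ 2 - u ^ 2) 0) := by fun_prop
  rw [period_integral hg c]
  have h3 := intervalIntegral.integral_add_adjacent_intervals (μ := volume) (a := 0) (b := r)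
    (c := 1 / 2) (hg.intervalIntegrable _ _) (hg.intervalIntegrable _ _)
  have h4 : ∫ u in r..(1 / 2), Real.pi * max (r ^ 2 - u ^ 2) 0 = 0 := by
    rw [intervalIntegral.integral_congr (g := fun _ => (0 : ℝ))]
    · simp
    · intro u hu
      have hu' : u ∈ Icc r (1 / 2) := by rwa [uIcc_of_le hr2] at hu
      beta_reduce
      rw [max_eq_right (by nlinarith [hu'.1]), mul_zero]
  have h5 : ∫ u in (0 : ℝ)..r, Real.pi * max (r ^ 2 - u ^ 2) 0
      = ∫ u in (0 : ℝ)..r, Real.pi * (r ^ 2 - u ^ 2) := by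
    refine intervalIntegral.integral_congr fun u hu => ?_
    have hu' : u ∈ Icc 0 r := by rwa [uIcc_of_le hr.le] at hu
    beta_reduce
    rw [max_eq_left (by nlinarith [hu'.1, hu'.2])]
  have h6 : ∫ u in (0 : ℝ)..r, Real.pi * (r ^ 2 - u ^ 2) = Real.pi * (r ^ 3 - r ^ 3 / 3) := by
    rw [intervalIntegral.integral_const_mul, intervalIntegral.integral_sub (by simp) (by simp)]
    simp only [intervalIntegral.integral_const, integral_pow, smul_eq_mul]
    norm_num
    ring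
  rw [← h3, h4, add_zero, h5, h6]
  ring

/-- The total mass of the profile of a disc. -/
theorem integral_disc_profile (c : ℝ) {R : ℝ} (hR : 0 < R) (hR2 : R ≤ 1 / 2) :
    ∫ s in (0 : ℝ)..1, 2 * Real.sqrt (R ^ 2 - tdist c s ^ 2) = Real.pi * R ^ 2 := by
  rw [← disc_area 0 c hR hR2]
  refine intervalIntegral.integral_congr fun s _ => ?_
  beta_reduce
  have hw : R ^ 2 - tdist c s ^ 2 ≤ 1 / 4 := by
    have : R ^ 2 ≤ 1 / 4 := by nlinarith
    nlinarith [sq_nonneg (tdist c s)]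
  rw [← chord_mass 0 hw]
  refine intervalIntegral.integral_congr fun v _ => ?_
  simp only [lt_sub_iff_add_lt]

/-! ### From the cube to the whole space -/

/-- A periodic set with no mass in the cube is null. -/
theorem null_of_Q3 {S : Set R3}
    (hper : ∀ (a b c : ℤ) (x y t : ℝ), ((x + a, y + b, t + c) : R3) ∈ S ↔ ((x, y, t) : R3) ∈ S)
    (h0 : volume (S ∩ Q3) = 0) : volume S = 0 := by
  have hcover : S ⊆ ⋃ v : ℤ × ℤ × ℤ,
      (fun p : R3 => p + (((v.1 : ℝ), (v.2.1 : ℝ), (v.2.2 : ℝ)) : R3)) ⁻¹' (S ∩ Q3) := by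
    intro p hp
    refine mem_iUnion.mpr ⟨(-⌊p.1⌋, -⌊p.2.1⌋, -⌊p.2.2⌋), ?_⟩
    refine ⟨?_, ?_⟩
    · exact (hper (-⌊p.1⌋) (-⌊p.2.1⌋) (-⌊p.2.2⌋) p.1 p.2.1 p.2.2).mpr hp
    · refine ⟨⟨?_, ?_⟩, ⟨?_, ?_⟩, ⟨?_, ?_⟩⟩ <;>
      simp only [Prod.fst_add, Prod.snd_add, Int.cast_neg] <;>
      first
      | linarith [Int.floor_le p.1, Int.lt_floor_add_one p.1]
      | linarith [Int.floor_le p.2.1, Int.lt_floor_add_one p.2.1]
      | linarith [Int.floor_le p.2.2, Int.lt_floor_add_one p.2.2]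
  refine measure_mono_null hcover (measure_iUnion_null fun v => ?_)
  have hinv : (volume : Measure R3).IsAddRightInvariant :=
    Measure.prod.instIsAddRightInvariant (μ := (volume : Measure ℝ))
      (ν := (volume : Measure ℝ).prod (volume : Measure ℝ))
  rw [measure_preimage_add_right]
  exact h0

/-- A periodic set with no mass in the square is null. -/
theorem null_of_square {S : Set (ℝ × ℝ)}
    (hper : ∀ (a b : ℤ) (x y : ℝ), ((x + a, y + b) : ℝ × ℝ) ∈ S ↔ ((x, y) : ℝ × ℝ) ∈ S)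
    (h0 : volume (S ∩ (Ico (0 : ℝ) 1 ×ˢ Ico (0 : ℝ) 1)) = 0) : volume S = 0 := by
  have hcover : S ⊆ ⋃ v : ℤ × ℤ,
      (fun p : ℝ × ℝ => p + (((v.1 : ℝ), (v.2 : ℝ)) : ℝ × ℝ)) ⁻¹'
        (S ∩ (Ico (0 : ℝ) 1 ×ˢ Ico (0 : ℝ) 1)) := by
    intro p hp
    refine mem_iUnion.mpr ⟨(-⌊p.1⌋, -⌊p.2⌋), ?_⟩
    refine ⟨?_, ?_⟩
    · exact (hper (-⌊p.1⌋) (-⌊p.2⌋) p.1 p.2).mpr hp
    · refine ⟨⟨?_, ?_⟩, ⟨?_, ?_⟩⟩ <;>
      simp only [Prod.fst_add, Prod.snd_add, Int.cast_neg] <;>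
      first
      | linarith [Int.floor_le p.1, Int.lt_floor_add_one p.1]
      | linarith [Int.floor_le p.2, Int.lt_floor_add_one p.2]
  refine measure_mono_null hcover (measure_iUnion_null fun v => ?_)
  have hinv : (volume : Measure (ℝ × ℝ)).IsAddRightInvariant := by
    change ((volume : Measure ℝ).prod (volume : Measure ℝ)).IsAddRightInvariant
    infer_instance
  rw [measure_preimage_add_right]
  exact h0

/-! ### The profile equalities from the inequalities -/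

/-- The mass of a slice is bounded by the profile of the ball in the window and the total masses agree:
equality. -/
theorem massT_eq_of_le {ψ : ℝ → ℝ → ℝ → ℝ} (h : Ind3 ψ) {c r : ℝ} (hr : 0 < r) (hr2 : r ≤ 1 / 2)
    (hV : vol ψ = 4 / 3 * Real.pi * r ^ 3)
    (hle : ∀ᵐ t : ℝ, |t - c| ≤ 1 / 2 → massT ψ t ≤ max (Real.pi * (r ^ 2 - (t - c) ^ 2)) 0) :
    ∀ᵐ t ∂(volume.restrict (Ioc (0 : ℝ) 1)), massT ψ t = Real.pi * max (r ^ 2 - tdist c t ^ 2) 0 := by
  have hper : Function.Periodic (massT ψ) 1 := fun t => by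
    simp only [massT, area, slc, h.per_t]
  have h1 : ∀ᵐ t : ℝ, massT ψ t ≤ max (Real.pi * (r ^ 2 - (tdist c t) ^ 2)) 0 :=
    ae_tdist_of_window hper (G := fun u => max (Real.pi * (r ^ 2 - u ^ 2)) 0) (by
      filter_upwards [hle] with t ht ht'
      have := ht ht'
      beta_reduce
      rwa [sq_abs])
  have e : ∀ t, max (Real.pi * (r ^ 2 - tdist c t ^ 2)) 0 = Real.pi * max (r ^ 2 - tdist c t ^ 2) 0 := by
    intro t
    rw [mul_max_of_nonneg _ _ Real.pi_pos.le, mul_zero]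
  have hgm : Measurable (fun t => Real.pi * max (r ^ 2 - tdist c t ^ 2) 0) :=
    (((measurable_const.sub (sq_measurable c)).max measurable_const).const_mul Real.pi)
  have hgb : ∀ t, |Real.pi * max (r ^ 2 - tdist c t ^ 2) 0| ≤ Real.pi * (r ^ 2 + 1) := by
    intro t
    rw [abs_of_nonneg (mul_nonneg Real.pi_pos.le (le_max_right _ _))]
    refine mul_le_mul_of_nonneg_left ?_ Real.pi_pos.le
    refine max_le ?_ (by positivity)
    nlinarith [sq_nonneg (tdist c t)]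
  refine ae_eq_of_le_of_integral (iI_of_bdd (C := 1) h.measurable_massT fun t => ?_)
    (iI_of_bdd hgm hgb) (ae_restrict_of_ae ?_) ?_
  · rw [abs_of_nonneg (h.massT_mem t).1]
    exact (h.massT_mem t).2
  · filter_upwards [h1] with t ht
    rwa [e] at ht
  · rw [integral_ball_profile c hr hr2]
    exact hV.symm.le

/-- The same at level two. -/
theorem rowM_eq_of_le {ψ : ℝ → ℝ → ℝ} (h : Ind2 ψ) {c R : ℝ} (hR : 0 < R) (hR2 : R ≤ 1 / 2)
    (hA : area ψ = Real.pi * R ^ 2)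
    (hle : ∀ᵐ t : ℝ, |t - c| ≤ 1 / 2 → rowM ψ t ≤ 2 * Real.sqrt (max (R ^ 2 - (t - c) ^ 2) 0)) :
    ∀ᵐ t ∂(volume.restrict (Ioc (0 : ℝ) 1)), rowM ψ t = 2 * Real.sqrt (R ^ 2 - tdist c t ^ 2) := by
  have hper : Function.Periodic (rowM ψ) 1 := fun t => by
    simp only [rowM, h.per_y]
  have h1 : ∀ᵐ t : ℝ, rowM ψ t ≤ 2 * Real.sqrt (max (R ^ 2 - (tdist c t) ^ 2) 0) :=
    ae_tdist_of_window hper (G := fun u => 2 * Real.sqrt (max (R ^ 2 - u ^ 2) 0)) (by
      filter_upwards [hle] with t ht ht'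
      have := ht ht'
      beta_reduce
      rwa [sq_abs])
  have hgc : Continuous (fun u : ℝ => 2 * Real.sqrt (R ^ 2 - u ^ 2)) := by fun_prop
  have hgm : Measurable (fun t => 2 * Real.sqrt (R ^ 2 - tdist c t ^ 2)) :=
    hgc.measurable.comp (tdist_measurable c)
  have hgb : ∀ t, |2 * Real.sqrt (R ^ 2 - tdist c t ^ 2)| ≤ 2 * Real.sqrt (R ^ 2) := by
    intro t
    rw [abs_of_nonneg (by positivity)]
    have : Real.sqrt (R ^ 2 - tdist c t ^ 2) ≤ Real.sqrt (R ^ 2) :=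
      Real.sqrt_le_sqrt (by nlinarith [sq_nonneg (tdist c t)])
    linarith
  refine ae_eq_of_le_of_integral (iI_of_bdd (C := 1) h.measurable_rowM fun t => ?_)
    (iI_of_bdd hgm hgb) (ae_restrict_of_ae ?_) ?_
  · rw [abs_of_nonneg (h.rowM_mem t).1]
    exact (h.rowM_mem t).2
  · filter_upwards [h1] with t ht
    have e : Real.sqrt (max (R ^ 2 - tdist c t ^ 2) 0) = Real.sqrt (R ^ 2 - tdist c t ^ 2) :=
      semi_eq_sqrt _
    rwa [e] at ht
  · rw [integral_disc_profile c hR hR2]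
    exact hA.symm.le

/-- The `y`-marginal, as a slice mass of the permuted function. -/
theorem massT_perm_eq_margY {χ : ℝ → ℝ → ℝ → ℝ} (h : Ind3 χ) (u : ℝ) :
    massT (perm χ) u = margY χ u := by
  have hm : Measurable (fun q : ℝ × ℝ => χ q.1 u q.2) :=
    h.meas.comp (measurable_fst.prodMk (measurable_const.prodMk measurable_snd))
  have hb : ∀ q : ℝ × ℝ, |χ q.1 u q.2| ≤ 1 := fun q => by
    rcases h.bool q.1 u q.2 with h0 | h0 <;> simp [h0]
  have h1 := square_x (F := fun q : ℝ × ℝ => χ q.1 u q.2) (integrableOn_bdd2 hm hb)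
  have h2 := square_y (F := fun q : ℝ × ℝ => χ q.1 u q.2) (integrableOn_bdd2 hm hb)
  exact h1.symm.trans h2

/-- `L4` in the form of the stubs, level three. -/
theorem bathtub3_aux {χ : ℝ → ℝ → ℝ → ℝ} (h : Ind3 χ) {x₀ y₀ t₀ r : ℝ} (hr : 0 < r) (hr2 : r ≤ 1 / 2)
    (hV : vol χ = 4 / 3 * Real.pi * r ^ 3)
    (ht : ∀ᵐ t, |t - t₀| ≤ 1 / 2 → massT χ t ≤ max (Real.pi * (r ^ 2 - (t - t₀) ^ 2)) 0)
    (hy : ∀ᵐ t, |t - y₀| ≤ 1 / 2 → massT (perm χ) t ≤ max (Real.pi * (r ^ 2 - (t - y₀) ^ 2)) 0)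
    (hx : ∀ᵐ t, |t - x₀| ≤ 1 / 2 → massT (perm (perm χ)) t ≤ max (Real.pi * (r ^ 2 - (t - x₀) ^ 2)) 0) :
    ∀ᵐ p : R3, χ p.1 p.2.1 p.2.2 = (ballSet x₀ y₀ t₀ r).indicator (fun _ => (1 : ℝ)) p := by
  have hE : MeasurableSet {p : R3 | χ p.1 p.2.1 p.2.2 = 1} := h.meas (measurableSet_singleton 1)
  have hind : ind {p : R3 | χ p.1 p.2.1 p.2.2 = 1} = χ := by
    funext x y t
    unfold ind
    rcases h.bool x y t with h0 | h0
    · rw [indicator_of_notMem, h0]
      change ¬ χ x y t = 1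
      rw [h0]
      norm_num
    · rw [indicator_of_mem (show ((x, y, t) : R3) ∈ {p : R3 | χ p.1 p.2.1 p.2.2 = 1} from h0), h0]
  have hr' : r ^ 2 ≤ 1 / 4 := by nlinarith
  have e1 := massT_eq_of_le h hr hr2 hV ht
  have e2 := massT_eq_of_le h.perm hr hr2 ((vol_perm h).trans hV) hy
  have e3 := massT_eq_of_le h.perm.perm hr hr2 (((vol_perm h.perm).trans (vol_perm h)).trans hV) hx
  have key : AEEq3 {p : R3 | χ p.1 p.2.1 p.2.2 = 1} (tBall x₀ y₀ t₀ r) := by
    refine ball_of_marginals hE hr' ?_ ?_ ?_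
    · rw [hind]
      exact e3
    · rw [hind]
      filter_upwards [e2] with u hu
      rw [← massT_perm_eq_margY h, hu]
    · rw [hind]
      exact e1
  have hper : ∀ (a b c : ℤ) (x y t : ℝ),
      ((x + a, y + b, t + c) : R3) ∈ symmDiff {p : R3 | χ p.1 p.2.1 p.2.2 = 1} (tBall x₀ y₀ t₀ r) ↔
        ((x, y, t) : R3) ∈ symmDiff {p : R3 | χ p.1 p.2.1 p.2.2 = 1} (tBall x₀ y₀ t₀ r) := by
    intro a b c x y t
    have h1 : χ (x + a) (y + b) (t + c) = χ x y t := by
      have p1 : Function.Periodic (fun s => χ s (y + b) (t + c)) 1 := fun s => h.per_x s _ _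
      have p2 : Function.Periodic (fun s => χ x s (t + c)) 1 := fun s => h.per_y x s _
      have p3 : Function.Periodic (fun s => χ x y s) 1 := fun s => h.per_t x y s
      have q1 := (p1.int_mul a) x
      have q2 := (p2.int_mul b) y
      have q3 := (p3.int_mul c) t
      rw [mul_one] at q1 q2 q3
      exact q1.trans (q2.trans q3)
    have h2 : (((x + a, y + b, t + c) : R3) ∈ {p : R3 | χ p.1 p.2.1 p.2.2 = 1}) ↔
        (((x, y, t) : R3) ∈ {p : R3 | χ p.1 p.2.1 p.2.2 = 1}) := by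
      change χ (x + a) (y + b) (t + c) = 1 ↔ χ x y t = 1
      rw [h1]
    have h3 : (((x + a, y + b, t + c) : R3) ∈ tBall x₀ y₀ t₀ r) ↔
        (((x, y, t) : R3) ∈ tBall x₀ y₀ t₀ r) := by
      change tdist x₀ (x + a) ^ 2 + tdist y₀ (y + b) ^ 2 + tdist t₀ (t + c) ^ 2 < r ^ 2 ↔
        tdist x₀ x ^ 2 + tdist y₀ y ^ 2 + tdist t₀ t ^ 2 < r ^ 2
      rw [tdist_add_int, tdist_add_int, tdist_add_int]
    simp only [mem_symmDiff, h2, h3]
  have hnull := null_of_Q3 hper key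
  rw [ballSet_eq]
  have hae : ∀ᵐ p : R3, p ∉ symmDiff {p : R3 | χ p.1 p.2.1 p.2.2 = 1} (tBall x₀ y₀ t₀ r) :=
    measure_eq_zero_iff_ae_notMem.mp hnull
  filter_upwards [hae] with p hp
  by_cases hb : p ∈ tBall x₀ y₀ t₀ r
  · rw [indicator_of_mem hb]
    by_contra hne
    exact hp (Or.inr ⟨hb, hne⟩)
  · rw [indicator_of_notMem hb]
    rcases h.bool p.1 p.2.1 p.2.2 with h0 | h0
    · exact h0
    · exact absurd (Or.inl ⟨h0, hb⟩) hp

/-- `L4` in the form of the stubs, level two. -/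
theorem bathtub2_aux {ψ : ℝ → ℝ → ℝ} (h : Ind2 ψ) {x₀ y₀ R : ℝ} (hR : 0 < R) (hR2 : R ≤ 1 / 2)
    (hA : area ψ = Real.pi * R ^ 2)
    (hrow : ∀ᵐ y, |y - y₀| ≤ 1 / 2 → rowM ψ y ≤ 2 * Real.sqrt (max (R ^ 2 - (y - y₀) ^ 2) 0))
    (hcol : ∀ᵐ x, |x - x₀| ≤ 1 / 2 → colM ψ x ≤ 2 * Real.sqrt (max (R ^ 2 - (x - x₀) ^ 2) 0)) :
    ∀ᵐ p : ℝ × ℝ, ψ p.1 p.2 = (discSet x₀ y₀ R).indicator (fun _ => (1 : ℝ)) p := by
  have hR' : R ^ 2 ≤ 1 / 4 := by nlinarith
  have e1 := rowM_eq_of_le h hR hR2 hA hrow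
  have e2 : ∀ᵐ t ∂(volume.restrict (Ioc (0 : ℝ) 1)), colM ψ t = 2 * Real.sqrt (R ^ 2 - tdist x₀ t ^ 2) :=
    rowM_eq_of_le (ψ := fun x y => ψ y x) h.swap hR hR2 (by
      rw [← hA, h.area_eq_cols]
      rfl) hcol
  have key := disc_of_marginals h.meas h.bool hR' e1 e2
  have hper : ∀ (a b : ℤ) (x y : ℝ),
      ((x + a, y + b) : ℝ × ℝ) ∈ symmDiff {q : ℝ × ℝ | ψ q.1 q.2 = 1} (tDisc x₀ y₀ R) ↔
        ((x, y) : ℝ × ℝ) ∈ symmDiff {q : ℝ × ℝ | ψ q.1 q.2 = 1} (tDisc x₀ y₀ R) := by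
    intro a b x y
    have h1 : ψ (x + a) (y + b) = ψ x y := by
      have p1 : Function.Periodic (fun s => ψ s (y + b)) 1 := fun s => h.per_x s _
      have p2 : Function.Periodic (fun s => ψ x s) 1 := fun s => h.per_y x s
      have q1 := (p1.int_mul a) x
      have q2 := (p2.int_mul b) y
      rw [mul_one] at q1 q2
      exact q1.trans q2
    have h2 : (((x + a, y + b) : ℝ × ℝ) ∈ {q : ℝ × ℝ | ψ q.1 q.2 = 1}) ↔
        (((x, y) : ℝ × ℝ) ∈ {q : ℝ × ℝ | ψ q.1 q.2 = 1}) := by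
      change ψ (x + a) (y + b) = 1 ↔ ψ x y = 1
      rw [h1]
    have h3 : (((x + a, y + b) : ℝ × ℝ) ∈ tDisc x₀ y₀ R) ↔ (((x, y) : ℝ × ℝ) ∈ tDisc x₀ y₀ R) := by
      change tdist x₀ (x + a) ^ 2 + tdist y₀ (y + b) ^ 2 < R ^ 2 ↔ tdist x₀ x ^ 2 + tdist y₀ y ^ 2 < R ^ 2
      rw [tdist_add_int, tdist_add_int]
    simp only [mem_symmDiff, h2, h3]
  have hnull := null_of_square hper key
  rw [discSet_eq]
  have hae : ∀ᵐ p : ℝ × ℝ, p ∉ symmDiff {q : ℝ × ℝ | ψ q.1 q.2 = 1} (tDisc x₀ y₀ R) :=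
    measure_eq_zero_iff_ae_notMem.mp hnull
  filter_upwards [hae] with p hp
  by_cases hb : p ∈ tDisc x₀ y₀ R
  · rw [indicator_of_mem hb]
    by_contra hne
    exact hp (Or.inr ⟨hb, hne⟩)
  · rw [indicator_of_notMem hb]
    rcases h.bool p.1 p.2 with h0 | h0
    · exact h0
    · exact absurd (Or.inl ⟨h0, hb⟩) hp

end Vale.Agent.Lib.P232
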