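import Vale.Agent.Lib.P232.Class.CanonDefs
import Vale.Agent.Lib.P232.Lines
import Vale.Agent.Lib.P232.Class.Shapes

/-! JOB B1 -/

open MeasureTheory Set Filter Topology Real

noncomputable section

namespace Vale.Agent.Lib.P232

/-- JOB B1 (moments, level three). Bathtub in the cube centered at the center: the second moments are read
off from the three area profiles; `∫_{D∖B} |p|² ≥ r² |D∖B|`, `∫_{B∖D} |p|² < r² |B∖D|`, and `|D| = |B|`. -/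
theorem bathtub3 {χ : ℝ → ℝ → ℝ → ℝ} (h : Ind3 χ) {x₀ y₀ t₀ r : ℝ} (hr : 0 < r) (hr2 : r ≤ 1 / 2)
    (hV : vol χ = 4 / 3 * π * r ^ 3)
    (ht : ∀ᵐ t, |t - t₀| ≤ 1 / 2 → massT χ t ≤ max (π * (r ^ 2 - (t - t₀) ^ 2)) 0)
    (hy : ∀ᵐ t, |t - y₀| ≤ 1 / 2 → massT (P232.perm χ) t ≤ max (π * (r ^ 2 - (t - y₀) ^ 2)) 0)
    (hx : ∀ᵐ t, |t - x₀| ≤ 1 / 2 → massT (P232.perm (P232.perm χ)) t ≤ max (π * (r ^ 2 - (t - x₀) ^ 2)) 0) :
    ∀ᵐ p : R3, χ p.1 p.2.1 p.2.2 = (ballSet x₀ y₀ t₀ r).indicator (fun _ => (1 : ℝ)) p := by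
  exact bathtub3_aux h hr hr2 hV ht hy hx


end Vale.Agent.Lib.P232
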