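import Vale.Agent.Lib.P232.Class.InstAux
import Vale.Agent.Lib.P232.Torus3b

/-!
# P232, stage 4: the two instances of rigidity

Ball: `I s = 2√(πs)`, `κs s = √(s/π)/r`, `gs = √(1-κs²)`, `L s = √(r²-s/π)`, `lam = 2/r`, `M = πr²`.
Disc: `I = 2`, `κs s = s/(2R)`, `gs = √(1-κs²)`, `L s = √(R²-s²/4)`, `lam = 1/R`, `M = 2R`.
`L (a t) = |t - τ₂|` gives the bound on the area profile, on the window `|t - t₀| ≤ 1/2` by periodicity.
-/

open MeasureTheory Set Filter Topology Real

noncomputable section

namespace Vale.Agent.Lib.P232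

variable {U : ℕ → ℝ → ℝ → ℝ → ℝ} {χ : ℝ → ℝ → ℝ → ℝ} {w : ℕ → ℝ → ℝ → ℝ} {ψ : ℝ → ℝ → ℝ}

/-- The gradient norm is periodic in time. -/
private theorem t3Nr_per {W : ℝ → ℝ → ℝ → ℝ} (h : C1P3 W) (x y t : ℝ) :
    t3Nr W x y (t + 1) = t3Nr W x y t := by
  have e1 : dX W x y (t + 1) = dX W x y t := by
    unfold dX
    simp only [h.per_t]
  have e2 : dY W x y (t + 1) = dY W x y t := by
    unfold dY
    simp only [h.per_t]
  have e3 : dT W x y (t + 1) = dT W x y t := by
    unfold dT
    have h1 : (fun s => W x y (s + 1)) = fun s => W x y s := funext fun s => h.per_t x y s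
    have h2 := deriv_comp_add_const (fun s => W x y s) 1 t
    rw [h1] at h2
    exact h2.symm
  unfold t3Nr
  rw [e1, e2, e3]

/-- JOB I1. `SliceData` at level three (from `generic3`'s ingredients in `Torus3a`). -/
theorem sliceData3 (h : Approx3 U χ) {P : ℝ} (hP : ∀ k, En3 (U k) ≤ P) {c : ℝ → ℝ} (hcm : Measurable c)
    (hc0 : ∀ t, 0 ≤ c t) (hcb : ∃ C, ∀ t, c t ≤ C)
    (hc : ∀ᵐ t, ∀ ε > 0, ∀ᶠ k in atTop, c t - ε ≤ En2 (slc (U k) t)) :
    Class.SliceData (fun k t => massT (U k) t) (fun k t => En2 (slc (U k) t))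
      (fun k t => ∫ y in (0 : ℝ)..1, ∫ x in (0 : ℝ)..1, t3Nr (U k) x y t) (massT χ) c P := by
  refine
    { ha := fun k => t3_contDiff_mass (h.c1 k)
      hper := fun k t => t3_mass_per (h.c1 k) t
      hconv := t3_conv_mass h
      ha0 := h.ind.measurable_massT
      hper0 := ?_
      hbd := h.ind.massT_mem
      hA := fun k => t3_cont_A (h.c1 k)
      hA0 := fun _ _ => En2_nonneg _
      hNc := fun k => t3_cont_double (t3_cont_Nr (h.c1 k))
      hNper := ?_
      hN := fun k t α β _ hαβ => t3_key (h.c1 k) t α β hαβ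
      hc := hc
      hcm := hcm
      hc0 := hc0
      hcb := hcb
      hP := ?_ }
  · intro t
    simp only [massT, area, slc, h.ind.per_t]
  · intro k t
    simp only [t3Nr_per (h.c1 k)]
  · intro ε hε
    refine Eventually.frequently (Eventually.of_forall fun k => ?_)
    have := hP k
    have e := t3_En3 (U k)
    rw [e] at this
    linarith

/-- The admissible level function for the ball. -/
private def kB (r s : ℝ) : ℝ := min 1 (√(s / π) / r)

/-- The dual level function for the ball. -/
private def gB (r s : ℝ) : ℝ := √(1 - kB r s ^ 2)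

/-- The inverse profile for the ball. -/
private def lB (r s : ℝ) : ℝ := √(r ^ 2 - s / π)

private lemma kB_nonneg {r : ℝ} (hr : 0 < r) (s : ℝ) : 0 ≤ kB r s :=
  le_min zero_le_one (by positivity)

private lemma kB_le {r : ℝ} (s : ℝ) : kB r s ≤ 1 := min_le_left _ _

private lemma sqrt_div_pi_le {r s : ℝ} (hr : 0 < r) (h1 : s ≤ π * r ^ 2) : √(s / π) ≤ r := by
  apply Real.sqrt_le_iff.2
  refine ⟨hr.le, ?_⟩
  rw [div_le_iff₀ Real.pi_pos]
  linarith

private lemma kB_eq {r s : ℝ} (hr : 0 < r) (h1 : s ≤ π * r ^ 2) : kB r s = √(s / π) / r := by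
  unfold kB
  rw [min_eq_right]
  rw [div_le_one hr]
  exact sqrt_div_pi_le hr h1

private lemma gB_sq {r : ℝ} (hr : 0 < r) (s : ℝ) : gB r s ^ 2 = 1 - kB r s ^ 2 := by
  unfold gB
  apply Real.sq_sqrt
  have h1 := kB_nonneg hr s
  have h2 : kB r s ≤ 1 := kB_le s
  nlinarith

private lemma kB_sq {r s : ℝ} (hr : 0 < r) (h0 : 0 ≤ s) (h1 : s ≤ π * r ^ 2) :
    kB r s ^ 2 = s / (π * r ^ 2) := by
  rw [kB_eq hr h1, div_pow, Real.sq_sqrt (by positivity)]
  field_simp

private lemma gB_eq {r s : ℝ} (hr : 0 < r) (h0 : 0 ≤ s) (h1 : s ≤ π * r ^ 2) :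
    gB r s = √(1 - s / (π * r ^ 2)) := by
  unfold gB
  rw [kB_sq hr h0 h1]

private lemma gB_eq' {r s : ℝ} (hr : 0 < r) (h0 : 0 ≤ s) (h1 : s ≤ π * r ^ 2) :
    gB r s = lB r s / r := by
  rw [gB_eq hr h0 h1]
  unfold lB
  have e : 1 - s / (π * r ^ 2) = (r ^ 2 - s / π) / r ^ 2 := by
    field_simp
  rw [e, Real.sqrt_div' _ (by positivity), Real.sqrt_sq hr.le]

private lemma integral_sqrt_unit : ∫ x in (0 : ℝ)..1, √x = 2 / 3 := by
  have h1 : ∫ x in (0 : ℝ)..1, √x = ∫ x in (0 : ℝ)..1, x ^ ((1 : ℝ) / 2) := by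
    apply intervalIntegral.integral_congr
    intro x _
    exact Real.sqrt_eq_rpow x
  rw [h1, integral_rpow (Or.inl (by norm_num))]
  norm_num

/-- The integral of the dual level function. -/
private lemma integral_gB {r : ℝ} (hr : 0 < r) :
    ∫ s in (0 : ℝ)..(π * r ^ 2), gB r s = π * r ^ 2 * (2 / 3) := by
  have hM : 0 < π * r ^ 2 := by positivity
  have h1 : ∫ s in (0 : ℝ)..(π * r ^ 2), gB r s =
      ∫ s in (0 : ℝ)..(π * r ^ 2), √(1 - s / (π * r ^ 2)) := by
    apply intervalIntegral.integral_congr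
    intro s hs
    rw [uIcc_of_le hM.le] at hs
    exact gB_eq hr hs.1 hs.2
  rw [h1]
  have h2 := intervalIntegral.integral_comp_sub_div (a := 0) (b := π * r ^ 2)
    (f := fun x => √x) (c := π * r ^ 2) hM.ne' 1
  rw [h2]
  have e1 : (1 : ℝ) - π * r ^ 2 / (π * r ^ 2) = 0 := by
    rw [div_self hM.ne']; ring
  have e2 : (1 : ℝ) - 0 / (π * r ^ 2) = 1 := by simp
  rw [e1, e2, integral_sqrt_unit]
  simp

/-- The integral of the inverse profile. -/
private lemma integral_lB {r : ℝ} (hr : 0 < r) :
    ∫ s in (0 : ℝ)..(π * r ^ 2), lB r s = r * (π * r ^ 2 * (2 / 3)) := by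
  have hM : 0 < π * r ^ 2 := by positivity
  have h1 : ∫ s in (0 : ℝ)..(π * r ^ 2), lB r s = ∫ s in (0 : ℝ)..(π * r ^ 2), r * gB r s := by
    apply intervalIntegral.integral_congr
    intro s hs
    rw [uIcc_of_le hM.le] at hs
    simp only
    rw [gB_eq' hr hs.1 hs.2]
    field_simp
  rw [h1, intervalIntegral.integral_const_mul, integral_gB hr]

/-- No full lines: the densities vanish for a.e. time. -/
private lemma ae_delta_zero {d : ℝ → ℝ} (hm : Measurable d) (h0 : ∀ t, 0 ≤ d t) (h1 : ∀ t, |d t| ≤ 1)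
    (hper : ∀ t, d (t + 1) = d t) (hint : ∫ t in (0 : ℝ)..1, d t = 0) : ∀ᵐ t, d t = 0 := by
  apply Class.ae_of_periodic (Q := fun t => d t = 0) (fun t => by rw [hper])
  have hii : IntegrableOn d (Ioc (0 : ℝ) 1) volume := by
    have : IntervalIntegrable d volume 0 1 := intervalIntegrable_of_bdd hm h1
    exact (intervalIntegrable_iff_integrableOn_Ioc_of_le zero_le_one).1 this
  rw [intervalIntegral.integral_of_le zero_le_one] at hint
  have := (setIntegral_eq_zero_iff_of_nonneg_ae (Eventually.of_forall h0) hii).1 hint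
  exact this

/-- JOB I2. Rigidity of the area profile for a ball (no full lines in the slices). -/
theorem rigid_ball (h : Approx3 U χ) {r : ℝ} (hr : 0 < r) (hr3 : r ≤ 1 / 3)
    (hP : ∀ k, En3 (U k) ≤ 4 * π * r ^ 2) (hV : vol χ = 4 / 3 * π * r ^ 3)
    (hb : EssBounds (massT χ) 0 (π * r ^ 2)) (hfx : fx χ = 0) (hfy : fy χ = 0) :
    ∃ t₀, ∀ᵐ t, |t - t₀| ≤ 1 / 2 → massT χ t ≤ max (π * (r ^ 2 - (t - t₀) ^ 2)) 0 := by
  have hpi := Real.pi_gt_three
  have hpi4 := Real.pi_lt_four
  have hr2 : r ^ 2 ≤ 1 / 9 := by nlinarith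
  have hM0 : 0 < π * r ^ 2 := by positivity
  have hM1 : π * r ^ 2 ≤ 1 := by nlinarith
  -- the slice bound
  let c : ℝ → ℝ := fun t => max 0 (IE (massT χ t) - 2 * (deltaR (slc χ t) + deltaC (slc χ t)))
  have hma := h.ind.measurable_massT
  have hcm : Measurable c :=
    measurable_const.max ((t3b_IE_cont.measurable.comp hma).sub
      (measurable_const.mul (h.ind.measurable_deltaR.add h.ind.measurable_deltaC)))
  have hc0 : ∀ t, 0 ≤ c t := fun t => le_max_left _ _
  have hcb : ∃ C, ∀ t, c t ≤ C := by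
    refine ⟨2 * √2, fun t => ?_⟩
    apply max_le (by positivity)
    have := t3b_IE_le (massT χ t)
    have h1 := t3b_deltaR_nonneg (slc χ t)
    have h2 := t3b_deltaC_nonneg (slc χ t)
    linarith
  have hc : ∀ᵐ t, ∀ ε > 0, ∀ᶠ k in atTop, c t - ε ≤ En2 (slc (U k) t) := by
    filter_upwards [h.slices] with t ht ε hε
    filter_upwards [E2 ht ε hε] with k hk
    have h1 : 0 ≤ En2 (slc (U k) t) := En2_nonneg _
    by_cases hc0' : IE (massT χ t) - 2 * (deltaR (slc χ t) + deltaC (slc χ t)) ≤ 0
    · have : c t = 0 := max_eq_left hc0'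
      rw [this]
      linarith
    · have : c t = IE (massT χ t) - 2 * (deltaR (slc χ t) + deltaC (slc χ t)) :=
        max_eq_right (not_le.mp hc0').le
      rw [this]
      exact hk
  have D := sliceData3 h hP hcm hc0 hcb hc
  have hperM : ∀ t, massT χ (t + 1) = massT χ t := D.hper0
  have hle : ∀ᵐ t, massT χ t ≤ π * r ^ 2 := by
    apply Class.ae_of_periodic (Q := fun t => massT χ t ≤ π * r ^ 2) (fun t => by rw [hperM]) hb.le_M
  have hR0 : ∀ᵐ t, deltaR (slc χ t) = 0 := by
    refine ae_delta_zero h.ind.measurable_deltaR (fun t => t3b_deltaR_nonneg _)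
      (fun t => t3b_deltaR_le _) ?_ (by rw [← fx_eq]; exact hfx)
    intro t
    simp only [deltaR, rowM, slc, h.ind.per_t]
  have hC0 : ∀ᵐ t, deltaC (slc χ t) = 0 := by
    refine ae_delta_zero h.ind.measurable_deltaC (fun t => t3b_deltaC_nonneg _)
      (fun t => t3b_deltaC_le _) ?_ (by rw [← fy_eq]; exact hfy)
    intro t
    simp only [deltaC, colM, slc, h.ind.per_t]
  have hI : ∫ t in (0 : ℝ)..1, massT χ t = 4 / 3 * π * r ^ 3 := hV
  have hkc : Continuous (kB r) := by
    unfold kB
    exact continuous_const.min ((continuous_id.div_const _).sqrt.div_const _)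
  have R0 : Class.RigidData (massT χ) c (kB r) (gB r) (fun s => 2 * √(π * s)) (lB r)
      (2 / r) (π * r ^ 2) (4 * π * r ^ 2) :=
    { hM := hM0
      hM1 := hM1
      adm :=
        { hκ := hkc
          hg := (continuous_const.sub (hkc.pow 2)).sqrt
          hκ0 := kB_nonneg hr
          hg0 := fun s => Real.sqrt_nonneg _
          hκg := fun s => by rw [gB_sq hr]; linarith }
      hκpos := by
        intro s hs
        rw [kB_eq hr hs.2.le]
        have := hs.1
        positivity
      hgpos := by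
        intro s hs
        unfold gB
        apply Real.sqrt_pos.2
        rw [kB_sq hr hs.1.le hs.2.le]
        have : s / (π * r ^ 2) < 1 := by
          rw [div_lt_one hM0]
          exact hs.2
        linarith
      hκg1 := fun s _ => by rw [gB_sq hr]; ring
      hIpos := fun s hs => by
        have := hs.1
        positivity
      hIc := Continuous.continuousOn (by fun_prop)
      hκI := by
        intro s hs
        rw [kB_eq hr hs.2]
        have h1 : √(π * s) = π * √(s / π) := by
          have e : π * s = π ^ 2 * (s / π) := by field_simp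
          rw [e, Real.sqrt_mul (by positivity), Real.sqrt_sq Real.pi_pos.le]
        rw [h1]
        have h2 : √(s / π) ^ 2 = s / π := Real.sq_sqrt (div_nonneg hs.1 Real.pi_pos.le)
        have : √(s / π) / r * (2 * (π * √(s / π))) = 2 * π * √(s / π) ^ 2 / r := by
          field_simp
        rw [this, h2]
        field_simp
      hκ0 := by simp [kB]
      hcI := by
        filter_upwards [hR0, hC0] with t h1 h2 h3 h4
        show 2 * √(π * massT χ t) ≤ c t
        refine le_trans ?_ (le_max_right _ _)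
        rw [h1, h2]
        simp only [add_zero, mul_zero, sub_zero]
        unfold IE
        apply le_min le_rfl
        have h5 : π * massT χ t ≤ 2 := by nlinarith
        have h6 : √(π * massT χ t) ≤ √2 := Real.sqrt_le_sqrt h5
        linarith
      hLc := by
        unfold lB
        exact Continuous.continuousOn (by fun_prop)
      hLM := by
        unfold lB
        have : r ^ 2 - π * r ^ 2 / π = 0 := by
          field_simp
          ring
        rw [this, Real.sqrt_zero]
      hLd := by
        intro s hs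
        have hpos : 0 < r ^ 2 - s / π := by
          have h1 : s / π < r ^ 2 := by
            rw [div_lt_iff₀ Real.pi_pos]
            linarith [hs.2]
          linarith
        have hd : HasDerivAt (fun s : ℝ => r ^ 2 - s / π) (-(1 / π)) s := by
          have h2 := (hasDerivAt_const s (r ^ 2)).fun_sub ((hasDerivAt_id s).div_const π)
          have e : (0 : ℝ) - 1 / π = -(1 / π) := by ring
          rw [e] at h2
          exact h2
        have h1 := hd.sqrt hpos.ne'
        have e : -(1 / π) / (2 * √(r ^ 2 - s / π)) =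
            -(kB r s / (gB r s * (2 * √(π * s)))) := by
          rw [kB_eq hr hs.2.le, gB_eq' hr hs.1.le hs.2.le]
          have hB : 0 < lB r s := Real.sqrt_pos.2 hpos
          have e2 : √(r ^ 2 - s / π) = lB r s := rfl
          rw [e2]
          have hA : 0 < √(s / π) := Real.sqrt_pos.2 (div_pos hs.1 Real.pi_pos)
          have h3 : √(π * s) = π * √(s / π) := by
            have e : π * s = π ^ 2 * (s / π) := by field_simp
            rw [e, Real.sqrt_mul (by positivity), Real.sqrt_sq Real.pi_pos.le]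
          rw [h3]
          field_simp
        rw [e] at h1
        exact h1
      hle := hle
      hnear0 := by
        intro ε hε
        have := hb.near_m ε hε
        simpa using this
      hnearM := fun ε hε => hb.near_M ε hε
      tight := by
        rw [hI, integral_gB hr]
        field_simp
        ring
      balance := by
        rw [hI, integral_lB hr]
        ring }
  obtain ⟨τ₁, τ₂, -, -, hae⟩ := Class.rigid D R0
  refine ⟨τ₂, ?_⟩
  filter_upwards [Class.ae_shift hperM hae, hle] with y hy hyM hwin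
  obtain ⟨n, hn⟩ := hy
  by_cases hpos : 0 < massT χ y
  · have h1 := hn hpos
    set x := y - τ₂ with hx
    have h2 : |x| ≤ |x + n| := Class.abs_le_abs_add_int hwin n
    have e : y + n - τ₂ = x + n := by rw [hx]; ring
    rw [e] at h1
    have hnn : 0 ≤ r ^ 2 - massT χ y / π := by
      have h3 : massT χ y / π ≤ r ^ 2 := by
        rw [div_le_iff₀ Real.pi_pos]
        linarith
      linarith
    have h3 : r ^ 2 - massT χ y / π = (x + n) ^ 2 := by
      have h4 : lB r (massT χ y) ^ 2 = r ^ 2 - massT χ y / π := by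
        unfold lB
        exact Real.sq_sqrt hnn
      rw [← h4, h1, sq_abs]
    have h5 : x ^ 2 ≤ (x + n) ^ 2 := by
      have h6 := sq_le_sq' (by linarith [abs_nonneg x, abs_nonneg (x + n), neg_abs_le x]) h2
      rwa [sq_abs, sq_abs] at h6
    refine le_trans ?_ (le_max_left _ _)
    have h7 : massT χ y = π * (r ^ 2 - (x + n) ^ 2) := by
      rw [← h3]
      field_simp
      ring
    rw [h7]
    apply mul_le_mul_of_nonneg_left _ Real.pi_pos.le
    linarith
  · have h9 : massT χ y ≤ 0 := not_lt.mp hpos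
    exact le_trans h9 (le_max_right _ _)

end Vale.Agent.Lib.P232
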