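import Vale.Agent.Lib.P232.Class.TieDefs
import Vale.Agent.Lib.P232.Class.Inst3
import Vale.Agent.Lib.P232.Class.Bathtub3
import Vale.Agent.Lib.P232.Lines

/-! JOB A5 -/

open MeasureTheory Set Filter Topology Real

noncomputable section

namespace Vale.Agent.Lib.P232

variable {U : ℕ → ℝ → ℝ → ℝ → ℝ} {χ : ℝ → ℝ → ℝ → ℝ}

/-- JOB A5. The ball: `rigid_ball` in the three directions, `bathtub3`. -/
theorem ball_of_ties (h : Approx3 U χ) {r : ℝ} (hr : 0 < r) (hr3 : r ≤ 1 / 3)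
    (hP : ∀ k, En3 (U k) ≤ 4 * π * r ^ 2) (hV : vol χ = 4 / 3 * π * r ^ 3)
    (hb0 : EssBounds (massT χ) 0 (π * r ^ 2))
    (hb1 : EssBounds (massT (P232.perm χ)) 0 (π * r ^ 2))
    (hb2 : EssBounds (massT (P232.perm (P232.perm χ))) 0 (π * r ^ 2))
    (hfx : fx χ = 0) (hfy : fy χ = 0) (hft : ft χ = 0) : CanonInd χ := by
  have hi := h.ind
  have hi2 := hi.perm
  obtain ⟨t₀, ht⟩ := rigid_ball h hr hr3 hP hV hb0 hfx hfy
  obtain ⟨y₀, hy⟩ := rigid_ball h.perm hr hr3 (fun k => by rw [En3_perm (h.c1 k)]; exact hP k)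
    (by rw [vol_perm hi]; exact hV) hb1 (by rw [fx_perm]; exact hft) (by rw [fy_perm hi]; exact hfx)
  obtain ⟨x₀, hx⟩ := rigid_ball h.perm.perm hr hr3
    (fun k => by rw [En3_perm (h.c1 k).perm, En3_perm (h.c1 k)]; exact hP k)
    (by rw [vol_perm hi2, vol_perm hi]; exact hV) hb2 (by rw [fx_perm, ft_perm hi]; exact hfy)
    (by rw [fy_perm hi2, fx_perm]; exact hft)
  have hball := bathtub3 hi hr (by linarith) hV ht hy hx
  exact ⟨ballSet x₀ y₀ t₀ r, Or.inl ⟨x₀, y₀, t₀, r, hr, ae_eq_refl _⟩, hball⟩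


end Vale.Agent.Lib.P232
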