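import Vale.Agent.Lib.P232.Class.CanonDefs
import Vale.Agent.Lib.P232.Basics1

/-! JOB C0 -/

open MeasureTheory Set Filter Topology Real

noncomputable section

namespace Vale.Agent.Lib.P232

/-- The coordinate rotation. -/
private def rho3 (p : R3) : R3 := (p.2.2, p.1, p.2.1)

private theorem rho3_fst (p : R3) : (rho3 p).1 = p.2.2 := rfl
private theorem rho3_snd_fst (p : R3) : (rho3 p).2.1 = p.1 := rfl
private theorem rho3_snd_snd (p : R3) : (rho3 p).2.2 = p.2.1 := rfl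

private theorem ae_rho3 {P : R3 → Prop} (h : ∀ᵐ p : R3, P p) : ∀ᵐ p : R3, P (rho3 p) := by
  have h1 : ∀ᵐ p : R3, (fun x y t => P (x, y, t)) p.1 p.2.1 p.2.2 := h
  have h2 := ae_perm (P := fun x y t => P (x, y, t)) h1
  have h3 := ae_perm (P := fun x y t => P (y, t, x)) h2
  exact h3

private theorem rho3_ae_eq {S B : Set R3} (h : S =ᵐ[volume] B) :
    (rho3 ⁻¹' S) =ᵐ[volume] (rho3 ⁻¹' B) := by
  rw [Filter.eventuallyEq_set] at h ⊢
  exact ae_rho3 h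

private theorem canon_rho3 {S : Set R3} (h : IsCanonical S) : IsCanonical (rho3 ⁻¹' S) := by
  rcases h with ⟨x₀, y₀, t₀, r, hr, hS⟩ | ⟨x₀, y₀, r, hr, hS⟩ | ⟨y₀, t₀, r, hr, hS⟩ | ⟨x₀, t₀, r, hr, hS⟩ |
    ⟨t₀, w, hw, hw1, hS⟩ | ⟨x₀, w, hw, hw1, hS⟩ | ⟨y₀, w, hw, hw1, hS⟩
  · refine Or.inl ⟨y₀, t₀, x₀, r, hr, (rho3_ae_eq hS).trans ?_⟩
    apply Filter.EventuallyEq.of_eq
    ext p
    constructor
    · rintro ⟨a, b, c, h⟩
      exact ⟨b, c, a, by simp only [rho3_fst, rho3_snd_fst, rho3_snd_snd] at h; linarith⟩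
    · rintro ⟨b, c, a, h⟩
      exact ⟨a, b, c, by simp only [rho3_fst, rho3_snd_fst, rho3_snd_snd]; linarith⟩
  · refine Or.inr (Or.inr (Or.inr (Or.inl ⟨y₀, x₀, r, hr, (rho3_ae_eq hS).trans ?_⟩)))
    apply Filter.EventuallyEq.of_eq
    ext p
    constructor
    · rintro ⟨a, b, h⟩
      exact ⟨b, a, by simp only [rho3_fst, rho3_snd_fst, rho3_snd_snd] at h; linarith⟩
    · rintro ⟨b, a, h⟩
      exact ⟨a, b, by simp only [rho3_fst, rho3_snd_fst, rho3_snd_snd]; linarith⟩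
  · refine Or.inr (Or.inl ⟨y₀, t₀, r, hr, (rho3_ae_eq hS).trans ?_⟩)
    apply Filter.EventuallyEq.of_eq
    ext p
    exact Iff.rfl
  · refine Or.inr (Or.inr (Or.inl ⟨t₀, x₀, r, hr, (rho3_ae_eq hS).trans ?_⟩))
    apply Filter.EventuallyEq.of_eq
    ext p
    constructor
    · rintro ⟨a, c, h⟩
      exact ⟨c, a, by simp only [rho3_fst, rho3_snd_fst, rho3_snd_snd] at h; linarith⟩
    · rintro ⟨c, a, h⟩
      exact ⟨a, c, by simp only [rho3_fst, rho3_snd_fst, rho3_snd_snd]; linarith⟩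
  · refine Or.inr (Or.inr (Or.inr (Or.inr (Or.inr (Or.inr ⟨t₀, w, hw, hw1, (rho3_ae_eq hS).trans ?_⟩)))))
    apply Filter.EventuallyEq.of_eq
    ext p
    exact Iff.rfl
  · refine Or.inr (Or.inr (Or.inr (Or.inr (Or.inl ⟨x₀, w, hw, hw1, (rho3_ae_eq hS).trans ?_⟩))))
    apply Filter.EventuallyEq.of_eq
    ext p
    exact Iff.rfl
  · refine Or.inr (Or.inr (Or.inr (Or.inr (Or.inr (Or.inl ⟨y₀, w, hw, hw1, (rho3_ae_eq hS).trans ?_⟩)))))
    apply Filter.EventuallyEq.of_eq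
    ext p
    exact Iff.rfl

/-- JOB C0. Permuting coordinates. -/
theorem CanonInd.perm {χ : ℝ → ℝ → ℝ → ℝ} (h : CanonInd (perm χ)) : CanonInd χ := by
  obtain ⟨S, hS, hχ⟩ := h
  refine ⟨rho3 ⁻¹' S, canon_rho3 hS, ?_⟩
  filter_upwards [ae_rho3 hχ] with p hp
  have e1 : P232.perm χ (rho3 p).1 (rho3 p).2.1 (rho3 p).2.2 = χ p.1 p.2.1 p.2.2 := rfl
  rw [e1] at hp
  rw [hp]
  rfl

end Vale.Agent.Lib.P232
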