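import Vale.Agent.Lib.P232.Class.A1
import Vale.Agent.Lib.P232.Class.A5
import Vale.Agent.Lib.P232.Class.CanonPerm

/-! JOB A6 -/

open MeasureTheory Set Filter Topology Real

noncomputable section

namespace Vale.Agent.Lib.P232

variable {U : ℕ → ℝ → ℝ → ℝ → ℝ} {χ : ℝ → ℝ → ℝ → ℝ}

private theorem a6_massT_abs (h : Ind3 χ) (t : ℝ) : |massT χ t| ≤ 1 := by
  have := h.massT_mem t
  rw [abs_le]
  constructor <;> linarith [this.1, this.2]

private theorem a6_essBounds_mem (h : Ind3 χ) {m M : ℝ}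
    (hb : EssBounds (massT χ) m M) : 0 ≤ m ∧ M ≤ 1 := by
  constructor
  · by_contra hm
    have hm := not_le.1 hm
    have h1 := hb.near_m (-m) (by linarith)
    have h2 : {t ∈ Ioc (0 : ℝ) 1 | massT χ t < m + -m} = ∅ := by
      ext t
      simp only [Set.mem_ofPred_eq, mem_empty_iff_false, iff_false, not_and, not_lt]
      intro _
      have := (h.massT_mem t).1
      linarith
    rw [h2] at h1
    simp at h1
  · by_contra hM
    have hM := not_le.1 hM
    have h1 := hb.near_M (M - 1) (by linarith)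
    have h2 : {t ∈ Ioc (0 : ℝ) 1 | M - (M - 1) < massT χ t} = ∅ := by
      ext t
      simp only [Set.mem_ofPred_eq, mem_empty_iff_false, iff_false, not_and, not_lt]
      intro _
      have := (h.massT_mem t).2
      linarith
    rw [h2] at h1
    simp at h1

private theorem a6_massT_per (h : Ind3 χ) (t : ℝ) : massT χ (t + 1) = massT χ t := by
  unfold massT area slc
  simp only [h.per_t]

private theorem a6_ae_of_periodic {P : ℝ → Prop} (hper : ∀ t, P (t + 1) ↔ P t)
    (h : ∀ᵐ t ∂(volume.restrict (Ioc (0 : ℝ) 1)), P t) : ∀ᵐ t : ℝ, P t := by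
  have h0 : ∀ᵐ t : ℝ, t ∈ Ioc (0 : ℝ) 1 → P t := (ae_restrict_iff' measurableSet_Ioc).1 h
  have hP : Function.Periodic P 1 := fun t => propext (hper t)
  have hn : ∀ n : ℤ, ∀ᵐ t : ℝ, t + (n : ℝ) ∈ Ioc (0 : ℝ) 1 → P (t + (n : ℝ)) := by
    intro n
    exact (measurePreserving_add_right volume (n : ℝ)).quasiMeasurePreserving.ae h0
  filter_upwards [ae_all_iff.2 hn] with t ht
  have hmem : t + ((1 - ⌈t⌉ : ℤ) : ℝ) ∈ Ioc (0 : ℝ) 1 := by
    push_cast
    constructor
    · have := Int.ceil_lt_add_one t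
      linarith
    · have := Int.le_ceil t
      linarith
  have hPt := ht _ hmem
  have hint : P (t + ((1 - ⌈t⌉ : ℤ) : ℝ)) = P t := by
    have := hP.int_mul (1 - ⌈t⌉) t
    simpa [mul_one] using this
  rw [hint] at hPt
  exact hPt

/-- The tie of the slice bounds with the strict one-dimensional inequality. -/
private theorem a6_tie {V2 : ℝ} (S : StrictFinal1D V2) (h : Approx3 U χ)
    (hP : ∀ k, En3 (U k) ≤ JJ (vol χ)) (hV0 : 0 < vol χ) (hV : vol χ ≤ V2) {m M : ℝ} (hmM : m ≤ M)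
    (hb : EssBounds (massT χ) m M) (hf : 2 * (fx χ + fy χ) ≤ 4 * m) : Tie1 (vol χ) m M := by
  obtain ⟨hm0, hM1⟩ := a6_essBounds_mem h.ind hb
  have hmean := hb.mean_mem h.ind.measurable_massT (a6_massT_abs h.ind)
  have hP' : ∃ᶠ k in atTop, En3 (U k) ≤ JJ (vol χ) := (Eventually.of_forall hP).frequently
  rcases S (vol χ) m M hV0 hV hm0 hmean.1 hmean.2 hM1 with
    ⟨l, b, hline, hJ⟩ | ⟨l, b, hline, hJ⟩ | hT
  · exact absurd (slice_T h hb hm0 hmM hM1 hline hP') (not_le.2 hJ)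
  · have h2 := slice_E h hb hm0 hmM hM1 hline hP'
    have h3 : lineValue IE l b (vol χ) m M =
        l * vol χ + b + 2 * ∫ s in m..M, Real.sqrt (1 - (qpos l b s / IE s) ^ 2) := rfl
    rw [h3] at hJ
    exfalso
    linarith
  · exact hT

private theorem a6_IT_nonneg (s : ℝ) : 0 ≤ IT s := by
  unfold IT
  refine le_min (le_min ?_ (by norm_num)) ?_ <;> positivity

private theorem a6_JJ_le_IT {V : ℝ} (hV0 : 0 < V) (hV : V < 1 / π) : JJ V ≤ IT V := by
  have hπ := Real.pi_pos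
  have hπ3 := Real.pi_gt_three
  have h1 : π * V < 1 := by
    rw [lt_div_iff₀ hπ] at hV
    linarith
  have h2 : V < 1 / 2 := by nlinarith
  unfold JJ IT
  refine (min_le_right _ _).trans ?_
  refine le_min (le_min le_rfl ?_) ?_
  · have : √(π * V) ≤ 1 := Real.sqrt_le_one.2 h1.le
    linarith
  · have : √(π * V) ≤ √(π * (1 - V)) := by
      apply Real.sqrt_le_sqrt
      nlinarith
    linarith

/-- The first tie. -/
private theorem a6_tube {V2 : ℝ} (hV2 : V2 < 1 / π) (h : Approx3 U χ)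
    (hP : ∀ k, En3 (U k) ≤ JJ (vol χ)) (hV0 : 0 < vol χ) (hV : vol χ ≤ V2)
    (hb : EssBounds (massT χ) (vol χ) (vol χ)) : CanonInd χ := by
  have hπ := Real.pi_pos
  have hπ3 := Real.pi_gt_three
  have hVπ : vol χ < 1 / π := lt_of_le_of_lt hV hV2
  have hV12 : vol χ ≤ 1 / 2 := by
    have : π * vol χ < 1 := by
      rw [lt_div_iff₀ hπ] at hVπ
      linarith
    nlinarith
  have hP' : ∃ᶠ k in atTop, En3 (U k) ≤ JJ (vol χ) := (Eventually.of_forall hP).frequently
  have hline : ∀ s ∈ Icc (vol χ) (vol χ), qpos 0 (IT (vol χ)) s ≤ IT s := by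
    intro s hs
    have : s = vol χ := le_antisymm hs.2 hs.1
    subst this
    unfold qpos
    simp [a6_IT_nonneg]
  have h1 := slice_T h hb hV0.le le_rfl (by linarith) hline hP'
  simp only [intervalIntegral.integral_same] at h1
  have h2 : IT (vol χ) ≤ JJ (vol χ) := by linarith
  have h3 : JJ (vol χ) = IT (vol χ) := le_antisymm (a6_JJ_le_IT hV0 hVπ) h2
  refine canon_of_slices h hP hV0 hV12 h3 ?_
  have hae : ∀ᵐ t : ℝ, massT χ t = vol χ := by
    apply a6_ae_of_periodic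
    · intro t
      rw [a6_massT_per h.ind]
    · filter_upwards [hb.ge_m, hb.le_M] with t h1 h2
      exact le_antisymm h2 h1
  filter_upwards [hae] with t ht
  rw [ht, h3]

private theorem a6_JJ_le {r : ℝ} (hr : 0 < r) : JJ (4 / 3 * π * r ^ 3) ≤ 4 * π * r ^ 2 := by
  refine (min_le_left _ _).trans ?_
  have hπ := Real.pi_pos
  have hV : 0 < 4 / 3 * π * r ^ 3 := by positivity
  set V := 4 / 3 * π * r ^ 3 with hVdef
  have h1 : ((36 * π) ^ ((1 : ℝ) / 3)) ^ 3 = 36 * π := by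
    rw [← rpow_natCast, ← rpow_mul (by positivity)]
    norm_num
  have h2 : (V ^ ((2 : ℝ) / 3)) ^ 3 = V ^ 2 := by
    rw [← rpow_natCast, ← rpow_mul hV.le, ← rpow_natCast]
    norm_num
  have h3 : ((36 * π) ^ ((1 : ℝ) / 3) * V ^ ((2 : ℝ) / 3)) ^ 3 = (4 * π * r ^ 2) ^ 3 := by
    rw [mul_pow, h1, h2, hVdef]
    ring
  have h4 : 0 ≤ (36 * π) ^ ((1 : ℝ) / 3) * V ^ ((2 : ℝ) / 3) := by positivity
  have h5 : 0 ≤ 4 * π * r ^ 2 := by positivity
  exact ((pow_le_pow_iff_left₀ h4 h5 (by norm_num : (3 : ℕ) ≠ 0)).1 h3.le)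

private theorem a6_ft_nonneg (χ : ℝ → ℝ → ℝ → ℝ) : 0 ≤ ft χ := by
  unfold ft
  refine intervalIntegral.integral_nonneg zero_le_one (fun y _ => ?_)
  refine intervalIntegral.integral_nonneg zero_le_one (fun x _ => ?_)
  unfold fullInd
  split_ifs <;> norm_num

private theorem a6_fx_nonneg (χ : ℝ → ℝ → ℝ → ℝ) : 0 ≤ fx χ := by
  rw [fx_eq]
  exact intervalIntegral.integral_nonneg zero_le_one (fun t _ => t3b_deltaR_nonneg _)

private theorem a6_fy_nonneg (χ : ℝ → ℝ → ℝ → ℝ) : 0 ≤ fy χ := by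
  rw [fy_eq]
  exact intervalIntegral.integral_nonneg zero_le_one (fun t _ => t3b_deltaC_nonneg _)

/-- A further direction, with no penalty: either the first tie, which is finished, or the same ball data. -/
private theorem a6_other {V2 : ℝ} (S : StrictFinal1D V2) (hV2 : V2 < 1 / π) (h : Approx3 U χ)
    (hP : ∀ k, En3 (U k) ≤ JJ (vol χ)) (hV0 : 0 < vol χ) (hV : vol χ ≤ V2)
    (hfx : fx χ = 0) (hfy : fy χ = 0) {r : ℝ} (hr : 0 < r) (hVr : vol χ = 4 / 3 * π * r ^ 3) :
    CanonInd χ ∨ EssBounds (massT χ) 0 (π * r ^ 2) := by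
  obtain ⟨m, M, hmM, hb⟩ := exists_essBounds h.ind.measurable_massT (a6_massT_abs h.ind)
  obtain ⟨hm0, -⟩ := a6_essBounds_mem h.ind hb
  have hT := a6_tie S h hP hV0 hV hmM hb (by rw [hfx, hfy]; linarith)
  rcases hT with ⟨h1, h2⟩ | ⟨h1, r₁, hr₁, -, h3, h4⟩
  · left
    rw [h1, h2] at hb
    exact a6_tube hV2 h hP hV0 hV hb
  · right
    have hπ := Real.pi_pos
    have h5 : r₁ ^ 3 = r ^ 3 := by
      have : 4 / 3 * π * r₁ ^ 3 = 4 / 3 * π * r ^ 3 := by rw [← h3, hVr]
      have h6 : (4 / 3 * π) ≠ 0 := by positivity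
      exact mul_left_cancel₀ h6 this
    have h7 : r₁ = r := (pow_left_inj₀ hr₁.le hr.le (by norm_num : (3 : ℕ) ≠ 0)).1 h5
    subst h7
    rw [h1, h4] at hb
    exact hb

/-- The chosen direction. -/
private theorem a6_dir {V2 : ℝ} (S : StrictFinal1D V2) (hV2 : V2 < 1 / π) (h : Approx3 U χ)
    (hP : ∀ k, En3 (U k) ≤ JJ (vol χ)) (hV0 : 0 < vol χ) (hV : vol χ ≤ V2)
    (hf : fx χ + fy χ ≤ 2 * ft χ) : CanonInd χ := by
  obtain ⟨m, M, hmM, hb⟩ := exists_essBounds h.ind.measurable_massT (a6_massT_abs h.ind)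
  obtain ⟨hm0, -⟩ := a6_essBounds_mem h.ind hb
  have hft := ft_le_of_essBounds h.ind hb
  have hT := a6_tie S h hP hV0 hV hmM hb (by linarith)
  rcases hT with ⟨h1, h2⟩ | ⟨h1, r, hr, hr3, hVr, h4⟩
  · rw [h1, h2] at hb
    exact a6_tube hV2 h hP hV0 hV hb
  · subst h1
    have hft0 : ft χ = 0 := le_antisymm hft (a6_ft_nonneg χ)
    have hfx0 : fx χ = 0 := by
      have := a6_fx_nonneg χ
      have := a6_fy_nonneg χ
      linarith
    have hfy0 : fy χ = 0 := by
      have := a6_fx_nonneg χ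
      have := a6_fy_nonneg χ
      linarith
    rw [h4] at hb
    have hi := h.ind
    have hi2 := hi.perm
    have hP1 : ∀ k, En3 (perm (U k)) ≤ JJ (vol (perm χ)) := by
      intro k
      rw [En3_perm (h.c1 k), vol_perm hi]
      exact hP k
    have hP2 : ∀ k, En3 (perm (perm (U k))) ≤ JJ (vol (perm (perm χ))) := by
      intro k
      rw [En3_perm (h.c1 k).perm, En3_perm (h.c1 k), vol_perm hi2, vol_perm hi]
      exact hP k
    have hv1 : vol (perm χ) = vol χ := vol_perm hi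
    have hv2 : vol (perm (perm χ)) = vol χ := by rw [vol_perm hi2, vol_perm hi]
    rcases a6_other S hV2 h.perm hP1 (by rw [hv1]; exact hV0) (by rw [hv1]; exact hV)
        (by rw [fx_perm]; exact hft0) (by rw [fy_perm hi]; exact hfx0) hr (by rw [hv1]; exact hVr)
      with hc1 | hb1
    · exact hc1.perm
    rcases a6_other S hV2 h.perm.perm hP2 (by rw [hv2]; exact hV0) (by rw [hv2]; exact hV)
        (by rw [fx_perm, ft_perm hi]; exact hfy0) (by rw [fy_perm hi2, fx_perm]; exact hft0) hr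
        (by rw [hv2]; exact hVr)
      with hc2 | hb2
    · exact hc2.perm.perm
    refine ball_of_ties h hr hr3 ?_ hVr hb hb1 hb2 hfx0 hfy0 hft0
    intro k
    refine (hP k).trans ?_
    rw [hVr]
    exact a6_JJ_le hr

/-- JOB A6. The range `V ≤ V2`: direction by `exists_direction`, `StrictFinal1D`, `slice_T`, `slice_E`:
tie. First tie: `canon_of_slices` (`JJ V < IT V` is impossible by `slice_T` at `m = M = V`). Second tie: `ft = 0`,
hence `fx = fy = 0`; the other two directions: `StrictFinal1D` again, `slice_E` has no penalty, so tie again: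
either first tie (tube) or the same `r`; `ball_of_ties`. -/
theorem class_low {V2 : ℝ} (S : StrictFinal1D V2) (hV2 : V2 < 1 / π) (h : Approx3 U χ)
    (hP : ∀ k, En3 (U k) ≤ JJ (vol χ)) (hV0 : 0 < vol χ) (hV : vol χ ≤ V2) : CanonInd χ := by
  have hi := h.ind
  have hi2 := hi.perm
  by_cases h1 : fx χ + fy χ ≤ 2 * ft χ
  · exact a6_dir S hV2 h hP hV0 hV h1
  by_cases h2 : ft χ + fx χ ≤ 2 * fy χ
  · have hv1 : vol (perm χ) = vol χ := vol_perm hi
    refine CanonInd.perm (a6_dir S hV2 h.perm ?_ (by rw [hv1]; exact hV0) (by rw [hv1]; exact hV) ?_)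
    · intro k
      rw [En3_perm (h.c1 k), hv1]
      exact hP k
    · rw [fx_perm, fy_perm hi, ft_perm hi]
      exact h2
  · push Not at h1 h2
    have hv2 : vol (perm (perm χ)) = vol χ := by rw [vol_perm hi2, vol_perm hi]
    refine CanonInd.perm (CanonInd.perm
      (a6_dir S hV2 h.perm.perm ?_ (by rw [hv2]; exact hV0) (by rw [hv2]; exact hV) ?_))
    · intro k
      rw [En3_perm (h.c1 k).perm, En3_perm (h.c1 k), hv2]
      exact hP k
    · rw [fx_perm, fy_perm hi2, ft_perm hi2, ft_perm hi, fx_perm, fy_perm hi]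
      linarith

end Vale.Agent.Lib.P232
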