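import Vale.Agent.Lib.P232.Class.A1
import Vale.Agent.Lib.P232.Class.A2

/-! JOB A7 -/

open MeasureTheory Set Filter Topology Real

noncomputable section

namespace Vale.Agent.Lib.P232

variable {U : ℕ → ℝ → ℝ → ℝ → ℝ} {χ : ℝ → ℝ → ℝ → ℝ}

private theorem a7_massT_abs (h : Ind3 χ) (t : ℝ) : |massT χ t| ≤ 1 := by
  have := h.massT_mem t
  rw [abs_le]
  constructor <;> linarith [this.1, this.2]

private theorem a7_essBounds_mem (h : Ind3 χ) {m M : ℝ}
    (hb : EssBounds (massT χ) m M) : 0 ≤ m ∧ M ≤ 1 := by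
  constructor
  · by_contra hm
    have hm := not_le.1 hm
    have h1 := hb.near_m (-m) (by linarith)
    have h2 : {t ∈ Ioc (0 : ℝ) 1 | massT χ t < m + -m} = ∅ := by
      ext t
      simp only [Set.mem_ofPred_eq, mem_empty_iff_false, iff_false, not_and, not_lt]
      intro _
      have := (h.massT_mem t).1
      linarith
    rw [h2] at h1
    simp at h1
  · by_contra hM
    have hM := not_le.1 hM
    have h1 := hb.near_M (M - 1) (by linarith)
    have h2 : {t ∈ Ioc (0 : ℝ) 1 | M - (M - 1) < massT χ t} = ∅ := by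
      ext t
      simp only [Set.mem_ofPred_eq, mem_empty_iff_false, iff_false, not_and, not_lt]
      intro _
      have := (h.massT_mem t).2
      linarith
    rw [h2] at h1
    simp at h1

private theorem a7_ae_of_periodic {P : ℝ → Prop} (hper : ∀ t, P (t + 1) ↔ P t)
    (h : ∀ᵐ t ∂(volume.restrict (Ioc (0 : ℝ) 1)), P t) : ∀ᵐ t : ℝ, P t := by
  have h0 : ∀ᵐ t : ℝ, t ∈ Ioc (0 : ℝ) 1 → P t := (ae_restrict_iff' measurableSet_Ioc).1 h
  have hP : Function.Periodic P 1 := fun t => propext (hper t)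
  have hn : ∀ n : ℤ, ∀ᵐ t : ℝ, t + (n : ℝ) ∈ Ioc (0 : ℝ) 1 → P (t + (n : ℝ)) := by
    intro n
    exact (measurePreserving_add_right volume (n : ℝ)).quasiMeasurePreserving.ae h0
  filter_upwards [ae_all_iff.2 hn] with t ht
  have hmem : t + ((1 - ⌈t⌉ : ℤ) : ℝ) ∈ Ioc (0 : ℝ) 1 := by
    push_cast
    constructor
    · have := Int.ceil_lt_add_one t; linarith
    · have := Int.le_ceil t; linarith
  have hPt := ht (1 - ⌈t⌉) hmem
  have hper2 := (hP.int_mul (1 - ⌈t⌉)) t
  rw [mul_one] at hper2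
  rw [hper2] at hPt
  exact hPt

private theorem a7_massT_per (h : Ind3 χ) (t : ℝ) : massT χ (t + 1) = massT χ t := by
  unfold massT area slc
  simp only [h.per_t]

private theorem a7_ae_mem (h : Ind3 χ) {m M : ℝ} (hb : EssBounds (massT χ) m M) :
    ∀ᵐ t : ℝ, massT χ t ∈ Icc m M := by
  apply a7_ae_of_periodic (P := fun t => massT χ t ∈ Icc m M)
  · intro t
    rw [a7_massT_per h]
  · filter_upwards [hb.ge_m, hb.le_M] with t h1 h2
    exact ⟨h1, h2⟩

/-- On the band, the torus profile is two. -/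
private theorem a7_IT_band {s : ℝ} (h1 : 1 / π ≤ s) (h2 : s ≤ 1 - 1 / π) : IT s = 2 := by
  have hpi := Real.pi_pos
  have h3 : 1 ≤ π * s := by
    rw [div_le_iff₀ hpi] at h1
    linarith
  have h4 : 1 ≤ π * (1 - s) := by
    have h5 : 1 / π ≤ 1 - s := by linarith
    rw [div_le_iff₀ hpi] at h5
    linarith
  have h6 : 1 ≤ √(π * s) := by
    apply Real.le_sqrt_of_sq_le
    simpa using h3
  have h7 : 1 ≤ √(π * (1 - s)) := by
    apply Real.le_sqrt_of_sq_le
    simpa using h4
  unfold IT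
  have h8 : min (2 * √(π * s)) 2 = 2 := min_eq_right (by linarith)
  rw [h8]
  exact min_eq_left (by linarith)

/-- JOB A7. The range `V ≥ V3`: `StrictSlab`, `slice_T`: first tie: `dep_of_bounds`, `slab_of_dep`; second tie:
`canon_of_slices` (`IT s = 2` on the band). -/
theorem class_high {V3 : ℝ} (S : StrictSlab V3) (hV3 : 1 / π ≤ V3) (h : Approx3 U χ)
    (hP : ∀ k, En3 (U k) ≤ 2) (hV0 : V3 ≤ vol χ) (hV : vol χ ≤ 1 / 2) : CanonInd χ := by
  have hpi := Real.pi_pos
  have hV3pos : 0 < 1 / π := by positivity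
  have hVpos : 0 < vol χ := by linarith
  have hP' : ∃ᶠ k in atTop, En3 (U k) ≤ 2 :=
    Eventually.frequently (Eventually.of_forall hP)
  obtain ⟨m, M, hmM, hb⟩ := exists_essBounds h.ind.measurable_massT (a7_massT_abs h.ind)
  obtain ⟨hm0, hM1⟩ := a7_essBounds_mem h.ind hb
  have hmean : m ≤ vol χ ∧ vol χ ≤ M := by
    simpa [vol] using hb.mean_mem h.ind.measurable_massT (a7_massT_abs h.ind)
  rcases S (vol χ) m M hV0 hV hm0 hmean.1 hmean.2 hM1 with ⟨l, b, hline, hval⟩ | ⟨rfl, rfl⟩ | ⟨hb1, hb2⟩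
  · -- a strict line contradicts the bound
    exact absurd (slice_T h hb hm0 hmM hM1 (lam := l) (be := b) (fun s hs => hline s hs) hP')
      (not_le.2 hval)
  · -- the tie: slabs
    exact slab_of_dep h hP hVpos (by linarith) (dep_of_bounds h hP hb)
  · -- the band: all slices cost two
    refine canon_of_slices h hP hVpos hV ?_ ?_
    · exact (a7_IT_band (hb1.trans hmean.1) (hmean.2.trans hb2)).symm
    · filter_upwards [a7_ae_mem h.ind hb] with t ht
      exact (a7_IT_band (hb1.trans ht.1) (ht.2.trans hb2)).ge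

end Vale.Agent.Lib.P232
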