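import Vale.Agent.Lib.P232.Class.CanonDefs
import Vale.Agent.Lib.P232.Lines
import Vale.Agent.Lib.P232.Class.Shapes

/-! JOB B2 -/

open MeasureTheory Set Filter Topology Real

noncomputable section

namespace Vale.Agent.Lib.P232

/-- JOB B2 (moments, level two). Same with rows and columns. -/
theorem bathtub2 {ψ : ℝ → ℝ → ℝ} (h : Ind2 ψ) {x₀ y₀ R : ℝ} (hR : 0 < R) (hR2 : R ≤ 1 / 2)
    (hA : area ψ = π * R ^ 2)
    (hrow : ∀ᵐ y, |y - y₀| ≤ 1 / 2 → rowM ψ y ≤ 2 * √(max (R ^ 2 - (y - y₀) ^ 2) 0))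
    (hcol : ∀ᵐ x, |x - x₀| ≤ 1 / 2 → colM ψ x ≤ 2 * √(max (R ^ 2 - (x - x₀) ^ 2) 0)) :
    ∀ᵐ p : ℝ × ℝ, ψ p.1 p.2 = (discSet x₀ y₀ R).indicator (fun _ => (1 : ℝ)) p := by
  exact bathtub2_aux h hR hR2 hA hrow hcol


end Vale.Agent.Lib.P232
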