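import Vale.Agent.Lib.P232.Class.StrictDefs
import Vale.Agent.Lib.P232.CertThinSmallS
import Vale.Agent.Lib.P232.CertThinLData

/-! The strict certificate for thin directions. -/

namespace Vale.Agent.Lib.P232

/-- Strict form of `certThin`: the chord for `M ≤ 39/100`, the cells for `M ≥ 39/100`. -/
theorem certThinS_proved : CertThinS := by
  intro V m M hV hV2 hm hmV hVM hM
  rcases le_total M (39 / 100) with h | h
  · exact certThin_small_strict hV hm hmV hVM h
  · exact Or.inr (certThin_large_strict hV hV2 hm hmV h hM)

end Vale.Agent.Lib.P232
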