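import Vale.Agent.Lib.P232.Class.StrictDefs
import Vale.Agent.Lib.P232.CertBand
import Vale.Agent.Lib.P232.CertCycle
import Vale.Agent.Lib.P232.CertHump
import Vale.Agent.Lib.P232.Class.CertThinS

/-! The strict certificates of stage 3. -/

namespace Vale.Agent.Lib.P232

open Cells

theorem certBandS : CertBandS := fun _ _ _ h1 h2 h3 h4 h5 h6 =>
  Or.inr (Band.certBand_strict h1 h2 h3 h4 h5 h6)

theorem certHumpS : CertHumpS := by
  intro V m M d hV hV2 hm hm1 hVM hM hd hdM
  by_cases hc : M ≤ sn 1023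
  · right
    right
    have h1 : sn 512 ≤ M := by
      have : sn 512 = 1 / 4 := by norm_num [sn]
      linarith
    obtain ⟨l, b, B, hA, hG, hW⟩ := hump_boxes h1 hc hd hdM
    exact ⟨l, b, B, hA, hG V hV, hW V hV⟩
  · have h3 : (511 : ℝ) / 512 ≤ M := by
      have : (511 : ℝ) / 512 ≤ sn 1023 := by norm_num [sn]
      linarith [not_le.mp hc]
    rcases hump_corner_strict hV hV2 hm (by simpa [ezero] using hm1) h3 hM with h | ⟨l, b, h1, h2⟩
    · exact Or.inl h
    · exact Or.inr (Or.inl ⟨l, b, h1, (Jf_le_two V).trans_lt h2⟩)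

theorem certThinS : CertThinS := certThinS_proved

theorem certCycleS : CertCycleS := fun _ _ _ h1 h2 h3 h4 h5 h6 =>
  Or.inr (certCycle_strict h1 h2 h3 h4 h5 h6)

end Vale.Agent.Lib.P232
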