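import Vale.Agent.Lib.P232.Slices2
import Vale.Agent.Lib.P232.Dir
import Vale.Agent.Lib.P232.Tree
import Vale.Agent.Lib.P232.MonoFacts2
import Vale.Agent.Lib.P232.Class.CertsS

/-! P232 stage 4, job J10: strict forms of the cases of stage 3: a monotone set with perimeter at most the
target has in some direction essential bounds `m, M` with `Tie m M`. -/

open MeasureTheory Set Filter Topology
open scoped ENNReal

noncomputable section

namespace Vale.Agent.Lib.P232

variable {U : ℕ → ℝ → ℝ → ℝ → ℝ} {χ : ℝ → ℝ → ℝ → ℝ}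

private theorem cs_massT_abs (h : Ind3 χ) (t : ℝ) : |massT χ t| ≤ 1 := by
  have := h.massT_mem t
  rw [abs_le]
  constructor <;> linarith [this.1, this.2]

/-- The essential bounds of the mass stay in the unit interval. -/
private theorem cs_bounds (h : Ind3 χ) {m M : ℝ} (hb : EssBounds (massT χ) m M) : 0 ≤ m ∧ M ≤ 1 := by
  constructor
  · by_contra hm
    have hm := not_le.1 hm
    have h1 := hb.near_m (-m) (by linarith)
    have h2 : {t ∈ Ioc (0 : ℝ) 1 | massT χ t < m + -m} = ∅ := by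
      ext t
      simp only [Set.mem_ofPred_eq, mem_empty_iff_false, iff_false, not_and, not_lt]
      intro _
      have := (h.massT_mem t).1
      linarith
    rw [h2] at h1
    simp at h1
  · by_contra hM
    have hM := not_le.1 hM
    have h1 := hb.near_M (M - 1) (by linarith)
    have h2 : {t ∈ Ioc (0 : ℝ) 1 | M - (M - 1) < massT χ t} = ∅ := by
      ext t
      simp only [Set.mem_ofPred_eq, mem_empty_iff_false, iff_false, not_and, not_lt]
      intro _
      have := (h.massT_mem t).2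
      linarith
    rw [h2] at h1
    simp at h1

private theorem cs_mean (h : Ind3 χ) {m M : ℝ} (hb : EssBounds (massT χ) m M) :
    m ≤ vol χ ∧ vol χ ≤ M :=
  hb.mean_mem h.measurable_massT (cs_massT_abs h)

private theorem cs_massT_per (h : Ind3 χ) : Function.Periodic (massT χ) 1 := by
  intro t
  have : slc χ (t + 1) = slc χ t := by
    funext x y
    exact h.per_t x y t
  show area (slc χ (t + 1)) = area (slc χ t)
  rw [this]

/-- The upper essential bound holds a.e. on the whole line. -/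
private theorem cs_ae_le_M (h : Ind3 χ) {m M : ℝ} (hb : EssBounds (massT χ) m M) :
    ∀ᵐ t : ℝ, massT χ t ≤ M := by
  have h1 := (ae_restrict_iff' measurableSet_Ioc).mp hb.le_M
  have h2 : ∀ n : ℤ, ∀ᵐ t : ℝ, (t - (n : ℝ)) ∈ Ioc (0 : ℝ) 1 → massT χ (t - (n : ℝ)) ≤ M := by
    intro n
    exact (measurePreserving_sub_right volume (n : ℝ)).quasiMeasurePreserving.ae h1
  filter_upwards [ae_all_iff.mpr h2] with t ht
  have h3 := ht (⌈t⌉ - 1)
  have hmem : t - ((⌈t⌉ - 1 : ℤ) : ℝ) ∈ Ioc (0 : ℝ) 1 := by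
    push_cast
    constructor
    · have := Int.ceil_lt_add_one t
      linarith
    · have := Int.le_ceil t
      linarith
  have h4 := h3 hmem
  have h5 : massT χ (t - ((⌈t⌉ - 1 : ℤ) : ℝ)) = massT χ t := by
    have := (cs_massT_per h).sub_zsmul_eq (x := t) (⌈t⌉ - 1)
    simpa using this
  rwa [h5] at h4

/-- A level set of the tent coordinate is null. -/
private theorem cs_uu_ne (β : ℝ) : ∀ᵐ t : ℝ, uu t ≠ β := by
  rw [ae_iff]
  refine measure_mono_null ?_ (((Set.countable_range (fun n : ℤ => (n : ℝ) + (1 + β) / 2)).union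
    (Set.countable_range (fun n : ℤ => (n : ℝ) + (1 - β) / 2))).measure_zero volume)
  intro t ht
  have ht' : uu t = β := by simpa using ht
  unfold uu at ht'
  have hfl := Int.floor_add_fract t
  rcases abs_choice (2 * Int.fract t - 1) with h | h
  · left
    refine ⟨⌊t⌋, ?_⟩
    rw [h] at ht'
    show (⌊t⌋ : ℝ) + (1 + β) / 2 = t
    linarith
  · right
    refine ⟨⌊t⌋, ?_⟩
    rw [h] at ht'
    show (⌊t⌋ : ℝ) + (1 - β) / 2 = t
    linarith

/-- There are points of positive tent coordinate below any positive level. -/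
private theorem cs_exists_uu {β : ℝ} (h0 : 0 < β) (h1 : β ≤ 1) : ∃ t, 0 < uu t ∧ uu t < β := by
  refine ⟨1 / 2 + β / 4, ?_⟩
  have hf : Int.fract (1 / 2 + β / 4) = 1 / 2 + β / 4 :=
    Int.fract_eq_self.mpr ⟨by linarith, by linarith⟩
  have he : uu (1 / 2 + β / 4) = β / 2 := by
    unfold uu
    rw [hf]
    have : 2 * (1 / 2 + β / 4) - 1 = β / 2 := by ring
    rw [this, abs_of_pos (by linarith)]
  rw [he]
  constructor <;> linarith

private theorem cs_IT_nonneg (s : ℝ) : 0 ≤ IT s := by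
  unfold IT
  apply le_min (le_min _ (by norm_num)) (by positivity)
  positivity

/-- A torus line. -/
private theorem cs_tline (h : Approx3 U χ) {P m M : ℝ} (hP : ∀ k, En3 (U k) ≤ P)
    (hb : EssBounds (massT χ) m M) (hm : 0 ≤ m) (hmM : m ≤ M) (hM : M ≤ 1) (hl : TLineS (vol χ) m M) :
    Jf (vol χ) < P := by
  obtain ⟨l, b, h1, h2⟩ := hl
  have hP' : ∃ᶠ k in atTop, En3 (U k) ≤ P := Eventually.frequently (Eventually.of_forall hP)
  exact h2.trans_le (slice_T h hb hm hmM hM (fun s hs => h1 s hs) hP')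

/-- Band of length `≥ T`, `T` given by `CertBand`. `S = {uu t < T}`, `c = IL ∘ a` on `S`, `IT ∘ a` outside,
`massT_ge_of_lt`. -/
theorem case_band_s (h : Approx3 U χ) (hχ : Mono3 χ) {P m M : ℝ} (hP : ∀ k, En3 (U k) ≤ P)
    (hb : EssBounds (massT χ) m M) (hV1 : 1 / 4 ≤ vol χ) (hV2 : vol χ ≤ 37 / 100) (hm0 : ezero ≤ m)
    (hband : m / M ≤ extB (Gx χ) ∧ m / M ≤ extB (Gy χ) ∨ m < tstar ∧ tstar ≤ extB (Gx χ) ∧ tstar ≤ extB (Gy χ))
    (hPJ : P ≤ Jf (vol χ)) : Tie m M := by
  obtain ⟨hm, hM⟩ := cs_bounds h.ind hb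
  obtain ⟨hmV, hVM⟩ := cs_mean h.ind hb
  have hmM : m ≤ M := hmV.trans hVM
  have hMpos : 0 < M := by linarith
  rcases certBandS (vol χ) m M hV1 hV2 hm0 hmV hVM hM with hTie | hT | ⟨l, b, T, B, hT0, hT1, hTM, hTt, hl, hgain, hval⟩
  · exact hTie
  · exact absurd hPJ (not_le.2 (cs_tline h hP hb hm hmM hM hT))
  have hTx : T ≤ extB (Gx χ) ∧ T ≤ extB (Gy χ) := by
    rcases hband with ⟨h1, h2⟩ | ⟨h0, h1, h2⟩
    · have hTle : T ≤ m / M := (le_div_iff₀ hMpos).mpr hTM
      exact ⟨hTle.trans h1, hTle.trans h2⟩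
    · exact ⟨(hTt h0).trans h1, (hTt h0).trans h2⟩
  have hma := h.ind.measurable_massT
  let c : ℝ → ℝ := fun t => if uu t < T then IL (massT χ t) else IT (massT χ t)
  have hSm : MeasurableSet {t | uu t < T} := measurableSet_lt uu_measurable measurable_const
  have hcm : Measurable c :=
    Measurable.ite hSm (IL_continuous.measurable.comp hma) (t3b_IT_cont.measurable.comp hma)
  have hcb : ∀ t, |c t| ≤ 4 := by
    intro t
    have ha := h.ind.massT_mem t
    show |if uu t < T then IL (massT χ t) else IT (massT χ t)| ≤ 4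
    split_ifs
    · rw [abs_of_nonneg (IL_nonneg _)]
      exact IL_le _ ha.1
    · exact (t3b_IT_abs _).trans (by norm_num)
  have hc : ∀ᵐ t, ∀ ε > 0, ∀ᶠ k in atTop, c t - ε ≤ En2 (slc (U k) t) := by
    filter_upwards [h.slices] with t ht ε hε
    by_cases hS : uu t < T
    · have hct : c t = IL (massT χ t) := if_pos hS
      rw [hct]
      exact slice_L ht (hχ.slice t) (deltaR_pos hχ (lt_of_lt_of_le hS hTx.1))
        (deltaC_pos hχ (lt_of_lt_of_le hS hTx.2)) ε hε
    · have hct : c t = IT (massT χ t) := if_neg hS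
      rw [hct]
      exact E1 ht ε hε
  have h1 : ∀ᵐ t, t ∈ {t | uu t < T} → B ≤ gain IT (fun _ => c t) l b (massT χ t) := by
    filter_upwards [cs_ae_le_M h.ind hb] with t ht hS
    have hS' : uu t < T := hS
    have hct : c t = IL (massT χ t) := if_pos hS'
    have hmem : massT χ t ∈ Icc ((vol χ - T * M) / (1 - T)) M :=
      ⟨massT_ge_of_lt hχ hb hT0 hT1 hS', ht⟩
    have := hgain _ hmem
    simp only [gain] at this ⊢
    rw [hct]
    exact this
  have h2 : ∀ᵐ t, t ∉ {t | uu t < T} → IT (massT χ t) ≤ c t := by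
    refine Eventually.of_forall (fun t hS => ?_)
    have hct : c t = IT (massT χ t) := if_neg hS
    rw [hct]
  have hP' : ∃ᶠ k in atTop, En3 (U k) ≤ P := Eventually.frequently (Eventually.of_forall hP)
  have main := dir_bound h (I := IT) (c := c) (m := m) (M := M) (l := l) (b := b) (B := B) (P := P)
    (C := 4) t3b_IT_cont (fun _ _ => le_rfl) hb hm hmM hM hl hcm hcb hc hSm h1 h2 hP'
  rw [volume_uu_lt hT0 hT1.le, ENNReal.toReal_ofReal hT0] at main
  exact absurd hPJ (not_le.2 (hval.trans_le main))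

/-- Bounds for the stadium profile. -/
private theorem cs_CL_abs {s d : ℝ} (hs0 : 0 ≤ s) (hs1 : s ≤ 1) (hd0 : 0 ≤ d) (hd1 : d ≤ 9 / 10) :
    |CL s d| ≤ 30 := by
  have hpi := Real.pi_le_four
  have hpi0 := Real.pi_pos
  unfold CL
  split_ifs
  · have h1 : 0 < 1 - d := by linarith
    have h2 : (1 - s) / (1 - d) ≤ 10 := by
      rw [div_le_iff₀ h1]
      linarith
    have h3 : 0 ≤ (1 - s) / (1 - d) := div_nonneg (by linarith) h1.le
    have h4 : Real.pi * (1 - d) / 4 ≤ 1 := by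
      have : Real.pi * (1 - d) ≤ 4 * 1 := mul_le_mul hpi (by linarith) (by linarith) (by norm_num)
      linarith
    have h5 : 0 ≤ Real.pi * (1 - d) / 4 := by positivity
    rw [abs_of_nonneg (by positivity)]
    linarith
  · have h1 : Real.pi * (1 - s) ≤ 4 := by
      have : Real.pi * (1 - s) ≤ 4 * 1 := mul_le_mul hpi (by linarith) (by linarith) (by norm_num)
      linarith
    have h2 : Real.sqrt (Real.pi * (1 - s)) ≤ 2 := by
      rw [Real.sqrt_le_left (by norm_num)]
      linarith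
    rw [abs_of_nonneg (by positivity)]
    linarith

private theorem cs_IH_le_CL (d s : ℝ) : IH d s ≤ CL s (min d (9 / 10)) := min_le_left _ _
private theorem cs_IH_le_xhat (d s : ℝ) : IH d s ≤ xhat (s - d) :=
  (min_le_right _ _).trans (min_le_left _ _)
private theorem cs_IH_le_IE (d s : ℝ) : IH d s ≤ IE s :=
  (min_le_right _ _).trans (min_le_right _ _)

private theorem cs_IH_abs (d : ℝ) {s : ℝ} (hs1 : s ≤ 1) : |IH d s| ≤ 30 := by
  have h0 : 0 ≤ IH d s := (cs_IT_nonneg s).trans (IT_le_IH d hs1)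
  have h1 := (cs_IH_le_IE d s).trans (t3b_IE_le s)
  have h2 : Real.sqrt 2 ≤ 2 := by
    rw [Real.sqrt_le_left (by norm_num)]
    norm_num
  rw [abs_of_nonneg h0]
  linarith

/-- Moving the lower end of a line value. -/
private theorem cs_lineValue_shift {I : ℝ → ℝ} (hI : Continuous I) {l b V m M : ℝ} (hm : 0 ≤ m) :
    lineValue I l b V 0 M ≤ lineValue I l b V m M + 2 * m := by
  have hf : Measurable (fun s => Real.sqrt (1 - (max (l * s + b) 0 / I s) ^ 2)) := by
    apply Measurable.sqrt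
    apply Measurable.sub measurable_const
    apply Measurable.pow_const
    apply Measurable.div _ hI.measurable
    exact (((measurable_id.const_mul l).add_const b).max measurable_const)
  have hbd : ∀ s, |Real.sqrt (1 - (max (l * s + b) 0 / I s) ^ 2)| ≤ 1 := by
    intro s
    rw [abs_of_nonneg (Real.sqrt_nonneg _)]
    rw [Real.sqrt_le_left (by norm_num)]
    nlinarith [sq_nonneg (max (l * s + b) 0 / I s)]
  have hint : ∀ a c : ℝ, IntervalIntegrable
      (fun s => Real.sqrt (1 - (max (l * s + b) 0 / I s) ^ 2)) volume a c := by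
    intro a c
    rw [intervalIntegrable_iff]
    exact Measure.integrableOn_of_bounded (M := 1) (by simp [Set.uIoc]) hf.aestronglyMeasurable
      (ae_of_all _ (fun t => by simpa using hbd t))
  have hsplit := intervalIntegral.integral_add_adjacent_intervals (hint 0 m) (hint m M)
  have hle : ∫ s in (0 : ℝ)..m, Real.sqrt (1 - (max (l * s + b) 0 / I s) ^ 2) ≤ m := by
    have := intervalIntegral.integral_mono_on (a := (0 : ℝ)) (b := m) hm (hint 0 m)
      (intervalIntegrable_const (c := (1 : ℝ))) (fun s _ => (le_abs_self _).trans (hbd s))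
    simpa using this
  unfold lineValue
  rw [← hsplit]
  linarith

/-- The hump, given the parameter `d` and the two slice bounds. -/
private theorem cs_hump_main (h : Approx3 U χ) (hχ : Mono3 χ) {P m M : ℝ} (hP : ∀ k, En3 (U k) ≤ P)
    (hb : EssBounds (massT χ) m M) (hV1 : 1 / 4 ≤ vol χ) (hV2 : vol χ ≤ 37 / 100) (hm0 : m < ezero)
    {d : ℝ} (hd0 : 0 ≤ d) (hdM : d ≤ M)
    (hk1 : ∀ᵐ t, uu t < tstar → ∀ ε > 0, ∀ᶠ k in atTop,
      CL (massT χ t) (min d (9 / 10)) - ε ≤ En2 (slc (U k) t))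
    (hk2 : ∀ᵐ t, ¬ uu t < tstar → ∀ ε > 0, ∀ᶠ k in atTop,
      IH d (massT χ t) - ε ≤ En2 (slc (U k) t)) (hPJ : P ≤ Jf (vol χ)) :
    Tie m M := by
  obtain ⟨hm, hM⟩ := cs_bounds h.ind hb
  obtain ⟨hmV, hVM⟩ := cs_mean h.ind hb
  have hmM : m ≤ M := hmV.trans hVM
  rcases certHumpS (vol χ) m M d hV1 hV2 hm hm0 hVM hM hd0 hdM with hTie | hT | ⟨l, b, B, hl, hgain, hval⟩
  · exact Or.inr (Or.inl hTie)
  · exact absurd hPJ (not_le.2 (cs_tline h hP hb hm hmM hM hT))
  have hma := h.ind.measurable_massT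
  have hdp1 : min d (9 / 10) ≤ 9 / 10 := min_le_right _ _
  have hdp0 : 0 ≤ min d (9 / 10) := le_min hd0 (by norm_num)
  let c : ℝ → ℝ := fun t => if uu t < tstar then CL (massT χ t) (min d (9 / 10)) else IH d (massT χ t)
  have hSm : MeasurableSet {t | uu t < tstar} := measurableSet_lt uu_measurable measurable_const
  have hcm : Measurable c :=
    Measurable.ite hSm ((CL_continuous hdp1).measurable.comp hma)
      ((IH_continuous d).measurable.comp hma)
  have hcb : ∀ t, |c t| ≤ 30 := by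
    intro t
    have ha := h.ind.massT_mem t
    show |if uu t < tstar then CL (massT χ t) (min d (9 / 10)) else IH d (massT χ t)| ≤ 30
    split_ifs
    · exact cs_CL_abs ha.1 ha.2 hdp0 hdp1
    · exact cs_IH_abs d ha.2
  have hc : ∀ᵐ t, ∀ ε > 0, ∀ᶠ k in atTop, c t - ε ≤ En2 (slc (U k) t) := by
    filter_upwards [hk1, hk2] with t h1 h2 ε hε
    by_cases hS : uu t < tstar
    · have hct : c t = CL (massT χ t) (min d (9 / 10)) := if_pos hS
      rw [hct]
      exact h1 hS ε hε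
    · have hct : c t = IH d (massT χ t) := if_neg hS
      rw [hct]
      exact h2 hS ε hε
  have ht0 : (0 : ℝ) ≤ tstar := by norm_num [tstar]
  have ht1 : tstar < 1 := by norm_num [tstar]
  have h1 : ∀ᵐ t, t ∈ {t | uu t < tstar} → B ≤ gain (IH d) (fun _ => c t) l b (massT χ t) := by
    filter_upwards [cs_ae_le_M h.ind hb] with t ht hS
    have hS' : uu t < tstar := hS
    have hct : c t = CL (massT χ t) (min d (9 / 10)) := if_pos hS'
    have hmem : massT χ t ∈ Icc ((vol χ - tstar * M) / (1 - tstar)) M :=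
      ⟨massT_ge_of_lt hχ hb ht0 ht1 hS', ht⟩
    have := hgain _ hmem
    simp only [gain] at this ⊢
    rw [hct]
    exact this
  have h2 : ∀ᵐ t, t ∉ {t | uu t < tstar} → IH d (massT χ t) ≤ c t := by
    refine Eventually.of_forall (fun t hS => ?_)
    have hct : c t = IH d (massT χ t) := if_neg hS
    rw [hct]
  have hP' : ∃ᶠ k in atTop, En3 (U k) ≤ P := Eventually.frequently (Eventually.of_forall hP)
  have hadm : LineAdm (IH d) l b m M := fun s hs => hl s ⟨hm.trans hs.1, hs.2⟩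
  have main := dir_bound h (I := IH d) (c := c) (m := m) (M := M) (l := l) (b := b) (B := B) (P := P)
    (C := 30) (IH_continuous d) (fun s hs => IT_le_IH d hs) hb hm hmM hM hadm hcm hcb hc hSm h1 h2 hP'
  rw [volume_uu_lt ht0 ht1.le, ENNReal.toReal_ofReal ht0] at main
  have hshift := cs_lineValue_shift (IH_continuous d) (l := l) (b := b) (V := vol χ) (M := M) hm
  exfalso
  linarith

/-- Rows persist after the band. -/
private theorem cs_hump_rows (h : Approx3 U χ) (hχ : Mono3 χ) {P m M : ℝ} (hP : ∀ k, En3 (U k) ≤ P)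
    (hb : EssBounds (massT χ) m M) (hV1 : 1 / 4 ≤ vol χ) (hV2 : vol χ ≤ 37 / 100) (hm0 : m < ezero)
    (ht1 : tstar ≤ extB (Gy χ)) (hle : extB (Gy χ) ≤ extB (Gx χ)) (hPJ : P ≤ Jf (vol χ)) :
    Tie m M := by
  set β := extB (Gy χ) with hβ
  have hβ0 : 0 < β := lt_of_lt_of_le (by norm_num [tstar]) ht1
  have hβ1 : β ≤ 1 := extB_le_one _
  let A : Set ℝ := (fun t => deltaR (slc χ t)) '' {t | uu t < β}
  have hAne : A.Nonempty := ⟨_, ⟨1 / 2, by
    show uu (1 / 2) < β
    rw [uu_half]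
    exact hβ0, rfl⟩⟩
  have hAbd : BddBelow A := ⟨0, by
    rintro _ ⟨t, _, rfl⟩
    exact t3b_deltaR_nonneg _⟩
  let d : ℝ := sInf A
  have hd0 : 0 ≤ d := le_csInf hAne (by
    rintro _ ⟨t, _, rfl⟩
    exact t3b_deltaR_nonneg _)
  have hdle : ∀ t, uu t < β → d ≤ deltaR (slc χ t) := fun t ht => csInf_le hAbd ⟨t, ht, rfl⟩
  have hled : ∀ t, β < uu t → deltaR (slc χ t) ≤ d := fun t ht => le_csInf hAne (by
    rintro _ ⟨t', ht', rfl⟩
    have ht'' : uu t' < β := ht'
    exact deltaR_anti hχ (le_of_lt (ht''.trans ht)))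
  have hdM : d ≤ M := by
    obtain ⟨t₀, h1, h2⟩ := cs_exists_uu hβ0 hβ1
    exact (hdle t₀ h2).trans ((deltaR_le_extA hχ h1).trans (extA_Gx_le hχ hb))
  have hboth : ∀ t, uu t < β → Approx2 (fun k => slc (U k) t) (slc χ t) → ∀ ε > 0,
      ∀ᶠ k in atTop, CL (massT χ t) (min d (9 / 10)) - ε ≤ En2 (slc (U k) t) := by
    intro t ht hA ε hε
    exact slice_stadium hA (hχ.slice t) (deltaR_pos hχ (lt_of_lt_of_le ht hle))
      (deltaC_pos hχ ht) (min_le_right _ _) (Or.inl ((min_le_left _ _).trans (hdle t ht))) ε hε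
  refine cs_hump_main h hχ hP hb hV1 hV2 hm0 hd0 hdM ?_ ?_ hPJ
  · filter_upwards [h.slices] with t hA hS ε hε
    exact hboth t (lt_of_lt_of_le hS ht1) hA ε hε
  · filter_upwards [h.slices, cs_uu_ne β] with t hA hne _ ε hε
    rcases lt_or_gt_of_ne hne with hlt | hgt
    · exact (hboth t hlt hA ε hε).mono (fun k hk => by
        have := cs_IH_le_CL d (massT χ t)
        linarith)
    · have hc0 : deltaC (slc χ t) = 0 := deltaC_zero hχ hgt
      rcases (t3b_deltaR_nonneg (slc χ t)).eq_or_lt with hr0 | hr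
      · have hE := E2 hA ε hε
        refine hE.mono (fun k hk => ?_)
        have h5 := cs_IH_le_IE d (massT χ t)
        rw [hc0, ← hr0] at hk
        have h6 : IE (area (slc χ t)) = IE (massT χ t) := rfl
        rw [h6] at hk
        linarith
      · have hX := slice_Xr hA (hχ.slice t) hc0 hr (hled t hgt) ε hε
        refine hX.mono (fun k hk => ?_)
        have h5 := cs_IH_le_xhat d (massT χ t)
        have h6 : xhat (area (slc χ t) - d) = xhat (massT χ t - d) := rfl
        rw [h6] at hk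
        linarith

/-- Columns persist after the band. -/
private theorem cs_hump_cols (h : Approx3 U χ) (hχ : Mono3 χ) {P m M : ℝ} (hP : ∀ k, En3 (U k) ≤ P)
    (hb : EssBounds (massT χ) m M) (hV1 : 1 / 4 ≤ vol χ) (hV2 : vol χ ≤ 37 / 100) (hm0 : m < ezero)
    (ht1 : tstar ≤ extB (Gx χ)) (hle : extB (Gx χ) ≤ extB (Gy χ)) (hPJ : P ≤ Jf (vol χ)) :
    Tie m M := by
  set β := extB (Gx χ) with hβ
  have hβ0 : 0 < β := lt_of_lt_of_le (by norm_num [tstar]) ht1
  have hβ1 : β ≤ 1 := extB_le_one _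
  let A : Set ℝ := (fun t => deltaC (slc χ t)) '' {t | uu t < β}
  have hAne : A.Nonempty := ⟨_, ⟨1 / 2, by
    show uu (1 / 2) < β
    rw [uu_half]
    exact hβ0, rfl⟩⟩
  have hAbd : BddBelow A := ⟨0, by
    rintro _ ⟨t, _, rfl⟩
    exact t3b_deltaC_nonneg _⟩
  let d : ℝ := sInf A
  have hd0 : 0 ≤ d := le_csInf hAne (by
    rintro _ ⟨t, _, rfl⟩
    exact t3b_deltaC_nonneg _)
  have hdle : ∀ t, uu t < β → d ≤ deltaC (slc χ t) := fun t ht => csInf_le hAbd ⟨t, ht, rfl⟩
  have hled : ∀ t, β < uu t → deltaC (slc χ t) ≤ d := fun t ht => le_csInf hAne (by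
    rintro _ ⟨t', ht', rfl⟩
    have ht'' : uu t' < β := ht'
    exact deltaC_anti hχ (le_of_lt (ht''.trans ht)))
  have hdM : d ≤ M := by
    obtain ⟨t₀, h1, h2⟩ := cs_exists_uu hβ0 hβ1
    exact (hdle t₀ h2).trans ((deltaC_le_extA hχ h1).trans (extA_Gy_le hχ hb))
  have hboth : ∀ t, uu t < β → Approx2 (fun k => slc (U k) t) (slc χ t) → ∀ ε > 0,
      ∀ᶠ k in atTop, CL (massT χ t) (min d (9 / 10)) - ε ≤ En2 (slc (U k) t) := by
    intro t ht hA ε hε
    exact slice_stadium hA (hχ.slice t) (deltaR_pos hχ ht)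
      (deltaC_pos hχ (lt_of_lt_of_le ht hle)) (min_le_right _ _)
      (Or.inr ((min_le_left _ _).trans (hdle t ht))) ε hε
  refine cs_hump_main h hχ hP hb hV1 hV2 hm0 hd0 hdM ?_ ?_ hPJ
  · filter_upwards [h.slices] with t hA hS ε hε
    exact hboth t (lt_of_lt_of_le hS ht1) hA ε hε
  · filter_upwards [h.slices, cs_uu_ne β] with t hA hne _ ε hε
    rcases lt_or_gt_of_ne hne with hlt | hgt
    · exact (hboth t hlt hA ε hε).mono (fun k hk => by
        have := cs_IH_le_CL d (massT χ t)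
        linarith)
    · have hr0 : deltaR (slc χ t) = 0 := deltaR_zero hχ hgt
      rcases (t3b_deltaC_nonneg (slc χ t)).eq_or_lt with hc0 | hc
      · have hE := E2 hA ε hε
        refine hE.mono (fun k hk => ?_)
        have h5 := cs_IH_le_IE d (massT χ t)
        rw [hr0, ← hc0] at hk
        have h6 : IE (area (slc χ t)) = IE (massT χ t) := rfl
        rw [h6] at hk
        linarith
      · have hX := slice_Xc hA (hχ.slice t) hr0 hc (hled t hgt) ε hε
        refine hX.mono (fun k hk => ?_)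
        have h5 := cs_IH_le_xhat d (massT χ t)
        have h6 : xhat (area (slc χ t) - d) = xhat (massT χ t - d) := rfl
        rw [h6] at hk
        linarith

/-- Band of length `≥ tstar`, `m < ezero`. -/
theorem case_hump_s (h : Approx3 U χ) (hχ : Mono3 χ) {P m M : ℝ} (hP : ∀ k, En3 (U k) ≤ P)
    (hb : EssBounds (massT χ) m M) (hV1 : 1 / 4 ≤ vol χ) (hV2 : vol χ ≤ 37 / 100) (hm0 : m < ezero)
    (hband : tstar ≤ extB (Gx χ) ∧ tstar ≤ extB (Gy χ)) (hPJ : P ≤ Jf (vol χ)) :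
    Tie m M := by
  rcases le_total (extB (Gy χ)) (extB (Gx χ)) with hle | hle
  · exact cs_hump_rows h hχ hP hb hV1 hV2 hm0 hband.2 hle hPJ
  · exact cs_hump_cols h hχ hP hb hV1 hV2 hm0 hband.1 hle hPJ

/-- The lower essential bound holds a.e. on the whole line. -/
private theorem cs_ae_ge_m (h : Ind3 χ) {m M : ℝ} (hb : EssBounds (massT χ) m M) :
    ∀ᵐ t : ℝ, m ≤ massT χ t := by
  have h1 := (ae_restrict_iff' measurableSet_Ioc).mp hb.ge_m
  have h2 : ∀ n : ℤ, ∀ᵐ t : ℝ, (t - (n : ℝ)) ∈ Ioc (0 : ℝ) 1 → m ≤ massT χ (t - (n : ℝ)) := by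
    intro n
    exact (measurePreserving_sub_right volume (n : ℝ)).quasiMeasurePreserving.ae h1
  filter_upwards [ae_all_iff.mpr h2] with t ht
  have h3 := ht (⌈t⌉ - 1)
  have hmem : t - ((⌈t⌉ - 1 : ℤ) : ℝ) ∈ Ioc (0 : ℝ) 1 := by
    push_cast
    constructor
    · have := Int.ceil_lt_add_one t
      linarith
    · have := Int.le_ceil t
      linarith
  have h4 := h3 hmem
  have h5 : massT χ (t - ((⌈t⌉ - 1 : ℤ) : ℝ)) = massT χ t := by
    have := (cs_massT_per h).sub_zsmul_eq (x := t) (⌈t⌉ - 1)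
    simpa using this
  rwa [h5] at h4

private theorem cs_ICp_abs {s : ℝ} : |ICp s| ≤ 30 := by
  have h0 : 0 ≤ ICp s := (cs_IT_nonneg s).trans (IT_le_ICp s)
  have h1 : ICp s ≤ IE s := min_le_left _ _
  have h2 := t3b_IE_le s
  have h3 : Real.sqrt 2 ≤ 2 := by
    rw [Real.sqrt_le_left (by norm_num)]
    norm_num
  rw [abs_of_nonneg h0]
  linarith

/-- Thin direction. -/
theorem case_thin_s (h : Approx3 U χ) (hχ : Mono3 χ) {P m M : ℝ} (hP : ∀ k, En3 (U k) ≤ P)
    (hb : EssBounds (massT χ) m M) (hV1 : 1 / 4 ≤ vol χ) (hV2 : vol χ ≤ 37 / 100)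
    (ha : extA (Gx χ) < tstar) (hc : extA (Gy χ) < tstar) (hPJ : P ≤ Jf (vol χ)) :
    Tie m M := by
  obtain ⟨hm, hM⟩ := cs_bounds h.ind hb
  obtain ⟨hmV, hVM⟩ := cs_mean h.ind hb
  have hmM : m ≤ M := hmV.trans hVM
  rcases certThinS (vol χ) m M hV1 hV2 hm hmV hVM hM with hTie | ⟨l, b, hl, hval⟩
  · exact Or.inl hTie
  have hma := h.ind.measurable_massT
  have hcm : Measurable (fun t => ICp (massT χ t)) := ICp_continuous.measurable.comp hma
  have hk : ∀ᵐ t, ∀ ε > 0, ∀ᶠ k in atTop, ICp (massT χ t) - ε ≤ En2 (slc (U k) t) := by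
    filter_upwards [h.slices, cs_uu_ne 0] with t hA hne ε hε
    have hpos : 0 < uu t := lt_of_le_of_ne (uu_nonneg t) (Ne.symm hne)
    exact slice_thin hA (hχ.slice t) ((deltaR_le_extA hχ hpos).trans ha.le)
      ((deltaC_le_extA hχ hpos).trans hc.le) ε hε
  have hP' : ∃ᶠ k in atTop, En3 (U k) ≤ P := Eventually.frequently (Eventually.of_forall hP)
  have main := dir_bound h (I := ICp) (c := fun t => ICp (massT χ t)) (m := m) (M := M) (l := l) (b := b)
    (B := 0) (P := P) (C := 30) (S := ∅) ICp_continuous (fun s _ => IT_le_ICp s) hb hm hmM hM hl hcm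
    (fun t => cs_ICp_abs) hk MeasurableSet.empty
    (Eventually.of_forall fun t ht => absurd ht (notMem_empty t))
    (Eventually.of_forall fun t _ => le_rfl) hP'
  simp only [empty_inter, measure_empty, ENNReal.toReal_zero, mul_zero, add_zero] at main
  exact absurd hPJ (not_le.2 (hval.trans_le main))

/-- Cycle, one of the two forms: `S = {uu t < β}`, `β < tstar` the range of the family `2`,
the family `1` has width `< tstar`. The slice bound is given as a hypothesis. -/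
private theorem cs_cycle_main (h : Approx3 U χ) (hχ : Mono3 χ) {P m M β : ℝ} (hP : ∀ k, En3 (U k) ≤ P)
    (hb : EssBounds (massT χ) m M) (hV1 : 1 / 4 ≤ vol χ) (hV2 : vol χ ≤ 37 / 100) (hm0 : m < tstar)
    (hβ0 : 0 ≤ β) (hβ1 : β < tstar)
    (hk : ∀ᵐ t, β < uu t → ∀ ε > 0, ∀ᶠ k in atTop, ICp (massT χ t) - ε ≤ En2 (slc (U k) t))
    (hPJ : P ≤ Jf (vol χ)) : Tie m M := by
  obtain ⟨hm, hM⟩ := cs_bounds h.ind hb
  obtain ⟨hmV, hVM⟩ := cs_mean h.ind hb
  have hmM : m ≤ M := hmV.trans hVM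
  rcases certCycleS (vol χ) m M hV1 hV2 hm hm0 hVM hM with hT | ⟨l, b, B, hB0, hl, hgain, hval⟩
  · exact absurd hPJ (not_le.2 (cs_tline h hP hb hm hmM hM hT))
  have hma := h.ind.measurable_massT
  let c : ℝ → ℝ := fun t => if uu t < β then IT (massT χ t) else ICp (massT χ t)
  have hSm : MeasurableSet {t | uu t < β} := measurableSet_lt uu_measurable measurable_const
  have hcm : Measurable c :=
    Measurable.ite hSm (t3b_IT_cont.measurable.comp hma) (ICp_continuous.measurable.comp hma)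
  have hcb : ∀ t, |c t| ≤ 30 := by
    intro t
    show |if uu t < β then IT (massT χ t) else ICp (massT χ t)| ≤ 30
    split_ifs
    · exact (t3b_IT_abs _).trans (by norm_num)
    · exact cs_ICp_abs
  have hc : ∀ᵐ t, ∀ ε > 0, ∀ᶠ k in atTop, c t - ε ≤ En2 (slc (U k) t) := by
    filter_upwards [h.slices, hk, cs_uu_ne β] with t hA hk' hne ε hε
    by_cases hS : uu t < β
    · have hct : c t = IT (massT χ t) := if_pos hS
      rw [hct]
      exact E1 hA ε hε
    · have hct : c t = ICp (massT χ t) := if_neg hS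
      rw [hct]
      exact hk' (lt_of_le_of_ne (not_lt.1 hS) (Ne.symm hne)) ε hε
  have h1 : ∀ᵐ t, t ∈ {t | uu t < β} → B ≤ gain ICp (fun _ => c t) l b (massT χ t) := by
    filter_upwards [cs_ae_le_M h.ind hb, cs_ae_ge_m h.ind hb] with t ht1 ht2 hS
    have hS' : uu t < β := hS
    have hct : c t = IT (massT χ t) := if_pos hS'
    have := hgain _ ⟨ht2, ht1⟩
    simp only [gain] at this ⊢
    rw [hct]
    exact this
  have h2 : ∀ᵐ t, t ∉ {t | uu t < β} → ICp (massT χ t) ≤ c t := by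
    refine Eventually.of_forall (fun t hS => ?_)
    have hct : c t = ICp (massT χ t) := if_neg hS
    rw [hct]
  have hP' : ∃ᶠ k in atTop, En3 (U k) ≤ P := Eventually.frequently (Eventually.of_forall hP)
  have main := dir_bound h (I := ICp) (c := c) (m := m) (M := M) (l := l) (b := b) (B := B) (P := P)
    (C := 30) ICp_continuous (fun s _ => IT_le_ICp s) hb hm hmM hM hl hcm hcb hc hSm h1 h2 hP'
  have hβ11 : β ≤ 1 := hβ1.le.trans (by norm_num [tstar])
  rw [volume_uu_lt hβ0 hβ11, ENNReal.toReal_ofReal hβ0] at main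
  have hmul : tstar * B ≤ β * B := mul_le_mul_of_nonpos_right hβ1.le hB0
  exfalso
  linarith

/-- Cycle. -/
theorem case_cycle_s (h : Approx3 U χ) (hχ : Mono3 χ) {P m M : ℝ} (hP : ∀ k, En3 (U k) ≤ P)
    (hb : EssBounds (massT χ) m M) (hV1 : 1 / 4 ≤ vol χ) (hV2 : vol χ ≤ 37 / 100) (hm0 : m < tstar)
    (hcy : extA (Gx χ) < tstar ∧ extB (Gy χ) < tstar ∨ extA (Gy χ) < tstar ∧ extB (Gx χ) < tstar)
    (hPJ : P ≤ Jf (vol χ)) : Tie m M := by
  rcases hcy with ⟨h1, h2⟩ | ⟨h1, h2⟩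
  · refine cs_cycle_main h hχ hP hb hV1 hV2 hm0 (extB_nonneg _) h2 ?_ hPJ
    filter_upwards [h.slices, cs_uu_ne 0] with t hA hne hgt ε hε
    have hpos : 0 < uu t := lt_of_le_of_ne (uu_nonneg t) (Ne.symm hne)
    have hc0 : deltaC (slc χ t) = 0 := deltaC_zero hχ hgt
    exact slice_thin hA (hχ.slice t) ((deltaR_le_extA hχ hpos).trans h1.le)
      (by rw [hc0]; norm_num [tstar]) ε hε
  · refine cs_cycle_main h hχ hP hb hV1 hV2 hm0 (extB_nonneg _) h2 ?_ hPJ
    filter_upwards [h.slices, cs_uu_ne 0] with t hA hne hgt ε hε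
    have hpos : 0 < uu t := lt_of_le_of_ne (uu_nonneg t) (Ne.symm hne)
    have hr0 : deltaR (slc χ t) = 0 := deltaR_zero hχ hgt
    exact slice_thin hA (hχ.slice t) (by rw [hr0]; norm_num [tstar])
      ((deltaC_le_extA hχ hpos).trans h1.le) ε hε

/-- One direction: all alternatives. -/
theorem alt_tie (h : Approx3 U χ) (hχ : Mono3 χ) {P m M : ℝ} (hP : ∀ k, En3 (U k) ≤ P)
    (hb : EssBounds (massT χ) m M) (hV1 : 1 / 4 ≤ vol χ) (hV2 : vol χ ≤ 37 / 100)
    (halt : Alt (extA (Gx χ)) (extB (Gx χ)) (extA (Gy χ)) (extB (Gy χ)) (ft χ) M)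
    (hPJ : P ≤ Jf (vol χ)) : Tie m M := by
  rw [← essMin_eq_ft hχ hb] at halt
  rcases halt with ⟨h1, h2, h3⟩ | ⟨h1, h2, h3⟩ | ⟨h1, h2⟩ | ⟨h1, h2⟩
  · exact case_band_s h hχ hP hb hV1 hV2 h1 (Or.inl ⟨h2, h3⟩) hPJ
  · by_cases h4 : ezero ≤ m
    · exact case_band_s h hχ hP hb hV1 hV2 h4 (Or.inr ⟨h1, h2, h3⟩) hPJ
    · exact case_hump_s h hχ hP hb hV1 hV2 (not_le.mp h4) ⟨h2, h3⟩ hPJ
  · exact case_thin_s h hχ hP hb hV1 hV2 h1 h2 hPJ
  · exact case_cycle_s h hχ hP hb hV1 hV2 h1 h2 hPJ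

private theorem cc_massT_abs (h : Ind3 χ) (t : ℝ) : |massT χ t| ≤ 1 := by
  have := h.massT_mem t
  rw [abs_of_nonneg this.1]
  exact this.2

/-- **Monotone sets**: a monotone set with perimeter at most the target has essential bounds with `Tie`
in one of the three directions. -/
theorem mono_tie (h : Approx3 U χ) (hχ : Mono3 χ) {P : ℝ} (hP : ∀ k, En3 (U k) ≤ P)
    (hV1 : 1 / 4 ≤ vol χ) (hV2 : vol χ ≤ 37 / 100) (hPJ : P ≤ Jf (vol χ)) :
    (∃ m M, EssBounds (massT χ) m M ∧ Tie m M) ∨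
    (∃ m M, EssBounds (massT (perm χ)) m M ∧ Tie m M) ∨
    (∃ m M, EssBounds (massT (perm (perm χ))) m M ∧ Tie m M) := by
  -- the permuted sets
  have h1 := h.perm
  have h2 := h1.perm
  have hχ1 : Mono3 (perm χ) := hχ.perm
  have hχ2 : Mono3 (perm (perm χ)) := hχ1.perm
  have hv1 : vol (perm χ) = vol χ := vol_perm h.ind
  have hv2 : vol (perm (perm χ)) = vol χ := by
    rw [vol_perm h1.ind, hv1]
  have hP1 : ∀ k, En3 (perm (U k)) ≤ P := fun k => by
    rw [En3_perm (h.c1 k)]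
    exact hP k
  have hP2 : ∀ k, En3 (perm (perm (U k))) ≤ P := fun k => by
    rw [En3_perm (h1.c1 k), En3_perm (h.c1 k)]
    exact hP k
  -- the largest slices
  obtain ⟨mT, MT, -, hbT⟩ := exists_essBounds h.ind.measurable_massT (cc_massT_abs h.ind)
  obtain ⟨mY, MY, -, hbY⟩ := exists_essBounds h1.ind.measurable_massT (cc_massT_abs h1.ind)
  obtain ⟨mX, MX, -, hbX⟩ := exists_essBounds h2.ind.measurable_massT (cc_massT_abs h2.ind)
  have hpos : ∀ {χ' : ℝ → ℝ → ℝ → ℝ} {m' M' : ℝ}, Ind3 χ' → vol χ' = vol χ →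
      EssBounds (massT χ') m' M' → 0 < M' := by
    intro χ' m' M' hi hv hb'
    have h3 := (hb'.mean_mem hi.measurable_massT (cc_massT_abs hi)).2
    have h4 : ∫ t in (0 : ℝ)..1, massT χ' t = vol χ := hv
    rw [h4] at h3
    linarith
  have hMT : 0 < MT := hpos h.ind rfl hbT
  have hMY : 0 < MY := hpos h1.ind hv1 hbY
  have hMX : 0 < MX := hpos h2.ind hv2 hbX
  -- the six extents
  have eY1 : extA (Gx (perm χ)) = extA (Gt χ) := by rw [Gx_perm]
  have eY2 : extB (Gx (perm χ)) = extB (Gt χ) := by rw [Gx_perm]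
  have eY3 : extA (Gy (perm χ)) = extB (Gx χ) := by
    rw [Gy_perm]
    exact extA_swap (Gx χ)
  have eY4 : extB (Gy (perm χ)) = extA (Gx χ) := by
    rw [Gy_perm]
    exact extB_swap (Gx χ)
  have eX1 : extA (Gx (perm (perm χ))) = extB (Gy χ) := by
    rw [Gx_perm, Gt_perm]
    exact extA_swap (Gy χ)
  have eX2 : extB (Gx (perm (perm χ))) = extA (Gy χ) := by
    rw [Gx_perm, Gt_perm]
    exact extB_swap (Gy χ)
  have eX3 : extA (Gy (perm (perm χ))) = extB (Gt χ) := by
    rw [Gy_perm, Gx_perm]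
    exact extA_swap (Gt χ)
  have eX4 : extB (Gy (perm (perm χ))) = extA (Gt χ) := by
    rw [Gy_perm, Gx_perm]
    exact extB_swap (Gt χ)
  have hft1 : ft (perm χ) = fy χ := ft_perm h.ind
  have hft2 : ft (perm (perm χ)) = fx χ := by
    rw [ft_perm h1.ind, fy_perm h.ind]
  have htree := tree (extA_le_one (Gx χ)) (extB_le_one (Gx χ)) (extA_le_one (Gy χ))
    (extB_le_one (Gy χ)) (extA_le_one (Gt χ)) (extB_le_one (Gt χ))
    (extA_nonneg (Gx χ)) (extB_nonneg (Gx χ)) (extA_nonneg (Gy χ))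
    (extB_nonneg (Gy χ)) (extA_nonneg (Gt χ)) (extB_nonneg (Gt χ))
    (fx_le_ext hχ) (fy_le_ext hχ) (ft_le_ext hχ)
    (extA_Gx_le hχ hbT) (extA_Gy_le hχ hbT)
    (by
      have := extA_Gy_le hχ1 hbY
      rwa [eY3] at this)
    (by
      have := extA_Gx_le hχ1 hbY
      rwa [eY1] at this)
    (by
      have := extA_Gx_le hχ2 hbX
      rwa [eX1] at this)
    (by
      have := extA_Gy_le hχ2 hbX
      rwa [eX3] at this)
    hMX hMY hMT
  rcases htree with halt | halt | halt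
  · exact Or.inl ⟨mT, MT, hbT, alt_tie h hχ hP hbT hV1 hV2 halt hPJ⟩
  · refine Or.inr (Or.inl ⟨mY, MY, hbY, ?_⟩)
    exact alt_tie h1 hχ1 hP1 hbY (by rw [hv1]; exact hV1) (by rw [hv1]; exact hV2)
      (by rw [eY1, eY2, eY3, eY4, hft1]; exact halt) (by rw [hv1]; exact hPJ)
  · refine Or.inr (Or.inr ⟨mX, MX, hbX, ?_⟩)
    exact alt_tie h2 hχ2 hP2 hbX (by rw [hv2]; exact hV1) (by rw [hv2]; exact hV2)
      (by rw [eX1, eX2, eX3, eX4, hft2]; exact halt) (by rw [hv2]; exact hPJ)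

end Vale.Agent.Lib.P232
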