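import Vale.Agent.Lib.P232.S3Defs

/-! P232 stage 4, job J10: the strict forms of the certificates of stage 3. -/

open MeasureTheory Set Filter Topology
open scoped ENNReal

noncomputable section

namespace Vale.Agent.Lib.P232

/-- The pairs `(m, M)` of essential bounds where the value of the best line can equal the target:
constant area; slab across the direction; all slices in the range of the strip. -/
def Tie (m M : ℝ) : Prop :=
  m = M ∨ (m = 0 ∧ M = 1) ∨ (1 / Real.pi ≤ m ∧ M ≤ 1 - 1 / Real.pi)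

/-- A torus line, strictly above the target. -/
def TLineS (V m M : ℝ) : Prop := ∃ l b, LineAdm IT l b m M ∧ Jf V < lineValue IT l b V m M

/-- Strict form of `CertBand`. -/
def CertBandS : Prop := ∀ V m M : ℝ, 1 / 4 ≤ V → V ≤ 37 / 100 → ezero ≤ m → m ≤ V → V ≤ M → M ≤ 1 →
  Tie m M ∨ TLineS V m M ∨ ∃ l b T B : ℝ, 0 ≤ T ∧ T < 1 ∧ T * M ≤ m ∧ (m < tstar → T ≤ tstar) ∧
    LineAdm IT l b m M ∧ (∀ s ∈ Icc ((V - T * M) / (1 - T)) M, B ≤ gain IT IL l b s) ∧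
    Jf V < lineValue IT l b V m M + T * B

/-- Strict form of `CertHump`. The second alternative is the one of `CertHump`: `m < ezero` makes it
strict. -/
def CertHumpS : Prop := ∀ V m M d : ℝ, 1 / 4 ≤ V → V ≤ 37 / 100 → 0 ≤ m → m < ezero → V ≤ M → M ≤ 1 →
  0 ≤ d → d ≤ M →
  (m = 0 ∧ M = 1) ∨ TLineS V m M ∨ ∃ l b B : ℝ, LineAdm (IH d) l b 0 M ∧
    (∀ s ∈ Icc ((V - tstar * M) / (1 - tstar)) M,
      B ≤ gain (IH d) (fun s => CL s (min d (9 / 10))) l b s) ∧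
    Jf V + 2 * ezero ≤ lineValue (IH d) l b V 0 M + tstar * B

/-- Strict form of `CertThin`. -/
def CertThinS : Prop := ∀ V m M : ℝ, 1 / 4 ≤ V → V ≤ 37 / 100 → 0 ≤ m → m ≤ V → V ≤ M → M ≤ 1 →
  m = M ∨ ∃ l b, LineAdm ICp l b m M ∧ Jf V < lineValue ICp l b V m M

/-- Strict form of `CertCycle`. -/
def CertCycleS : Prop := ∀ V m M : ℝ, 1 / 4 ≤ V → V ≤ 37 / 100 → 0 ≤ m → m < tstar → V ≤ M → M ≤ 1 →
  TLineS V m M ∨ ∃ l b B : ℝ, B ≤ 0 ∧ LineAdm ICp l b m M ∧ (∀ s ∈ Icc m M, B ≤ gain ICp IT l b s) ∧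
    Jf V < lineValue ICp l b V m M + tstar * B

end Vale.Agent.Lib.P232
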