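import Vale.Agent.Lib.P232.CertBand
import Vale.Agent.Lib.P232.Class.StrictDefs

/-! The strict form of the band certificate, in the shape of `CertBandS`. -/

namespace Vale.Agent.Lib.P232

theorem certBandS_proved : CertBandS := by
  intro V m M hV hV2 hm hmV hVM hM
  rcases Band.certBand_strict hV hV2 hm hmV hVM hM with ⟨l, b, h1, h2⟩ | h
  · exact Or.inr (Or.inl ⟨l, b, h1, h2⟩)
  · exact Or.inr (Or.inr h)

end Vale.Agent.Lib.P232
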