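import Vale.Agent.Lib.P232.Chord

/-!
# P232, stage 4: the strict form of the chord

Apart from the ties `m = M` and the ball tie, the chord has value strictly above `JJ V`.
-/

open Real MeasureTheory Set

noncomputable section

namespace Vale.Agent.Lib.P232

/-- The tie of the ball. -/
def TieB (V m M : ℝ) : Prop :=
  m = 0 ∧ ∃ r : ℝ, 0 < r ∧ r ≤ 1 / 3 ∧ M = π * r ^ 2 ∧ V = 4 * π * r ^ 3 / 3

/-! ### The chord from the origin -/

/-- Strict tangent bound for `JJ`, away from the ball tie. `r` is the radius with `k = √π r`. -/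
lemma JJ_lt_tangent {r V : ℝ} (hr : 0 < r) (hV : 0 ≤ V) (hno : ¬ (r ≤ 1 / 3 ∧ V = 4 * π * r ^ 3 / 3)) :
    JJ V < 2 / r * V + 4 / 3 * (π * r ^ 2) := by
  have hpi := pi_pos
  by_cases hVeq : V = 4 * π * r ^ 3 / 3
  · have hr3 : 1 / 3 < r := by
      by_contra hcon
      exact hno ⟨not_lt.mp hcon, hVeq⟩
    refine (chord_JJ_le_tube V).trans_lt ?_
    have e1 : π * V = (π * r) ^ 2 * (4 * r / 3) := by
      rw [hVeq]
      ring
    have hsq : √(π * V) < 2 * π * r ^ 2 := by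
      rw [e1, Real.sqrt_mul (by positivity), Real.sqrt_sq (by positivity)]
      have h2 : √(4 * r / 3) < 2 * r := by
        rw [Real.sqrt_lt' (by positivity)]
        nlinarith
      have h3 : π * r * √(4 * r / 3) < π * r * (2 * r) :=
        mul_lt_mul_of_pos_left h2 (by positivity)
      nlinarith
    have e2 : 2 / r * V + 4 / 3 * (π * r ^ 2) = 4 * π * r ^ 2 := by
      rw [hVeq]
      field_simp
      ring
    rw [e2]
    linarith
  · refine (chord_JJ_le_ball V).trans_lt ?_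
    obtain ⟨hA3, hA0, hx3, hx2, hx0⟩ := ball_cube_facts hV
    set A := (36 * π) ^ ((1 : ℝ) / 3) with hA
    set x := V ^ ((1 : ℝ) / 3) with hx
    rw [← hx2]
    set l := 2 / r with hl
    have hl0 : 0 < l := by positivity
    have hne : l * x - 2 / 3 * A ≠ 0 := by
      intro h0
      apply hVeq
      have hx' : x = A / 3 * r := by
        rw [hl] at h0
        field_simp at h0
        nlinarith
      rw [← hx3, hx']
      have : (A / 3 * r) ^ 3 = A ^ 3 / 27 * r ^ 3 := by ring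
      rw [this, hA3]
      ring
    have h1 : 0 < (l * x - 2 / 3 * A) ^ 2 * (l * x + A / 3) := by
      apply mul_pos (by positivity)
      positivity
    have e3 : 4 / 3 * (π * r ^ 2) = (4 / 27) * A ^ 3 / l ^ 2 := by
      rw [hA3, hl]
      field_simp
      ring
    rw [e3]
    have h2 : l * V + (4 / 27) * A ^ 3 / l ^ 2 = (l ^ 3 * x ^ 3 + (4 / 27) * A ^ 3) / l ^ 2 := by
      rw [hx3]
      field_simp
    rw [h2, lt_div_iff₀ (by positivity)]
    nlinarith [h1]

/-- A chord from the origin, with any profile equal to the disc profile there. -/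
lemma chord_origin_strict (I : ℝ → ℝ) {V M : ℝ} (hV : 0 < V) (hVM : V ≤ M)
    (hI : ∀ s ∈ Icc (0 : ℝ) M, I s = 2 * √(π * s)) (hno : ¬ TieB V 0 M) :
    ∃ l b, LineAdm I l b 0 M ∧ JJ V < lineValue I l b V 0 M := by
  have hpi := pi_pos
  have hM0 : 0 < M := lt_of_lt_of_le hV hVM
  set k := √M with hk
  have hk0 : 0 < k := Real.sqrt_pos.mpr hM0
  have hk2 : k ^ 2 = M := Real.sq_sqrt hM0.le
  have hsp0 : 0 < √π := Real.sqrt_pos.mpr hpi
  have hsp : √π ^ 2 = π := Real.sq_sqrt hpi.le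
  have e00 : (0 : ℝ) ^ 2 = 0 := by norm_num
  have hI' : ∀ s ∈ Icc ((0 : ℝ) ^ 2) (k ^ 2), I s = 2 * √(π * s) := by
    rw [e00, hk2]
    exact hI
  obtain ⟨hadm, hval⟩ := chord_facts I le_rfl hk0.le hk0 hI'
  rw [e00, hk2] at hadm
  refine ⟨_, _, hadm, ?_⟩
  have hval2 := hval V
  rw [e00, hk2] at hval2
  rw [hval2]
  set r := k / √π with hr
  have hr0 : 0 < r := by positivity
  have hrk : k = √π * r := by
    rw [hr]
    field_simp
  have hMr : M = π * r ^ 2 := by
    rw [← hk2, hrk, mul_pow, hsp]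
  have hnot : ¬ (r ≤ 1 / 3 ∧ V = 4 * π * r ^ 3 / 3) := by
    rintro ⟨h1, h2⟩
    exact hno ⟨rfl, r, hr0, h1, hMr, h2⟩
  have hlt := JJ_lt_tangent hr0 hV.le hnot
  have hOm := omega_ge (h := 0) (k := k) le_rfl hk0.le
  refine hlt.trans_le ?_
  have e1 : 2 * √π / (0 + k) * V = 2 / r * V := by
    rw [hrk, zero_add]
    field_simp
  rw [e1]
  have e2 : (2 * √π * (0 * k) + 2 * Om 0 k) / (0 + k) = 2 * Om 0 k / k := by
    simp
  rw [e2]
  have h3 : 4 / 3 * (π * r ^ 2) ≤ 2 * Om 0 k / k := by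
    rw [le_div_iff₀ hk0]
    have h4 : 2 * (k - 0) ^ 2 * ((k - 0) / 3 + π * 0 / 4) = 2 / 3 * k ^ 3 := by ring
    rw [h4] at hOm
    have h5 : π * r ^ 2 = k ^ 2 := by rw [hk2, hMr]
    rw [h5]
    nlinarith
  linarith

/-! ### Chord with `h > 0` -/

/-- The strict form of the model lemma. -/
lemma model_strict {h k V Ω : ℝ} (hh : 0 ≤ h) (hk : h ≤ k) (hk0 : 0 < k) (hV : 0 ≤ V)
    (hΩ : 2 / 3 * (k - h) ^ 2 * (k + h) < Ω) :
    JJ V < 2 * √π / (h + k) * V + (2 * √π * (h * k) + 2 * Ω) / (h + k) := by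
  have hu : 0 < h + k := by linarith
  have h1 := model_value (Ω := 2 / 3 * (k - h) ^ 2 * (k + h)) (V := V) hh hk hk0 hV le_rfl
  refine h1.trans_lt ?_
  have h2 : (2 * √π * (h * k) + 2 * (2 / 3 * (k - h) ^ 2 * (k + h))) / (h + k) <
      (2 * √π * (h * k) + 2 * Ω) / (h + k) :=
    div_lt_div_of_pos_right (by linarith) hu
  linarith

/-- `Om` is strictly above the model when `h > 0`, `h < k`. -/
lemma omega_gt {h k : ℝ} (hh : 0 < h) (hk : h < k) : 2 / 3 * (k - h) ^ 2 * (k + h) < Om h k := by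
  have hpi : 3 < π := pi_gt_three
  have h1 := omega_ge hh.le hk.le
  have hw : 0 < k - h := by linarith
  have h2 : 0 < (k - h) ^ 2 * h := by positivity
  nlinarith [mul_pos (sub_pos.mpr hpi) h2]

/-- **Range `M ≤ 1/π`, strict.** -/
theorem final_small_M_strict {V m M : ℝ} (hV : 0 < V) (hm : 0 ≤ m) (hmV : m ≤ V) (hVM : V ≤ M)
    (hM : M ≤ 1 / π) (hne : m < M) (hno : ¬ TieB V m M) :
    ∃ l b, LineAdm IT l b m M ∧ JJ V < lineValue IT l b V m M := by
  have hM0 : 0 < M := lt_of_lt_of_le hV hVM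
  rcases hm.eq_or_lt with h0 | hmpos
  · subst h0
    exact chord_origin_strict IT hV hVM (fun s hs => IT_eq_of_le (hs.2.trans hM)) hno
  set h := √m with hh
  set k := √M with hk
  have hh0 : 0 < h := Real.sqrt_pos.mpr hmpos
  have hk0 : 0 < k := Real.sqrt_pos.mpr hM0
  have hhk : h < k := Real.sqrt_lt_sqrt hm hne
  have hm2 : m = h ^ 2 := (Real.sq_sqrt hm).symm
  have hM2 : M = k ^ 2 := (Real.sq_sqrt hM0.le).symm
  have hI : ∀ s ∈ Icc (h ^ 2) (k ^ 2), IT s = 2 * √(π * s) := by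
    intro s hs
    apply IT_eq_of_le
    rw [← hM2] at hs
    exact hs.2.trans hM
  obtain ⟨hadm, hval⟩ := chord_facts IT hh0.le hhk.le hk0 hI
  rw [hm2, hM2]
  refine ⟨_, _, hadm, ?_⟩
  rw [hval]
  exact model_strict hh0.le hhk.le hk0 hV.le (omega_gt hh0 hhk)

/-- **Range `M ≤ 2/π`, `√m ≤ (9/100)√M`, strict.** -/
theorem final_small_u_strict {V m M : ℝ} (hV : 0 < V) (hm : 0 ≤ m) (hmV : m ≤ V) (hVM : V ≤ M)
    (hM : M ≤ 2 / π) (hu : √m ≤ 9 / 100 * √M) (hno : ¬ TieB V m M) :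
    ∃ l b, LineAdm IE l b m M ∧ JJ V + 4 * m < lineValue IE l b V m M := by
  have hM0 : 0 < M := lt_of_lt_of_le hV hVM
  rcases hm.eq_or_lt with h0 | hmpos
  · subst h0
    obtain ⟨l, b, h1, h2⟩ := chord_origin_strict IE hV hVM
      (fun s hs => IE_eq_of_le (hs.2.trans hM)) hno
    exact ⟨l, b, h1, by linarith⟩
  set h := √m with hh
  set k := √M with hk
  have hh0 : 0 < h := Real.sqrt_pos.mpr hmpos
  have hk0 : 0 < k := Real.sqrt_pos.mpr hM0
  have hhk : h < k := by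
    have : 9 / 100 * k < k := by linarith
    linarith
  have hm2 : m = h ^ 2 := (Real.sq_sqrt hm).symm
  have hM2 : M = k ^ 2 := (Real.sq_sqrt hM0.le).symm
  have hI : ∀ s ∈ Icc (h ^ 2) (k ^ 2), IE s = 2 * √(π * s) := by
    intro s hs
    apply IE_eq_of_le
    rw [← hM2] at hs
    exact hs.2.trans hM
  obtain ⟨hadm, hval⟩ := chord_facts IE hh0.le hhk.le hk0 hI
  rw [hm2, hM2]
  refine ⟨_, _, hadm, ?_⟩
  rw [hval]
  have hkey : 2 / 3 * (k - h) ^ 2 * (k + h) < Om h k - 2 * h ^ 2 * (h + k) := by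
    refine lt_of_lt_of_le ?_ (sub_le_sub_right (omega_ge hh0.le hhk.le) _)
    have hpi : 3.1415 < π := pi_gt_d4
    have hw : 91 / 100 * k ≤ k - h := by linarith
    have hw2 : (91 / 100 * k) ^ 2 ≤ (k - h) ^ 2 := pow_le_pow_left₀ (by positivity) hw 2
    have hc : (237 / 1000 : ℝ) < π / 2 - 4 / 3 := by linarith
    have h1 : 2 * h * (h + k) ≤ (237 / 1000) * (k - h) ^ 2 := by
      have h2 : 2 * h * (h + k) ≤ 2 * (9 / 100 * k) * (9 / 100 * k + k) := by
        apply mul_le_mul (by linarith) (by linarith) (by positivity) (by positivity)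
      nlinarith
    have h3 : 0 ≤ h * ((237 / 1000) * (k - h) ^ 2 - 2 * h * (h + k)) :=
      mul_nonneg hh0.le (by linarith)
    have h4 : 0 < (π / 2 - 4 / 3 - 237 / 1000) * ((k - h) ^ 2 * h) :=
      mul_pos (by linarith) (mul_pos (by nlinarith [sub_pos.mpr hhk]) hh0)
    nlinarith [h3, h4]
  have hmodel := model_strict (Ω := Om h k - 2 * h ^ 2 * (h + k)) (V := V) hh0.le hhk.le hk0 hV.le hkey
  have heq : (2 * √π * (h * k) + 2 * (Om h k - 2 * h ^ 2 * (h + k))) / (h + k)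
      = (2 * √π * (h * k) + 2 * Om h k) / (h + k) - 4 * h ^ 2 := by
    have hupos : h + k ≠ 0 := by linarith
    field_simp
    ring
  rw [heq] at hmodel
  linarith

end Vale.Agent.Lib.P232

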