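import Vale.Agent.Lib.P232.Class.CanonDefs

/-! Discs and strips. -/

open MeasureTheory Set Filter Topology Real

noncomputable section

namespace Vale.Agent.Lib.P232

/-- A disc. -/
def IsDisc (ψ : ℝ → ℝ → ℝ) : Prop :=
  ∃ x₀ y₀ R, 0 < R ∧ ∀ᵐ p : ℝ × ℝ, ψ p.1 p.2 = (discSet x₀ y₀ R).indicator (fun _ => (1 : ℝ)) p

/-- A strip. -/
def IsStrip (ψ : ℝ → ℝ → ℝ) : Prop :=
  ∃ a w, 0 < w ∧ w < 1 ∧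
    ((∀ᵐ p : ℝ × ℝ, ψ p.1 p.2 = 1 ↔ ∃ n : ℤ, a + n < p.1 ∧ p.1 < a + n + w) ∨
     (∀ᵐ p : ℝ × ℝ, ψ p.1 p.2 = 1 ↔ ∃ n : ℤ, a + n < p.2 ∧ p.2 < a + n + w))


end Vale.Agent.Lib.P232
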