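import Vale.Agent.Lib.P232.Class.T8
import Vale.Agent.Lib.P232.Class.A6
import Vale.Agent.Lib.P232.Class.A7
import Vale.Agent.Lib.P232.MainFinal

/-!
# P232, stage 4: the final statement
-/

open MeasureTheory Set Filter Topology Real

noncomputable section

namespace Vale.Agent.Lib.P232

variable {E : Set R3}

/-- The conjectured profile on the whole of `(0, 1)`. -/
def JAll (V : ℝ) : ℝ := Jf (min V (1 - V))

/-- Being canonical depends only on the class modulo null sets. -/
theorem IsCanonical.congr {S S' : Set R3} (h : IsCanonical S) (hS : S' =ᵐ[volume] S) : IsCanonical S' := by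
  rcases h with ⟨a, b, c, r, h0, h1⟩ | ⟨a, b, r, h0, h1⟩ | ⟨a, b, r, h0, h1⟩ | ⟨a, b, r, h0, h1⟩ |
    ⟨a, w, h0, h2, h1⟩ | ⟨a, w, h0, h2, h1⟩ | ⟨a, w, h0, h2, h1⟩
  · exact Or.inl ⟨a, b, c, r, h0, hS.trans h1⟩
  · exact Or.inr (Or.inl ⟨a, b, r, h0, hS.trans h1⟩)
  · exact Or.inr (Or.inr (Or.inl ⟨a, b, r, h0, hS.trans h1⟩))
  · exact Or.inr (Or.inr (Or.inr (Or.inl ⟨a, b, r, h0, hS.trans h1⟩)))
  · exact Or.inr (Or.inr (Or.inr (Or.inr (Or.inl ⟨a, w, h0, h2, hS.trans h1⟩))))
  · exact Or.inr (Or.inr (Or.inr (Or.inr (Or.inr (Or.inl ⟨a, w, h0, h2, hS.trans h1⟩)))))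
  · exact Or.inr (Or.inr (Or.inr (Or.inr (Or.inr (Or.inr ⟨a, w, h0, h2, hS.trans h1⟩)))))

/-- From the indicator to the set. -/
theorem isCanonical_of_canonInd (hE : MeasurableSet E) (h : CanonInd (ind E)) : IsCanonical E := by
  obtain ⟨S, hS, hae⟩ := h
  refine hS.congr ?_
  rw [Filter.eventuallyEq_set]
  filter_upwards [hae] with p hp
  by_cases h1 : p ∈ E
  · have : ind E p.1 p.2.1 p.2.2 = 1 := by
      simp only [ind]
      exact Set.indicator_of_mem h1 _
    rw [this] at hp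
    have hpS : p ∈ S := by
      by_contra h2
      rw [Set.indicator_of_notMem h2] at hp
      norm_num at hp
    exact ⟨fun _ => hpS, fun _ => h1⟩
  · have : ind E p.1 p.2.1 p.2.2 = 0 := by
      simp only [ind]
      exact Set.indicator_of_notMem h1 _
    rw [this] at hp
    have hpS : p ∉ S := by
      intro h2
      rw [Set.indicator_of_mem h2] at hp
      norm_num at hp
    exact ⟨fun h => absurd h h1, fun h => absurd h hpS⟩

/-- Classification on `V ≤ 1/2` from `class_low`, `class_high`, `class_mid`, `exists_kernels`, `moll_energy`. -/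
theorem classification_half {V2 V3 : ℝ} (S1 : StrictFinal1D V2) (S2 : StrictSlab V3) (S3 : StrictMono V2 V3)
    (hV2 : 0 < V2) (hV2' : V2 < 1 / π) (hV3 : 1 / π ≤ V3) (hV3' : V3 ≤ 1 / 2)
    (hJ : ∀ V, V2 ≤ V → V ≤ V3 → Jf V = IT V) (hE : MeasurableSet E)
    (hper : IsZ3Periodic E) (hV0 : 0 < (volume (E ∩ Q3)).toReal) (hV : (volume (E ∩ Q3)).toReal ≤ 1 / 2)
    (hP : Perim E ≤ ENNReal.ofReal (Jf (volume (E ∩ Q3)).toReal)) : IsCanonical E := by
  have hvol := vol_ind hE hper
  rw [← hvol] at hV0 hV hP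
  apply isCanonical_of_canonInd hE
  have hJ0 : 0 ≤ Jf (vol (ind E)) := by
    unfold Jf JJ
    refine le_min (le_min ?_ ?_) (by norm_num)
    · positivity
    · positivity
  have hφ : ∀ φ : TestField, ∫ p in E ∩ Q3, φ.div p ≤ Jf (vol (ind E)) := by
    intro φ
    have h1 : ENNReal.ofReal (∫ p in E ∩ Q3, φ.div p) ≤ Perim E :=
      le_iSup (fun φ : TestField => ENNReal.ofReal (∫ p in E ∩ Q3, φ.div p)) φ
    exact (ENNReal.ofReal_le_ofReal_iff hJ0).1 (h1.trans hP)
  obtain ⟨ρ, hρ, hA⟩ := exists_kernels hE hper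
  have hEn : ∀ k, En3 (moll (ρ k) E) ≤ Jf (vol (ind E)) := fun k => moll_energy (hρ k) hE hper hφ
  rcases le_total (vol (ind E)) V3 with h3 | h3
  · rcases le_total (vol (ind E)) V2 with h2 | h2
    · exact class_low S1 hV2' hA (fun k => (hEn k).trans (min_le_left _ _)) hV0 h2
    · exact class_mid S3 hV3' hE hper h2 h3 hV2 hJ hP
  · exact class_high S2 hV3 hA (fun k => (hEn k).trans (min_le_right _ _)) h3 hV

/-- The classification, from the strict certificates. -/
theorem classification_of_strict {V2 V3 : ℝ} (S1 : StrictFinal1D V2) (S2 : StrictSlab V3) (S3 : StrictMono V2 V3)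
    (hV2 : 0 < V2) (hV2' : V2 < 1 / π) (hV3 : 1 / π ≤ V3) (hV3' : V3 ≤ 1 / 2)
    (hJ : ∀ V, V2 ≤ V → V ≤ V3 → Jf V = IT V) (hE : MeasurableSet E)
    (hper : IsZ3Periodic E) (hV0 : 0 < (volume (E ∩ Q3)).toReal) (hV1 : (volume (E ∩ Q3)).toReal < 1)
    (hP : Perim E ≤ ENNReal.ofReal (JAll (volume (E ∩ Q3)).toReal)) : IsCanonical E ∨ IsCanonical Eᶜ := by
  rcases le_total (volume (E ∩ Q3)).toReal (1 / 2) with h | h
  · left
    have e : min (volume (E ∩ Q3)).toReal (1 - (volume (E ∩ Q3)).toReal) = (volume (E ∩ Q3)).toReal :=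
      min_eq_left (by linarith)
    unfold JAll at hP
    rw [e] at hP
    exact classification_half S1 S2 S3 hV2 hV2' hV3 hV3' hJ hE hper hV0 h hP
  · right
    have e : min (volume (E ∩ Q3)).toReal (1 - (volume (E ∩ Q3)).toReal) =
        1 - (volume (E ∩ Q3)).toReal := min_eq_right (by linarith)
    unfold JAll at hP
    rw [e] at hP
    have hc := vol_compl (E := E) hE
    refine classification_half S1 S2 S3 hV2 hV2' hV3 hV3' hJ (measurableSet_compl_P232 hE)
      (isZ3Periodic_compl hper) (by rw [hc]; linarith) (by rw [hc]; linarith) ?_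
    rw [hc, perim_compl hE hper]
    exact hP

end Vale.Agent.Lib.P232
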