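import Vale.Agent.Lib.P232.Class.ChordStrict
import Vale.Agent.Lib.P232.ExtData

/-!
# P232, stage 4: the strict one-dimensional inequality on `V ≤ (527/1024)²`

Apart from the ties `m = M` and the ball tie, the certificate gives a line of value strictly above `JJ V`.
-/

open Real MeasureTheory Set

noncomputable section

/-! ### The strict test on the same tree -/

namespace Vale.Agent.Lib.P232.Cells

open Real MeasureTheory Set intervalIntegral

/-- The strict test on a leaf. -/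
def leafOKs (ty : Bool) (L B : ℤ) (st a b c d : ℕ) : Bool :=
  decide (a ≤ b) && decide (b < c) && decide (c ≤ d) && decide (d ≤ 1024) &&
    decide (qn L B a * 1024000000 ≤ ((tnode ty a * 68719476736 : ℕ) : ℤ)) &&
    decide (qn L B d * 1024000000 ≤ ((tnode ty d * 68719476736 : ℕ) : ℤ)) &&
    kOKx L (gnumOf ty L B st b c - 1)

/-- The strict test on a tree. -/
def checkTreeS : CellTree → ℕ → ℕ → ℕ → ℕ → Bool
  | .skip, _, b, c, d =>
    decide (100 * b ≤ 9 * c) && decide (31416 * (d * d) ≤ 20000 * 1048576)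
  | .leaf ty L B st, a, b, c, d => leafOKs ty L B st a b c d
  | .splitH mid l r, a, b, c, d =>
    decide (a ≤ mid) && decide (mid ≤ b) && checkTreeS l a mid c d && checkTreeS r mid b c d
  | .splitK mid l r, a, b, c, d =>
    decide (c ≤ mid) && decide (mid ≤ d) && checkTreeS l a b c mid && checkTreeS r a b mid d

/-- What the strict certificate proves at the point `(h, k)`. -/
def BulkConclS (h k : ℝ) : Prop :=
  ∀ V : ℝ, 0 < V → V ≤ (527 / 1024) ^ 2 → h ^ 2 ≤ V → V ≤ k ^ 2 →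
    (∃ l b, LineAdm IT l b (h ^ 2) (k ^ 2) ∧ JJ V < lineValue IT l b V (h ^ 2) (k ^ 2)) ∨
    (∃ l b, LineAdm IE l b (h ^ 2) (k ^ 2) ∧ JJ V + 4 * h ^ 2 < lineValue IE l b V (h ^ 2) (k ^ 2))

/-- Soundness on a leaf. -/
lemma leaf_soundS {ty : Bool} {L B : ℤ} {st a b c d : ℕ} (hOK : leafOKs ty L B st a b c d = true)
    {h k : ℝ} (h1 : (a : ℝ) / 1024 ≤ h) (h2 : h ≤ (b : ℝ) / 1024) (h3 : (c : ℝ) / 1024 ≤ k)
    (h4 : k ≤ (d : ℝ) / 1024) : BulkConclS h k := by
  simp only [leafOKs, Bool.and_eq_true, decide_eq_true_eq] at hOK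
  obtain ⟨⟨⟨⟨⟨⟨hab, hbc⟩, hcd⟩, hd⟩, hfa⟩, hfd⟩, hk⟩ := hOK
  have h0 : 0 ≤ h := le_trans (by positivity) h1
  have k0 : 0 ≤ k := le_trans (by positivity) h3
  intro V hV hV4 hhV hVk
  have hadm : LineAdm (prof ty) ((L : ℝ) / 65536) ((B : ℝ) / 65536) (h ^ 2) (k ^ 2) :=
    feasible_adm hd (sn_le_sq h1) (sq_le_sn k0 h4) hfa hfd
  have hJ := JJ_le_of_kOKx hk hV hV4
  have hval := value_ge (ty := ty) (L := L) (B := B) (st := st) hbc hcd hd h0 h2 h3 V
  have e1 : ((gnumOf ty L B st b c - 1 : ℤ) : ℝ) / 1125899906842624 =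
      ((gnumOf ty L B st b c : ℤ) : ℝ) / 1125899906842624 - 1 / 1125899906842624 := by
    push_cast
    ring
  rw [e1] at hJ
  have hpos : (0 : ℝ) < 1 / 1125899906842624 := by norm_num
  cases ty with
  | false =>
    left
    refine ⟨(L : ℝ) / 65536, (B : ℝ) / 65536, ?_, ?_⟩
    · simpa [prof] using hadm
    · have hval' : lineValue IT ((L : ℝ) / 65536) ((B : ℝ) / 65536) V (h ^ 2) (k ^ 2) =
          lineValue (prof false) ((L : ℝ) / 65536) ((B : ℝ) / 65536) V (h ^ 2) (k ^ 2) := by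
        simp [prof]
      rw [hval']
      simp only [Bool.false_eq_true, if_false] at hval
      linarith
  | true =>
    right
    refine ⟨(L : ℝ) / 65536, (B : ℝ) / 65536, ?_, ?_⟩
    · simpa [prof] using hadm
    · have hval' : lineValue IE ((L : ℝ) / 65536) ((B : ℝ) / 65536) V (h ^ 2) (k ^ 2) =
          lineValue (prof true) ((L : ℝ) / 65536) ((B : ℝ) / 65536) V (h ^ 2) (k ^ 2) := by
        simp [prof]
      rw [hval']
      simp only [if_true] at hval
      linarith

/-- Soundness of the tree test. -/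
theorem checkTreeS_sound : ∀ (t : CellTree) (a b c d : ℕ), checkTreeS t a b c d = true →
    ∀ h k : ℝ, (a : ℝ) / 1024 ≤ h → h ≤ (b : ℝ) / 1024 → (c : ℝ) / 1024 ≤ k → k ≤ (d : ℝ) / 1024 →
      (100 * h ≤ 9 * k ∧ π * k ^ 2 ≤ 2) ∨ BulkConclS h k := by
  intro t
  induction t with
  | skip =>
    intro a b c d hOK h k h1 h2 h3 h4
    left
    simp only [checkTreeS, Bool.and_eq_true, decide_eq_true_eq] at hOK
    obtain ⟨e1, e2⟩ := hOK
    have e1' : (100 : ℝ) * b ≤ 9 * c := by exact_mod_cast e1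
    have e2' : (31416 : ℝ) * ((d : ℝ) * d) ≤ 20000 * 1048576 := by exact_mod_cast e2
    have k0 : 0 ≤ k := le_trans (by positivity) h3
    constructor
    · have h5 : (100 : ℝ) * ((b : ℝ) / 1024) ≤ 9 * ((c : ℝ) / 1024) := by linarith
      linarith
    · have h5 : k ^ 2 ≤ ((d : ℝ) / 1024) ^ 2 := pow_le_pow_left₀ k0 h4 2
      have h6 : ((d : ℝ) / 1024) ^ 2 = (d : ℝ) * d / 1048576 := by ring
      have h7 := Real.pi_lt_d4
      have h8 : 0 ≤ k ^ 2 := by positivity
      have h9 : π * k ^ 2 ≤ 3.1416 * k ^ 2 := mul_le_mul_of_nonneg_right h7.le h8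
      rw [h6] at h5
      have h10 : (d : ℝ) * d / 1048576 ≤ 20000 / 31416 := by
        rw [div_le_div_iff₀ (by norm_num) (by norm_num)]
        linarith
      norm_num at h9 ⊢
      linarith
  | leaf ty L B st =>
    intro a b c d hOK h k h1 h2 h3 h4
    right
    exact leaf_soundS (by simpa [checkTreeS] using hOK) h1 h2 h3 h4
  | splitH mid l r ihl ihr =>
    intro a b c d hOK h k h1 h2 h3 h4
    simp only [checkTreeS, Bool.and_eq_true, decide_eq_true_eq] at hOK
    obtain ⟨⟨⟨_, _⟩, e1⟩, e2⟩ := hOK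
    rcases le_total h ((mid : ℝ) / 1024) with hm | hm
    · exact ihl _ _ _ _ e1 h k h1 hm h3 h4
    · exact ihr _ _ _ _ e2 h k hm h2 h3 h4
  | splitK mid l r ihl ihr =>
    intro a b c d hOK h k h1 h2 h3 h4
    simp only [checkTreeS, Bool.and_eq_true, decide_eq_true_eq] at hOK
    obtain ⟨⟨⟨_, _⟩, e1⟩, e2⟩ := hOK
    rcases le_total k ((mid : ℝ) / 1024) with hm | hm
    · exact ihl _ _ _ _ e1 h k h1 h2 h3 hm
    · exact ihr _ _ _ _ e2 h k h1 h2 hm h4

theorem cellDataX_okS : checkTreeS cellDataX 0 527 577 1024 = true := by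
  decide +kernel

end Vale.Agent.Lib.P232.Cells

namespace Vale.Agent.Lib.P232

/-- **The strict one-dimensional inequality, for `V ≤ (527/1024)²`.** Apart from the tie `m = M`
(hence `m = V = M`) and the tie of the ball, a line has value strictly above `JJ V`. -/
theorem final1D_strict {V m M : ℝ} (hV : 0 < V) (hV' : V ≤ (527 / 1024) ^ 2) (hm : 0 ≤ m) (hmV : m ≤ V)
    (hVM : V ≤ M) (hM : M ≤ 1) :
    m = M ∨ TieB V m M ∨ (∃ l b, LineAdm IT l b m M ∧ JJ V < lineValue IT l b V m M) ∨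
      (∃ l b, LineAdm IE l b m M ∧ JJ V + 4 * m < lineValue IE l b V m M) := by
  have hπ := Real.pi_pos
  by_cases hne : m = M
  · exact Or.inl hne
  have hlt : m < M := lt_of_le_of_ne (hmV.trans hVM) hne
  by_cases hno : TieB V m M
  · exact Or.inr (Or.inl hno)
  right
  right
  by_cases hM1 : M ≤ 1 / Real.pi
  · exact Or.inl (final_small_M_strict hV hm hmV hVM hM1 hlt hno)
  by_cases hu : Real.sqrt m ≤ 9 / 100 * Real.sqrt M ∧ M ≤ 2 / Real.pi
  · exact Or.inr (final_small_u_strict hV hm hmV hVM hu.2 hu.1 hno)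
  push Not at hM1
  have hM0 : 0 ≤ M := hV.le.trans hVM
  have hh0 := Real.sqrt_nonneg m
  have hk0 := Real.sqrt_nonneg M
  have hh1 : Real.sqrt m ≤ 527 / 1024 := by
    rw [Real.sqrt_le_left (by norm_num)]
    linarith
  have hk1 : Real.sqrt M ≤ 1 := by
    rw [Real.sqrt_le_one]
    exact hM
  have hk2 : (577 : ℝ) / 1024 ≤ Real.sqrt M := by
    apply Real.le_sqrt_of_sq_le
    have h3 := Real.pi_lt_d4
    have h4 : (332929 : ℝ) / 1048576 ≤ 1 / Real.pi := by
      rw [le_div_iff₀ hπ]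
      norm_num at h3 ⊢
      nlinarith
    norm_num
    linarith
  have hne2 : ¬ (100 * Real.sqrt m ≤ 9 * Real.sqrt M ∧ Real.pi * Real.sqrt M ^ 2 ≤ 2) := by
    rintro ⟨a, b⟩
    apply hu
    constructor
    · linarith
    · rw [Real.sq_sqrt hM0] at b
      rw [le_div_iff₀ hπ]
      linarith
  have hT := Cells.checkTreeS_sound Cells.cellDataX 0 527 577 1024 Cells.cellDataX_okS
    (Real.sqrt m) (Real.sqrt M) (by simp) (by norm_num; linarith)
    (by norm_num; linarith) (by norm_num; linarith)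
  rcases hT with h2 | hB
  · exact absurd h2 hne2
  have hs : Real.sqrt m ^ 2 = m := Real.sq_sqrt hm
  have hs2 : Real.sqrt M ^ 2 = M := Real.sq_sqrt hM0
  have := hB V hV hV' (by rw [hs]; exact hmV) (by rw [hs2]; exact hVM)
  rw [hs, hs2] at this
  exact this

end Vale.Agent.Lib.P232
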