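import Vale.Agent.Lib.P232.SlabData

/-!
# P232, stage 4: the strict one-dimensional inequality on the slab range `370/1024 ≤ V ≤ 1/2`

Apart from the tie `(m, M) = (0, 1)` and the band `1/π ≤ m`, `M ≤ 1 - 1/π`, a line has value strictly
above `2`.
-/

namespace Vale.Agent.Lib.P232.Cells

open Real MeasureTheory Set intervalIntegral

/-- The strict conclusion. -/
def SlabConclS (V m M : ℝ) : Prop :=
  (m = 0 ∧ M = 1) ∨ (1 / π ≤ m ∧ M ≤ 1 - 1 / π) ∨
    ∃ l b, LineAdm IT l b m M ∧ 2 < lineValue IT l b V m M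

/-- The strict corner. -/
theorem corner_slab_strict {V m M : ℝ} (hm0 : 0 ≤ m) (hm1 : m ≤ 1 / 65536) (hM0 : 511 / 512 ≤ M)
    (hM1 : M ≤ 1) (hV : 9 / 25 ≤ V) (hV2 : V ≤ 16 / 25) : SlabConclS V m M := by
  obtain ⟨δ, hδ⟩ : ∃ δ : ℝ, δ = 1 - M := ⟨_, rfl⟩
  have hMδ : M = 1 - δ := by rw [hδ]; ring
  have hδ0 : 0 ≤ δ := by rw [hδ]; linarith
  have hδ1 : δ ≤ 1 / 512 := by rw [hδ]; linarith
  by_cases hc : 2 * m < 45 / 100 * √δ
  · have hpos : 0 < δ := by
      rcases hδ0.eq_or_lt with h | h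
      · rw [← h] at hc
        simp at hc
        linarith
      · exact h
    obtain ⟨l, b, h1, h2⟩ := corner_A hpos hδ1 hm0 (by linarith) hV
    right
    right
    rw [hMδ]
    exact ⟨l, b, h1, by linarith⟩
  · rcases hm0.eq_or_lt with hm | hm
    · left
      refine ⟨hm.symm, ?_⟩
      have hsq : √δ ≤ 0 := by
        rw [← hm] at hc
        push Not at hc
        linarith
      have : δ = 0 := by
        have h3 := Real.sqrt_eq_zero hδ0
        exact h3.1 (le_antisymm hsq (Real.sqrt_nonneg δ))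
      rw [hMδ, this]
      ring
    · right
      right
      rw [hMδ]
      have hV' : 9 / 25 ≤ 1 - V := by linarith
      obtain ⟨l, b, h1, h2⟩ := corner_A (δ := m) (m := δ) (V := 1 - V) hm (by linarith) hδ0
        (by linarith) hV'
      have hlast : 2 * δ < 45 / 100 * √m := by
        have hsm : √m ^ 2 = m := Real.sq_sqrt hm0
        have hsm0 : 0 < √m := Real.sqrt_pos.mpr hm
        have hsm1 : √m ≤ 1 / 256 := by
          apply Real.sqrt_le_iff.mpr
          constructor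
          · norm_num
          · norm_num
            linarith
        have hcc : 45 / 100 * √δ ≤ 2 * m := not_lt.mp hc
        have hsd : √δ ^ 2 = δ := Real.sq_sqrt hδ0
        have hsd0 := Real.sqrt_nonneg δ
        have hcc2 : √δ ≤ 2 * m * (100 / 45) := by linarith
        have hcc3 : δ ≤ (2 * m * (100 / 45)) ^ 2 := by
          rw [← hsd]
          exact pow_le_pow_left₀ hsd0 hcc2 2
        rw [← hsm] at hcc3
        have e : (2 * √m ^ 2 * (100 / 45)) ^ 2 = (800 / 81) * √m ^ 4 * 2 := by ring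
        have h3 : √m ^ 4 ≤ √m * (1 / 256) ^ 3 := by
          have h4 : √m ^ 3 ≤ (1 / 256) ^ 3 := pow_le_pow_left₀ hsm0.le hsm1 3
          nlinarith
        nlinarith
      refine ⟨-l, l + b, ?_, ?_⟩
      · have := lineAdm_mirror h1
        have e : (1 : ℝ) - (1 - m) = m := by ring
        rw [e] at this
        exact this
      · have e2 := lineValue_mirror l b (1 - V) δ (1 - m)
        have e3 : (1 : ℝ) - (1 - V) = V := by ring
        have e4 : (1 : ℝ) - (1 - m) = m := by ring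
        rw [e3, e4] at e2
        rw [← e2]
        linarith

/-- The strict test on a leaf. -/
def slabLeafS (L B : ℤ) (st a b c d w1 w2 : ℕ) : Bool :=
  decide (a ≤ b) && decide (b < c) && decide (c ≤ d) && decide (d ≤ 1024) &&
    decide (qn L B a * 1024000000 ≤ ((tnode false a * 68719476736 : ℕ) : ℤ)) &&
    decide (qn L B d * 1024000000 ≤ ((tnode false d * 68719476736 : ℕ) : ℤ)) &&
    decide (2251799813685248 * 1024 ≤ L * w1 * 17179869184 + (gnumOf false L B st b c - 1) * 1024) &&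
    decide (2251799813685248 * 1024 ≤ L * w2 * 17179869184 + (gnumOf false L B st b c - 1) * 1024)

/-- The strict test on a tree. -/
def checkSlabS : SlabTree → ℕ → ℕ → ℕ → ℕ → ℕ → ℕ → Bool
  | .none, a, _, _, d, w1, w2 => decide (w2 * 1024 < a * a) || decide (d * d < w1 * 1024)
  | .triv, a, _, _, d, _, _ => decide (578 ≤ a) && decide (d ≤ 845)
  | .corner, _, b, c, d, w1, w2 =>
    decide (b ≤ 4) && decide (1023 ≤ c) && decide (d ≤ 1024) && decide (369 ≤ w1) &&
      decide (w2 ≤ 655)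
  | .leaf L B st, a, b, c, d, w1, w2 => slabLeafS L B st a b c d w1 w2
  | .splitH mid l r, a, b, c, d, w1, w2 =>
    checkSlabS l a mid c d w1 w2 && checkSlabS r mid b c d w1 w2
  | .splitK mid l r, a, b, c, d, w1, w2 =>
    checkSlabS l a b c mid w1 w2 && checkSlabS r a b mid d w1 w2
  | .splitV mid l r, a, b, c, d, w1, w2 =>
    checkSlabS l a b c d w1 mid && checkSlabS r a b c d mid w2

lemma slab_leaf_soundS {L B : ℤ} {st a b c d w1 w2 : ℕ} (hOK : slabLeafS L B st a b c d w1 w2 = true)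
    {h k V : ℝ} (h1 : (a : ℝ) / 1024 ≤ h) (h2 : h ≤ (b : ℝ) / 1024) (h3 : (c : ℝ) / 1024 ≤ k)
    (h4 : k ≤ (d : ℝ) / 1024) (h5 : (w1 : ℝ) / 1024 ≤ V) (h6 : V ≤ (w2 : ℝ) / 1024) :
    SlabConclS V (h ^ 2) (k ^ 2) := by
  simp only [slabLeafS, Bool.and_eq_true, decide_eq_true_eq] at hOK
  obtain ⟨⟨⟨⟨⟨⟨⟨hab, hbc⟩, hcd⟩, hd⟩, hfa⟩, hfd⟩, hk1⟩, hk2⟩ := hOK
  have h0 : 0 ≤ h := le_trans (by positivity) h1
  have k0 : 0 ≤ k := le_trans (by positivity) h3
  have hadm : LineAdm (prof false) ((L : ℝ) / 65536) ((B : ℝ) / 65536) (h ^ 2) (k ^ 2) :=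
    feasible_adm hd (sn_le_sq h1) (sq_le_sn k0 h4) hfa hfd
  have hval := value_ge (ty := false) (L := L) (B := B) (st := st) hbc hcd hd h0 h2 h3 V
  simp only [Bool.false_eq_true, if_false, add_zero] at hval
  have hprof : prof false = IT := by simp [prof]
  rw [hprof] at hadm hval
  right
  right
  refine ⟨_, _, hadm, lt_of_lt_of_le ?_ hval⟩
  obtain ⟨g, hg⟩ : ∃ g : ℤ, g = gnumOf false L B st b c - 1 := ⟨_, rfl⟩
  have hg' : gnumOf false L B st b c = g + 1 := by rw [hg]; ring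
  rw [← hg] at hk1 hk2
  rw [hg']
  have hk1' : (2251799813685248 * 1024 : ℝ) ≤ L * w1 * 17179869184 + g * 1024 := by
    exact_mod_cast hk1
  have hk2' : (2251799813685248 * 1024 : ℝ) ≤ L * w2 * 17179869184 + g * 1024 := by
    exact_mod_cast hk2
  have e : (2 : ℝ) * 1125899906842624 ≤ (L : ℝ) * V * 17179869184 + g := by
    rcases le_total 0 (L : ℝ) with hL | hL
    · have := mul_le_mul_of_nonneg_left h5 hL
      have e2 : (L : ℝ) * ((w1 : ℝ) / 1024) = L * w1 / 1024 := by ring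
      rw [e2] at this
      nlinarith
    · have := mul_le_mul_of_nonpos_left h6 hL
      have e2 : (L : ℝ) * ((w2 : ℝ) / 1024) = L * w2 / 1024 := by ring
      rw [e2] at this
      nlinarith
  have e3 : (L : ℝ) / 65536 * V + ((g + 1 : ℤ) : ℝ) / 1125899906842624 =
      ((L : ℝ) * V * 17179869184 + g + 1) / 1125899906842624 := by
    push_cast
    field_simp
    ring
  rw [e3, lt_div_iff₀ (by norm_num)]
  linarith

/-- Soundness of the strict tree test. -/
theorem checkSlabS_sound : ∀ (t : SlabTree) (a b c d w1 w2 : ℕ), checkSlabS t a b c d w1 w2 = true →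
    ∀ h k V : ℝ, (a : ℝ) / 1024 ≤ h → h ≤ (b : ℝ) / 1024 → (c : ℝ) / 1024 ≤ k → k ≤ (d : ℝ) / 1024 →
      (w1 : ℝ) / 1024 ≤ V → V ≤ (w2 : ℝ) / 1024 → h ^ 2 ≤ V → V ≤ k ^ 2 →
      SlabConclS V (h ^ 2) (k ^ 2) := by
  intro t
  induction t with
  | none =>
    intro a b c d w1 w2 hOK h k V h1 h2 h3 h4 h5 h6 h7 h8
    exfalso
    simp only [checkSlabS, Bool.or_eq_true, decide_eq_true_eq] at hOK
    have h0 : (0 : ℝ) ≤ (a : ℝ) / 1024 := by positivity
    have hd0 : (0 : ℝ) ≤ k := le_trans (by positivity) h3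
    rcases hOK with e | e
    · have e' : (w2 : ℝ) * 1024 < (a : ℝ) * a := by exact_mod_cast e
      have := pow_le_pow_left₀ h0 h1 2
      have e2 : ((a : ℝ) / 1024) ^ 2 = (a : ℝ) * a / 1048576 := by ring
      rw [e2] at this
      have h9 : (a : ℝ) * a / 1048576 ≤ (w2 : ℝ) / 1024 := by linarith
      rw [div_le_div_iff₀ (by norm_num) (by norm_num)] at h9
      linarith
    · have e' : (d : ℝ) * d < (w1 : ℝ) * 1024 := by exact_mod_cast e
      have := pow_le_pow_left₀ hd0 h4 2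
      have e2 : ((d : ℝ) / 1024) ^ 2 = (d : ℝ) * d / 1048576 := by ring
      rw [e2] at this
      have h9 : (w1 : ℝ) / 1024 ≤ (d : ℝ) * d / 1048576 := by linarith
      rw [div_le_div_iff₀ (by norm_num) (by norm_num)] at h9
      linarith
  | triv =>
    intro a b c d w1 w2 hOK h k V h1 h2 h3 h4 h5 h6 h7 h8
    simp only [checkSlabS, Bool.and_eq_true, decide_eq_true_eq] at hOK
    obtain ⟨e1, e2⟩ := hOK
    have e1' : (578 : ℝ) ≤ a := by exact_mod_cast e1
    have e2' : (d : ℝ) ≤ 845 := by exact_mod_cast e2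
    have hd0 : (0 : ℝ) ≤ k := le_trans (by positivity) h3
    have hπ := Real.pi_pos
    have hπ1 := Real.pi_gt_d4
    right
    left
    have h9 : (578 / 1024 : ℝ) ≤ h := by
      linarith [div_le_div_of_nonneg_right e1' (by norm_num : (0 : ℝ) ≤ 1024)]
    have h10 : k ≤ (845 / 1024 : ℝ) := by
      linarith [div_le_div_of_nonneg_right e2' (by norm_num : (0 : ℝ) ≤ 1024)]
    have h11 : (578 / 1024 : ℝ) ^ 2 ≤ h ^ 2 := pow_le_pow_left₀ (by norm_num) h9 2
    have h12 : k ^ 2 ≤ (845 / 1024 : ℝ) ^ 2 := pow_le_pow_left₀ hd0 h10 2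
    have h13 : 1 / π ≤ (578 / 1024 : ℝ) ^ 2 := by
      rw [div_le_iff₀ hπ]
      norm_num at hπ1 ⊢
      linarith
    have h14 : (845 / 1024 : ℝ) ^ 2 ≤ 1 - 1 / π := by
      have h15 : 1 / π ≤ 1 - (845 / 1024 : ℝ) ^ 2 := by
        rw [div_le_iff₀ hπ]
        norm_num at hπ1 ⊢
        linarith
      linarith
    exact ⟨h13.trans h11, h12.trans h14⟩
  | corner =>
    intro a b c d w1 w2 hOK h k V h1 h2 h3 h4 h5 h6 h7 h8
    simp only [checkSlabS, Bool.and_eq_true, decide_eq_true_eq] at hOK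
    obtain ⟨⟨⟨⟨e1, e2⟩, e3⟩, e4⟩, e5⟩ := hOK
    have e1' : (b : ℝ) ≤ 4 := by exact_mod_cast e1
    have e2' : (1023 : ℝ) ≤ c := by exact_mod_cast e2
    have e3' : (d : ℝ) ≤ 1024 := by exact_mod_cast e3
    have e4' : (369 : ℝ) ≤ w1 := by exact_mod_cast e4
    have e5' : (w2 : ℝ) ≤ 655 := by exact_mod_cast e5
    have h0 : 0 ≤ h := le_trans (by positivity) h1
    have hd0 : (0 : ℝ) ≤ k := le_trans (by positivity) h3
    apply corner_slab_strict (by positivity)
    · have : h ≤ 4 / 1024 := by linarith [div_le_div_of_nonneg_right e1' (by norm_num : (0 : ℝ) ≤ 1024)]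
      have := pow_le_pow_left₀ h0 this 2
      norm_num at this ⊢
      linarith
    · have : (1023 : ℝ) / 1024 ≤ k := by linarith [div_le_div_of_nonneg_right e2' (by norm_num : (0 : ℝ) ≤ 1024)]
      have := pow_le_pow_left₀ (by norm_num) this 2
      norm_num at this ⊢
      linarith
    · have : k ≤ 1 := by
        have : (d : ℝ) / 1024 ≤ 1 := by
          rw [div_le_one (by norm_num)]
          exact e3'
        linarith
      have := pow_le_pow_left₀ hd0 this 2
      simpa using this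
    · have : (369 : ℝ) / 1024 ≤ V := by linarith [div_le_div_of_nonneg_right e4' (by norm_num : (0 : ℝ) ≤ 1024)]
      norm_num at this ⊢
      linarith
    · have : V ≤ (655 : ℝ) / 1024 := by linarith [div_le_div_of_nonneg_right e5' (by norm_num : (0 : ℝ) ≤ 1024)]
      norm_num at this ⊢
      linarith
  | leaf L B st =>
    intro a b c d w1 w2 hOK h k V h1 h2 h3 h4 h5 h6 _ _
    exact slab_leaf_soundS (by simpa [checkSlabS] using hOK) h1 h2 h3 h4 h5 h6
  | splitH mid l r ihl ihr =>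
    intro a b c d w1 w2 hOK h k V h1 h2 h3 h4 h5 h6 h7 h8
    simp only [checkSlabS, Bool.and_eq_true] at hOK
    obtain ⟨e1, e2⟩ := hOK
    rcases le_total h ((mid : ℝ) / 1024) with hm | hm
    · exact ihl _ _ _ _ _ _ e1 h k V h1 hm h3 h4 h5 h6 h7 h8
    · exact ihr _ _ _ _ _ _ e2 h k V hm h2 h3 h4 h5 h6 h7 h8
  | splitK mid l r ihl ihr =>
    intro a b c d w1 w2 hOK h k V h1 h2 h3 h4 h5 h6 h7 h8
    simp only [checkSlabS, Bool.and_eq_true] at hOK
    obtain ⟨e1, e2⟩ := hOK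
    rcases le_total k ((mid : ℝ) / 1024) with hm | hm
    · exact ihl _ _ _ _ _ _ e1 h k V h1 h2 h3 hm h5 h6 h7 h8
    · exact ihr _ _ _ _ _ _ e2 h k V h1 h2 hm h4 h5 h6 h7 h8
  | splitV mid l r ihl ihr =>
    intro a b c d w1 w2 hOK h k V h1 h2 h3 h4 h5 h6 h7 h8
    simp only [checkSlabS, Bool.and_eq_true] at hOK
    obtain ⟨e1, e2⟩ := hOK
    rcases le_total V ((mid : ℝ) / 1024) with hm | hm
    · exact ihl _ _ _ _ _ _ e1 h k V h1 h2 h3 h4 h5 hm h7 h8
    · exact ihr _ _ _ _ _ _ e2 h k V h1 h2 h3 h4 hm h6 h7 h8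

set_option maxRecDepth 100000 in
theorem slabData_okS : checkSlabS slabData 0 725 615 1024 370 512 = true := by
  decide +kernel

end Vale.Agent.Lib.P232.Cells

namespace Vale.Agent.Lib.P232

open Cells

/-- **The strict one-dimensional inequality for the slab range.** -/
theorem slab_strict {V m M : ℝ} (hV : 370 / 1024 ≤ V) (hV2 : V ≤ 1 / 2) (hm : 0 ≤ m) (hmV : m ≤ V)
    (hVM : V ≤ M) (hM : M ≤ 1) :
    (m = 0 ∧ M = 1) ∨ (1 / Real.pi ≤ m ∧ M ≤ 1 - 1 / Real.pi) ∨
      ∃ l b, LineAdm IT l b m M ∧ 2 < lineValue IT l b V m M := by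
  have hM0 : 0 ≤ M := by linarith
  have hs : Real.sqrt m ^ 2 = m := Real.sq_sqrt hm
  have hs2 : Real.sqrt M ^ 2 = M := Real.sq_sqrt hM0
  have hh0 := Real.sqrt_nonneg m
  have hh1 : Real.sqrt m ≤ 725 / 1024 := by
    apply Real.sqrt_le_iff.mpr
    constructor
    · norm_num
    · norm_num
      linarith
  have hk1 : Real.sqrt M ≤ 1 := by
    rw [Real.sqrt_le_one]
    exact hM
  have hk2 : (615 : ℝ) / 1024 ≤ Real.sqrt M := by
    apply Real.le_sqrt_of_sq_le
    norm_num at hV ⊢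
    linarith
  have := checkSlabS_sound slabData 0 725 615 1024 370 512 slabData_okS (Real.sqrt m) (Real.sqrt M) V
    (by simp [hh0]) (by norm_num; linarith) (by norm_num; linarith) (by norm_num; linarith)
    (by norm_num at hV ⊢; linarith) (by norm_num; linarith) (by rw [hs]; exact hmV)
    (by rw [hs2]; exact hVM)
  rw [hs, hs2] at this
  exact this

end Vale.Agent.Lib.P232
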