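import Vale.Agent.Lib.P232.Class.TieDefs
import Vale.Agent.Lib.P232.Class.Final1DStrict
import Vale.Agent.Lib.P232.Class.SlabStrict

/-! P232, stage 4: the strict one-dimensional statements of `TieDefs`, for the explicit ranges. -/

open Real

namespace Vale.Agent.Lib.P232

/-- `StrictFinal1D` on `V ≤ (527/1024)²`. -/
theorem strictFinal1D_ext : StrictFinal1D ((527 / 1024) ^ 2) := by
  intro V m M hV hV2 hm hmV hVM hM
  rcases final1D_strict hV hV2 hm hmV hVM hM with h | h | h | h
  · right
    right
    left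
    have h1 : m = V := le_antisymm hmV (by rw [h]; exact hVM)
    exact ⟨h1, by rw [← h, h1]⟩
  · right
    right
    right
    obtain ⟨h0, r, hr0, hr1, h2, h3⟩ := h
    refine ⟨h0, r, hr0, hr1, ?_, h2⟩
    rw [h3]
    ring
  · exact Or.inl h
  · exact Or.inr (Or.inl h)

/-- `StrictSlab` on `V ≥ 370/1024`. -/
theorem strictSlab_ext : StrictSlab (370 / 1024) := by
  intro V m M hV hV2 hm hmV hVM hM
  rcases slab_strict hV hV2 hm hmV hVM hM with h | h | h
  · exact Or.inr (Or.inl h)
  · exact Or.inr (Or.inr h)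
  · exact Or.inl h

end Vale.Agent.Lib.P232
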