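import Vale.Agent.Lib.P232.Class.T8
import Vale.Agent.Lib.P232.Class.CasesS

/-! The strict form of the certificates for monotone sets, in the middle range. -/

open MeasureTheory Set Filter Topology Real

noncomputable section

namespace Vale.Agent.Lib.P232

variable {χ χ' : ℝ → ℝ → ℝ → ℝ} {m M : ℝ}

theorem smm_abs (h : Ind3 χ') (t : ℝ) : |massT χ' t| ≤ 1 := by
  have := h.massT_mem t
  rw [abs_le]
  constructor <;> linarith [this.1, this.2]

/-- From `Tie` to the form of `StrictMono`. -/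
theorem tie_case (hi : Ind3 χ') (hv : vol χ' = vol χ) (hb : EssBounds (massT χ') m M) (ht : Tie m M) :
    (∀ᵐ t, massT χ' t = vol χ) ∨ EssBounds (massT χ') 0 1 ∨
      (∀ᵐ t, 1 / π ≤ massT χ' t ∧ massT χ' t ≤ 1 - 1 / π) := by
  rcases ht with h | ⟨h0, h1⟩ | ⟨h0, h1⟩
  · left
    subst h
    have hmean := hb.mean_mem hi.measurable_massT (smm_abs hi)
    have e : vol χ = m := by
      rw [← hv]
      exact le_antisymm hmean.2 hmean.1
    rw [e]
    refine t7_up hi (Q := fun s => s = m) ?_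
    filter_upwards [hb.ge_m, hb.le_M] with t h1 h2
    exact le_antisymm h2 h1
  · right
    left
    subst h0 h1
    exact hb
  · right
    right
    refine t7_up hi (Q := fun s => 1 / π ≤ s ∧ s ≤ 1 - 1 / π) ?_
    filter_upwards [hb.ge_m, hb.le_M] with t h2 h3
    exact ⟨h0.trans h2, h3.trans h1⟩

/-- **The strict certificates for monotone sets** on `[1/4, 37/100]`. -/
theorem strictMono_mid : StrictMono (1 / 4) (37 / 100) := by
  intro U χ h hχ hP hV1 hV2
  have hi := h.ind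
  rcases mono_tie h hχ hP hV1 hV2 le_rfl with ⟨m, M, hb, ht⟩ | ⟨m, M, hb, ht⟩ | ⟨m, M, hb, ht⟩
  · exact ⟨χ, Or.inl rfl, tie_case hi rfl hb ht⟩
  · exact ⟨P232.perm χ, Or.inr (Or.inl rfl), tie_case hi.perm (vol_perm hi) hb ht⟩
  · exact ⟨P232.perm (P232.perm χ), Or.inr (Or.inr rfl),
      tie_case hi.perm.perm ((vol_perm hi.perm).trans (vol_perm hi)) hb ht⟩

/-- The target on the middle range is the disc profile. -/
theorem Jf_eq_IT_mid {V : ℝ} (h1 : 1 / 4 ≤ V) (h2 : V ≤ 37 / 100) : Jf V = IT V := by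
  have hpi := pi_pos
  have hpi3 := pi_gt_three
  have hpi4 := pi_le_four
  have hV : 0 < V := by linarith
  have ht : 2 * √(π * V) ≤ (36 * π) ^ ((1 : ℝ) / 3) * V ^ ((2 : ℝ) / 3) := by
    have hA : ((36 * π) ^ ((1 : ℝ) / 3)) ^ 3 = 36 * π := by
      rw [← Real.rpow_natCast, ← Real.rpow_mul (by positivity)]
      norm_num
    have hB : (V ^ ((2 : ℝ) / 3)) ^ 3 = V ^ 2 := by
      rw [← Real.rpow_natCast, ← Real.rpow_mul hV.le]
      norm_num
    have hC : (√(π * V)) ^ 2 = π * V := Real.sq_sqrt (by positivity)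
    refine (pow_le_pow_iff_left₀ (by positivity) (by positivity) (by norm_num : (6 : ℕ) ≠ 0)).1 ?_
    have e1 : (2 * √(π * V)) ^ 6 = 64 * (π * V) ^ 3 := by
      rw [mul_pow, show (√(π * V)) ^ 6 = ((√(π * V)) ^ 2) ^ 3 by ring, hC]
      norm_num
    have e2 : ((36 * π) ^ ((1 : ℝ) / 3) * V ^ ((2 : ℝ) / 3)) ^ 6 = (36 * π) ^ 2 * (V ^ 2) ^ 2 := by
      rw [mul_pow, show (((36 * π) ^ ((1 : ℝ) / 3)) ^ 6) = (((36 * π) ^ ((1 : ℝ) / 3)) ^ 3) ^ 2 by ring, hA,
        show ((V ^ ((2 : ℝ) / 3)) ^ 6) = ((V ^ ((2 : ℝ) / 3)) ^ 3) ^ 2 by ring, hB]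
    rw [e1, e2]
    have h3 : 0 < π ^ 2 * V ^ 3 := by positivity
    have h4 : 64 * π ≤ 1296 * V := by nlinarith
    nlinarith [mul_le_mul_of_nonneg_left h4 h3.le]
  have hlast : (2 : ℝ) ≤ 2 * √(π * (1 - V)) := by
    have h3 : 1 ≤ π * (1 - V) := by nlinarith
    have h4 : 1 ≤ √(π * (1 - V)) := Real.one_le_sqrt.2 h3
    linarith
  unfold Jf JJ IT
  rw [min_eq_right ht, min_eq_left ((min_le_right _ _).trans hlast)]

/-- The range used in the final assembly. -/
theorem strictMono_ext : StrictMono ((527 / 1024) ^ 2) (370 / 1024) :=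
  fun U χ h hχ hP hV1 hV2 => strictMono_mid U χ h hχ hP (le_trans (by norm_num) hV1)
    (le_trans hV2 (by norm_num))

theorem Jf_eq_IT_ext (V : ℝ) (h1 : (527 / 1024 : ℝ) ^ 2 ≤ V) (h2 : V ≤ 370 / 1024) : Jf V = IT V :=
  Jf_eq_IT_mid (le_trans (by norm_num) h1) (le_trans h2 (by norm_num))

end Vale.Agent.Lib.P232
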