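import Vale.Agent.Lib.P232.Class.Final
import Vale.Agent.Lib.P232.Class.StrictInst
import Vale.Agent.Lib.P232.Class.StrictMonoMid

/-! The classification of the minimizers at every volume, from the strict certificates. -/

open MeasureTheory Set Filter Topology Real

noncomputable section

namespace Vale.Agent.Lib.P232

variable {E : Set R3}

/-- Every minimizer of volume at most `1/2` is canonical. -/
theorem canonical_half (hE : MeasurableSet E) (hper : IsZ3Periodic E)
    (hV0 : 0 < (volume (E ∩ Q3)).toReal) (hV : (volume (E ∩ Q3)).toReal ≤ 1 / 2)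
    (hP : Perim E ≤ ENNReal.ofReal (Jf (volume (E ∩ Q3)).toReal)) : IsCanonical E := by
  have hpi := Real.pi_gt_three
  have hpi4 := Real.pi_lt_d2
  have h1 : (0 : ℝ) < 1 / π := by positivity
  have h2 : (527 / 1024 : ℝ) ^ 2 < 1 / π := by
    rw [lt_div_iff₀ (by positivity)]
    nlinarith
  have h3 : 1 / π ≤ (370 / 1024 : ℝ) := by
    rw [div_le_iff₀ (by positivity)]
    nlinarith
  exact classification_half strictFinal1D_ext strictSlab_ext strictMono_ext (by positivity) h2 h3
    (by norm_num) Jf_eq_IT_ext hE hper hV0 hV hP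

/-- **The lower bound and the classification, at every volume.** -/
theorem all_minimizers (hE : MeasurableSet E) (hper : IsZ3Periodic E)
    (hV0 : 0 < (volume (E ∩ Q3)).toReal) (hV1 : (volume (E ∩ Q3)).toReal < 1) :
    ENNReal.ofReal (Jf (min (volume (E ∩ Q3)).toReal (1 - (volume (E ∩ Q3)).toReal))) ≤ Perim E ∧
    (Perim E ≤ ENNReal.ofReal (Jf (min (volume (E ∩ Q3)).toReal (1 - (volume (E ∩ Q3)).toReal))) →
      ((volume (E ∩ Q3)).toReal ≤ 1 / 2 → IsCanonical E) ∧
      (1 / 2 ≤ (volume (E ∩ Q3)).toReal → IsCanonical Eᶜ)) := by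
  refine ⟨main_final hE hper hV0 hV1, fun hP => ⟨fun h => ?_, fun h => ?_⟩⟩
  · have e : min (volume (E ∩ Q3)).toReal (1 - (volume (E ∩ Q3)).toReal) = (volume (E ∩ Q3)).toReal :=
      min_eq_left (by linarith)
    rw [e] at hP
    exact canonical_half hE hper hV0 h hP
  · have e : min (volume (E ∩ Q3)).toReal (1 - (volume (E ∩ Q3)).toReal) =
        1 - (volume (E ∩ Q3)).toReal := min_eq_right (by linarith)
    rw [e] at hP
    have hc := vol_compl (E := E) hE
    refine canonical_half (measurableSet_compl_P232 hE) (isZ3Periodic_compl hper)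
      (by rw [hc]; linarith) (by rw [hc]; linarith) ?_
    rw [hc, perim_compl hE hper]
    exact hP

end Vale.Agent.Lib.P232
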