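import Vale.Agent.Lib.P232.Mollify3
import Vale.Agent.Lib.P232.Class.CanonDefs
import Vale.Agent.Lib.P232.Class.Shapes

/-! JOB U: the upper bound for the tubes: radial cut-off, integration by parts, polar coordinates. -/

open MeasureTheory Set Filter Topology Real

noncomputable section

namespace Vale.Agent.Lib.P232
namespace Up

/-- The derivative of the smooth transition. -/
def sd (t : ℝ) : ℝ := deriv Real.smoothTransition t

lemma hasDeriv_s (t : ℝ) : HasDerivAt Real.smoothTransition (sd t) t :=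
  ((Real.smoothTransition.contDiff (n := 1)).differentiable (by norm_num) t).hasDerivAt

lemma sd_cont : Continuous sd :=
  (Real.smoothTransition.contDiff (n := 1)).continuous_deriv le_rfl

lemma sd_nonneg (t : ℝ) : 0 ≤ sd t := by
  have h := hasDeriv_s t
  have hm := Real.smoothTransition.monotone
  exact hm.deriv_nonneg

lemma sd_zero {t : ℝ} (ht : t ≤ 0) : sd t = 0 := by
  have h : IsLocalMin Real.smoothTransition t := by
    refine Eventually.of_forall fun y => ?_
    rw [Real.smoothTransition.zero_of_nonpos ht]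
    exact Real.smoothTransition.nonneg y
  exact h.deriv_eq_zero

/-- The radial density. -/
def G (r w ρ : ℝ) : ℝ := sd ((r ^ 2 - ρ ^ 2) / w) * (2 * ρ / w)

lemma G_cont (r : ℝ) {w : ℝ} (hw : w ≠ 0) : Continuous (G r w) := by
  unfold G
  refine (sd_cont.comp ?_).mul ?_
  · exact (continuous_const.sub (continuous_id.pow 2)).div_const _
  · exact (continuous_const.mul continuous_id).div_const _

lemma G_zero {r w ρ : ℝ} (hw : 0 < w) (hr : 0 < r) (h : r ≤ |ρ|) : G r w ρ = 0 := by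
  unfold G
  have : (r ^ 2 - ρ ^ 2) / w ≤ 0 := by
    apply div_nonpos_of_nonpos_of_nonneg _ hw.le
    have := sq_le_sq' (by linarith [abs_nonneg ρ]) h
    rw [sq_abs] at this
    linarith
  rw [sd_zero this, zero_mul]

lemma G_nonneg {r w ρ : ℝ} (hw : 0 < w) (hρ : 0 ≤ ρ) : 0 ≤ G r w ρ :=
  mul_nonneg (sd_nonneg _) (by positivity)

lemma G_hasCompactSupport {r w : ℝ} (hw : 0 < w) (hr : 0 < r) : HasCompactSupport (G r w) := by
  refine HasCompactSupport.intro (isCompact_Icc (a := -r) (b := r)) fun ρ hρ => ?_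
  apply G_zero hw hr
  by_contra hcon
  push Not at hcon
  exact hρ (abs_le.1 hcon.le)

/-- An antiderivative of the radial density. -/
lemma G_deriv (r : ℝ) {w : ℝ} (hw : w ≠ 0) (ρ : ℝ) :
    HasDerivAt (fun ρ => -Real.smoothTransition ((r ^ 2 - ρ ^ 2) / w)) (G r w ρ) ρ := by
  have h1 : HasDerivAt (fun ρ : ℝ => (r ^ 2 - ρ ^ 2) / w) ((0 - 2 * ρ) / w) ρ := by
    have := ((hasDerivAt_const ρ (r ^ 2)).sub (hasDerivAt_pow 2 ρ)).div_const w
    simpa using this
  have h2 := (hasDeriv_s ((r ^ 2 - ρ ^ 2) / w)).comp ρ h1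
  have h3 := h2.neg
  have e : G r w ρ = -(sd ((r ^ 2 - ρ ^ 2) / w) * ((0 - 2 * ρ) / w)) := by
    unfold G
    ring
  rw [e]
  exact h3

/-- The radial integral. -/
lemma radial_le {r w : ℝ} (hw : 0 < w) (hr : 0 < r) (m : ℕ) :
    ∫ y in Ioi (0 : ℝ), y ^ m • G r w y ≤ r ^ m := by
  have hGc := G_cont r hw.ne'
  have hGs := G_hasCompactSupport hw hr
  have hi1 : Integrable (G r w) := hGc.integrable_of_hasCompactSupport hGs
  have hi2 : Integrable (fun y => y ^ m • G r w y) := by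
    simp only [smul_eq_mul]
    refine Continuous.integrable_of_hasCompactSupport ((continuous_id.pow m).mul hGc) ?_
    exact hGs.mul_left
  have hle : ∫ y in Ioi (0 : ℝ), y ^ m • G r w y ≤ ∫ y in Ioi (0 : ℝ), r ^ m * G r w y := by
    refine setIntegral_mono_on hi2.integrableOn (hi1.const_mul _).integrableOn measurableSet_Ioi
      fun y hy => ?_
    have hy0 : (0 : ℝ) < y := hy
    rw [smul_eq_mul]
    rcases le_or_gt r y with h | h
    · rw [G_zero hw hr (by rw [abs_of_pos hy0]; exact h)]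
      simp
    · exact mul_le_mul_of_nonneg_right (pow_le_pow_left₀ hy0.le h.le m) (G_nonneg hw hy0.le)
  refine hle.trans ?_
  rw [integral_const_mul]
  have hFT : ∫ y in Ioi (0 : ℝ), G r w y =
      0 - (-Real.smoothTransition ((r ^ 2 - 0 ^ 2) / w)) := by
    refine integral_Ioi_of_hasDerivAt_of_tendsto (f := fun ρ => -Real.smoothTransition ((r ^ 2 - ρ ^ 2) / w))
      ?_ (fun y _ => G_deriv r hw.ne' y) hi1.integrableOn ?_
    · exact ((G_deriv r hw.ne' 0).continuousAt).continuousWithinAt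
    · refine tendsto_const_nhds.congr' ?_
      filter_upwards [eventually_ge_atTop r] with y hy
      have : (r ^ 2 - y ^ 2) / w ≤ 0 := by
        apply div_nonpos_of_nonpos_of_nonneg _ hw.le
        nlinarith
      rw [Real.smoothTransition.zero_of_nonpos this]
      simp
  rw [hFT]
  have h1 := Real.smoothTransition.le_one ((r ^ 2 - 0 ^ 2) / w)
  have h2 : (0 : ℝ) ≤ r ^ m := by positivity
  nlinarith

/-! ### The cut-off on Euclidean space -/

abbrev Eu (n : ℕ) := EuclideanSpace ℝ (Fin n)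

variable {n : ℕ}

/-- The cut-off. -/
def u (r w : ℝ) (x : Eu n) : ℝ := Real.smoothTransition ((r ^ 2 - ‖x‖ ^ 2) / w)

lemma u_contDiff (r w : ℝ) : ContDiff ℝ 1 (u (n := n) r w) := by
  unfold u
  refine (Real.smoothTransition.contDiff (n := 1)).comp ?_
  exact (contDiff_const.sub (contDiff_norm_sq ℝ)).div_const _

lemma u_hasFDeriv (r w : ℝ) (x : Eu n) :
    HasFDerivAt (u (n := n) r w)
      (sd ((r ^ 2 - ‖x‖ ^ 2) / w) • ((-(2 / w)) • innerSL ℝ x)) x := by
  have h1 : HasFDerivAt (fun x : Eu n => ‖x‖ ^ 2) (2 • (innerSL ℝ x).comp (ContinuousLinearMap.id ℝ (Eu n))) x :=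
    (hasFDerivAt_id x).norm_sq
  have h2 : HasFDerivAt (fun x : Eu n => (r ^ 2 - ‖x‖ ^ 2) / w) ((-(2 / w)) • innerSL ℝ x) x := by
    have := ((hasFDerivAt_const (r ^ 2) x).sub h1).const_mul w⁻¹
    have e : (fun x : Eu n => (r ^ 2 - ‖x‖ ^ 2) / w) = (fun x : Eu n => w⁻¹ * (r ^ 2 - ‖x‖ ^ 2)) := by
      funext y
      rw [div_eq_inv_mul]
    rw [e]
    have h3 : HasFDerivAt (fun y : Eu n => w⁻¹ * (r ^ 2 - ‖y‖ ^ 2))
        (w⁻¹ • ((0 : Eu n →L[ℝ] ℝ) - (2 : ℕ) • (innerSL ℝ x).comp (ContinuousLinearMap.id ℝ (Eu n)))) x := this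
    refine h3.congr_fderiv ?_
    ext v
    simp
    ring
  exact (hasDeriv_s _).comp_hasFDerivAt x h2

lemma u_fderiv_single (r w : ℝ) (x : Eu n) (i : Fin n) :
    fderiv ℝ (u (n := n) r w) x (EuclideanSpace.single i 1) =
      -(sd ((r ^ 2 - ‖x‖ ^ 2) / w) * (2 / w * x i)) := by
  rw [(u_hasFDeriv r w x).fderiv]
  simp [EuclideanSpace.inner_single_right]

lemma u_zero {r w : ℝ} (hw : 0 < w) (hr : 0 < r) {x : Eu n} (h : r ≤ ‖x‖) : u r w x = 0 := by
  unfold u
  apply Real.smoothTransition.zero_of_nonpos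
  apply div_nonpos_of_nonpos_of_nonneg _ hw.le
  nlinarith [norm_nonneg x]

lemma u_hasCompactSupport {r w : ℝ} (hw : 0 < w) (hr : 0 < r) :
    HasCompactSupport (u (n := n) r w) := by
  refine HasCompactSupport.intro (isCompact_closedBall (0 : Eu n) r) fun x hx => ?_
  apply u_zero hw hr
  rw [Metric.mem_closedBall, dist_zero_right, not_le] at hx
  exact hx.le

/-- The energy inequality for one cut-off. -/
lemma cut_le [NeZero n] (F : Fin n → Eu n → ℝ) (hF : ∀ i, ContDiff ℝ 1 (F i))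
    (hB : ∀ x, ∑ i, F i x ^ 2 ≤ 1) {r w : ℝ} (hr : 0 < r) (hw : 0 < w) :
    ∫ x, u r w x * ∑ i, fderiv ℝ (F i) x (EuclideanSpace.single i 1) ≤
      n * (volume.real (Metric.ball (0 : Eu n) 1)) * r ^ (n - 1) := by
  have hus := u_hasCompactSupport (n := n) hw hr
  have huc := u_contDiff (n := n) r w
  have hdF : ∀ i, Continuous (fun x => fderiv ℝ (F i) x (EuclideanSpace.single i 1)) := fun i =>
    ((hF i).continuous_fderiv one_ne_zero).clm_apply continuous_const
  have hdu : ∀ v : Eu n, Continuous (fun x => fderiv ℝ (u (n := n) r w) x v) := fun v =>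
    (huc.continuous_fderiv one_ne_zero).clm_apply continuous_const
  have hi1 : ∀ i, Integrable (fun x => u (n := n) r w x * fderiv ℝ (F i) x (EuclideanSpace.single i 1)) := fun i =>
    (huc.continuous.mul (hdF i)).integrable_of_hasCompactSupport hus.mul_right
  have hi2 : ∀ i, Integrable (fun x => fderiv ℝ (u (n := n) r w) x (EuclideanSpace.single i 1) * F i x) := fun i => by
    refine ((hdu _).mul (hF i).continuous).integrable_of_hasCompactSupport ?_
    refine HasCompactSupport.mul_right ?_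
    exact (hus.fderiv (𝕜 := ℝ)).comp_left (g := fun L : Eu n →L[ℝ] ℝ => L (EuclideanSpace.single i 1)) (by simp)
  have hi3 : ∀ i, Integrable (fun x => u (n := n) r w x * F i x) := fun i =>
    (huc.continuous.mul (hF i).continuous).integrable_of_hasCompactSupport hus.mul_right
  have ibp : ∀ i, ∫ x, u (n := n) r w x * fderiv ℝ (F i) x (EuclideanSpace.single i 1) =
      -∫ x, fderiv ℝ (u (n := n) r w) x (EuclideanSpace.single i 1) * F i x := fun i =>
    integral_mul_fderiv_eq_neg_fderiv_mul_of_integrable (hi2 i) (hi1 i) (hi3 i)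
      (fun x _ => (huc.differentiable one_ne_zero) x) (fun x _ => ((hF i).differentiable one_ne_zero) x)
  have e1 : ∫ x, u (n := n) r w x * ∑ i, fderiv ℝ (F i) x (EuclideanSpace.single i 1) =
      ∫ x, ∑ i, -(fderiv ℝ (u (n := n) r w) x (EuclideanSpace.single i 1) * F i x) := by
    simp_rw [Finset.mul_sum]
    have hi2' : ∀ i, Integrable (fun x => -(fderiv ℝ (u (n := n) r w) x (EuclideanSpace.single i 1) * F i x)) :=
      fun i => (hi2 i).neg
    rw [integral_finsetSum _ (fun i _ => hi1 i), integral_finsetSum _ (fun i _ => hi2' i)]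
    refine Finset.sum_congr rfl fun i _ => ?_
    rw [ibp i, integral_neg]
  rw [e1]
  have hGc := G_cont r hw.ne'
  have hGs := G_hasCompactSupport hw hr
  have hGn : Integrable (fun x : Eu n => G r w ‖x‖) := by
    refine (hGc.comp continuous_norm).integrable_of_hasCompactSupport ?_
    refine HasCompactSupport.intro (isCompact_closedBall (0 : Eu n) r) fun x hx => ?_
    rw [Metric.mem_closedBall, dist_zero_right, not_le] at hx
    exact G_zero hw hr (by rw [abs_of_nonneg (norm_nonneg x)]; exact hx.le)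
  have hle : ∫ x, ∑ i, -(fderiv ℝ (u (n := n) r w) x (EuclideanSpace.single i 1) * F i x) ≤
      ∫ x : Eu n, G r w ‖x‖ := by
    refine integral_mono (integrable_finsetSum _ fun i _ => (hi2 i).neg) hGn fun x => ?_
    have h1 : ∀ i, -(fderiv ℝ (u (n := n) r w) x (EuclideanSpace.single i 1) * F i x) =
        sd ((r ^ 2 - ‖x‖ ^ 2) / w) * (2 / w) * (x i * F i x) := fun i => by
      rw [u_fderiv_single]
      ring
    simp only [h1]
    rw [← Finset.mul_sum]
    have hcs : ∑ i, x i * F i x ≤ ‖x‖ := by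
      have h2 := Real.sum_mul_le_sqrt_mul_sqrt Finset.univ (fun i => x i) (fun i => F i x)
      have h3 : Real.sqrt (∑ i, x i ^ 2) = ‖x‖ := by
        rw [EuclideanSpace.norm_eq]
        simp
      rw [h3] at h2
      have h4 : Real.sqrt (∑ i, F i x ^ 2) ≤ 1 := Real.sqrt_le_one.2 (hB x)
      nlinarith [norm_nonneg x]
    have hnn : 0 ≤ sd ((r ^ 2 - ‖x‖ ^ 2) / w) * (2 / w) :=
      mul_nonneg (sd_nonneg _) (by positivity)
    have := mul_le_mul_of_nonneg_left hcs hnn
    refine this.trans (le_of_eq ?_)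
    unfold G
    ring
  refine hle.trans ?_
  haveI : Nonempty (Fin n) := ⟨⟨0, Nat.pos_of_ne_zero (NeZero.ne n)⟩⟩
  haveI : Nontrivial (Eu n) := by
    refine ⟨⟨EuclideanSpace.single (Classical.arbitrary (Fin n)) 1, 0, fun h => ?_⟩⟩
    have := congrArg (fun v : Eu n => v (Classical.arbitrary (Fin n))) h
    simp at this
  rw [integral_fun_norm_addHaar volume (G r w), finrank_euclideanSpace_fin, nsmul_eq_mul, smul_eq_mul]
  have hv : 0 ≤ volume.real (Metric.ball (0 : Eu n) 1) := measureReal_nonneg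
  have := radial_le hw hr (n - 1)
  have hn0 : (0 : ℝ) ≤ n := Nat.cast_nonneg n
  have h5 := mul_le_mul_of_nonneg_left this (mul_nonneg hn0 hv)
  calc _ = (n : ℝ) * volume.real (Metric.ball (0 : Eu n) 1) * ∫ y in Ioi (0 : ℝ), y ^ (n - 1) • G r w y := by ring
    _ ≤ _ := h5

/-- The bound for balls of Euclidean space. -/
theorem ball_div_le [NeZero n] (F : Fin n → Eu n → ℝ) (hF : ∀ i, ContDiff ℝ 1 (F i))
    (hB : ∀ x, ∑ i, F i x ^ 2 ≤ 1) {r : ℝ} (hr : 0 < r) :
    ∫ x in Metric.ball (0 : Eu n) r, ∑ i, fderiv ℝ (F i) x (EuclideanSpace.single i 1) ≤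
      n * (volume.real (Metric.ball (0 : Eu n) 1)) * r ^ (n - 1) := by
  set D : Eu n → ℝ := fun x => ∑ i, fderiv ℝ (F i) x (EuclideanSpace.single i 1) with hD
  have hDc : Continuous D := continuous_finsetSum _ fun i _ =>
    ((hF i).continuous_fderiv one_ne_zero).clm_apply continuous_const
  set w : ℕ → ℝ := fun k => 1 / ((k : ℝ) + 1) with hw
  have hw0 : ∀ k, 0 < w k := fun k => by positivity
  have hwt : Tendsto w atTop (𝓝 0) := tendsto_one_div_add_atTop_nhds_zero_nat
  have hlim : Tendsto (fun k => ∫ x, u (n := n) r (w k) x * D x) atTop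
      (𝓝 (∫ x, (Metric.ball (0 : Eu n) r).indicator D x)) := by
    refine tendsto_integral_of_dominated_convergence
      ((Metric.closedBall (0 : Eu n) r).indicator fun x => |D x|) ?_ ?_ ?_ ?_
    · intro k
      exact (((u_contDiff r (w k)).continuous).mul hDc).aestronglyMeasurable
    · refine (hDc.abs.continuousOn.integrableOn_compact (isCompact_closedBall (0 : Eu n) r)).integrable_indicator measurableSet_closedBall
    · intro k
      refine Eventually.of_forall fun x => ?_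
      rw [Real.norm_eq_abs]
      by_cases hx : x ∈ Metric.closedBall (0 : Eu n) r
      · rw [indicator_of_mem hx, abs_mul]
        have h1 : |u (n := n) r (w k) x| ≤ 1 := by
          unfold u
          rw [abs_of_nonneg (Real.smoothTransition.nonneg _)]
          exact Real.smoothTransition.le_one _
        exact mul_le_of_le_one_left (abs_nonneg _) h1
      · rw [indicator_of_notMem hx]
        have hx' : r ≤ ‖x‖ := by
          rw [Metric.mem_closedBall, dist_zero_right, not_le] at hx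
          exact hx.le
        rw [u_zero (hw0 k) hr hx']
        simp
    · refine Eventually.of_forall fun x => ?_
      by_cases hx : x ∈ Metric.ball (0 : Eu n) r
      · rw [indicator_of_mem hx]
        have hx' : ‖x‖ < r := by rwa [Metric.mem_ball, dist_zero_right] at hx
        have hpos : 0 < r ^ 2 - ‖x‖ ^ 2 := by nlinarith [norm_nonneg x]
        refine tendsto_const_nhds.congr' ?_
        filter_upwards [hwt.eventually (ge_mem_nhds hpos)] with k hk
        have h1 : 1 ≤ (r ^ 2 - ‖x‖ ^ 2) / w k := (one_le_div (hw0 k)).2 hk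
        unfold u
        rw [Real.smoothTransition.one_of_one_le h1, one_mul]
      · rw [indicator_of_notMem hx]
        have hx' : r ≤ ‖x‖ := by
          rwa [Metric.mem_ball, dist_zero_right, not_lt] at hx
        refine tendsto_const_nhds.congr' ?_
        refine Eventually.of_forall fun k => ?_
        show (0 : ℝ) = u (n := n) r (w k) x * D x
        rw [u_zero (hw0 k) hr hx', zero_mul]
  rw [integral_indicator measurableSet_ball] at hlim
  exact le_of_tendsto' hlim fun k => cut_le F hF hB hr (hw0 k)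


/-! ### Coordinates -/

/-- Coordinates in dimension two. -/
def L2 : Eu 2 →L[ℝ] ℝ × ℝ :=
  (EuclideanSpace.proj (0 : Fin 2)).prod (EuclideanSpace.proj (1 : Fin 2))

/-- Coordinates in dimension two, as a measurable equivalence. -/
def e2 : Eu 2 ≃ᵐ ℝ × ℝ :=
  (MeasurableEquiv.toLp 2 (Fin 2 → ℝ)).symm.trans MeasurableEquiv.finTwoArrow

lemma e2_apply (x : Eu 2) : e2 x = L2 x := rfl

lemma e2_mp : MeasurePreserving e2 volume volume :=
  (EuclideanSpace.volume_preserving_symm_measurableEquiv_toLp (Fin 2)).trans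
    (volume_preserving_finTwoArrow ℝ)

lemma norm_sq2 (x : Eu 2) : ‖x‖ ^ 2 = (L2 x).1 ^ 2 + (L2 x).2 ^ 2 := by
  rw [EuclideanSpace.norm_sq_eq, Fin.sum_univ_two]
  simp [L2]

lemma fderiv_L2 {f : ℝ × ℝ → ℝ} (hf : ContDiff ℝ 1 f) (x v : Eu 2) :
    fderiv ℝ (f ∘ L2) x v = fderiv ℝ f (L2 x) (L2 v) := by
  have h := ((hf.differentiable one_ne_zero (L2 x)).hasFDerivAt.comp x L2.hasFDerivAt).fderiv
  rw [h]
  rfl

/-- The disc, in coordinates. -/
theorem disc_R2 {ψ₁ ψ₂ : ℝ × ℝ → ℝ} (h₁ : ContDiff ℝ 1 ψ₁) (h₂ : ContDiff ℝ 1 ψ₂)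
    (hB : ∀ p, ψ₁ p ^ 2 + ψ₂ p ^ 2 ≤ 1) {r : ℝ} (hr : 0 < r) :
    ∫ q in {q : ℝ × ℝ | q.1 ^ 2 + q.2 ^ 2 < r ^ 2},
      (fderiv ℝ ψ₁ q (1, 0) + fderiv ℝ ψ₂ q (0, 1)) ≤ 2 * π * r := by
  set F : Fin 2 → Eu 2 → ℝ := ![ψ₁ ∘ L2, ψ₂ ∘ L2] with hF
  have hFc : ∀ i, ContDiff ℝ 1 (F i) := by
    intro i
    fin_cases i
    · exact h₁.comp L2.contDiff
    · exact h₂.comp L2.contDiff
  have hFB : ∀ x, ∑ i, F i x ^ 2 ≤ 1 := by
    intro x
    rw [Fin.sum_univ_two]
    exact hB (L2 x)
  have key := ball_div_le F hFc hFB hr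
  have hvol : volume.real (Metric.ball (0 : Eu 2) 1) = π := by
    rw [Measure.real, EuclideanSpace.volume_ball_fin_two]
    simp
    positivity
  rw [hvol] at key
  have e : ∫ x in Metric.ball (0 : Eu 2) r, ∑ i, fderiv ℝ (F i) x (EuclideanSpace.single i 1) =
      ∫ q in {q : ℝ × ℝ | q.1 ^ 2 + q.2 ^ 2 < r ^ 2},
      (fderiv ℝ ψ₁ q (1, 0) + fderiv ℝ ψ₂ q (0, 1)) := by
    rw [← e2_mp.setIntegral_preimage_emb e2.measurableEmbedding]
    have hS : e2 ⁻¹' {q : ℝ × ℝ | q.1 ^ 2 + q.2 ^ 2 < r ^ 2} = Metric.ball (0 : Eu 2) r := by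
      ext x
      simp only [mem_preimage, mem_ofPred_eq, e2_apply, ← norm_sq2, Metric.mem_ball, dist_zero_right]
      exact pow_lt_pow_iff_left₀ (norm_nonneg x) hr.le two_ne_zero
    rw [hS]
    refine setIntegral_congr_fun measurableSet_ball fun x _ => ?_
    simp only [e2_apply]
    rw [Fin.sum_univ_two]
    show fderiv ℝ (ψ₁ ∘ L2) x _ + fderiv ℝ (ψ₂ ∘ L2) x _ = _
    rw [fderiv_L2 h₁, fderiv_L2 h₂]
    have v0 : L2 (EuclideanSpace.single (0 : Fin 2) (1 : ℝ)) = (1, 0) := by simp [L2]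
    have v1 : L2 (EuclideanSpace.single (1 : Fin 2) (1 : ℝ)) = (0, 1) := by simp [L2]
    rw [v0, v1]
  rw [e] at key
  refine key.trans (le_of_eq ?_)
  show ((2 : ℕ) : ℝ) * π * r ^ 1 = _
  push_cast
  ring

/-! ### Unfolding the periodic sets -/

lemma int_zero {q r : ℝ} {a : ℤ} (h1 : 0 ≤ q + 1 / 2) (h2 : q + 1 / 2 < 1) (h3 : (q - a) ^ 2 < r ^ 2)
    (hr : 0 < r) (hr2 : r ≤ 1 / 2) : a = 0 := by
  have h4 := abs_lt_of_sq_lt_sq h3 hr.le
  have h5 := abs_lt.1 h4
  have h6 : (a : ℝ) < 1 := by linarith [h5.1]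
  have h7 : (-1 : ℝ) < a := by linarith [h5.2]
  have h8 : a < 1 := by exact_mod_cast h6
  have h9 : -1 < a := by exact_mod_cast h7
  omega

lemma measurableSet_tubeT (c₁ c₂ r : ℝ) : MeasurableSet (tubeT c₁ c₂ r) := by
  have e : tubeT c₁ c₂ r = ⋃ a : ℤ, ⋃ b : ℤ,
      {p : R3 | (p.1 - c₁ - a) ^ 2 + (p.2.1 - c₂ - b) ^ 2 < r ^ 2} := by
    ext p
    simp [tubeT]
  rw [e]
  refine MeasurableSet.iUnion fun a => MeasurableSet.iUnion fun b => ?_
  exact measurableSet_lt (by fun_prop) measurable_const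

lemma isZ3Periodic_tubeT (c₁ c₂ r : ℝ) : IsZ3Periodic (tubeT c₁ c₂ r) where
  per_x x y t := by
    constructor
    · rintro ⟨a, b, h⟩
      refine ⟨a - 1, b, ?_⟩
      push_cast
      convert h using 3
      simp only
      ring
    · rintro ⟨a, b, h⟩
      refine ⟨a + 1, b, ?_⟩
      push_cast
      convert h using 3
      simp only
      ring
  per_y x y t := by
    constructor
    · rintro ⟨a, b, h⟩
      refine ⟨a, b - 1, ?_⟩
      push_cast
      convert h using 2
      simp only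
      ring
    · rintro ⟨a, b, h⟩
      refine ⟨a, b + 1, ?_⟩
      push_cast
      convert h using 2
      simp only
      ring
  per_t x y t := Iff.rfl

lemma ind_per {E : Set R3} (pE : IsZ3Periodic E) {g : R3 → ℝ} (pg : IsZ3PeriodicFun g) :
    IsZ3PeriodicFun (E.indicator g) where
  per_x x y t := by
    by_cases h : (x, y, t) ∈ E
    · rw [indicator_of_mem h, indicator_of_mem ((pE.per_x x y t).2 h), pg.per_x]
    · rw [indicator_of_notMem h, indicator_of_notMem (fun h' => h ((pE.per_x x y t).1 h'))]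
  per_y x y t := by
    by_cases h : (x, y, t) ∈ E
    · rw [indicator_of_mem h, indicator_of_mem ((pE.per_y x y t).2 h), pg.per_y]
    · rw [indicator_of_notMem h, indicator_of_notMem (fun h' => h ((pE.per_y x y t).1 h'))]
  per_t x y t := by
    by_cases h : (x, y, t) ∈ E
    · rw [indicator_of_mem h, indicator_of_mem ((pE.per_t x y t).2 h), pg.per_t]
    · rw [indicator_of_notMem h, indicator_of_notMem (fun h' => h ((pE.per_t x y t).1 h'))]

lemma measurableSet_Q3 : MeasurableSet Q3 :=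
  measurableSet_Ico.prod (measurableSet_Ico.prod measurableSet_Ico)


/-- The integral over the periodic tube. -/
theorem tube_unfold (c₁ c₂ : ℝ) {r : ℝ} (hr : 0 < r) (hr2 : r ≤ 1 / 2) {g : R3 → ℝ}
    (hg : Continuous g) (pg : IsZ3PeriodicFun g) :
    ∫ p in tubeT c₁ c₂ r ∩ Q3, g p =
      ∫ t in (0 : ℝ)..1, ∫ q in {q : ℝ × ℝ | q.1 ^ 2 + q.2 ^ 2 < r ^ 2}, g (q.1 + c₁, q.2 + c₂, t) := by
  set E := tubeT c₁ c₂ r with hE
  have hEm : MeasurableSet E := measurableSet_tubeT c₁ c₂ r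
  have pE : IsZ3Periodic E := isZ3Periodic_tubeT c₁ c₂ r
  set F : R3 → ℝ := E.indicator g with hF
  have hFm : Measurable F := hg.measurable.indicator hEm
  obtain ⟨C, hC⟩ := m3_bdd hg pg
  have hFC : ∀ p, |F p| ≤ C := fun p => by
    have hC0 : 0 ≤ C := (abs_nonneg _).trans (hC p)
    by_cases h : p ∈ E
    · simp only [hF, indicator_of_mem h]
      exact hC p
    · simp only [hF, indicator_of_notMem h, abs_zero]
      exact hC0
  have pF : IsZ3PeriodicFun F := ind_per pE pg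
  set z : R3 := (1 / 2 - c₁, 1 / 2 - c₂, 0) with hz
  set S : Set (ℝ × ℝ) := {q : ℝ × ℝ | q.1 ^ 2 + q.2 ^ 2 < r ^ 2} with hS
  have hSm : MeasurableSet S := measurableSet_lt (by fun_prop) measurable_const
  have step1 : ∫ p in E ∩ Q3, g p = ∫ p in Q3, F p := by
    rw [hF, setIntegral_indicator hEm, inter_comm]
  have step2 := m3_translate hFm hFC pF z
  have hm1 : Measurable fun p : R3 => F (p - z) := hFm.comp (measurable_id.sub_const z)
  have hQ3v : volume Q3 ≠ ⊤ := m3_Q3_volume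
  have hint : IntegrableOn (fun p : R3 => F (p - z)) Q3 :=
    Measure.integrableOn_of_bounded (M := C) hQ3v hm1.aestronglyMeasurable
      (ae_of_all _ fun p => by simpa using hFC (p - z))
  have step3 := cube_t hint
  rw [step1, ← step2, step3]
  refine intervalIntegral.integral_congr fun t _ => ?_
  beta_reduce
  -- a single level
  have hm2 : Measurable fun q : ℝ × ℝ => F (((q.1, q.2, t) : R3) - z) :=
    hFm.comp ((by fun_prop : Measurable fun q : ℝ × ℝ => ((q.1, q.2, t) : R3)).sub_const z)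
  have hSq : MeasurableSet (Ico (0 : ℝ) 1 ×ˢ Ico (0 : ℝ) 1) := measurableSet_Ico.prod measurableSet_Ico
  have hSqv : volume (Ico (0 : ℝ) 1 ×ˢ Ico (0 : ℝ) 1) ≠ ⊤ := by
    rw [Measure.volume_eq_prod, Measure.prod_prod]
    simp
  have hint2 : IntegrableOn (fun q : ℝ × ℝ => F (((q.1, q.2, t) : R3) - z)) (Ico (0 : ℝ) 1 ×ˢ Ico (0 : ℝ) 1) :=
    Measure.integrableOn_of_bounded (M := C) hSqv hm2.aestronglyMeasurable
      (ae_of_all _ fun q => by simpa using hFC _)
  have step4 := square_y hint2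
  simp only at step4
  rw [← step4, ← integral_indicator hSq, ← integral_indicator hSm]
  haveI : (volume : Measure (ℝ × ℝ)).IsAddRightInvariant := by
    rw [Measure.volume_eq_prod]
    infer_instance
  have step5 := integral_add_right_eq_self (μ := (volume : Measure (ℝ × ℝ)))
    (fun q => (Ico (0 : ℝ) 1 ×ˢ Ico (0 : ℝ) 1).indicator
      (fun q : ℝ × ℝ => F (((q.1, q.2, t) : R3) - z)) q) ((1 / 2, 1 / 2) : ℝ × ℝ)
  rw [← step5]
  refine integral_congr_ae (ae_of_all _ ?_)
  rintro ⟨q₁, q₂⟩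
  show (Ico (0 : ℝ) 1 ×ˢ Ico (0 : ℝ) 1).indicator (fun q : ℝ × ℝ => F (((q.1, q.2, t) : R3) - z))
      (((q₁, q₂) : ℝ × ℝ) + (1 / 2, 1 / 2)) =
    S.indicator (fun q : ℝ × ℝ => g (q.1 + c₁, q.2 + c₂, t)) (q₁, q₂)
  have e1 : ((q₁ + 1 / 2, q₂ + 1 / 2, t) : R3) - z = (q₁ + c₁, q₂ + c₂, t) := by
    simp only [hz, Prod.mk_sub_mk, sub_zero]
    refine Prod.ext ?_ (Prod.ext ?_ rfl) <;> simp only <;> ring
  by_cases hq : ((q₁, q₂) : ℝ × ℝ) ∈ S
  · have hq' : q₁ ^ 2 + q₂ ^ 2 < r ^ 2 := hq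
    have hb1 : q₁ ^ 2 < r ^ 2 := by nlinarith [sq_nonneg q₂]
    have hb2 : q₂ ^ 2 < r ^ 2 := by nlinarith [sq_nonneg q₁]
    have a1 := abs_lt.1 (abs_lt_of_sq_lt_sq hb1 hr.le)
    have a2 := abs_lt.1 (abs_lt_of_sq_lt_sq hb2 hr.le)
    have hQ : ((q₁, q₂) : ℝ × ℝ) + (1 / 2, 1 / 2) ∈ Ico (0 : ℝ) 1 ×ˢ Ico (0 : ℝ) 1 := by
      refine ⟨⟨?_, ?_⟩, ⟨?_, ?_⟩⟩ <;> simp only [Prod.mk_add_mk] <;> linarith [a1.1, a1.2, a2.1, a2.2]
    have hmemE : ((q₁ + c₁, q₂ + c₂, t) : R3) ∈ E := by
      refine ⟨0, 0, ?_⟩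
      simp only [Int.cast_zero, sub_zero, add_sub_cancel_right]
      exact hq'
    rw [indicator_of_mem hq, indicator_of_mem hQ]
    simp only [Prod.mk_add_mk]
    rw [e1, hF, indicator_of_mem hmemE]
  · rw [indicator_of_notMem hq]
    by_cases hQ : ((q₁, q₂) : ℝ × ℝ) + (1 / 2, 1 / 2) ∈ Ico (0 : ℝ) 1 ×ˢ Ico (0 : ℝ) 1
    · rw [indicator_of_mem hQ]
      simp only [Prod.mk_add_mk]
      rw [e1, hF, indicator_of_notMem]
      rintro ⟨a, b, h⟩
      have hQ1 := hQ.1
      have hQ2 := hQ.2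
      simp only [Prod.mk_add_mk, mem_Ico] at hQ1 hQ2 h
      have h' : (q₁ - a) ^ 2 + (q₂ - b) ^ 2 < r ^ 2 := by
        convert h using 3 <;> ring
      have ha : a = 0 := int_zero hQ1.1 hQ1.2 (by nlinarith [sq_nonneg (q₂ - b)]) hr hr2
      have hb : b = 0 := int_zero hQ2.1 hQ2.2 (by nlinarith [sq_nonneg (q₁ - a)]) hr hr2
      subst ha hb
      apply hq
      show q₁ ^ 2 + q₂ ^ 2 < r ^ 2
      simpa using h'
    · rw [indicator_of_notMem hQ]

lemma fderiv_per {f : R3 → ℝ} (pf : IsZ3PeriodicFun f) (v : R3) :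
    IsZ3PeriodicFun (fun p => fderiv ℝ f p v) where
  per_x x y t := by
    have := m3_fderiv_shift (f := f) (e := (1, 0, 0)) (fun p => by
      obtain ⟨a, b, c⟩ := p
      have := pf.per_x a b c
      simpa using this) (x, y, t) v
    simpa using this
  per_y x y t := by
    have := m3_fderiv_shift (f := f) (e := (0, 1, 0)) (fun p => by
      obtain ⟨a, b, c⟩ := p
      have := pf.per_y a b c
      simpa using this) (x, y, t) v
    simpa using this
  per_t x y t := by
    have := m3_fderiv_shift (f := f) (e := (0, 0, 1)) (fun p => by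
      obtain ⟨a, b, c⟩ := p
      have := pf.per_t a b c
      simpa using this) (x, y, t) v
    simpa using this

/-- The derivative along the axis of the tube integrates to zero. -/
lemma tube_axis_zero (φ : TestField) (c₁ c₂ r : ℝ) :
    ∫ p in tubeT c₁ c₂ r ∩ Q3, fderiv ℝ φ.f₃ p (0, 0, 1) = 0 := by
  set E := tubeT c₁ c₂ r with hE
  have hEm : MeasurableSet E := measurableSet_tubeT c₁ c₂ r
  have hgc : Continuous fun p => fderiv ℝ φ.f₃ p (0, 0, 1) :=
    (φ.c₃.continuous_fderiv one_ne_zero).clm_apply continuous_const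
  obtain ⟨C, hC⟩ := m3_bdd hgc (fderiv_per φ.p₃ _)
  set F : R3 → ℝ := E.indicator fun p => fderiv ℝ φ.f₃ p (0, 0, 1) with hF
  have hFm : Measurable F := hgc.measurable.indicator hEm
  have hFC : ∀ p, |F p| ≤ C := fun p => by
    have hC0 : 0 ≤ C := (abs_nonneg _).trans (hC p)
    by_cases h : p ∈ E
    · simp only [hF, indicator_of_mem h]
      exact hC p
    · simp only [hF, indicator_of_notMem h, abs_zero]
      exact hC0
  have step1 : ∫ p in E ∩ Q3, fderiv ℝ φ.f₃ p (0, 0, 1) = ∫ p in Q3, F p := by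
    rw [hF, setIntegral_indicator hEm, inter_comm]
  rw [step1, m3_iter hFm hFC]
  have hin : ∀ x y : ℝ, ∫ t in Ico (0 : ℝ) 1, F (x, y, t) = 0 := by
    intro x y
    by_cases h : ((x, y, (0 : ℝ)) : R3) ∈ E
    · have hmem : ∀ t : ℝ, ((x, y, t) : R3) ∈ E := fun t => h
      have e : ∀ t : ℝ, F (x, y, t) = deriv (fun s => φ.f₃ (x, y, s)) t := fun t => by
        simp only [hF, indicator_of_mem (hmem t)]
        exact (m3_dt φ.c₃ (x, y, t)).symm
      simp_rw [e]
      rw [integral_Ico_eq_integral_Ioc, ← intervalIntegral.integral_of_le zero_le_one]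
      have hd : ∀ s ∈ uIcc (0 : ℝ) 1, HasDerivAt (fun s => φ.f₃ (x, y, s))
          (deriv (fun s => φ.f₃ (x, y, s)) s) s := fun s _ => by
        have h1 : DifferentiableAt ℝ (fun s : ℝ => ((x, y, s) : R3)) s := by fun_prop
        exact ((φ.c₃.differentiable one_ne_zero _).comp s h1).hasDerivAt
      have hi : IntervalIntegrable (deriv (fun s => φ.f₃ (x, y, s))) volume 0 1 := by
        have : deriv (fun s => φ.f₃ (x, y, s)) = fun s => fderiv ℝ φ.f₃ (x, y, s) (0, 0, 1) :=
          funext fun s => m3_dt φ.c₃ (x, y, s)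
        rw [this]
        exact (hgc.comp (by fun_prop : Continuous fun s : ℝ => ((x, y, s) : R3))).intervalIntegrable _ _
      rw [intervalIntegral.integral_eq_sub_of_hasDerivAt hd hi]
      have := φ.p₃.per_t x y 0
      simp only [zero_add] at this
      rw [this]
      simp
    · have hnot : ∀ t : ℝ, ((x, y, t) : R3) ∉ E := fun t h' => h h'
      have e : ∀ t : ℝ, F (x, y, t) = 0 := fun t => by
        simp only [hF, indicator_of_notMem (hnot t)]
      simp_rw [e]
      simp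
  simp_rw [hin]
  simp

end Up

open Up in
/-- The perimeter of the periodic tube. -/
theorem perim_tube_le (c₁ c₂ : ℝ) {r : ℝ} (hr : 0 < r) (hr2 : r ≤ 1 / 2) :
    Perim (tubeT c₁ c₂ r) ≤ ENNReal.ofReal (2 * π * r) := by
  refine iSup_le fun φ => ENNReal.ofReal_le_ofReal ?_
  set g₁₂ : R3 → ℝ := fun p => fderiv ℝ φ.f₁ p (1, 0, 0) + fderiv ℝ φ.f₂ p (0, 1, 0) with hg₁₂
  have hc1 : Continuous fun p => fderiv ℝ φ.f₁ p (1, 0, 0) :=
    (φ.c₁.continuous_fderiv one_ne_zero).clm_apply continuous_const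
  have hc2 : Continuous fun p => fderiv ℝ φ.f₂ p (0, 1, 0) :=
    (φ.c₂.continuous_fderiv one_ne_zero).clm_apply continuous_const
  have hc3 : Continuous fun p => fderiv ℝ φ.f₃ p (0, 0, 1) :=
    (φ.c₃.continuous_fderiv one_ne_zero).clm_apply continuous_const
  have hc12 : Continuous g₁₂ := hc1.add hc2
  have p12 : IsZ3PeriodicFun g₁₂ :=
    { per_x := fun x y t => by
        simp only [hg₁₂]
        rw [(fderiv_per φ.p₁ _).per_x, (fderiv_per φ.p₂ _).per_x]
      per_y := fun x y t => by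
        simp only [hg₁₂]
        rw [(fderiv_per φ.p₁ _).per_y, (fderiv_per φ.p₂ _).per_y]
      per_t := fun x y t => by
        simp only [hg₁₂]
        rw [(fderiv_per φ.p₁ _).per_t, (fderiv_per φ.p₂ _).per_t] }
  have hSub : ∀ {f : R3 → ℝ}, Continuous f → IntegrableOn f (tubeT c₁ c₂ r ∩ Q3) := fun {f} hf => by
    have hQ : Q3 ⊆ (Icc (0 : ℝ) 1 ×ˢ (Icc (0 : ℝ) 1 ×ˢ Icc (0 : ℝ) 1)) :=
      prod_mono Ico_subset_Icc_self (prod_mono Ico_subset_Icc_self Ico_subset_Icc_self)
    exact (hf.continuousOn.integrableOn_compact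
      (isCompact_Icc.prod (isCompact_Icc.prod isCompact_Icc))).mono_set (inter_subset_right.trans hQ)
  have e : ∫ p in tubeT c₁ c₂ r ∩ Q3, φ.div p = ∫ p in tubeT c₁ c₂ r ∩ Q3, g₁₂ p := by
    have e1 : ∀ p, φ.div p = g₁₂ p + fderiv ℝ φ.f₃ p (0, 0, 1) := fun p => m3_div_eq φ p
    simp_rw [e1]
    rw [integral_add (hSub hc12) (hSub hc3), tube_axis_zero, add_zero]
  rw [e, tube_unfold c₁ c₂ hr hr2 hc12 p12]
  -- one level
  have hlev : ∀ t : ℝ, ∫ q in {q : ℝ × ℝ | q.1 ^ 2 + q.2 ^ 2 < r ^ 2},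
      g₁₂ (q.1 + c₁, q.2 + c₂, t) ≤ 2 * π * r := by
    intro t
    set A : ℝ × ℝ → R3 := fun q => (q.1 + c₁, q.2 + c₂, t) with hA
    have hAc : ContDiff ℝ 1 A := by
      simp only [hA]
      fun_prop
    have hAd : ∀ q, HasFDerivAt A (((ContinuousLinearMap.fst ℝ ℝ ℝ).prod
        ((ContinuousLinearMap.snd ℝ ℝ ℝ).prod (0 : ℝ × ℝ →L[ℝ] ℝ)))) q := fun q => by
      have h1 : HasFDerivAt (fun q : ℝ × ℝ => q.1 + c₁) (ContinuousLinearMap.fst ℝ ℝ ℝ) q :=
        hasFDerivAt_fst.add_const c₁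
      have h2 : HasFDerivAt (fun q : ℝ × ℝ => q.2 + c₂) (ContinuousLinearMap.snd ℝ ℝ ℝ) q :=
        hasFDerivAt_snd.add_const c₂
      exact h1.prodMk (h2.prodMk (hasFDerivAt_const t q))
    have key := disc_R2 (ψ₁ := φ.f₁ ∘ A) (ψ₂ := φ.f₂ ∘ A) (φ.c₁.comp hAc) (φ.c₂.comp hAc)
      (fun q => by
        have := φ.norm_le (A q)
        simp only [Function.comp]
        nlinarith [sq_nonneg (φ.f₃ (A q))]) hr
    refine le_trans (le_of_eq ?_) key
    refine setIntegral_congr_fun (measurableSet_lt (by fun_prop) measurable_const) fun q _ => ?_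
    have d1 : fderiv ℝ (φ.f₁ ∘ A) q (1, 0) = fderiv ℝ φ.f₁ (A q) (1, 0, 0) := by
      have := ((φ.c₁.differentiable one_ne_zero (A q)).hasFDerivAt.comp q (hAd q)).fderiv
      rw [this]
      simp
    have d2 : fderiv ℝ (φ.f₂ ∘ A) q (0, 1) = fderiv ℝ φ.f₂ (A q) (0, 1, 0) := by
      have := ((φ.c₂.differentiable one_ne_zero (A q)).hasFDerivAt.comp q (hAd q)).fderiv
      rw [this]
      simp
    rw [d1, d2]
  by_cases hii : IntervalIntegrable (fun t => ∫ q in {q : ℝ × ℝ | q.1 ^ 2 + q.2 ^ 2 < r ^ 2},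
      g₁₂ (q.1 + c₁, q.2 + c₂, t)) volume 0 1
  · have := intervalIntegral.integral_mono_on (a := 0) (b := 1) zero_le_one hii
      (intervalIntegrable_const (c := 2 * π * r)) (fun t _ => hlev t)
    simpa using this
  · rw [intervalIntegral.integral_undef hii]
    positivity

end Vale.Agent.Lib.P232
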