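import Vale.Agent.Lib.P232.Class.UpperSlab
import Vale.Agent.Lib.P232.Class.UpperTube
import Vale.Agent.Lib.P232.Compl
import Vale.Agent.Lib.P232.S3Defs

/-! The three competitors give the upper bound: at every volume there is a measurable periodic set
of that volume whose perimeter is at most the value of the profile. -/

open MeasureTheory Set Filter Topology Real

noncomputable section

namespace Vale.Agent.Lib.P232

/-- The ball identity: `(36 π)^(1/3) v^(2/3) = 4 π r²` when `v = 4/3 π r³`. -/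
lemma ball_term_eq {r : ℝ} (hr : 0 < r) :
    (36 * π) ^ ((1 : ℝ) / 3) * (4 / 3 * π * r ^ 3) ^ ((2 : ℝ) / 3) = 4 * π * r ^ 2 := by
  have hpi := Real.pi_pos
  have h0 : 0 ≤ 4 / 3 * π * r ^ 3 := by positivity
  have h1 : (0 : ℝ) ≤ 36 * π := by positivity
  have hL : 0 ≤ (36 * π) ^ ((1 : ℝ) / 3) * (4 / 3 * π * r ^ 3) ^ ((2 : ℝ) / 3) := by positivity
  have hR : 0 ≤ 4 * π * r ^ 2 := by positivity
  have e3 : ((36 * π) ^ ((1 : ℝ) / 3) * (4 / 3 * π * r ^ 3) ^ ((2 : ℝ) / 3)) ^ 3 =
      (4 * π * r ^ 2) ^ 3 := by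
    have a1 : ((36 * π) ^ ((1 : ℝ) / 3)) ^ 3 = 36 * π := by
      rw [← Real.rpow_natCast, ← Real.rpow_mul h1]
      norm_num
    have a2 : ((4 / 3 * π * r ^ 3) ^ ((2 : ℝ) / 3)) ^ 3 = (4 / 3 * π * r ^ 3) ^ 2 := by
      rw [← Real.rpow_natCast, ← Real.rpow_mul h0, ← Real.rpow_natCast]
      norm_num
    rw [mul_pow, a1, a2]
    ring
  exact (pow_left_inj₀ hL hR (by norm_num)).mp e3

/-- Upper bound for small volumes. -/
theorem exists_upper_half {v : ℝ} (hv0 : 0 < v) (hv1 : v < 1) :
    ∃ E : Set R3, MeasurableSet E ∧ IsZ3Periodic E ∧ (volume (E ∩ Q3)).toReal = v ∧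
      Perim E ≤ ENNReal.ofReal (Jf v) := by
  have hpi := Real.pi_pos
  have hpi3 := Real.pi_gt_three
  unfold Jf JJ
  by_cases hB : (36 * π) ^ ((1 : ℝ) / 3) * v ^ ((2 : ℝ) / 3) ≤ 2 * √(π * v) ∧
      (36 * π) ^ ((1 : ℝ) / 3) * v ^ ((2 : ℝ) / 3) ≤ 2
  · -- the ball
    obtain ⟨hB1, hB2⟩ := hB
    set r : ℝ := (v * (3 / (4 * π))) ^ ((1 : ℝ) / 3) with hrdef
    have hbase : 0 < v * (3 / (4 * π)) := by positivity
    have hr : 0 < r := Real.rpow_pos_of_pos hbase _
    have hr3 : r ^ 3 = v * (3 / (4 * π)) := by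
      rw [hrdef, ← Real.rpow_natCast, ← Real.rpow_mul hbase.le]
      norm_num
    have hv : 4 / 3 * π * r ^ 3 = v := by
      rw [hr3]
      field_simp
    have hterm := ball_term_eq hr
    rw [hv] at hterm
    have hr2 : r ≤ 1 / 2 := by
      rw [hterm] at hB2
      by_contra hcon
      push Not at hcon
      nlinarith
    refine ⟨ballSet 0 0 0 r, ballSet_measurable _ _ _ _, ballSet_periodic _ _ _ _, ?_, ?_⟩
    · rw [vol_ball 0 0 0 hr hr2, hv]
    · refine (perim_ball_le 0 0 0 hr hr2).trans (ENNReal.ofReal_le_ofReal (le_of_eq ?_))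
      rw [min_eq_left hB1, min_eq_left hB2, hterm]
  · by_cases hT : 2 * √(π * v) ≤ 2
    · -- the tube
      have hTB : 2 * √(π * v) ≤ (36 * π) ^ ((1 : ℝ) / 3) * v ^ ((2 : ℝ) / 3) := by
        by_contra hcon
        push Not at hcon
        exact hB ⟨hcon.le, hcon.le.trans hT⟩
      set r : ℝ := √(v / π) with hrdef
      have hbase : 0 < v / π := by positivity
      have hr : 0 < r := Real.sqrt_pos.mpr hbase
      have hrsq : r ^ 2 = v / π := Real.sq_sqrt hbase.le
      have hv : π * r ^ 2 = v := by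
        rw [hrsq]
        field_simp
      have hs1 : √(π * v) ≤ 1 := by linarith
      have hsq : π * v ≤ 1 := by
        have := Real.sq_sqrt (show 0 ≤ π * v by positivity)
        nlinarith [Real.sqrt_nonneg (π * v)]
      have hr2 : r ≤ 1 / 2 := by
        by_contra hcon
        push Not at hcon
        have h1 : (1 / 2 : ℝ) ^ 2 < r ^ 2 := by gcongr
        rw [hrsq, lt_div_iff₀ hpi] at h1
        nlinarith
      have hT2 : 2 * π * r = 2 * √(π * v) := by
        have : √(π * v) = π * r := by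
          rw [Real.sqrt_eq_iff_mul_self_eq (by positivity) (by positivity)]
          calc π * v = π * (π * r ^ 2) := by rw [hv]
            _ = (π * r) * (π * r) := by ring
        rw [this]
        ring
      refine ⟨tubeT 0 0 r, tubeT_measurable _ _ _, tubeT_periodic _ _ _, ?_, ?_⟩
      · rw [vol_tube 0 0 hr hr2, hv]
      · refine (perim_tube_le 0 0 hr hr2).trans (ENNReal.ofReal_le_ofReal (le_of_eq ?_))
        rw [min_eq_right hTB, min_eq_left hT, hT2]
    · -- the slab
      push Not at hT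
      have hBB : 2 ≤ (36 * π) ^ ((1 : ℝ) / 3) * v ^ ((2 : ℝ) / 3) := by
        by_contra hcon
        push Not at hcon
        refine hB ⟨?_, hcon.le⟩
        linarith
      refine ⟨slabT 0 v, slabT_measurable _ _, slabT_periodic _ _, vol_slab 0 hv0 hv1, ?_⟩
      refine (perim_slab_le 0 hv0 hv1).trans (ENNReal.ofReal_le_ofReal (le_of_eq ?_))
      rw [min_eq_right (le_min hBB hT.le)]

/-- **Upper bound.**  At every volume `V ∈ (0, 1)` there is a measurable periodic set of volume `V`
whose perimeter is at most the value of the profile at `min (V, 1 - V)`. -/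
theorem exists_upper {V : ℝ} (hV0 : 0 < V) (hV1 : V < 1) :
    ∃ E : Set R3, MeasurableSet E ∧ IsZ3Periodic E ∧ (volume (E ∩ Q3)).toReal = V ∧
      Perim E ≤ ENNReal.ofReal (Jf (min V (1 - V))) := by
  by_cases h : V ≤ 1 / 2
  · rw [min_eq_left (by linarith)]
    exact exists_upper_half hV0 hV1
  · push Not at h
    rw [min_eq_right (by linarith)]
    obtain ⟨E, hE, hper, hv, hP⟩ := exists_upper_half (v := 1 - V) (by linarith) (by linarith)
    refine ⟨Eᶜ, measurableSet_compl_P232 hE, isZ3Periodic_compl hper, ?_, ?_⟩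
    · rw [vol_compl (E := E) hE, hv]
      ring
    · rw [perim_compl hE hper]
      exact hP

end Vale.Agent.Lib.P232
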