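import Vale.Agent.Lib.P232.Class.RegionDefs
import Vale.Agent.Lib.P232.Class.UpperAll
import Vale.Agent.Lib.P232.Steiner2

/-! A canonical set of volume at most `1/2` has radius less than `1/2`. -/

open MeasureTheory Set Real

noncomputable section

namespace Vale.Agent.Lib.P232

private theorem vol_le_of_subset {A B S : Set R3} (hS : S =ᵐ[volume] B) (hAB : A ⊆ B) :
    (volume (A ∩ Q3)).toReal ≤ (volume (S ∩ Q3)).toReal := by
  have h1 : volume (S ∩ Q3) = volume (B ∩ Q3) :=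
    measure_congr (hS.inter (Filter.EventuallyEq.refl _ _))
  have h2 : volume (B ∩ Q3) ≠ ⊤ := by
    refine ne_top_of_le_ne_top ?_ (measure_mono (inter_subset_right (s := B) (t := Q3)))
    rw [volume_Q3]
    exact ENNReal.one_ne_top
  rw [h1]
  exact ENNReal.toReal_mono h2 (measure_mono (inter_subset_inter_left _ hAB))

private theorem vol_permSet {E : Set R3} (hE : MeasurableSet E) (hper : IsZ3Periodic E) :
    (volume (permSet E ∩ Q3)).toReal = (volume (E ∩ Q3)).toReal := by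
  rw [← vol_ind (permSet_measurable hE) (permSet_periodic hper), ← vol_ind hE hper, ← permSet_ind]
  exact vol_perm (ind3_ind hE hper)

private theorem tubeX_eq_perm (a b r : ℝ) : tubeX a b r = permSet (tubeT a b r) := rfl

private theorem tubeY_eq_perm (a b r : ℝ) : tubeY a b r = permSet (permSet (tubeT b a r)) := by
  ext p
  simp only [tubeY, tubeT, permSet, mem_ofPred_eq]
  constructor
  · rintro ⟨i, j, h⟩
    exact ⟨j, i, by linarith⟩
  · rintro ⟨i, j, h⟩
    exact ⟨j, i, by linarith⟩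

private theorem ball_mono (x y t : ℝ) {r : ℝ} (hr : 1 / 2 ≤ r) :
    ballSet x y t (1 / 2) ⊆ ballSet x y t r := by
  rintro p ⟨a, b, c, h⟩
  exact ⟨a, b, c, h.trans_le (by nlinarith)⟩

private theorem tubeT_mono (x y : ℝ) {r : ℝ} (hr : 1 / 2 ≤ r) :
    tubeT x y (1 / 2) ⊆ tubeT x y r := by
  rintro p ⟨a, b, h⟩
  exact ⟨a, b, h.trans_le (by nlinarith)⟩

private theorem tubeX_mono (x y : ℝ) {r : ℝ} (hr : 1 / 2 ≤ r) :
    tubeX x y (1 / 2) ⊆ tubeX x y r := by
  rintro p ⟨a, b, h⟩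
  exact ⟨a, b, h.trans_le (by nlinarith)⟩

private theorem tubeY_mono (x y : ℝ) {r : ℝ} (hr : 1 / 2 ≤ r) :
    tubeY x y (1 / 2) ⊆ tubeY x y r := by
  rintro p ⟨a, b, h⟩
  exact ⟨a, b, h.trans_le (by nlinarith)⟩

/-- From canonical to embedded, when the volume is at most `1/2`. -/
theorem isRegion_of_canonical {S : Set R3} (h : IsCanonical S) (hV : (volume (S ∩ Q3)).toReal ≤ 1 / 2) :
    IsRegion S := by
  have hpi := Real.pi_gt_three
  have hvt : (volume (tubeT 0 0 (1 / 2) ∩ Q3)).toReal = π * (1 / 2) ^ 2 :=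
    vol_tube 0 0 (by norm_num) le_rfl
  have hT : ∀ a b : ℝ, (volume (tubeT a b (1 / 2) ∩ Q3)).toReal = π * (1 / 2) ^ 2 := fun a b =>
    vol_tube a b (by norm_num) le_rfl
  rcases h with ⟨a, b, c, r, h0, h1⟩ | ⟨a, b, r, h0, h1⟩ | ⟨a, b, r, h0, h1⟩ | ⟨a, b, r, h0, h1⟩ |
    ⟨a, w, h0, h2, h1⟩ | ⟨a, w, h0, h2, h1⟩ | ⟨a, w, h0, h2, h1⟩
  · refine Or.inl ⟨a, b, c, r, h0, ?_, h1⟩
    by_contra hc
    have h3 := vol_le_of_subset h1 (ball_mono a b c (not_lt.1 hc))
    rw [vol_ball a b c (by norm_num) le_rfl] at h3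
    nlinarith
  · refine Or.inr (Or.inl ⟨a, b, r, h0, ?_, h1⟩)
    by_contra hc
    have h3 := vol_le_of_subset h1 (tubeT_mono a b (not_lt.1 hc))
    rw [hT] at h3
    nlinarith
  · refine Or.inr (Or.inr (Or.inl ⟨a, b, r, h0, ?_, h1⟩))
    by_contra hc
    have h3 := vol_le_of_subset h1 (tubeX_mono a b (not_lt.1 hc))
    rw [tubeX_eq_perm, vol_permSet (tubeT_measurable _ _ _) (tubeT_periodic _ _ _), hT] at h3
    nlinarith
  · refine Or.inr (Or.inr (Or.inr (Or.inl ⟨a, b, r, h0, ?_, h1⟩)))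
    by_contra hc
    have h3 := vol_le_of_subset h1 (tubeY_mono a b (not_lt.1 hc))
    rw [tubeY_eq_perm, vol_permSet (permSet_measurable (tubeT_measurable _ _ _))
      (permSet_periodic (tubeT_periodic _ _ _)), vol_permSet (tubeT_measurable _ _ _)
      (tubeT_periodic _ _ _), hT] at h3
    nlinarith
  · exact Or.inr (Or.inr (Or.inr (Or.inr (Or.inl ⟨a, w, h0, h2, h1⟩))))
  · exact Or.inr (Or.inr (Or.inr (Or.inr (Or.inr (Or.inl ⟨a, w, h0, h2, h1⟩)))))
  · exact Or.inr (Or.inr (Or.inr (Or.inr (Or.inr (Or.inr ⟨a, w, h0, h2, h1⟩)))))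

end Vale.Agent.Lib.P232
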