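import Vale.Agent.Lib.P232.Class.FinalAll
import Vale.Agent.Lib.P232.Class.Region

/-! The full answer: the profile at every volume, its attainment, and all the minimizers. -/

open MeasureTheory Set Real

noncomputable section

namespace Vale.Agent.Lib.P232

/-- **The full answer.** -/
theorem profile_and_minimizers {V : ℝ} (h0 : 0 < V) (h1 : V < 1) :
    (∃ E : Set R3, MeasurableSet E ∧ IsZ3Periodic E ∧ (volume (E ∩ Q3)).toReal = V ∧
      Perim E = ENNReal.ofReal (Jf (min V (1 - V)))) ∧
    ∀ E : Set R3, MeasurableSet E → IsZ3Periodic E → (volume (E ∩ Q3)).toReal = V →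
      ENNReal.ofReal (Jf (min V (1 - V))) ≤ Perim E ∧
      (Perim E ≤ ENNReal.ofReal (Jf (min V (1 - V))) →
        (V ≤ 1 / 2 → IsRegion E) ∧ (1 / 2 ≤ V → IsRegion Eᶜ)) := by
  constructor
  · obtain ⟨E, hE, hper, hv, hP⟩ := exists_upper h0 h1
    refine ⟨E, hE, hper, hv, le_antisymm hP ?_⟩
    subst hv
    exact main_final hE hper h0 h1
  · intro E hE hper hv
    subst hv
    obtain ⟨h2, h3⟩ := all_minimizers hE hper h0 h1
    refine ⟨h2, fun hP => ?_⟩
    obtain ⟨h4, h5⟩ := h3 hP
    refine ⟨fun h => isRegion_of_canonical (h4 h) h, fun h => isRegion_of_canonical (h5 h) ?_⟩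
    rw [vol_compl hE]
    linarith

end Vale.Agent.Lib.P232
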