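import Vale.Agent.Lib.P232.Class.InstAux
import Vale.Agent.Lib.P232.Torus2c

/-!
# P232, stage 4: the two instances of rigidity

Ball: `I s = 2√(πs)`, `κs s = √(s/π)/r`, `gs = √(1-κs²)`, `L s = √(r²-s/π)`, `lam = 2/r`, `M = πr²`.
Disc: `I = 2`, `κs s = s/(2R)`, `gs = √(1-κs²)`, `L s = √(R²-s²/4)`, `lam = 1/R`, `M = 2R`.
`L (a t) = |t - τ₂|` gives the bound on the area profile, on the window `|t - t₀| ≤ 1/2` by periodicity.
-/

open MeasureTheory Set Filter Topology Real

noncomputable section

namespace Vale.Agent.Lib.P232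

variable {U : ℕ → ℝ → ℝ → ℝ → ℝ} {χ : ℝ → ℝ → ℝ → ℝ} {w : ℕ → ℝ → ℝ → ℝ} {ψ : ℝ → ℝ → ℝ}

/-- JOB I3. `SliceData` at level two, rows, `c = mixW`, with `En2` bounded frequently. -/
theorem sliceData2 (h : Approx2 w ψ) {P : ℝ} (hP : ∀ ε > 0, ∃ᶠ k in atTop, En2 (w k) ≤ P + ε) :
    Class.SliceData (fun k y => T2.aRow (w k) y) (fun k y => T2.ARow (d1 (w k)) y)
      (fun k y => T2.NRow (d1 (w k)) (d2 (w k)) y) (rowM ψ)
      (T2.Approx2.mixW (lvl ψ)) P := by
  have ht := to_T2 h
  refine
    { ha := fun k => ht.contDiff_aRow k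
      hper := fun k t => ht.aRow_per k t
      hconv := ?_
      ha0 := h.ind.measurable_rowM
      hper0 := ?_
      hbd := h.ind.rowM_mem
      hA := fun k => ht.cont_ARow k
      hA0 := fun k t => T2.Approx2.ARow_nonneg (wx := fun k => d1 (w k)) k t
      hNc := fun k => ht.cont_NRow k
      hNper := fun k t => ht.NRow_per k t
      hN := fun k t α β hα hαβ => ht.AN_ineq k t α β hα hαβ
      hc := ht.mix_le_liminf
      hcm := T2.Approx2.mixW_meas ht.meas
      hc0 := T2.Approx2.mixW_nonneg
      hcb := ⟨2, T2.Approx2.mixW_le⟩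
      hP := hP }
  · have := ht.tendsto_aRow
    rwa [rowMass_lvl h.ind] at this
  · intro t
    simp only [rowM, h.ind.per_y]

/-- The admissible level function for the disc. -/
private def kD (R s : ℝ) : ℝ := min 1 (|s| / (2 * R))

/-- The dual level function for the disc. -/
private def gD (R s : ℝ) : ℝ := √(1 - kD R s ^ 2)

/-- The inverse profile for the disc. -/
private def lD (R s : ℝ) : ℝ := √(R ^ 2 - s ^ 2 / 4)

private lemma kD_nonneg {R : ℝ} (hR : 0 < R) (s : ℝ) : 0 ≤ kD R s :=
  le_min zero_le_one (by positivity)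

private lemma kD_le {R : ℝ} (s : ℝ) : kD R s ≤ 1 := min_le_left _ _

private lemma kD_eq {R s : ℝ} (hR : 0 < R) (h0 : 0 ≤ s) (h1 : s ≤ 2 * R) : kD R s = s / (2 * R) := by
  unfold kD
  rw [abs_of_nonneg h0, min_eq_right]
  rw [div_le_one (by positivity)]
  exact h1

private lemma gD_sq {R : ℝ} (hR : 0 < R) (s : ℝ) : gD R s ^ 2 = 1 - kD R s ^ 2 := by
  unfold gD
  apply Real.sq_sqrt
  have h1 := kD_nonneg hR s
  have h2 : kD R s ≤ 1 := kD_le s
  nlinarith

private lemma gD_eq {R s : ℝ} (hR : 0 < R) (h0 : 0 ≤ s) (h1 : s ≤ 2 * R) : gD R s = lD R s / R := by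
  unfold gD lD
  rw [kD_eq hR h0 h1]
  have e : 1 - (s / (2 * R)) ^ 2 = (R ^ 2 - s ^ 2 / 4) / R ^ 2 := by
    field_simp
    ring
  rw [e, Real.sqrt_div' _ (by positivity), Real.sqrt_sq hR.le]

/-- The integral of the dual level function. -/
private lemma integral_gD {R : ℝ} (hR : 0 < R) : ∫ s in (0 : ℝ)..(2 * R), gD R s = 2 * R * (π / 4) := by
  have h1 : ∫ s in (0 : ℝ)..(2 * R), gD R s = ∫ s in (0 : ℝ)..(2 * R), √(1 - (s / (2 * R)) ^ 2) := by
    apply intervalIntegral.integral_congr
    intro s hs
    rw [uIcc_of_le (by positivity)] at hs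
    simp only [gD]
    rw [kD_eq hR hs.1 hs.2]
  rw [h1]
  have h2 := intervalIntegral.integral_comp_div (a := 0) (b := 2 * R)
    (f := fun x => √(1 - x ^ 2)) (c := 2 * R) (by positivity)
  rw [h2]
  have e1 : (0 : ℝ) / (2 * R) = 0 := by simp
  have e2 : 2 * R / (2 * R) = 1 := div_self (by positivity)
  rw [e1, e2, T2.integral_sqrt_half]
  simp

/-- The integral of the inverse profile. -/
private lemma integral_lD {R : ℝ} (hR : 0 < R) : ∫ s in (0 : ℝ)..(2 * R), lD R s = R * (2 * R * (π / 4)) := by
  have h1 : ∫ s in (0 : ℝ)..(2 * R), lD R s = ∫ s in (0 : ℝ)..(2 * R), R * gD R s := by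
    apply intervalIntegral.integral_congr
    intro s hs
    rw [uIcc_of_le (by positivity)] at hs
    simp only
    rw [gD_eq hR hs.1 hs.2]
    field_simp
  rw [h1, intervalIntegral.integral_const_mul, integral_gD hR]

/-- JOB I4. Rigidity of the row profile for a disc. -/
theorem rigid_disc (h : Approx2 w ψ) {R : ℝ} (hR : 0 < R) (hR2 : R < 1 / 2)
    (hP : ∀ ε > 0, ∃ᶠ k in atTop, En2 (w k) ≤ 2 * π * R + ε) (hA : area ψ = π * R ^ 2)
    (hb : EssBounds (rowM ψ) 0 (2 * R)) :
    ∃ y₀, ∀ᵐ y, |y - y₀| ≤ 1 / 2 → rowM ψ y ≤ 2 * √(max (R ^ 2 - (y - y₀) ^ 2) 0) := by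
  have D := sliceData2 h hP
  have hperM : ∀ t, rowM ψ (t + 1) = rowM ψ t := D.hper0
  have hle : ∀ᵐ t, rowM ψ t ≤ 2 * R := by
    apply Class.ae_of_periodic (Q := fun t => rowM ψ t ≤ 2 * R) (fun t => by rw [hperM]) hb.le_M
  have hI : ∫ t in (0 : ℝ)..1, rowM ψ t = π * R ^ 2 := hA
  have R0 : Class.RigidData (rowM ψ) (T2.Approx2.mixW (lvl ψ)) (kD R) (gD R) (fun _ => 2) (lD R)
      (1 / R) (2 * R) (2 * π * R) :=
    { hM := by positivity
      hM1 := by linarith
      adm :=
        { hκ := by
            unfold kD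
            exact continuous_const.min ((continuous_abs).div_const _)
          hg := by
            have : Continuous (kD R) := by
              unfold kD
              exact continuous_const.min ((continuous_abs).div_const _)
            exact (continuous_const.sub (this.pow 2)).sqrt
          hκ0 := kD_nonneg hR
          hg0 := fun s => Real.sqrt_nonneg _
          hκg := fun s => by rw [gD_sq hR]; linarith }
      hκpos := by
        intro s hs
        rw [kD_eq hR hs.1.le hs.2.le]
        have := hs.1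
        positivity
      hgpos := by
        intro s hs
        unfold gD
        apply Real.sqrt_pos.2
        rw [kD_eq hR hs.1.le hs.2.le]
        have h1 : s / (2 * R) < 1 := by
          rw [div_lt_one (by positivity)]
          exact hs.2
        have h2 : 0 ≤ s / (2 * R) := div_nonneg hs.1.le (by positivity)
        nlinarith
      hκg1 := fun s _ => by rw [gD_sq hR]; ring
      hIpos := fun s _ => by norm_num
      hIc := continuousOn_const
      hκI := by
        intro s hs
        rw [kD_eq hR hs.1 hs.2]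
        field_simp
      hκ0 := by simp [kD]
      hcI := by
        refine Eventually.of_forall fun y h1 h2 => ?_
        have h3 : rowM ψ y < 1 := by linarith
        have h4 : T2.Approx2.mixW (lvl ψ) y = 2 := by
          unfold T2.Approx2.mixW
          rw [rowMass_lvl h.ind, indicator_of_mem]
          exact ⟨h1, h3⟩
        rw [h4]
      hLc := by
        unfold lD
        exact Continuous.continuousOn (by fun_prop)
      hLM := by
        unfold lD
        have : R ^ 2 - (2 * R) ^ 2 / 4 = 0 := by ring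
        rw [this, Real.sqrt_zero]
      hLd := by
        intro s hs
        have hpos : 0 < R ^ 2 - s ^ 2 / 4 := by
          have := hs.1
          have := hs.2
          nlinarith
        have hd : HasDerivAt (fun s : ℝ => R ^ 2 - s ^ 2 / 4) (-(s / 2)) s := by
          have h1 : HasDerivAt (fun s : ℝ => s ^ 2) (2 * s) s := by simpa using hasDerivAt_pow 2 s
          have h2 := (hasDerivAt_const s (R ^ 2)).fun_sub (h1.div_const 4)
          have e : (0 : ℝ) - 2 * s / 4 = -(s / 2) := by ring
          rw [e] at h2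
          exact h2
        have h1 := hd.sqrt hpos.ne'
        have e : -(s / 2) / (2 * √(R ^ 2 - s ^ 2 / 4)) =
            -(kD R s / (gD R s * 2)) := by
          rw [kD_eq hR hs.1.le hs.2.le, gD_eq hR hs.1.le hs.2.le]
          have hB : 0 < lD R s := Real.sqrt_pos.2 hpos
          have e2 : √(R ^ 2 - s ^ 2 / 4) = lD R s := rfl
          rw [e2]
          field_simp
        rw [e] at h1
        exact h1
      hle := hle
      hnear0 := by
        intro ε hε
        have := hb.near_m ε hε
        simpa using this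
      hnearM := fun ε hε => hb.near_M ε hε
      tight := by
        rw [hI, integral_gD hR]
        field_simp
        ring
      balance := by
        rw [hI, integral_lD hR]
        ring }
  obtain ⟨τ₁, τ₂, -, -, hae⟩ := Class.rigid D R0
  refine ⟨τ₂, ?_⟩
  filter_upwards [Class.ae_shift hperM hae, hle] with y hy hyM hwin
  obtain ⟨n, hn⟩ := hy
  by_cases hpos : 0 < rowM ψ y
  · have h1 := hn hpos
    set x := y - τ₂ with hx
    have h2 : |x| ≤ |x + n| := Class.abs_le_abs_add_int hwin n
    have e : y + n - τ₂ = x + n := by rw [hx]; ring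
    rw [e] at h1
    have h3 : R ^ 2 - rowM ψ y ^ 2 / 4 = (x + n) ^ 2 := by
      have h4 : lD R (rowM ψ y) ^ 2 = R ^ 2 - rowM ψ y ^ 2 / 4 := by
        unfold lD
        apply Real.sq_sqrt
        nlinarith
      rw [← h4, h1, sq_abs]
    have h5 : x ^ 2 ≤ (x + n) ^ 2 := by
      have h6 := sq_le_sq' (by linarith [abs_nonneg x, abs_nonneg (x + n), neg_abs_le x]) h2
      rwa [sq_abs, sq_abs] at h6
    have h7 : (rowM ψ y / 2) ^ 2 ≤ max (R ^ 2 - x ^ 2) 0 := by
      refine le_trans ?_ (le_max_left _ _)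
      nlinarith
    have h8 := Real.le_sqrt_of_sq_le h7
    linarith
  · have h9 : rowM ψ y ≤ 0 := not_lt.mp hpos
    have : 0 ≤ 2 * √(max (R ^ 2 - (y - τ₂) ^ 2) 0) := by positivity
    linarith

end Vale.Agent.Lib.P232
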