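import Vale.Agent.Lib.P232.Class.Rigid

/-! Auxiliary facts for the two instances of rigidity: periodic extension of almost everywhere
statements and the closest integer translate. -/

open MeasureTheory Set Filter Topology Real

noncomputable section

namespace Vale.Agent.Lib.P232.Class

/-- A one-periodic property which holds a.e. on the unit period holds a.e. on the line. -/
theorem ae_of_periodic {Q : ℝ → Prop} (hper : ∀ t, Q (t + 1) ↔ Q t)
    (h : ∀ᵐ t ∂(volume.restrict (Ioc (0 : ℝ) 1)), Q t) : ∀ᵐ t : ℝ, Q t := by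
  have hint : ∀ (n : ℤ) (t : ℝ), Q (t + n) ↔ Q t := by
    intro n t
    induction n using Int.induction_on generalizing t with
    | zero => simp
    | succ i ih =>
      have e : t + ((i : ℤ) + 1 : ℤ) = (t + (i : ℤ)) + 1 := by push_cast; ring
      rw [e, hper, ih]
    | pred i ih =>
      have e : t + (-(i : ℤ) - 1 : ℤ) + 1 = t + (-(i : ℤ) : ℤ) := by push_cast; ring
      rw [← hper (t + (-(i : ℤ) - 1 : ℤ)), e, ih]
  have h0 : volume ({t | ¬ Q t} ∩ Ioc (0 : ℝ) 1) = 0 := by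
    have h1 : volume.restrict (Ioc (0 : ℝ) 1) {t | ¬ Q t} = 0 := h
    exact nonpos_iff_eq_zero.mp ((Measure.le_restrict_apply _ _).trans_eq h1)
  have hn : ∀ n : ℤ, volume ({t | ¬ Q t} ∩ Ioc ((n : ℝ)) (n + 1)) = 0 := by
    intro n
    have e : (fun t : ℝ => t + (n : ℝ)) ⁻¹' ({t | ¬ Q t} ∩ Ioc ((n : ℝ)) (n + 1)) =
        {t | ¬ Q t} ∩ Ioc (0 : ℝ) 1 := by
      ext t
      simp only [mem_preimage, mem_inter_iff, Set.mem_ofPred_eq, mem_Ioc]
      constructor
      · rintro ⟨h1, h2, h3⟩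
        exact ⟨fun hq => h1 ((hint n t).2 hq), by linarith, by linarith⟩
      · rintro ⟨h1, h2, h3⟩
        exact ⟨fun hq => h1 ((hint n t).1 hq), by linarith, by linarith⟩
    have := measure_preimage_add_right (volume : Measure ℝ) (n : ℝ)
      ({t | ¬ Q t} ∩ Ioc ((n : ℝ)) (n + 1))
    rw [← this, e, h0]
  have hU : ({t : ℝ | ¬ Q t}) ⊆ ⋃ n : ℤ, ({t | ¬ Q t} ∩ Ioc ((n : ℝ)) (n + 1)) := by
    intro t ht
    refine mem_iUnion.2 ⟨⌈t⌉ - 1, ht, ?_⟩
    push_cast
    constructor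
    · linarith [Int.ceil_lt_add_one t]
    · linarith [Int.le_ceil t]
  have : volume ({t : ℝ | ¬ Q t}) = 0 :=
    measure_mono_null hU (measure_iUnion_null hn)
  exact measure_eq_zero_iff_ae_notMem.mp this |>.mono fun t ht => by
    simpa using ht

/-- Translate the conclusion of rigidity to an a.e. statement on the line. -/
theorem ae_shift {a0 L : ℝ → ℝ} (hper : ∀ t, a0 (t + 1) = a0 t) {τ₁ τ₂ : ℝ}
    (h : ∀ᵐ t, t ∈ Ioo τ₁ (τ₁ + 1) → 0 < a0 t → L (a0 t) = |t - τ₂|) :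
    ∀ᵐ t : ℝ, ∃ n : ℤ, 0 < a0 t → L (a0 t) = |t + n - τ₂| := by
  have hint : ∀ (n : ℤ) (t : ℝ), a0 (t + n) = a0 t := by
    intro n t
    induction n using Int.induction_on generalizing t with
    | zero => simp
    | succ i ih =>
      have e : t + ((i : ℤ) + 1 : ℤ) = (t + (i : ℤ)) + 1 := by push_cast; ring
      rw [e, hper, ih]
    | pred i ih =>
      have e : t + (-(i : ℤ) - 1 : ℤ) + 1 = t + (-(i : ℤ) : ℤ) := by push_cast; ring
      rw [← hper (t + (-(i : ℤ) - 1 : ℤ)), e, ih]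
  -- all translates of the good set
  have h1 : ∀ n : ℤ, ∀ᵐ t : ℝ, t + n ∈ Ioo τ₁ (τ₁ + 1) → 0 < a0 (t + n) →
      L (a0 (t + n)) = |t + n - τ₂| := by
    intro n
    have h2 := (measure_preimage_add_right (volume : Measure ℝ) (n : ℝ)
      {t | ¬ (t ∈ Ioo τ₁ (τ₁ + 1) → 0 < a0 t → L (a0 t) = |t - τ₂|)})
    have h3 : volume {t | ¬ (t ∈ Ioo τ₁ (τ₁ + 1) → 0 < a0 t → L (a0 t) = |t - τ₂|)} = 0 := h
    rw [h3] at h2
    exact h2
  have h2 := ae_all_iff.2 h1
  -- the translates of the endpoint are null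
  have h3 : ∀ᵐ t : ℝ, ∀ n : ℤ, t + n ≠ τ₁ := by
    have hc : ({t : ℝ | ¬ ∀ n : ℤ, t + n ≠ τ₁}).Countable := by
      have : {t : ℝ | ¬ ∀ n : ℤ, t + n ≠ τ₁} ⊆ Set.range (fun n : ℤ => τ₁ - n) := by
        intro t ht
        simp only [Set.mem_ofPred_eq, not_forall, not_not] at ht
        obtain ⟨n, hn⟩ := ht
        exact ⟨n, by simp only; linarith⟩
      exact (Set.countable_range _).mono this
    exact hc.measure_zero volume
  filter_upwards [h2, h3] with t ht ht3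
  -- the integer translate into the period
  obtain ⟨n, hn1, hn2⟩ : ∃ n : ℤ, τ₁ < t + n ∧ t + n < τ₁ + 1 := by
    refine ⟨⌈τ₁ - t⌉, ?_, ?_⟩
    · have h4 := Int.le_ceil (τ₁ - t)
      have h5 : t + (⌈τ₁ - t⌉ : ℝ) ≠ τ₁ := ht3 _
      have h6 : τ₁ ≤ t + (⌈τ₁ - t⌉ : ℝ) := by linarith
      exact lt_of_le_of_ne h6 (Ne.symm h5)
    · have h4 := Int.ceil_lt_add_one (τ₁ - t)
      linarith
  refine ⟨n, fun hpos => ?_⟩
  have h6 := ht n ⟨hn1, hn2⟩
  rw [hint] at h6
  exact h6 hpos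

/-- The number of smallest absolute value in its class modulo the integers. -/
theorem abs_le_abs_add_int {x : ℝ} (hx : |x| ≤ 1 / 2) (n : ℤ) : |x| ≤ |x + n| := by
  rcases eq_or_ne n 0 with rfl | hn
  · simp
  · have h1 : (1 : ℝ) ≤ |(n : ℝ)| := by
      have : (1 : ℤ) ≤ |n| := Int.one_le_abs hn
      exact_mod_cast this
    have h2 : |(n : ℝ)| ≤ |x + n| + |x| := by
      have := abs_sub_abs_le_abs_sub ((n : ℝ)) (-x)
      have e : (n : ℝ) - (-x) = x + n := by ring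
      rw [e, abs_neg] at this
      linarith
    linarith

end Vale.Agent.Lib.P232.Class
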