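import Vale.Agent.Lib.P232.Class.Class2Defs
import Vale.Agent.Lib.P232.Class.Inst2
import Vale.Agent.Lib.P232.Class.Bathtub2

/-! JOB K1 -/

open MeasureTheory Set Filter Topology Real

noncomputable section

namespace Vale.Agent.Lib.P232

variable {U : ℕ → ℝ → ℝ → ℝ → ℝ} {χ : ℝ → ℝ → ℝ → ℝ} {w : ℕ → ℝ → ℝ → ℝ} {ψ : ℝ → ℝ → ℝ}

/-- The row inequality with the essential supremum, kept before the arithmetic-geometric step. -/
private theorem k1_key {w wx wy : ℕ → ℝ → ℝ → ℝ} {F : Set (ℝ × ℝ)} (h : T2.Approx2 w wx wy F) {P : ℝ}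
    (hP : ∀ k, T2.gradE (wx k) (wy k) ≤ P)
    (hZ : 0 < volume {t | t ∈ Icc (0 : ℝ) 1 ∧ T2.rowMass F t = 0})
    (hO : volume {t | t ∈ Icc (0 : ℝ) 1 ∧ T2.rowMass F t = 1} = 0)
    {M : ℝ} (hM : 0 < M)
    (hle : ∀ᵐ t : ℝ, t ∈ Ioc (0 : ℝ) 1 → T2.rowMass F t ≤ M)
    (hpos : ∀ ε > 0, 0 < volume {t | t ∈ Icc (0 : ℝ) 1 ∧ M - ε < T2.rowMass F t}) :
    2 / M * T2.area2 F + 2 * (M * (π / 4)) ≤ P := by
  have hm : ∀ ε > 0, 0 < volume {t | t ∈ Icc (0 : ℝ) 1 ∧ T2.rowMass F t < 0 + ε} := by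
    intro ε hε
    refine lt_of_lt_of_le hZ (measure_mono ?_)
    rintro t ⟨ht, h0⟩
    exact ⟨ht, by rw [h0]; linarith⟩
  have hO' : ∀ᵐ t : ℝ, t ∈ Icc (0 : ℝ) 1 → T2.rowMass F t ≠ 1 := by
    rw [measure_eq_zero_iff_ae_notMem] at hO
    filter_upwards [hO] with t ht hmem heq
    exact ht ⟨hmem, heq⟩
  have key := h.row_ineq hP (T2.kapM M) (T2.gM M) (T2.kapM_cont M) (T2.gM_cont M) (T2.kapM_nonneg M)
    (T2.gM_nonneg M) (T2.kapM_gM M) 0 M hm hpos
  rw [T2.integral_gM hM] at key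
  have hint : ∫ y in (0 : ℝ)..1, T2.kapM M (T2.rowMass F y) * T2.Approx2.mixW F y = 2 / M * T2.area2 F := by
    have : ∫ y in (0 : ℝ)..1, T2.kapM M (T2.rowMass F y) * T2.Approx2.mixW F y =
        ∫ y in (0 : ℝ)..1, 2 / M * T2.rowMass F y := by
      apply intervalIntegral.integral_congr_ae
      filter_upwards [hle, hO'] with y hy1 hy2 hy3
      rw [uIoc_of_le zero_le_one] at hy3
      have hy4 : y ∈ Icc (0 : ℝ) 1 := ⟨hy3.1.le, hy3.2⟩
      have hcy0 := T2.rowMass_nonneg F y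
      have hcy1 := T2.rowMass_le_one h.meas y
      rw [T2.kapM_eq hcy0 (hy1 hy3) hM]
      rcases hcy0.eq_or_lt with hz | hz
      · rw [← hz]
        simp
      · have hmix : y ∈ {y | 0 < T2.rowMass F y ∧ T2.rowMass F y < 1} :=
          ⟨hz, lt_of_le_of_ne hcy1 (hy2 hy4)⟩
        simp only [T2.Approx2.mixW, indicator_of_mem hmix]
        ring
    rw [this, intervalIntegral.integral_const_mul]
    rfl
  rw [hint] at key
  exact key

private theorem k1_abs_rowM (hi : Ind2 ψ) (t : ℝ) : |rowM ψ t| ≤ 1 := by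
  have := hi.rowM_mem t
  rw [abs_le]
  constructor <;> linarith [this.1, this.2]

/-- Rows with empties, no full rows, tight energy: the row profile of the disc. -/
private theorem k1_rows (h : Approx2 w ψ) {R : ℝ} (hR : 0 < R) (hR2 : R < 1 / 2)
    (hA : area ψ = π * R ^ 2)
    (hP : ∀ ε > 0, ∃ᶠ k in atTop, En2 (w k) ≤ 2 * π * R + ε)
    (hZ : 0 < volume {y | y ∈ Icc (0 : ℝ) 1 ∧ rowM ψ y = 0})
    (hO : volume {y | y ∈ Icc (0 : ℝ) 1 ∧ rowM ψ y = 1} = 0) :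
    ∃ y₀, ∀ᵐ y, |y - y₀| ≤ 1 / 2 → rowM ψ y ≤ 2 * √(max (R ^ 2 - (y - y₀) ^ 2) 0) := by
  have hi := h.ind
  have hπ := Real.pi_pos
  obtain ⟨m, M, hmM, hb⟩ := exists_essBounds hi.measurable_rowM (k1_abs_rowM hi)
  have hm0 : 0 ≤ m := by
    by_contra hm
    have hm := not_le.1 hm
    have h1 := hb.near_m (-m) (by linarith)
    have h2 : {t ∈ Ioc (0 : ℝ) 1 | rowM ψ t < m + -m} = ∅ := by
      ext t
      simp only [Set.mem_ofPred_eq, mem_empty_iff_false, iff_false, not_and, not_lt]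
      intro _
      have := (hi.rowM_mem t).1
      linarith
    rw [h2] at h1
    simp at h1
  have hgem := hb.ge_m
  rw [ae_restrict_iff' measurableSet_Ioc] at hgem
  have hm1 : m ≤ 0 := by
    by_contra hm
    have hm := not_le.1 hm
    have h0 : volume {y | y ∈ Icc (0 : ℝ) 1 ∧ rowM ψ y = 0} = 0 := by
      have hsub : {y | y ∈ Icc (0 : ℝ) 1 ∧ rowM ψ y = 0} ⊆
          ({0} : Set ℝ) ∪ {t | ¬ (t ∈ Ioc (0 : ℝ) 1 → m ≤ rowM ψ t)} := by
        rintro t ⟨⟨h1, h2⟩, h3⟩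
        rcases h1.eq_or_lt with h4 | h4
        · left
          exact h4.symm
        · right
          intro h5
          have := h5 ⟨h4, h2⟩
          rw [h3] at this
          linarith
      refine measure_mono_null hsub (measure_union_null (by simp) ?_)
      exact hgem
    rw [h0] at hZ
    exact lt_irrefl _ hZ
  have hm : m = 0 := le_antisymm hm1 hm0
  rw [hm] at hb
  have hmean := hb.mean_mem hi.measurable_rowM (k1_abs_rowM hi)
  have hAeq : ∫ t in (0 : ℝ)..1, rowM ψ t = π * R ^ 2 := hA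
  rw [hAeq] at hmean
  have hM : 0 < M := lt_of_lt_of_le (by positivity) hmean.2
  have hleM := hb.le_M
  rw [ae_restrict_iff' measurableSet_Ioc] at hleM
  have hkey : ∀ ε > 0, 2 / M * (π * R ^ 2) + 2 * (M * (π / 4)) ≤ 2 * π * R + ε := by
    intro ε hε
    obtain ⟨φ, hφ, hle⟩ := extraction_of_frequently_atTop (hP ε hε)
    have hT := (to_T2 h).comp φ hφ
    have := k1_key hT (P := 2 * π * R + ε) (M := M) (fun k => hle k)
      (by rw [rowMass_lvl hi]; exact hZ) (by rw [rowMass_lvl hi]; exact hO) hM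
      (by rw [rowMass_lvl hi]; exact hleM)
      (by
        rw [rowMass_lvl hi]
        intro ε hε
        refine lt_of_lt_of_le (hb.near_M ε hε) (measure_mono ?_)
        rintro t ⟨ht, h0⟩
        exact ⟨⟨ht.1.le, ht.2⟩, h0⟩)
    rwa [area2_lvl hi, hA] at this
  have hfin : 2 / M * (π * R ^ 2) + 2 * (M * (π / 4)) ≤ 2 * π * R :=
    le_of_forall_pos_le_add hkey
  have h3 := mul_le_mul_of_nonneg_right hfin (by positivity : 0 ≤ 2 * M / π)
  have e1 : (2 / M * (π * R ^ 2) + 2 * (M * (π / 4))) * (2 * M / π) = 4 * R ^ 2 + M ^ 2 := by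
    field_simp
    ring
  have e2 : (2 * π * R) * (2 * M / π) = 4 * R * M := by
    field_simp
    ring
  rw [e1, e2] at h3
  have h4 : (M - 2 * R) ^ 2 = 0 := le_antisymm (by nlinarith) (sq_nonneg _)
  have h5 : M = 2 * R := by
    have := pow_eq_zero_iff (two_ne_zero) |>.1 h4
    linarith
  rw [h5] at hb
  exact rigid_disc h hR hR2 hP hA hb

/-- A null section of a nonnegative bounded function. -/
private theorem k1_ae_zero {f : ℝ → ℝ} (hm : Measurable f) (h0 : ∀ x, 0 ≤ f x) (h1 : ∀ x, f x ≤ 1)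
    (hf : ∫ x in (0 : ℝ)..1, f x = 0) : ∀ᵐ x ∂(volume.restrict (Ioc (0 : ℝ) 1)), f x = 0 := by
  have : IsFiniteMeasure (volume.restrict (Ioc (0 : ℝ) 1)) := ⟨by simp⟩
  have hint : Integrable f (volume.restrict (Ioc (0 : ℝ) 1)) := by
    refine Integrable.of_bound (C := 1) hm.aestronglyMeasurable (ae_of_all _ fun t => ?_)
    rw [Real.norm_eq_abs, abs_of_nonneg (h0 t)]
    exact h1 t
  rw [intervalIntegral.integral_of_le zero_le_one] at hf
  exact (integral_eq_zero_iff_of_nonneg h0 hint).1 hf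

private theorem k1_bnd (hi : Ind2 ψ) (x y : ℝ) : 0 ≤ ψ x y ∧ ψ x y ≤ 1 := by
  rcases hi.bool x y with h | h <;> rw [h] <;> norm_num

private theorem k1_row_ae_one (hi : Ind2 ψ) {y : ℝ} (hy : rowM ψ y = 1) :
    ∀ᵐ x ∂(volume.restrict (Ioc (0 : ℝ) 1)), ψ x y = 1 := by
  have hm : Measurable (fun x => 1 - ψ x y) :=
    measurable_const.sub (hi.meas.comp (by fun_prop : Measurable (fun x : ℝ => (x, y))))
  have h2 : ∫ x in (0 : ℝ)..1, (1 - ψ x y) = 0 := by
    have := rowM_compl hi y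
    rw [hy] at this
    simpa [rowM] using this
  filter_upwards [k1_ae_zero hm (fun x => by linarith [(k1_bnd hi x y).2])
    (fun x => by linarith [(k1_bnd hi x y).1]) h2] with x hx
  linarith

private theorem k1_col_ae_zero (hi : Ind2 ψ) {x : ℝ} (hx : colM ψ x = 0) :
    ∀ᵐ y ∂(volume.restrict (Ioc (0 : ℝ) 1)), ψ x y = 0 := by
  have hm : Measurable (fun y => ψ x y) :=
    hi.meas.comp (by fun_prop : Measurable (fun y : ℝ => (x, y)))
  exact k1_ae_zero hm (fun y => (k1_bnd hi x y).1) (fun y => (k1_bnd hi x y).2) hx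

/-- Empty columns exclude full rows. -/
private theorem k1_no_full (hi : Ind2 ψ)
    (hc : 0 < volume {x | x ∈ Icc (0 : ℝ) 1 ∧ colM ψ x = 0}) :
    volume {y | y ∈ Icc (0 : ℝ) 1 ∧ rowM ψ y = 1} = 0 := by
  by_contra hne
  have hAm : MeasurableSet {y | y ∈ Icc (0 : ℝ) 1 ∧ rowM ψ y = 1} :=
    measurableSet_Icc.inter (measurableSet_eq_fun hi.measurable_rowM measurable_const)
  set A := {y | y ∈ Icc (0 : ℝ) 1 ∧ rowM ψ y = 1} with hA
  have h1 : ∀ᵐ y ∂(volume.restrict A), ∀ᵐ x ∂(volume.restrict (Ioc (0 : ℝ) 1)), ψ x y = 1 :=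
    ae_restrict_of_forall_mem hAm (fun y hy => k1_row_ae_one hi hy.2)
  have hS : MeasurableSet {p : ℝ × ℝ | ψ p.2 p.1 = 1} :=
    measurableSet_eq_fun (hi.meas.comp measurable_swap) measurable_const
  have h2 : ∀ᵐ x ∂(volume.restrict (Ioc (0 : ℝ) 1)), ∀ᵐ y ∂(volume.restrict A), ψ x y = 1 :=
    (Measure.ae_ae_comm hS).1 h1
  have h3 : ∀ᵐ x ∂(volume.restrict (Ioc (0 : ℝ) 1)), colM ψ x ≠ 0 := by
    filter_upwards [h2] with x hx h0
    have h4 := k1_col_ae_zero hi h0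
    rw [ae_restrict_iff' measurableSet_Ioc] at h4
    have hne0 : ∀ᵐ y : ℝ, y ≠ 0 := by simp [ae_iff]
    have h5 : ∀ᵐ y ∂(volume.restrict A), ψ x y = 0 := by
      rw [ae_restrict_iff' hAm]
      filter_upwards [h4, hne0] with y hy hy0 hyA
      exact hy ⟨lt_of_le_of_ne hyA.1.1 (Ne.symm hy0), hyA.1.2⟩
    have h6 : ∀ᵐ y ∂(volume.restrict A), False := by
      filter_upwards [hx, h5] with y a b
      rw [a] at b
      norm_num at b
    have h7 : (volume.restrict A) univ = 0 := by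
      simpa [ae_iff] using h6
    rw [Measure.restrict_apply_univ] at h7
    exact hne h7
  rw [ae_restrict_iff' measurableSet_Ioc] at h3
  have h8 : volume {x | x ∈ Icc (0 : ℝ) 1 ∧ colM ψ x = 0} = 0 := by
    have hsub : {x | x ∈ Icc (0 : ℝ) 1 ∧ colM ψ x = 0} ⊆
        ({0} : Set ℝ) ∪ {t | ¬ (t ∈ Ioc (0 : ℝ) 1 → colM ψ t ≠ 0)} := by
      rintro t ⟨⟨h1, h2⟩, h3⟩
      rcases h1.eq_or_lt with h4 | h4
      · left
        exact h4.symm
      · right
        intro h5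
        exact h5 ⟨h4, h2⟩ h3
    refine measure_mono_null hsub (measure_union_null (by simp) ?_)
    exact h3
  rw [h8] at hc
  exact lt_irrefl _ hc

/-- JOB K1. Rows with empties, no full rows, energy tight for the disc bound: `M = 2R` in `disc_of_empty_row`
(`2a/M + πM/2 > 2√(πa)` otherwise), then `rigid_disc`. Symmetric for columns (swap); `bathtub2`. -/
theorem disc_of_tight (h : Approx2 w ψ) {R : ℝ} (hR : 0 < R) (hR2 : R < 1 / 2) (hA : area ψ = π * R ^ 2)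
    (hP : ∀ ε > 0, ∃ᶠ k in atTop, En2 (w k) ≤ 2 * π * R + ε)
    (hr : 0 < volume {y | y ∈ Icc (0 : ℝ) 1 ∧ rowM ψ y = 0})
    (hc : 0 < volume {x | x ∈ Icc (0 : ℝ) 1 ∧ colM ψ x = 0}) : IsDisc ψ := by
  have hi := h.ind
  have hOr := k1_no_full hi hc
  have hOc : volume {x | x ∈ Icc (0 : ℝ) 1 ∧ colM ψ x = 1} = 0 :=
    k1_no_full hi.swap (ψ := fun x y => ψ y x) hr
  obtain ⟨y₀, hy⟩ := k1_rows h hR hR2 hA hP hr hOr
  have hAs : area (fun x y => ψ y x) = π * R ^ 2 := by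
    rw [← hA, hi.area_eq_cols]
    rfl
  obtain ⟨x₀, hx⟩ := k1_rows h.swap hR hR2 hAs
    (fun ε hε => (hP ε hε).mono (fun k hk => by rw [En2_swap (h.c1 k)]; exact hk)) hc hOc
  exact ⟨x₀, y₀, R, hR, bathtub2 hi hR hR2.le hA hy hx⟩

end Vale.Agent.Lib.P232
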