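import Mathlib

/-! JOB J5 of stage 4: first variation in the level.

If the two-arc bound holds for all admissible pairs `(κ₁, g₁)` on one arc (and the fixed pair `(κ*, g*)`
on the other one) and it is tight at `(κ*, g*)`, then for every continuous `η` supported in the levels
where `κ*, g* > 0`: `∫_{arc} η(a) c dt = ∫ (κ*/g*) η ds`. -/

open MeasureTheory Set Filter Topology

noncomputable section

namespace Vale.Agent.Lib.P232

private lemma law_ii {f : ℝ → ℝ} (hm : Measurable f) {C : ℝ} (hb : ∀ x, |f x| ≤ C) (p q : ℝ) :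
    IntervalIntegrable f volume p q := by
  rw [intervalIntegrable_iff]
  exact Measure.integrableOn_of_bounded (M := C) (by simp) hm.aestronglyMeasurable
    (ae_of_all _ fun t => by simpa using hb t)

/-- Second order expansion of `√(1 - (κ+x)²)`, lower bound. -/
lemma law_sqrt {κ g x : ℝ} (hg : 0 < g) (hg1 : g ≤ 1) (hκ0 : 0 ≤ κ) (hκ1 : κ ≤ 1) (hx : |x| ≤ 1)
    (hκg : κ ^ 2 + g ^ 2 = 1) (hadm : (κ + x) ^ 2 ≤ 1) :
    g - κ * x / g - 4 * x ^ 2 / g ^ 3 ≤ Real.sqrt (1 - (κ + x) ^ 2) := by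
  set g₁ := Real.sqrt (1 - (κ + x) ^ 2) with hg₁
  have hg₁0 : 0 ≤ g₁ := Real.sqrt_nonneg _
  have hg₁2 : g₁ ^ 2 = 1 - (κ + x) ^ 2 := Real.sq_sqrt (by linarith)
  set S := g₁ + g with hS
  set y := g₁ - g with hy
  have hS0 : 0 < S := by positivity
  have hSg : g ≤ S := by
    rw [hS]
    linarith
  have hSy : S * y = -(2 * κ * x + x ^ 2) := by
    rw [hS, hy]
    nlinarith
  have hx2 : x ^ 2 = |x| ^ 2 := (sq_abs x).symm
  have hxabs : 0 ≤ |x| := abs_nonneg x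
  have hyabs : S * |y| ≤ 3 * |x| := by
    have h1 : S * |y| = |S * y| := by
      rw [abs_mul, abs_of_pos hS0]
    rw [h1, hSy, abs_neg]
    refine (abs_add_le _ _).trans ?_
    rw [abs_mul, abs_mul, abs_of_nonneg (sq_nonneg x), abs_of_pos (by norm_num : (0 : ℝ) < 2),
      abs_of_nonneg hκ0]
    nlinarith
  -- the product
  have hT : 0 ≤ S ^ 2 * (g ^ 3 * y + κ * x * g ^ 2 + 4 * x ^ 2) := by
    have e : S ^ 2 * (g ^ 3 * y + κ * x * g ^ 2 + 4 * x ^ 2) =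
        S * (κ * x * g ^ 2 * y) - S * (g ^ 3 * x ^ 2) + 4 * x ^ 2 * S ^ 2 := by
      have e1 : S * (g ^ 3 * y + κ * x * g ^ 2 + 4 * x ^ 2) =
          κ * x * g ^ 2 * y - g ^ 3 * x ^ 2 + 4 * x ^ 2 * S := by
        have e2 : S * y = -(2 * κ * x + x ^ 2) := hSy
        have e3 : S = y + 2 * g := by
          rw [hS, hy]
          ring
        calc S * (g ^ 3 * y + κ * x * g ^ 2 + 4 * x ^ 2)
            = g ^ 3 * (S * y) + κ * x * g ^ 2 * S + 4 * x ^ 2 * S := by ring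
          _ = g ^ 3 * (-(2 * κ * x + x ^ 2)) + κ * x * g ^ 2 * (y + 2 * g) + 4 * x ^ 2 * S := by
              rw [e2]
              nth_rewrite 2 [e3]
              ring
          _ = _ := by ring
      calc S ^ 2 * (g ^ 3 * y + κ * x * g ^ 2 + 4 * x ^ 2)
          = S * (S * (g ^ 3 * y + κ * x * g ^ 2 + 4 * x ^ 2)) := by ring
        _ = _ := by
            rw [e1]
            ring
    rw [e]
    have h1 : -(3 * g ^ 2 * x ^ 2) ≤ S * (κ * x * g ^ 2 * y) := by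
      have h2 : |S * (κ * x * g ^ 2 * y)| ≤ 3 * g ^ 2 * x ^ 2 := by
        have h3 : |S * (κ * x * g ^ 2 * y)| = κ * g ^ 2 * |x| * (S * |y|) := by
          rw [abs_mul, abs_mul, abs_mul, abs_mul, abs_of_pos hS0, abs_of_nonneg hκ0,
            abs_of_nonneg (sq_nonneg g)]
          ring
        rw [h3, hx2]
        have h4 : κ * g ^ 2 * |x| * (S * |y|) ≤ κ * g ^ 2 * |x| * (3 * |x|) :=
          mul_le_mul_of_nonneg_left hyabs (by positivity)
        have h5 : κ * g ^ 2 * |x| * (3 * |x|) ≤ 1 * g ^ 2 * |x| * (3 * |x|) := by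
          have : κ * (g ^ 2 * |x| * (3 * |x|)) ≤ 1 * (g ^ 2 * |x| * (3 * |x|)) :=
            mul_le_mul_of_nonneg_right hκ1 (by positivity)
          linarith
        nlinarith
      linarith [(abs_le.1 h2).1]
    have h6 : S * (g ^ 3 * x ^ 2) ≤ S ^ 2 * x ^ 2 := by
      have h7 : g ^ 3 ≤ S := by
        have : g ^ 3 ≤ g := by
          have : g ^ 2 ≤ 1 := by nlinarith
          nlinarith
        linarith
      have h8 : S * g ^ 3 ≤ S * S := mul_le_mul_of_nonneg_left h7 hS0.le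
      nlinarith [sq_nonneg x]
    have h9 : g ^ 2 * x ^ 2 ≤ S ^ 2 * x ^ 2 := by
      have : g ^ 2 ≤ S ^ 2 := by nlinarith
      nlinarith [sq_nonneg x]
    nlinarith
  have hT2 : 0 ≤ g ^ 3 * y + κ * x * g ^ 2 + 4 * x ^ 2 := by
    by_contra hcon
    have hneg := not_le.1 hcon
    have := mul_neg_of_pos_of_neg (pow_pos hS0 2) hneg
    linarith
  have hg3 : 0 < g ^ 3 := by positivity
  have e : g₁ - (g - κ * x / g - 4 * x ^ 2 / g ^ 3) = (g ^ 3 * y + κ * x * g ^ 2 + 4 * x ^ 2) / g ^ 3 := by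
    rw [hy]
    field_simp
    ring
  have : 0 ≤ g₁ - (g - κ * x / g - 4 * x ^ 2 / g ^ 3) := by
    rw [e]
    positivity
  linarith

/-- A linear function below a quadratic near zero vanishes. -/
lemma law_real {D Q ε₀ : ℝ} (hε₀ : 0 < ε₀) (hQ : 0 ≤ Q) (h : ∀ ε, |ε| ≤ ε₀ → ε * D ≤ ε ^ 2 * Q) : D = 0 := by
  by_contra hD
  set ε₁ := min ε₀ (|D| / (2 * (Q + 1))) with hε₁
  have hDpos : 0 < |D| := abs_pos.2 hD
  have hε₁0 : 0 < ε₁ := lt_min hε₀ (by positivity)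
  have hε₁1 : ε₁ ≤ ε₀ := min_le_left _ _
  have hε₁2 : ε₁ * (2 * (Q + 1)) ≤ |D| := by
    have : ε₁ ≤ |D| / (2 * (Q + 1)) := min_le_right _ _
    rwa [le_div_iff₀ (by positivity)] at this
  have key : ε₁ * |D| ≤ ε₁ ^ 2 * Q := by
    rcases le_total 0 D with h0 | h0
    · rw [abs_of_nonneg h0]
      exact h ε₁ (by rwa [abs_of_pos hε₁0])
    · rw [abs_of_nonpos h0]
      have := h (-ε₁) (by rwa [abs_neg, abs_of_pos hε₁0])
      nlinarith
  have h2 : |D| ≤ ε₁ * Q := by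
    have : ε₁ * |D| ≤ ε₁ * (ε₁ * Q) := by nlinarith
    exact le_of_mul_le_mul_left this hε₁0
  nlinarith

/-- The first variation. -/
theorem law_core' {a c κs gs η : ℝ → ℝ} {p q Z M P C s₀ s₁ : ℝ}
    (ham : Measurable a) (hcm : Measurable c) (hcb : ∀ t, |c t| ≤ C)
    (hκ : Continuous κs) (hg : Continuous gs) (hκ0 : ∀ s, 0 ≤ κs s) (hg0 : ∀ s, 0 ≤ gs s)
    (hκg : ∀ s, κs s ^ 2 + gs s ^ 2 ≤ 1) (hκg1 : ∀ s ∈ Icc s₀ s₁, κs s ^ 2 + gs s ^ 2 = 1)
    (hκpos : ∀ s ∈ Icc s₀ s₁, 0 < κs s) (hgpos : ∀ s ∈ Icc s₀ s₁, 0 < gs s)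
    (h0 : 0 ≤ s₀) (h01 : s₀ ≤ s₁) (h1 : s₁ ≤ M)
    (hTA : ∀ κ₁ g₁ : ℝ → ℝ, Continuous κ₁ → Continuous g₁ → (∀ s, 0 ≤ κ₁ s) → (∀ s, 0 ≤ g₁ s) →
      (∀ s, κ₁ s ^ 2 + g₁ s ^ 2 ≤ 1) →
      (∫ t in p..q, κ₁ (a t) * c t) + Z + (∫ s in (0 : ℝ)..M, g₁ s) + (∫ s in (0 : ℝ)..M, gs s) ≤ P)
    (htight : P ≤ (∫ t in p..q, κs (a t) * c t) + Z + 2 * ∫ s in (0 : ℝ)..M, gs s)
    (hη : Continuous η) (hηs : ∀ s, s ∉ Ioo s₀ s₁ → η s = 0) :
    ∫ t in p..q, η (a t) * c t = ∫ s in s₀..s₁, κs s / gs s * η s := by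
  have hKne : (Icc s₀ s₁).Nonempty := nonempty_Icc.2 h01
  obtain ⟨u₁, hu₁, hu₁m⟩ := isCompact_Icc.exists_isMinOn hKne hg.continuousOn
  obtain ⟨u₂, hu₂, hu₂m⟩ := isCompact_Icc.exists_isMinOn hKne hκ.continuousOn
  set g₀ := gs u₁ with hg₀
  set κ₀ := κs u₂ with hκ₀
  have hg₀pos : 0 < g₀ := hgpos u₁ hu₁
  have hκ₀pos : 0 < κ₀ := hκpos u₂ hu₂
  have hg₀le : ∀ s ∈ Icc s₀ s₁, g₀ ≤ gs s := fun s hs => hu₁m hs
  have hκ₀le : ∀ s ∈ Icc s₀ s₁, κ₀ ≤ κs s := fun s hs => hu₂m hs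
  have hg1 : ∀ s, gs s ≤ 1 := fun s => by nlinarith [hκg s, sq_nonneg (κs s), hg0 s]
  have hκ1 : ∀ s, κs s ≤ 1 := fun s => by nlinarith [hκg s, sq_nonneg (gs s), hκ0 s]
  have hg₀1 : g₀ ≤ 1 := hg1 _
  obtain ⟨B₀, hB₀⟩ := isCompact_Icc.exists_bound_of_continuousOn (s := Icc s₀ s₁) hη.continuousOn
  set B := max B₀ 0 with hBdef
  have hB0 : 0 ≤ B := le_max_right _ _
  have hB : ∀ s, |η s| ≤ B := by
    intro s
    by_cases hs : s ∈ Icc s₀ s₁
    · exact (hB₀ s hs).trans (le_max_left _ _)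
    · have : s ∉ Ioo s₀ s₁ := fun h => hs (Ioo_subset_Icc_self h)
      rw [hηs s this]
      simpa using hB0
  set x₀ := min κ₀ (min (g₀ ^ 2 / 3) 1) with hx₀
  have hx₀pos : 0 < x₀ := lt_min hκ₀pos (lt_min (by positivity) one_pos)
  have hx₀κ : x₀ ≤ κ₀ := min_le_left _ _
  have hx₀g : x₀ ≤ g₀ ^ 2 / 3 := (min_le_right _ _).trans (min_le_left _ _)
  have hx₀1 : x₀ ≤ 1 := (min_le_right _ _).trans (min_le_right _ _)
  set ε₀ := x₀ / (B + 1) with hε₀
  have hε₀pos : 0 < ε₀ := by positivity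
  set X := ∫ t in p..q, η (a t) * c t with hX
  set W := ∫ s in s₀..s₁, κs s / gs s * η s with hW
  set Q := 4 / g₀ ^ 3 * ∫ s in s₀..s₁, η s ^ 2 with hQ
  have hQ0 : 0 ≤ Q := by
    have : 0 ≤ ∫ s in s₀..s₁, η s ^ 2 := intervalIntegral.integral_nonneg h01 fun s _ => sq_nonneg _
    positivity
  have hM0 : 0 ≤ M := by linarith
  suffices hD : X - W = 0 by linarith
  refine law_real hε₀pos hQ0 fun ε hε => ?_
  -- the pointwise smallness
  have hsmall : ∀ s, |ε * η s| ≤ x₀ := by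
    intro s
    rw [abs_mul]
    calc |ε| * |η s| ≤ ε₀ * (B + 1) :=
          mul_le_mul hε (by linarith [hB s]) (abs_nonneg _) hε₀pos.le
      _ = x₀ := by
          rw [hε₀]
          field_simp
  set κ₁ : ℝ → ℝ := fun s => κs s + ε * η s with hκ₁
  have hκ₁c : Continuous κ₁ := hκ.add (continuous_const.mul hη)
  have hκ₁sq : ∀ s, κ₁ s ^ 2 ≤ 1 := by
    intro s
    by_cases hs : s ∈ Icc s₀ s₁
    · have h2 := hg₀le s hs
      have h3 := hκg1 s hs
      have h4 : g₀ ^ 2 ≤ gs s ^ 2 := by nlinarith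
      have h5 := abs_le.1 (hsmall s)
      have h6 := hκ0 s
      have h7 := hκ1 s
      have h8 : (ε * η s) ^ 2 ≤ x₀ := by
        have : (ε * η s) ^ 2 = |ε * η s| ^ 2 := (sq_abs _).symm
        rw [this]
        have := hsmall s
        have h9 := abs_nonneg (ε * η s)
        nlinarith
      simp only [hκ₁]
      nlinarith
    · have : s ∉ Ioo s₀ s₁ := fun h => hs (Ioo_subset_Icc_self h)
      simp only [hκ₁, hηs s this, mul_zero, add_zero]
      nlinarith [hκg s, sq_nonneg (gs s)]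
  have hκ₁0 : ∀ s, 0 ≤ κ₁ s := by
    intro s
    by_cases hs : s ∈ Icc s₀ s₁
    · have h5 := abs_le.1 (hsmall s)
      have h6 := hκ₀le s hs
      simp only [hκ₁]
      linarith [h5.1]
    · have : s ∉ Ioo s₀ s₁ := fun h => hs (Ioo_subset_Icc_self h)
      simp only [hκ₁, hηs s this, mul_zero, add_zero]
      exact hκ0 s
  set g₁ : ℝ → ℝ := fun s => Real.sqrt (1 - κ₁ s ^ 2) with hg₁
  have hg₁c : Continuous g₁ := (continuous_const.sub (hκ₁c.pow 2)).sqrt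
  have hmain := hTA κ₁ g₁ hκ₁c hg₁c hκ₁0 (fun s => Real.sqrt_nonneg _) (fun s => by
    simp only [hg₁]
    rw [Real.sq_sqrt (by linarith [hκ₁sq s])]
    linarith)
  -- integrals in time
  have hcκ : ∀ f : ℝ → ℝ, Continuous f → (∀ s, |f s| ≤ 1 + B) →
      IntervalIntegrable (fun t => f (a t) * c t) volume p q := by
    intro f hf hfb
    refine law_ii (C := (1 + B) * C) ((hf.measurable.comp ham).mul hcm) (fun t => ?_) p q
    show |f (a t) * c t| ≤ (1 + B) * C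
    rw [abs_mul]
    exact mul_le_mul (hfb _) (hcb t) (abs_nonneg _) (by linarith)
  have hBε : ∀ s, |κs s| ≤ 1 + B := fun s => by
    rw [abs_of_nonneg (hκ0 s)]
    linarith [hκ1 s]
  have hηb : ∀ s, |η s| ≤ 1 + B := fun s => by linarith [hB s]
  have et : ∫ t in p..q, κ₁ (a t) * c t = (∫ t in p..q, κs (a t) * c t) + ε * X := by
    rw [hX, ← intervalIntegral.integral_const_mul, ← intervalIntegral.integral_add
      (hcκ κs hκ hBε) ((hcκ η hη hηb).const_mul ε)]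
    refine intervalIntegral.integral_congr fun t _ => ?_
    simp only [hκ₁]
    ring
  -- integrals in the level
  have hgi : ∀ u v : ℝ, IntervalIntegrable g₁ volume u v := fun u v => hg₁c.intervalIntegrable u v
  have hgsi : ∀ u v : ℝ, IntervalIntegrable gs volume u v := fun u v => hg.intervalIntegrable u v
  have hout : ∀ s, s ∉ Ioo s₀ s₁ → gs s ≤ g₁ s := by
    intro s hs
    simp only [hg₁, hκ₁, hηs s hs, mul_zero, add_zero]
    exact (le_abs_self _).trans (Real.abs_le_sqrt (by linarith [hκg s]))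
  have esplit : ∀ f : ℝ → ℝ, (∀ u v : ℝ, IntervalIntegrable f volume u v) →
      ∫ s in (0 : ℝ)..M, f s = (∫ s in (0 : ℝ)..s₀, f s) + (∫ s in s₀..s₁, f s) + ∫ s in s₁..M, f s := by
    intro f hf
    rw [intervalIntegral.integral_add_adjacent_intervals (hf _ _) (hf _ _),
      intervalIntegral.integral_add_adjacent_intervals (hf _ _) (hf _ _)]
  have eg1 : ∫ s in (0 : ℝ)..s₀, gs s ≤ ∫ s in (0 : ℝ)..s₀, g₁ s := by
    refine intervalIntegral.integral_mono_on h0 (hgsi _ _) (hgi _ _) fun s hs => hout s ?_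
    exact fun h => absurd h.1 (not_lt.2 hs.2)
  have eg2 : ∫ s in s₁..M, gs s ≤ ∫ s in s₁..M, g₁ s := by
    refine intervalIntegral.integral_mono_on h1 (hgsi _ _) (hgi _ _) fun s hs => hout s ?_
    exact fun h => absurd h.2 (not_lt.2 hs.1)
  -- the lower bound on the middle part
  have hratio : ContinuousOn (fun s => κs s / gs s * η s) (Icc s₀ s₁) :=
    (hκ.continuousOn.div hg.continuousOn (fun s hs => (hgpos s hs).ne')).mul hη.continuousOn
  have hratioI : IntervalIntegrable (fun s => κs s / gs s * η s) volume s₀ s₁ := by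
    apply ContinuousOn.intervalIntegrable
    rwa [uIcc_of_le h01]
  have hη2I : IntervalIntegrable (fun s => η s ^ 2) volume s₀ s₁ := (hη.pow 2).intervalIntegrable _ _
  have hlow : (∫ s in s₀..s₁, gs s) - ε * W - ε ^ 2 * Q ≤ ∫ s in s₀..s₁, g₁ s := by
    have e1 : (∫ s in s₀..s₁, gs s) - ε * W - ε ^ 2 * Q =
        ∫ s in s₀..s₁, (gs s - ε * (κs s / gs s * η s) - ε ^ 2 * (4 / g₀ ^ 3 * η s ^ 2)) := by
      rw [intervalIntegral.integral_sub ((hgsi _ _).sub (hratioI.const_mul ε))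
        ((hη2I.const_mul _).const_mul _), intervalIntegral.integral_sub (hgsi _ _)
        (hratioI.const_mul ε), intervalIntegral.integral_const_mul, intervalIntegral.integral_const_mul,
        intervalIntegral.integral_const_mul]
    rw [e1]
    refine intervalIntegral.integral_mono_on h01
      (((hgsi _ _).sub (hratioI.const_mul ε)).sub ((hη2I.const_mul _).const_mul _)) (hgi _ _) ?_
    intro s hs
    have h2 := hgpos s hs
    have hx1 : |ε * η s| ≤ 1 := (hsmall s).trans hx₀1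
    have hexp := law_sqrt (κ := κs s) (g := gs s) (x := ε * η s) h2 (hg1 s) (hκ0 s) (hκ1 s) hx1 (hκg1 s hs)
      (hκ₁sq s)
    have e2 : gs s - ε * (κs s / gs s * η s) = gs s - κs s * (ε * η s) / gs s := by
      field_simp
    have h3 : 4 * (ε * η s) ^ 2 / gs s ^ 3 ≤ ε ^ 2 * (4 / g₀ ^ 3 * η s ^ 2) := by
      have h4 : g₀ ^ 3 ≤ gs s ^ 3 := pow_le_pow_left₀ hg₀pos.le (hg₀le s hs) 3
      have h5 : 1 / gs s ^ 3 ≤ 1 / g₀ ^ 3 := one_div_le_one_div_of_le (by positivity) h4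
      have h6 : 0 ≤ 4 * (ε * η s) ^ 2 := by positivity
      have h7 := mul_le_mul_of_nonneg_left h5 h6
      calc 4 * (ε * η s) ^ 2 / gs s ^ 3 = 4 * (ε * η s) ^ 2 * (1 / gs s ^ 3) := by ring
        _ ≤ 4 * (ε * η s) ^ 2 * (1 / g₀ ^ 3) := h7
        _ = _ := by ring
    show gs s - ε * (κs s / gs s * η s) - ε ^ 2 * (4 / g₀ ^ 3 * η s ^ 2) ≤ Real.sqrt (1 - κ₁ s ^ 2)
    simp only [hκ₁]
    rw [e2]
    linarith
  -- assemble
  have hg₁split := esplit g₁ hgi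
  have hgssplit := esplit gs hgsi
  have hfinal : ε * X + (∫ s in s₀..s₁, g₁ s) - (∫ s in s₀..s₁, gs s) ≤ 0 := by
    have e3 := hmain
    rw [et, hg₁split] at e3
    have e4 := htight
    rw [hgssplit] at e3 e4
    linarith
  have : ε * (X - W) ≤ ε ^ 2 * Q := by nlinarith
  exact this

/-- The first variation, when `κ*² + g*² = 1` everywhere. -/
theorem law_core {a c κs gs η : ℝ → ℝ} {p q Z M P C s₀ s₁ : ℝ}
    (ham : Measurable a) (hcm : Measurable c) (hcb : ∀ t, |c t| ≤ C)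
    (hκ : Continuous κs) (hg : Continuous gs) (hκ0 : ∀ s, 0 ≤ κs s) (hg0 : ∀ s, 0 ≤ gs s)
    (hκg : ∀ s, κs s ^ 2 + gs s ^ 2 = 1)
    (hκpos : ∀ s ∈ Icc s₀ s₁, 0 < κs s) (hgpos : ∀ s ∈ Icc s₀ s₁, 0 < gs s)
    (h0 : 0 ≤ s₀) (h01 : s₀ ≤ s₁) (h1 : s₁ ≤ M)
    (hTA : ∀ κ₁ g₁ : ℝ → ℝ, Continuous κ₁ → Continuous g₁ → (∀ s, 0 ≤ κ₁ s) → (∀ s, 0 ≤ g₁ s) →
      (∀ s, κ₁ s ^ 2 + g₁ s ^ 2 ≤ 1) →
      (∫ t in p..q, κ₁ (a t) * c t) + Z + (∫ s in (0 : ℝ)..M, g₁ s) + (∫ s in (0 : ℝ)..M, gs s) ≤ P)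
    (htight : P ≤ (∫ t in p..q, κs (a t) * c t) + Z + 2 * ∫ s in (0 : ℝ)..M, gs s)
    (hη : Continuous η) (hηs : ∀ s, s ∉ Ioo s₀ s₁ → η s = 0) :
    ∫ t in p..q, η (a t) * c t = ∫ s in s₀..s₁, κs s / gs s * η s :=
  law_core' ham hcm hcb hκ hg hκ0 hg0 (fun s => (hκg s).le) (fun s _ => hκg s) hκpos hgpos h0 h01 h1
    hTA htight hη hηs

end Vale.Agent.Lib.P232
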