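import Vale.Agent.Lib.P232.Class.RigidDefs

/-! JOBS R1a, R1b -/

open MeasureTheory Set Filter Topology

noncomputable section

namespace Vale.Agent.Lib.P232.Class

variable {a A N : ℕ → ℝ → ℝ} {a0 c : ℝ → ℝ} {P : ℝ} {κs gs I L : ℝ → ℝ} {lam M : ℝ} {κ g : ℝ → ℝ}

namespace R1

/-- Fatou on an interval, for eventual strict lower bounds. -/
theorem fatou_on {f : ℕ → ℝ → ℝ} {h : ℝ → ℝ} {u v : ℝ} (huv : u ≤ v)
    (hf : ∀ k, Continuous (f k)) (hf0 : ∀ k t, 0 ≤ f k t)
    (hhm : Measurable h) (hh0 : ∀ t, 0 ≤ h t)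
    (hlim : ∀ᵐ t, ∀ ρ < h t, ∀ᶠ k in atTop, ρ < f k t) {ρ : ℝ} (hρ : ρ < ∫ t in u..v, h t) :
    ∀ᶠ k in atTop, ρ < ∫ t in u..v, f k t := by
  by_contra hcon
  have hfreq : ∃ᶠ k in atTop, ∫ t in u..v, f k t ≤ ρ :=
    (Filter.not_eventually.1 hcon).mono fun k hk => not_lt.1 hk
  obtain ⟨s, hs, hsρ⟩ := extraction_of_frequently_atTop hfreq
  have hρ0 : 0 ≤ ρ := (intervalIntegral.integral_nonneg huv fun t _ => hf0 (s 0) t).trans (hsρ 0)
  set μ := volume.restrict (Ioc u v) with hμ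
  have e0 : ∫ t in u..v, h t = ∫ t, h t ∂μ := intervalIntegral.integral_of_le huv
  have hpt : ∀ᵐ t ∂μ, ENNReal.ofReal (h t) ≤ liminf (fun n => ENNReal.ofReal (f (s n) t)) atTop := by
    have := ae_restrict_of_ae (s := Ioc u v) hlim
    filter_upwards [this] with t ht
    refine le_of_forall_lt_imp_le_of_dense ?_
    intro r hr
    have hr' : r.toReal < h t := (ENNReal.lt_ofReal_iff_toReal_lt (ne_top_of_lt hr)).1 hr
    have hev := hs.tendsto_atTop.eventually (ht r.toReal hr')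
    have : ∀ᶠ n in atTop, r ≤ ENNReal.ofReal (f (s n) t) := by
      filter_upwards [hev] with n hn
      have : r = ENNReal.ofReal r.toReal := (ENNReal.ofReal_toReal (ne_top_of_lt hr)).symm
      rw [this]
      exact ENNReal.ofReal_le_ofReal hn.le
    exact le_liminf_of_le (by isBoundedDefault) this
  have hmeas : ∀ n, Measurable (fun t => ENNReal.ofReal (f (s n) t)) := fun n =>
    ENNReal.measurable_ofReal.comp (hf _).measurable
  have hfat : ∫⁻ t, ENNReal.ofReal (h t) ∂μ ≤ ENNReal.ofReal ρ := by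
    calc ∫⁻ t, ENNReal.ofReal (h t) ∂μ
        ≤ ∫⁻ t, liminf (fun n => ENNReal.ofReal (f (s n) t)) atTop ∂μ := lintegral_mono_ae hpt
      _ ≤ liminf (fun n => ∫⁻ t, ENNReal.ofReal (f (s n) t) ∂μ) atTop := lintegral_liminf_le hmeas
      _ ≤ ENNReal.ofReal ρ := by
        have hev : ∀ᶠ n in atTop, ∫⁻ t, ENNReal.ofReal (f (s n) t) ∂μ ≤ ENNReal.ofReal ρ := by
          refine Eventually.of_forall fun n => ?_
          have hint : Integrable (f (s n)) μ := ((hf _).intervalIntegrable u v).1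
          rw [← ofReal_integral_eq_lintegral_ofReal hint (ae_of_all _ (hf0 _))]
          refine ENNReal.ofReal_le_ofReal ?_
          rw [← intervalIntegral.integral_of_le huv]
          exact hsρ n
        exact liminf_le_of_frequently_le' hev.frequently
  have hle : ∫ t in u..v, h t ≤ ρ := by
    rw [e0, integral_eq_lintegral_of_nonneg_ae (ae_of_all _ hh0) hhm.aestronglyMeasurable]
    exact ENNReal.toReal_le_of_le_ofReal hρ0 hfat
  linarith


/-- The limit of the first term of the energy density. -/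
theorem lim_first (h : SliceData a A N a0 c P) (hw : Adm κ g) :
    ∀ᵐ t, ∀ ρ < κ (a0 t) * c t, ∀ᶠ k in atTop, ρ < κ (a k t) * A k t := by
  filter_upwards [h.hconv, h.hc] with t ht1 ht2 ρ hρ
  have hκlim : Tendsto (fun k => κ (a k t)) atTop (𝓝 (κ (a0 t))) := (hw.hκ.tendsto _).comp ht1
  rcases lt_or_ge ρ 0 with hneg | hnn
  · exact Eventually.of_forall (fun k => lt_of_lt_of_le hneg (mul_nonneg (hw.hκ0 _) (h.hA0 _ _)))
  · have hprod : 0 < κ (a0 t) * c t := lt_of_le_of_lt hnn hρ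
    have hκpos : 0 < κ (a0 t) := by
      by_contra h'
      have : κ (a0 t) = 0 := le_antisymm (not_lt.1 h') (hw.hκ0 _)
      simp [this] at hprod
    obtain ⟨c'', hc1, hc2⟩ : ∃ c'', c'' < c t ∧ ρ < κ (a0 t) * c'' := by
      have hq : ρ / κ (a0 t) < c t := by rwa [div_lt_iff₀' hκpos]
      refine ⟨(ρ / κ (a0 t) + c t) / 2, by linarith, ?_⟩
      have h3 : ρ / κ (a0 t) < (ρ / κ (a0 t) + c t) / 2 := by linarith
      calc ρ = κ (a0 t) * (ρ / κ (a0 t)) := by field_simp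
        _ < _ := mul_lt_mul_of_pos_left h3 hκpos
    have htend : Tendsto (fun k => κ (a k t) * c'') atTop (𝓝 (κ (a0 t) * c'')) :=
      hκlim.mul_const _
    filter_upwards [htend.eventually (lt_mem_nhds hc2), ht2 (c t - c'') (by linarith)] with k hk1 hk2
    have hk3 : c'' ≤ A k t := by linarith
    calc ρ < κ (a k t) * c'' := hk1
      _ ≤ κ (a k t) * A k t := mul_le_mul_of_nonneg_left hk3 (hw.hκ0 _)

/-- On an arc, the energy bounds the variation of the primitive of the weight. -/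
theorem var_le {f : ℝ → ℝ} (hf : ContDiff ℝ 1 f) (hg : Continuous g) (hg0 : ∀ s, 0 ≤ g s) {u v : ℝ}
    (huv : u ≤ v) : |∫ s in (f u)..(f v), g s| ≤ ∫ t in u..v, g (f t) * |deriv f t| := by
  have hda : Continuous (deriv f) := hf.continuous_deriv le_rfl
  have hdiff : ∀ t, HasDerivAt f (deriv f t) t := fun t =>
    (hf.differentiable (by norm_num) t).hasDerivAt
  have e3 : ∫ t in u..v, (g ∘ f) t * deriv f t = ∫ s in f u..f v, g s :=
    intervalIntegral.integral_comp_mul_deriv (fun t _ => hdiff t) hda.continuousOn hg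
  rw [← e3]
  have h1 := intervalIntegral.abs_integral_le_integral_abs (f := fun t => (g ∘ f) t * deriv f t)
    (μ := volume) huv
  refine h1.trans (le_of_eq ?_)
  refine intervalIntegral.integral_congr fun t _ => ?_
  show |g (f t) * deriv f t| = g (f t) * |deriv f t|
  rw [abs_mul, abs_of_nonneg (hg0 _)]

/-- Primitive of the weight. -/
theorem abs_int_continuous (hg : Continuous g) :
    Continuous fun p : ℝ × ℝ => |∫ s in p.1..p.2, g s| := by
  have hint : ∀ u v, IntervalIntegrable g volume u v := fun u v => hg.intervalIntegrable u v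
  have hprim : Continuous (fun u => ∫ s in (0 : ℝ)..u, g s) :=
    intervalIntegral.continuous_primitive (fun u v => hint u v) 0
  have : (fun p : ℝ × ℝ => |∫ s in p.1..p.2, g s|) =
      fun p => |(∫ s in (0 : ℝ)..p.2, g s) - ∫ s in (0 : ℝ)..p.1, g s| := by
    funext p
    rw [intervalIntegral.integral_interval_sub_left (hint _ _) (hint _ _)]
  rw [this]
  exact ((hprim.comp continuous_snd).sub (hprim.comp continuous_fst)).abs

/-- **Lower bound on one arc.** -/
theorem arc_lower (h : SliceData a A N a0 c P) (hw : Adm κ g) {u v α β : ℝ} (huv : u ≤ v)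
    (hu : Tendsto (fun k => a k u) atTop (𝓝 α)) (hv : Tendsto (fun k => a k v) atTop (𝓝 β))
    {ρ : ℝ} (hρ : ρ < (∫ t in u..v, κ (a0 t) * c t) + |∫ s in α..β, g s|) :
    ∀ᶠ k in atTop, ρ < ∫ t in u..v, N k t := by
  have hGc : Continuous fun p : ℝ × ℝ => |∫ s in p.1..p.2, g s| := abs_int_continuous hw.hg
  have hG : Tendsto (fun k => |∫ s in (a k u)..(a k v), g s|) atTop (𝓝 |∫ s in α..β, g s|) :=
    (hGc.tendsto (α, β)).comp (hu.prodMk_nhds hv)
  set G0 := |∫ s in α..β, g s| with hG0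
  have hm : Measurable fun t => κ (a0 t) * c t :=
    (hw.hκ.measurable.comp h.ha0).mul h.hcm
  obtain ⟨r, hr1, hr2⟩ : ∃ r, ρ < r + (G0 - (G0 + (∫ t in u..v, κ (a0 t) * c t) - ρ) / 2) ∧
      r < ∫ t in u..v, κ (a0 t) * c t := by
    refine ⟨(∫ t in u..v, κ (a0 t) * c t) - (G0 + (∫ t in u..v, κ (a0 t) * c t) - ρ) / 4, ?_, ?_⟩ <;>
      linarith
  have hF := fatou_on (f := fun k t => κ (a k t) * A k t) (h := fun t => κ (a0 t) * c t) huv
    (fun k => (hw.hκ.comp (h.ha k).continuous).mul (h.hA k))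
    (fun k t => mul_nonneg (hw.hκ0 _) (h.hA0 _ _)) hm
    (fun t => mul_nonneg (hw.hκ0 _) (h.hc0 _)) (lim_first h hw) hr2
  have hG2 := hG.eventually (lt_mem_nhds (show G0 - (G0 + (∫ t in u..v, κ (a0 t) * c t) - ρ) / 2 < G0 by
    linarith))
  filter_upwards [hF, hG2] with k hk1 hk2
  have hc1 : Continuous fun t => κ (a k t) * A k t :=
    (hw.hκ.comp (h.ha k).continuous).mul (h.hA k)
  have hc2 : Continuous fun t => g (a k t) * |deriv (a k) t| :=
    (hw.hg.comp (h.ha k).continuous).mul ((h.ha k).continuous_deriv le_rfl).abs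
  have hle : (∫ t in u..v, κ (a k t) * A k t) + (∫ t in u..v, g (a k t) * |deriv (a k) t|) ≤
      ∫ t in u..v, N k t := by
    rw [← intervalIntegral.integral_add (hc1.intervalIntegrable _ _) (hc2.intervalIntegrable _ _)]
    refine intervalIntegral.integral_mono_on huv ((hc1.add hc2).intervalIntegrable _ _)
      ((h.hNc k).intervalIntegrable _ _) fun t _ => ?_
    exact slice_pointwise (h.hN k t) (hw.hκ0 _) (hw.hκg _)
  have hv2 := var_le (h.ha k) hw.hg hw.hg0 huv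
  linarith

/-- The integral of the energy over a period with any base point. -/
theorem int_N (h : SliceData a A N a0 c P) (k : ℕ) (u : ℝ) :
    ∫ t in u..(u + 1), N k t = ∫ t in (0 : ℝ)..1, N k t := by
  have hp : Function.Periodic (N k) 1 := h.hNper k
  have := hp.intervalIntegral_add_eq u 0
  simpa using this


/-- The weighted density is integrable on every interval. -/
theorem int_first (h : SliceData a A N a0 c P) (hw : Adm κ g) (u v : ℝ) :
    IntervalIntegrable (fun t => κ (a0 t) * c t) volume u v := by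
  obtain ⟨C, hC⟩ := h.hcb
  have hm : Measurable fun t => κ (a0 t) * c t :=
    (hw.hκ.measurable.comp h.ha0).mul h.hcm
  rw [intervalIntegrable_iff]
  refine Measure.integrableOn_of_bounded (M := C) (by simp) hm.aestronglyMeasurable
    (ae_of_all _ fun t => ?_)
  have h1 : κ (a0 t) ≤ 1 := by
    have h2 := hw.hκg (a0 t)
    have h3 := sq_nonneg (g (a0 t))
    have h4 := hw.hκ0 (a0 t)
    nlinarith
  have h5 := hw.hκ0 (a0 t)
  have h6 := h.hc0 t
  rw [Real.norm_eq_abs, abs_of_nonneg (mul_nonneg h5 h6)]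
  have h7 := hC t
  nlinarith

end R1

open R1

/-- JOB R1a. Two arcs with two different admissible pairs (pointwise inequality on each arc, FTC for
`g (a_k) |a_k'|` on each arc, Fatou as in `generic_slice`, limit in `k` at the good endpoints). -/
theorem two_arc (D : SliceData a A N a0 c P) {κ₁ g₁ κ₂ g₂ : ℝ → ℝ} (h₁ : Adm κ₁ g₁) (h₂ : Adm κ₂ g₂)
    {p q : ℝ} (hpq : p ≤ q) (hq : q ≤ p + 1) (gp : Good a a0 p) (gq : Good a a0 q) :
    (∫ t in p..q, κ₁ (a0 t) * c t) + (∫ t in q..(p + 1), κ₂ (a0 t) * c t) +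
      ∫ s in (a0 p)..(a0 q), (g₁ s + g₂ s) ≤ P := by
  refine le_of_forall_pos_le_add fun ε hε => ?_
  have hu1 : Tendsto (fun k => a k (p + 1)) atTop (𝓝 (a0 p)) := by
    have hu : Tendsto (fun k => a k p) atTop (𝓝 (a0 p)) := gp
    simpa only [D.hper] using hu
  have e1 := arc_lower D h₁ (ρ := (∫ t in p..q, κ₁ (a0 t) * c t) + |∫ s in (a0 p)..(a0 q), g₁ s| - ε / 4)
    hpq gp gq (by linarith)
  have e2 := arc_lower D h₂ (ρ := (∫ t in q..(p + 1), κ₂ (a0 t) * c t) + |∫ s in (a0 q)..(a0 p), g₂ s| - ε / 4)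
    hq gq hu1 (by linarith)
  obtain ⟨k, ⟨hk1, hk2⟩, hk3⟩ := ((e1.and e2).and_frequently (D.hP (ε / 4) (by linarith))).exists
  have hsum : (∫ t in p..q, N k t) + ∫ t in q..(p + 1), N k t = ∫ t in (0 : ℝ)..1, N k t := by
    rw [intervalIntegral.integral_add_adjacent_intervals ((D.hNc k).intervalIntegrable _ _)
      ((D.hNc k).intervalIntegrable _ _), int_N D]
  have hsplit : ∫ s in (a0 p)..(a0 q), (g₁ s + g₂ s) =
      (∫ s in (a0 p)..(a0 q), g₁ s) + ∫ s in (a0 p)..(a0 q), g₂ s :=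
    intervalIntegral.integral_add (h₁.hg.intervalIntegrable _ _) (h₂.hg.intervalIntegrable _ _)
  have h3 := le_abs_self (∫ s in (a0 p)..(a0 q), g₁ s)
  have h4 : (∫ s in (a0 p)..(a0 q), g₂ s) ≤ |∫ s in (a0 q)..(a0 p), g₂ s| := by
    rw [intervalIntegral.integral_symm (a0 p) (a0 q), abs_neg]
    exact le_abs_self _
  rw [hsplit]
  linarith

/-- JOB R1b. Four points in cyclic order: the extra oscillation is paid twice (four arcs, FTC on each,
Fatou). `G u = ∫₀ᵘ g`. -/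
theorem path4 (D : SliceData a A N a0 c P) {κ g : ℝ → ℝ} (h : Adm κ g) {p₁ p₂ p₃ p₄ : ℝ}
    (h12 : p₁ ≤ p₂) (h23 : p₂ ≤ p₃) (h34 : p₃ ≤ p₄) (h41 : p₄ ≤ p₁ + 1)
    (g1 : Good a a0 p₁) (g2 : Good a a0 p₂) (g3 : Good a a0 p₃) (g4 : Good a a0 p₄) :
    (∫ t in p₁..(p₁ + 1), κ (a0 t) * c t) +
      2 * ((∫ s in (0 : ℝ)..a0 p₁, g s) + (∫ s in (0 : ℝ)..a0 p₃, g s) -
        (∫ s in (0 : ℝ)..a0 p₂, g s) - (∫ s in (0 : ℝ)..a0 p₄, g s)) ≤ P := by
  refine le_of_forall_pos_le_add fun ε hε => ?_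
  have hp₁' : Tendsto (fun k => a k (p₁ + 1)) atTop (𝓝 (a0 p₁)) := by
    have hu : Tendsto (fun k => a k p₁) atTop (𝓝 (a0 p₁)) := g1
    simpa only [D.hper] using hu
  have e1 := arc_lower D h (ρ := (∫ t in p₁..p₂, κ (a0 t) * c t) + |∫ s in (a0 p₁)..(a0 p₂), g s| - ε / 8)
    h12 g1 g2 (by linarith)
  have e2 := arc_lower D h (ρ := (∫ t in p₂..p₃, κ (a0 t) * c t) + |∫ s in (a0 p₂)..(a0 p₃), g s| - ε / 8)
    h23 g2 g3 (by linarith)
  have e3 := arc_lower D h (ρ := (∫ t in p₃..p₄, κ (a0 t) * c t) + |∫ s in (a0 p₃)..(a0 p₄), g s| - ε / 8)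
    h34 g3 g4 (by linarith)
  have e4 := arc_lower D h (ρ := (∫ t in p₄..(p₁ + 1), κ (a0 t) * c t) + |∫ s in (a0 p₄)..(a0 p₁), g s| - ε / 8)
    h41 g4 hp₁' (by linarith)
  obtain ⟨k, ⟨⟨⟨hk1, hk2⟩, hk3⟩, hk4⟩, hk5⟩ :=
    (((e1.and e2).and e3 |>.and e4).and_frequently (D.hP (ε / 8) (by linarith))).exists
  have hi := int_first D h
  have hN := fun u v => (D.hNc k).intervalIntegrable (μ := volume) u v
  have s1 : (∫ t in p₁..p₂, κ (a0 t) * c t) + (∫ t in p₂..p₃, κ (a0 t) * c t) +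
      (∫ t in p₃..p₄, κ (a0 t) * c t) + (∫ t in p₄..(p₁ + 1), κ (a0 t) * c t) =
      ∫ t in p₁..(p₁ + 1), κ (a0 t) * c t := by
    rw [intervalIntegral.integral_add_adjacent_intervals (hi _ _) (hi _ _),
      intervalIntegral.integral_add_adjacent_intervals (hi _ _) (hi _ _),
      intervalIntegral.integral_add_adjacent_intervals (hi _ _) (hi _ _)]
  have s2 : (∫ t in p₁..p₂, N k t) + (∫ t in p₂..p₃, N k t) + (∫ t in p₃..p₄, N k t) +
      (∫ t in p₄..(p₁ + 1), N k t) = ∫ t in (0 : ℝ)..1, N k t := by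
    rw [intervalIntegral.integral_add_adjacent_intervals (hN _ _) (hN _ _),
      intervalIntegral.integral_add_adjacent_intervals (hN _ _) (hN _ _),
      intervalIntegral.integral_add_adjacent_intervals (hN _ _) (hN _ _), int_N D]
  have hint : ∀ u v, IntervalIntegrable g volume u v := fun u v => h.hg.intervalIntegrable u v
  have d : ∀ u v, ∫ s in u..v, g s = (∫ s in (0 : ℝ)..v, g s) - ∫ s in (0 : ℝ)..u, g s := fun u v =>
    (intervalIntegral.integral_interval_sub_left (hint _ _) (hint _ _)).symm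
  rw [d (a0 p₁) (a0 p₂)] at hk1
  rw [d (a0 p₂) (a0 p₃)] at hk2
  rw [d (a0 p₃) (a0 p₄)] at hk3
  rw [d (a0 p₄) (a0 p₁)] at hk4
  have a1 := neg_abs_le ((∫ s in (0 : ℝ)..a0 p₂, g s) - ∫ s in (0 : ℝ)..a0 p₁, g s)
  have a2 := le_abs_self ((∫ s in (0 : ℝ)..a0 p₃, g s) - ∫ s in (0 : ℝ)..a0 p₂, g s)
  have a3 := neg_abs_le ((∫ s in (0 : ℝ)..a0 p₄, g s) - ∫ s in (0 : ℝ)..a0 p₃, g s)
  have a4 := le_abs_self ((∫ s in (0 : ℝ)..a0 p₁, g s) - ∫ s in (0 : ℝ)..a0 p₄, g s)
  linarith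

end Vale.Agent.Lib.P232.Class
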