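import Mathlib

/-!
# P232, stage 4, J4: a periodic function without four extra alternations is unimodal

`b` is periodic, defined on a periodic set `good` of points; its infimum on `good` is `0`, its
supremum is `Γ > 0`.  If four cyclically ordered good points never alternate by more than `Γ`,
`b p1 + b p3 ≤ Γ + b p2 + b p4`, then there are two limit points `τ1 ≤ τ2 ≤ τ1 + 1` such that `b` is
nondecreasing on the arc `(τ1, τ2)` and nonincreasing on `(τ2, τ1 + 1)`.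
-/

namespace Vale.Agent.Lib.P232

open Filter Topology Set

/-- **Unimodality.**  See the file header. -/
theorem unimodal_of_four {b : ℝ → ℝ} {good : Set ℝ} {Γ : ℝ}
    (hper : Function.Periodic b 1)
    (hgper : ∀ (t : ℝ) (k : ℤ), t ∈ good → t + k ∈ good)
    (h4 : ∀ p1 p2 p3 p4, p1 ∈ good → p2 ∈ good → p3 ∈ good → p4 ∈ good →
      p1 < p2 → p2 < p3 → p3 < p4 → p4 < p1 + 1 → b p1 + b p3 ≤ Γ + b p2 + b p4)
    (hΓ : 0 < Γ)
    (hlow : ∀ δ > 0, ∃ t ∈ good, b t < δ)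
    (hb0 : ∀ t ∈ good, 0 ≤ b t)
    (hhigh : ∀ δ > 0, ∃ t ∈ good, Γ - δ < b t)
    (hb1 : ∀ t ∈ good, b t ≤ Γ) :
    ∃ τ1 τ2 : ℝ, ∃ x y : ℕ → ℝ, τ1 ≤ τ2 ∧ τ2 ≤ τ1 + 1 ∧
      Tendsto x atTop (𝓝 τ1) ∧ Tendsto y atTop (𝓝 τ2) ∧
      (∀ n, x n ∈ good) ∧ (∀ n, y n ∈ good) ∧ (∀ n, x n < y n) ∧ (∀ n, y n < x n + 1) ∧
      Tendsto (fun n => b (x n)) atTop (𝓝 0) ∧ Tendsto (fun n => b (y n)) atTop (𝓝 Γ) ∧
      (∀ u v, u ∈ good → v ∈ good → τ1 < u → u < v → v < τ2 → b u ≤ b v) ∧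
      (∀ u v, u ∈ good → v ∈ good → τ2 < u → u < v → v < τ1 + 1 → b v ≤ b u) := by
  have hperZ : ∀ (t : ℝ) (k : ℤ), b (t + k) = b t := fun t k => by
    have := hper.int_mul k t
    simpa using this
  have hper1 : ∀ t, b (t + 1) = b t := hper
  have hg1 : ∀ t, t ∈ good → t + 1 ∈ good := fun t ht => by
    simpa using hgper t 1 ht
  -- the points
  have hpts : ∀ n : ℕ, ∃ p : ℝ × ℝ, p.1 ∈ good ∧ p.2 ∈ good ∧ p.1 < p.2 ∧ p.2 < p.1 + 1 ∧
      p ∈ Icc (0 : ℝ) 1 ×ˢ Icc (0 : ℝ) 2 ∧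
      b p.1 < min (1 / ((n : ℝ) + 1)) (Γ / 3) ∧ Γ - min (1 / ((n : ℝ) + 1)) (Γ / 3) < b p.2 := by
    intro n
    have hδ : 0 < min (1 / ((n : ℝ) + 1)) (Γ / 3) := by
      apply lt_min
      · positivity
      · positivity
    obtain ⟨t, ht, hbt⟩ := hlow _ hδ
    obtain ⟨s, hs, hbs⟩ := hhigh _ hδ
    have hδ3 : min (1 / ((n : ℝ) + 1)) (Γ / 3) ≤ Γ / 3 := min_le_right _ _
    set x₀ : ℝ := Int.fract t with hx₀
    have hx₀t : x₀ = t + ((-⌊t⌋ : ℤ) : ℝ) := by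
      rw [hx₀, Int.fract]
      push_cast
      ring
    have hx₀g : x₀ ∈ good := by
      rw [hx₀t]
      exact hgper _ _ ht
    have hbx₀ : b x₀ = b t := by
      rw [hx₀t]
      exact hperZ _ _
    set y₀ : ℝ := x₀ + Int.fract (s - x₀) with hy₀
    have hy₀s : y₀ = s + ((-⌊s - x₀⌋ : ℤ) : ℝ) := by
      rw [hy₀, Int.fract]
      push_cast
      ring
    have hy₀g : y₀ ∈ good := by
      rw [hy₀s]
      exact hgper _ _ hs
    have hby₀ : b y₀ = b s := by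
      rw [hy₀s]
      exact hperZ _ _
    have hf0 := Int.fract_nonneg (s - x₀)
    have hf1 := Int.fract_lt_one (s - x₀)
    have hx0 := Int.fract_nonneg t
    have hx1 := Int.fract_lt_one t
    have hne : x₀ ≠ y₀ := by
      intro he
      rw [← he, hbx₀] at hby₀
      linarith
    have hlt : x₀ < y₀ := lt_of_le_of_ne (by rw [hy₀]; linarith) hne
    refine ⟨(x₀, y₀), hx₀g, hy₀g, hlt, by rw [hy₀]; show x₀ + _ < x₀ + 1; linarith, ?_, ?_, ?_⟩
    · refine ⟨⟨hx0, hx1.le⟩, ⟨?_, ?_⟩⟩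
      · show 0 ≤ y₀
        linarith
      · show y₀ ≤ 2
        rw [hy₀]
        linarith
    · show b x₀ < _
      rw [hbx₀]
      exact hbt
    · show _ < b y₀
      rw [hby₀]
      exact hbs
  choose p hp1 hp2 hp3 hp4 hp5 hp6 hp7 using hpts
  have hcomp : IsCompact (Icc (0 : ℝ) 1 ×ˢ Icc (0 : ℝ) 2) := isCompact_Icc.prod isCompact_Icc
  obtain ⟨τ, -, φ, hφ, hτ⟩ := hcomp.tendsto_subseq hp5
  have hφt : Tendsto φ atTop atTop := hφ.tendsto_atTop
  have hx : Tendsto (fun n => (p (φ n)).1) atTop (𝓝 τ.1) := continuous_fst.continuousAt.tendsto.comp hτ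
  have hy : Tendsto (fun n => (p (φ n)).2) atTop (𝓝 τ.2) := continuous_snd.continuousAt.tendsto.comp hτ
  have hδlim : Tendsto (fun n : ℕ => min (1 / (((φ n : ℕ) : ℝ) + 1)) (Γ / 3)) atTop (𝓝 0) := by
    have h1 : Tendsto (fun n : ℕ => 1 / ((n : ℝ) + 1)) atTop (𝓝 0) :=
      tendsto_one_div_add_atTop_nhds_zero_nat
    have h2 := h1.comp hφt
    refine squeeze_zero (fun n => ?_) (fun n => min_le_left _ _) h2
    apply le_min
    · positivity
    · positivity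
  have hbx : Tendsto (fun n => b (p (φ n)).1) atTop (𝓝 0) := by
    refine squeeze_zero (fun n => hb0 _ (hp1 _)) (fun n => (hp6 (φ n)).le) hδlim
  have hby : Tendsto (fun n => b (p (φ n)).2) atTop (𝓝 Γ) := by
    have h1 : Tendsto (fun n => Γ - min (1 / (((φ n : ℕ) : ℝ) + 1)) (Γ / 3)) atTop (𝓝 (Γ - 0)) :=
      tendsto_const_nhds.sub hδlim
    rw [sub_zero] at h1
    refine tendsto_of_tendsto_of_tendsto_of_le_of_le h1 tendsto_const_nhds
      (fun n => (hp7 (φ n)).le) (fun n => hb1 _ (hp2 _))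
  refine ⟨τ.1, τ.2, fun n => (p (φ n)).1, fun n => (p (φ n)).2, ?_, ?_, hx, hy,
    fun n => hp1 _, fun n => hp2 _, fun n => hp3 _, fun n => hp4 _, hbx, hby, ?_, ?_⟩
  · exact le_of_tendsto_of_tendsto' hx hy (fun n => (hp3 _).le)
  · exact le_of_tendsto_of_tendsto' hy (hx.add_const 1) (fun n => (hp4 _).le)
  · intro u v hu hv h1 h2 h3
    have e1 : ∀ᶠ n in atTop, (p (φ n)).1 < u := hx.eventually (gt_mem_nhds h1)
    have e2 : ∀ᶠ n in atTop, v < (p (φ n)).2 := hy.eventually (lt_mem_nhds h3)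
    have hlim : Tendsto (fun n => b u + b (p (φ n)).2) atTop (𝓝 (b u + Γ)) :=
      tendsto_const_nhds.add hby
    have hlim2 : Tendsto (fun n => Γ + b v + b (p (φ n)).1) atTop (𝓝 (Γ + b v + 0)) :=
      tendsto_const_nhds.add hbx
    have := le_of_tendsto_of_tendsto hlim hlim2 (by
      filter_upwards [e1, e2] with n hn1 hn2
      have := h4 u v (p (φ n)).2 ((p (φ n)).1 + 1) hu hv (hp2 _) (hg1 _ (hp1 _)) h2 hn2 (hp4 _)
        (by linarith)
      rw [hper1] at this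
      exact this)
    linarith
  · intro u v hu hv h1 h2 h3
    have e1 : ∀ᶠ n in atTop, (p (φ n)).2 < u := hy.eventually (gt_mem_nhds h1)
    have e2 : ∀ᶠ n in atTop, v < (p (φ n)).1 + 1 := (hx.add_const 1).eventually (lt_mem_nhds h3)
    have hlim : Tendsto (fun n => b v + b (p (φ n)).2) atTop (𝓝 (b v + Γ)) :=
      tendsto_const_nhds.add hby
    have hlim2 : Tendsto (fun n => Γ + b (p (φ n)).1 + b u) atTop (𝓝 (Γ + 0 + b u)) :=
      (tendsto_const_nhds.add hbx).add_const _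
    have := le_of_tendsto_of_tendsto hlim hlim2 (by
      filter_upwards [e1, e2] with n hn1 hn2
      have := h4 v ((p (φ n)).1 + 1) ((p (φ n)).2 + 1) (u + 1) hv (hg1 _ (hp1 _)) (hg1 _ (hp2 _))
        (hg1 _ hu) hn2 (by linarith [hp3 (φ n)]) (by linarith) (by linarith)
      rw [hper1, hper1, hper1] at this
      exact this)
    linarith

end Vale.Agent.Lib.P232
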