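import Vale.Agent.Lib.P232.Class.R1
import Vale.Agent.Lib.P232.Class.Unimodal

/-! JOB R2 -/

open MeasureTheory Set Filter Topology

noncomputable section

namespace Vale.Agent.Lib.P232.Class

variable {a A N : ℕ → ℝ → ℝ} {a0 c : ℝ → ℝ} {P : ℝ} {κs gs I L : ℝ → ℝ} {lam M : ℝ}

/-- `g ≤ 1` for an admissible pair. -/
lemma Adm.g_le_one {κ g : ℝ → ℝ} (h : Adm κ g) (s : ℝ) : g s ≤ 1 := by
  have h1 := h.hκg s
  have h2 := h.hg0 s
  nlinarith [sq_nonneg (κ s), sq_nonneg (g s - 1)]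

lemma Adm.κ_le_one {κ g : ℝ → ℝ} (h : Adm κ g) (s : ℝ) : κ s ≤ 1 := by
  have h1 := h.hκg s
  have h2 := h.hκ0 s
  nlinarith [sq_nonneg (g s), sq_nonneg (κ s - 1)]

/-- Integrands `κ(a0) c` are integrable on all intervals. -/
lemma SliceData.integrable_κ (D : SliceData a A N a0 c P) {κ g : ℝ → ℝ} (h : Adm κ g) (p q : ℝ) :
    IntervalIntegrable (fun t => κ (a0 t) * c t) volume p q := by
  obtain ⟨C, hC⟩ := D.hcb
  rw [intervalIntegrable_iff]
  refine Measure.integrableOn_of_bounded (M := C) (by simp [uIoc]) ?_ ?_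
  · exact ((h.hκ.measurable.comp D.ha0).mul D.hcm).aestronglyMeasurable
  · refine ae_of_all _ (fun t => ?_)
    rw [Real.norm_eq_abs, abs_of_nonneg (mul_nonneg (h.hκ0 _) (D.hc0 _))]
    calc κ (a0 t) * c t ≤ 1 * c t := mul_le_mul_of_nonneg_right (h.κ_le_one _) (D.hc0 _)
      _ = c t := one_mul _
      _ ≤ C := hC t

lemma SliceData.integrable_a0 (D : SliceData a A N a0 c P) (p q : ℝ) :
    IntervalIntegrable a0 volume p q := by
  rw [intervalIntegrable_iff]
  refine Measure.integrableOn_of_bounded (M := 1) (by simp [uIoc]) D.ha0.aestronglyMeasurable ?_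
  refine ae_of_all _ (fun t => ?_)
  rw [Real.norm_eq_abs, abs_of_nonneg (D.hbd t).1]
  exact (D.hbd t).2

lemma integral_endpoints_tendsto {f : ℝ → ℝ} (hf : ∀ p q, IntervalIntegrable f volume p q)
    {x y : ℕ → ℝ} {τ₁ τ₂ : ℝ} (hx : Tendsto x atTop (𝓝 τ₁)) (hy : Tendsto y atTop (𝓝 τ₂)) :
    Tendsto (fun n => ∫ t in (x n)..(y n), f t) atTop (𝓝 (∫ t in τ₁..τ₂, f t)) := by
  have hc : Continuous (fun b => ∫ t in (0 : ℝ)..b, f t) :=
    intervalIntegral.continuous_primitive hf 0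
  have h1 : Tendsto (fun n => (∫ t in (0 : ℝ)..(y n), f t) - ∫ t in (0 : ℝ)..(x n), f t) atTop
      (𝓝 ((∫ t in (0 : ℝ)..τ₂, f t) - ∫ t in (0 : ℝ)..τ₁, f t)) :=
    (hc.continuousAt.tendsto.comp hy).sub (hc.continuousAt.tendsto.comp hx)
  have e : ∀ p q : ℝ, (∫ t in (0 : ℝ)..q, f t) - (∫ t in (0 : ℝ)..p, f t) = ∫ t in p..q, f t :=
    fun p q => intervalIntegral.integral_interval_sub_left (hf _ _) (hf _ _)
  simp only [e] at h1
  exact h1

/-- JOB R2 (compactness, monotonicity). The two arcs: sequences of good points `t₋` with `a0 t₋ → 0`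
and `t₊` with `a0 t₊ → M`; take limits `τ₁, τ₂` along a subsequence (lifted so that `τ₁ ≤ τ₂ ≤ τ₁ + 1`);
`two_arc` passes to the limit since the integrands are bounded. Monotonicity on `G` (`G` = good points with
`a0 ≤ M`): `path4` at `(u, v, t₊, t₋ + 1)` with `κs, gs`; the tightness and `hκI`, `hcI` give
`2 ∫_{a0 v}^{a0 u} gs ≤ 0`, so `a0 u ≤ a0 v` as `gs > 0` on `(0, M)`. -/
theorem exists_arcs (D : SliceData a A N a0 c P) (R : RigidData a0 c κs gs I L lam M P) :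
    ∃ (τ₁ τ₂ : ℝ) (G : Set ℝ), τ₁ ≤ τ₂ ∧ τ₂ ≤ τ₁ + 1 ∧ (∀ᵐ t, t ∈ G) ∧
      (∀ κ₁ g₁ κ₂ g₂ : ℝ → ℝ, Adm κ₁ g₁ → Adm κ₂ g₂ →
        (∫ t in τ₁..τ₂, κ₁ (a0 t) * c t) + (∫ t in τ₂..(τ₁ + 1), κ₂ (a0 t) * c t) +
          ∫ s in (0 : ℝ)..M, (g₁ s + g₂ s) ≤ P) ∧
      (∀ u ∈ G, ∀ v ∈ G, τ₁ < u → u < v → v < τ₂ → a0 u ≤ a0 v) ∧
      (∀ u ∈ G, ∀ v ∈ G, τ₂ < u → u < v → v < τ₁ + 1 → a0 v ≤ a0 u) := by
  have hadm := R.adm
  have hgi : ∀ p q : ℝ, IntervalIntegrable gs volume p q := fun p q =>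
    hadm.hg.intervalIntegrable p q
  -- the primitive of `gs`
  obtain ⟨G0, hG0⟩ : ∃ G0 : ℝ → ℝ, G0 = fun s => ∫ u in (0 : ℝ)..s, gs u := ⟨_, rfl⟩
  have hG0sub : ∀ s s', G0 s' - G0 s = ∫ u in s..s', gs u := by
    intro s s'
    rw [hG0]
    exact intervalIntegral.integral_interval_sub_left (hgi _ _) (hgi _ _)
  have hG0mono : ∀ s s', s ≤ s' → G0 s ≤ G0 s' := by
    intro s s' h
    have : 0 ≤ ∫ u in s..s', gs u := intervalIntegral.integral_nonneg h (fun u _ => hadm.hg0 u)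
    rw [← hG0sub] at this
    linarith
  have hG0lip : ∀ s s', s ≤ s' → G0 s' - G0 s ≤ s' - s := by
    intro s s' h
    rw [hG0sub]
    have := intervalIntegral.integral_mono_on h (hgi s s')
      (intervalIntegrable_const (c := (1 : ℝ))) (fun u _ => hadm.g_le_one u)
    simpa using this
  have hG0strict : ∀ s s', 0 ≤ s → s < s' → s' ≤ M → G0 s < G0 s' := by
    intro s s' h0 h1 h2
    have := intervalIntegral.intervalIntegral_pos_of_pos_on (hgi s s')
      (fun u hu => R.hgpos u ⟨by linarith [hu.1], by linarith [hu.2]⟩) h1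
    rw [← hG0sub] at this
    linarith
  have hG00 : G0 0 = 0 := by
    rw [hG0]
    simp
  obtain ⟨Γ, hΓ⟩ : ∃ Γ : ℝ, Γ = G0 M := ⟨_, rfl⟩
  have hΓ0 : 0 < Γ := by
    have := hG0strict 0 M le_rfl R.hM le_rfl
    rw [hG00] at this
    rw [hΓ]
    exact this
  -- good points
  obtain ⟨good, hgood⟩ : ∃ good : Set ℝ, good = {t | Good a a0 t ∧ a0 t ≤ M} := ⟨_, rfl⟩
  have hae : ∀ᵐ t, t ∈ good := by
    filter_upwards [D.hconv, R.hle] with t h1 h2
    rw [hgood]
    exact ⟨h1, h2⟩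
  have hperZ : ∀ (k : ℕ) (t : ℝ) (n : ℤ), a k (t + n) = a k t := by
    intro k t n
    have hp : Function.Periodic (a k) 1 := D.hper k
    have := hp.int_mul n t
    simpa using this
  have hper0 : Function.Periodic a0 1 := D.hper0
  have hper0Z : ∀ (t : ℝ) (n : ℤ), a0 (t + n) = a0 t := by
    intro t n
    have := hper0.int_mul n t
    simpa using this
  have hgper : ∀ (t : ℝ) (k : ℤ), t ∈ good → t + k ∈ good := by
    intro t k ht
    rw [hgood] at ht ⊢
    refine ⟨?_, by rw [hper0Z]; exact ht.2⟩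
    show Tendsto _ _ _
    simp only [hperZ, hper0Z]
    exact ht.1
  have hbper : Function.Periodic (fun t => G0 (a0 t)) 1 := by
    intro t
    show G0 (a0 (t + 1)) = G0 (a0 t)
    rw [hper0 t]
  have hnull : volume goodᶜ = 0 := mem_ae_iff.mp hae
  -- the slope term
  have hslope : ∀ p : ℝ, lam * (∫ t in (0 : ℝ)..1, a0 t) ≤ ∫ t in p..(p + 1), κs (a0 t) * c t := by
    intro p
    have e : ∫ t in (0 : ℝ)..1, a0 t = ∫ t in p..(p + 1), a0 t := by
      have := hper0.intervalIntegral_add_eq 0 p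
      simpa using this
    rw [e, ← intervalIntegral.integral_const_mul]
    refine intervalIntegral.integral_mono_ae (by linarith) ((D.integrable_a0 _ _).const_mul _)
      (D.integrable_κ hadm _ _) ?_
    filter_upwards [R.hcI, R.hle] with t h1 h2
    rcases (D.hbd t).1.eq_or_lt with h0 | h0
    · rw [← h0, R.hκ0]
      simp
    · have h3 := R.hκI (a0 t) ⟨h0.le, h2⟩
      rw [← h3]
      exact mul_le_mul_of_nonneg_left (h1 h0 h2) (hadm.hκ0 _)
  have h4 : ∀ p1 p2 p3 p4, p1 ∈ good → p2 ∈ good → p3 ∈ good → p4 ∈ good →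
      p1 < p2 → p2 < p3 → p3 < p4 → p4 < p1 + 1 →
      G0 (a0 p1) + G0 (a0 p3) ≤ Γ + G0 (a0 p2) + G0 (a0 p4) := by
    intro p1 p2 p3 p4 h1 h2 h3 h4 h12 h23 h34 h41
    rw [hgood] at h1 h2 h3 h4
    have := path4 D hadm h12.le h23.le h34.le h41.le h1.1 h2.1 h3.1 h4.1
    have hs := hslope p1
    have ht := R.tight
    rw [hΓ, hG0]
    simp only at ⊢
    have hΓe : ∫ s in (0 : ℝ)..M, gs s = G0 M := by rw [hG0]
    rw [hG0] at hΓe
    linarith
  have hlow : ∀ δ > 0, ∃ t ∈ good, G0 (a0 t) < δ := by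
    intro δ hδ
    have hpos := R.hnear0 δ hδ
    by_contra hc
    push Not at hc
    apply hpos.ne'
    refine measure_mono_null (fun t ht => ?_) hnull
    intro hmem
    have h1 := hc t hmem
    have h2 := hG0lip 0 (a0 t) (D.hbd t).1
    rw [hG00] at h2
    have h3 : a0 t < δ := ht.2
    linarith
  have hhigh : ∀ δ > 0, ∃ t ∈ good, Γ - δ < G0 (a0 t) := by
    intro δ hδ
    have hpos := R.hnearM δ hδ
    by_contra hc
    push Not at hc
    apply hpos.ne'
    refine measure_mono_null (fun t ht => ?_) hnull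
    intro hmem
    have h1 := hc t hmem
    rw [hgood] at hmem
    have h2 := hG0lip (a0 t) M hmem.2
    have h3 : M - δ < a0 t := ht.2
    rw [hΓ] at h1
    linarith
  have hb0 : ∀ t ∈ good, 0 ≤ G0 (a0 t) := by
    intro t _
    have := hG0mono 0 (a0 t) (D.hbd t).1
    rwa [hG00] at this
  have hb1 : ∀ t ∈ good, G0 (a0 t) ≤ Γ := by
    intro t ht
    rw [hgood] at ht
    rw [hΓ]
    exact hG0mono _ _ ht.2
  obtain ⟨τ₁, τ₂, x, y, h12, h21, hx, hy, hxg, hyg, hxy, hyx, hbx, hby, hm1, hm2⟩ :=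
    unimodal_of_four hbper hgper h4 hΓ0 hlow hb0 hhigh hb1
  have hlt : ∀ u ∈ good, ∀ v ∈ good, G0 (a0 u) ≤ G0 (a0 v) → a0 u ≤ a0 v := by
    intro u hu v _ hle
    by_contra hc
    push Not at hc
    rw [hgood] at hu
    have := hG0strict (a0 v) (a0 u) (D.hbd v).1 hc hu.2
    linarith
  have hx0 : Tendsto (fun n => a0 (x n)) atTop (𝓝 0) := by
    rw [Metric.tendsto_atTop]
    intro ε hε
    obtain ⟨ε', hε'0, hε'1, hε'2⟩ : ∃ ε' : ℝ, 0 < ε' ∧ ε' < ε ∧ ε' ≤ M :=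
      ⟨min (ε / 2) M, lt_min (by linarith) R.hM, lt_of_le_of_lt (min_le_left _ _) (by linarith),
        min_le_right _ _⟩
    have hpos := hG0strict 0 ε' le_rfl hε'0 hε'2
    rw [hG00] at hpos
    have := (Metric.tendsto_atTop.1 hbx) _ hpos
    obtain ⟨N₀, hN⟩ := this
    refine ⟨N₀, fun n hn => ?_⟩
    have h1 := hN n hn
    rw [Real.dist_eq, sub_zero, abs_of_nonneg (hb0 _ (hxg n))] at h1
    have h2 : a0 (x n) < ε' := by
      by_contra hc
      push Not at hc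
      have := hG0mono _ _ hc
      linarith
    rw [Real.dist_eq, sub_zero, abs_of_nonneg (D.hbd _).1]
    linarith
  have hyM : Tendsto (fun n => a0 (y n)) atTop (𝓝 M) := by
    rw [Metric.tendsto_atTop]
    intro ε hε
    obtain ⟨ε', hε'0, hε'1, hε'2⟩ : ∃ ε' : ℝ, 0 < ε' ∧ ε' < ε ∧ ε' ≤ M :=
      ⟨min (ε / 2) M, lt_min (by linarith) R.hM, lt_of_le_of_lt (min_le_left _ _) (by linarith),
        min_le_right _ _⟩
    have hpos := hG0strict (M - ε') M (by linarith) (by linarith) le_rfl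
    rw [← hΓ] at hpos
    have := (Metric.tendsto_atTop.1 hby) (Γ - G0 (M - ε')) (by linarith)
    obtain ⟨N₀, hN⟩ := this
    refine ⟨N₀, fun n hn => ?_⟩
    have h1 := hN n hn
    rw [Real.dist_eq, abs_sub_comm, abs_of_nonneg (by linarith [hb1 _ (hyg n)])] at h1
    have h2 : M - ε' < a0 (y n) := by
      by_contra hc
      push Not at hc
      have := hG0mono _ _ hc
      linarith
    have hyg' := hyg n
    rw [hgood] at hyg'
    rw [Real.dist_eq, abs_sub_comm, abs_of_nonneg (by linarith [hyg'.2])]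
    linarith
  refine ⟨τ₁, τ₂, good, h12, h21, hae, ?_, ?_, ?_⟩
  · intro κ₁ g₁ κ₂ g₂ h₁ h₂
    have hI1 := integral_endpoints_tendsto (D.integrable_κ h₁) hx hy
    have hI2 := integral_endpoints_tendsto (D.integrable_κ h₂) hy (hx.add_const 1)
    have hg12 : ∀ p q, IntervalIntegrable (fun s => g₁ s + g₂ s) volume p q := fun p q =>
      (h₁.hg.add h₂.hg).intervalIntegrable p q
    have hI3 := integral_endpoints_tendsto hg12 hx0 hyM
    refine le_of_tendsto ((hI1.add hI2).add hI3) (Eventually.of_forall fun n => ?_)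
    have hxgn := hxg n
    have hygn := hyg n
    rw [hgood] at hxgn hygn
    exact two_arc D h₁ h₂ (hxy n).le (hyx n).le hxgn.1 hygn.1
  · intro u hu v hv h1 h2 h3
    exact hlt u hu v hv (hm1 u v hu hv h1 h2 h3)
  · intro u hu v hv h1 h2 h3
    exact hlt v hv u hu (hm2 u v hu hv h1 h2 h3)

end Vale.Agent.Lib.P232.Class
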