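import Vale.Agent.Lib.P232.Class.RigidDefs
import Vale.Agent.Lib.P232.Class.Law

/-! JOB R3 -/

open MeasureTheory Set Filter Topology

noncomputable section

namespace Vale.Agent.Lib.P232.Class

variable {a A N : ℕ → ℝ → ℝ} {a0 c : ℝ → ℝ} {P : ℝ} {κs gs I L : ℝ → ℝ} {lam M : ℝ}

private lemma r3_ii {f : ℝ → ℝ} (hm : Measurable f) {C : ℝ} (hb : ∀ x, |f x| ≤ C) (p q : ℝ) :
    IntervalIntegrable f volume p q := by
  rw [intervalIntegrable_iff]
  exact Measure.integrableOn_of_bounded (M := C) (by simp) hm.aestronglyMeasurable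
    (ae_of_all _ fun t => by simpa using hb t)

private lemma r3_zero {f : ℝ → ℝ} {u v : ℝ} (huv : u ≤ v) (h : ∀ s ∈ Ioo u v, f s = 0) :
    ∫ s in u..v, f s = 0 := by
  rw [intervalIntegral.integral_of_le huv, integral_Ioc_eq_integral_Ioo]
  exact setIntegral_eq_zero_of_forall_eq_zero h

/-- JOB R3 (first variation in the level). `κ₁ = κs + ε η`, `κ₂ = κs` (and the other way round);
`η` continuous, supported in a compact subset of `(0, M)`; `√(1-(k+en)²) ≥ g - e k n/g - C e²`. For both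
signs of `ε`, so the derivative vanishes. -/
theorem law_of_arcs (S : SliceData a A N a0 c P) (R : RigidData a0 c κs gs I L lam M P) {τ₁ τ₂ : ℝ}
    (h12 : τ₁ ≤ τ₂) (h21 : τ₂ ≤ τ₁ + 1)
    (harc : ∀ κ₁ g₁ κ₂ g₂ : ℝ → ℝ, Adm κ₁ g₁ → Adm κ₂ g₂ →
        (∫ t in τ₁..τ₂, κ₁ (a0 t) * c t) + (∫ t in τ₂..(τ₁ + 1), κ₂ (a0 t) * c t) +
          ∫ s in (0 : ℝ)..M, (g₁ s + g₂ s) ≤ P)
    {h : ℝ → ℝ} (hh : Continuous h) {s₁ s₂ : ℝ} (hs1 : 0 < s₁) (hs2 : s₂ < M)
    (hsupp : ∀ s, s ∉ Icc s₁ s₂ → h s = 0) :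
    (∫ t in τ₁..τ₂, h (a0 t)) = ∫ s in s₁..s₂, h s * (κs s / (gs s * I s)) ∧
    (∫ t in τ₂..(τ₁ + 1), h (a0 t)) = ∫ s in s₁..s₂, h s * (κs s / (gs s * I s)) := by
  by_cases hs12 : s₁ ≤ s₂
  swap
  · have h0 : ∀ s, h s = 0 := fun s => hsupp s (by
      rw [Icc_eq_empty hs12]
      exact notMem_empty s)
    simp [h0]
  set s₀ := s₁ / 2 with hs₀
  set s₃ := (s₂ + M) / 2 with hs₃
  have hs0pos : 0 < s₀ := by positivity
  have h01 : s₀ < s₁ := by rw [hs₀]; linarith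
  have h23 : s₂ < s₃ := by rw [hs₃]; linarith
  have h3M : s₃ < M := by rw [hs₃]; linarith
  have hIcc : ∀ s ∈ Icc s₀ s₃, s ∈ Ioo 0 M := fun s hs => ⟨by linarith [hs.1], by linarith [hs.2]⟩
  set η : ℝ → ℝ := fun s => h s / I s with hη
  have hηc : Continuous η := by
    rw [continuous_iff_continuousAt]
    intro s
    by_cases hs : s ∈ Ioo 0 M
    · exact hh.continuousAt.div ((R.hIc s hs).continuousAt (Ioo_mem_nhds hs.1 hs.2)) (R.hIpos s hs).ne'
    · have hn : s ∉ Icc s₁ s₂ := fun hm => hs ⟨by linarith [hm.1], by linarith [hm.2]⟩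
      have hv : (Icc s₁ s₂)ᶜ ∈ 𝓝 s := isClosed_Icc.isOpen_compl.mem_nhds hn
      have e : η =ᶠ[𝓝 s] fun _ => 0 := by
        filter_upwards [hv] with u hu
        simp [hη, hsupp u hu]
      exact continuousAt_const.congr e.symm
  have hηs : ∀ s, s ∉ Ioo s₀ s₃ → η s = 0 := fun s hs => by
    have : h s = 0 := hsupp s (fun hm => hs ⟨by linarith [hm.1], by linarith [hm.2]⟩)
    simp [hη, this]
  have hadm := R.adm
  obtain ⟨C₀, hC₀⟩ := S.hcb
  have hcb : ∀ t, |c t| ≤ C₀ := fun t => by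
    rw [abs_of_nonneg (S.hc0 t)]
    exact hC₀ t
  have hC₀0 : 0 ≤ C₀ := (abs_nonneg _).trans (hcb 0)
  have ham := S.ha0
  have hcm := S.hcm
  have hκ1 : ∀ s, κs s ≤ 1 := fun s => by
    nlinarith [hadm.hκg s, sq_nonneg (gs s), hadm.hκ0 s]
  have hκi : ∀ p q : ℝ, IntervalIntegrable (fun t => κs (a0 t) * c t) volume p q := by
    intro p q
    refine r3_ii (C := 1 * C₀) ((hadm.hκ.measurable.comp ham).mul hcm) (fun t => ?_) p q
    show |κs (a0 t) * c t| ≤ 1 * C₀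
    rw [abs_mul]
    refine mul_le_mul ?_ (hcb t) (abs_nonneg _) zero_le_one
    rw [abs_of_nonneg (hadm.hκ0 _)]
    exact hκ1 _
  have hai : ∀ p q : ℝ, IntervalIntegrable a0 volume p q := fun p q =>
    r3_ii (C := 1) ham (fun t => by
      rw [abs_of_nonneg (S.hbd t).1]
      exact (S.hbd t).2) p q
  have hpt : ∀ᵐ t, lam * a0 t ≤ κs (a0 t) * c t := by
    filter_upwards [R.hcI, R.hle] with t h1 h2
    rcases (S.hbd t).1.lt_or_eq with hpos | hz
    · have h3 := h1 hpos h2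
      have h4 := R.hκI (a0 t) ⟨hpos.le, h2⟩
      rw [← h4]
      exact mul_le_mul_of_nonneg_left h3 (hadm.hκ0 _)
    · rw [← hz, R.hκ0]
      simp
  have hper : Function.Periodic a0 1 := S.hper0
  have hmean : ∫ t in τ₁..(τ₁ + 1), a0 t = ∫ t in (0 : ℝ)..1, a0 t := by
    simpa using hper.intervalIntegral_add_eq τ₁ 0
  have hsum : (∫ t in τ₁..τ₂, κs (a0 t) * c t) + ∫ t in τ₂..(τ₁ + 1), κs (a0 t) * c t =
      ∫ t in τ₁..(τ₁ + 1), κs (a0 t) * c t :=
    intervalIntegral.integral_add_adjacent_intervals (hκi _ _) (hκi _ _)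
  have hlow : lam * (∫ t in (0 : ℝ)..1, a0 t) ≤ ∫ t in τ₁..(τ₁ + 1), κs (a0 t) * c t := by
    rw [← hmean, ← intervalIntegral.integral_const_mul]
    exact intervalIntegral.integral_mono_ae (by linarith) ((hai _ _).const_mul _) (hκi _ _) hpt
  have hgadd : ∀ g₁ : ℝ → ℝ, Continuous g₁ → ∫ s in (0 : ℝ)..M, (g₁ s + gs s) =
      (∫ s in (0 : ℝ)..M, g₁ s) + ∫ s in (0 : ℝ)..M, gs s := fun g₁ hg₁ =>
    intervalIntegral.integral_add (hg₁.intervalIntegrable _ _) (hadm.hg.intervalIntegrable _ _)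
  have hgadd' : ∀ g₁ : ℝ → ℝ, Continuous g₁ → ∫ s in (0 : ℝ)..M, (gs s + g₁ s) =
      (∫ s in (0 : ℝ)..M, gs s) + ∫ s in (0 : ℝ)..M, g₁ s := fun g₁ hg₁ =>
    intervalIntegral.integral_add (hadm.hg.intervalIntegrable _ _) (hg₁.intervalIntegrable _ _)
  have hup : ∫ t in τ₁..(τ₁ + 1), κs (a0 t) * c t ≤ lam * ∫ t in (0 : ℝ)..1, a0 t := by
    have h2 := harc κs gs κs gs hadm hadm
    rw [hgadd gs hadm.hg, R.tight] at h2
    linarith
  have hlτ : τ₁ ≤ τ₁ + 1 := by linarith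
  -- the pointwise equality on the period
  have heq : ∀ᵐ t ∂(volume.restrict (Ioc τ₁ (τ₁ + 1))), κs (a0 t) * c t = lam * a0 t := by
    have hfi : IntervalIntegrable (fun t => κs (a0 t) * c t - lam * a0 t) volume τ₁ (τ₁ + 1) :=
      (hκi _ _).sub ((hai _ _).const_mul _)
    have hz : ∫ t in τ₁..(τ₁ + 1), (κs (a0 t) * c t - lam * a0 t) = 0 := by
      rw [intervalIntegral.integral_sub (hκi _ _) ((hai _ _).const_mul _),
        intervalIntegral.integral_const_mul, hmean]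
      linarith
    rw [intervalIntegral.integral_of_le hlτ] at hz
    have h0 : 0 ≤ᵐ[volume.restrict (Ioc τ₁ (τ₁ + 1))] fun t => κs (a0 t) * c t - lam * a0 t := by
      filter_upwards [ae_restrict_of_ae hpt] with t ht
      show 0 ≤ κs (a0 t) * c t - lam * a0 t
      linarith
    have := (integral_eq_zero_iff_of_nonneg_ae h0
      ((intervalIntegrable_iff_integrableOn_Ioc_of_le hlτ).1 hfi)).1 hz
    filter_upwards [this] with t ht
    have ht' : κs (a0 t) * c t - lam * a0 t = 0 := ht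
    linarith
  have hkey : ∀ᵐ t ∂(volume.restrict (Ioc τ₁ (τ₁ + 1))), η (a0 t) * c t = h (a0 t) := by
    filter_upwards [heq] with t ht
    by_cases hmem : a0 t ∈ Icc s₁ s₂
    · have hin : a0 t ∈ Ioo 0 M := ⟨by linarith [hmem.1], by linarith [hmem.2]⟩
      have h4 := R.hκI (a0 t) ⟨hin.1.le, hin.2.le⟩
      have hκp := R.hκpos _ hin
      have hIp := R.hIpos _ hin
      have hce : c t = I (a0 t) := by
        have : κs (a0 t) * c t = κs (a0 t) * I (a0 t) := by rw [ht, h4]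
        exact mul_left_cancel₀ hκp.ne' this
      simp only [hη]
      rw [hce]
      field_simp
    · simp [hη, hsupp _ hmem]
  -- the integrals in the level
  set F : ℝ → ℝ := fun s => κs s / gs s * η s with hF
  have hFeq : ∀ s, F s = h s * (κs s / (gs s * I s)) := fun s => by
    simp only [hF, hη]
    ring
  have hFc : ContinuousOn F (Icc s₀ s₃) :=
    (hadm.hκ.continuousOn.div hadm.hg.continuousOn (fun s hs => (R.hgpos s (hIcc s hs)).ne')).mul
      hηc.continuousOn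
  have hFi : ∀ u v : ℝ, u ∈ Icc s₀ s₃ → v ∈ Icc s₀ s₃ → IntervalIntegrable F volume u v := by
    intro u v hu hv
    apply ContinuousOn.intervalIntegrable
    exact hFc.mono (uIcc_subset_Icc hu hv)
  have hlevel : ∫ s in s₀..s₃, F s = ∫ s in s₁..s₂, h s * (κs s / (gs s * I s)) := by
    have hm1 : s₁ ∈ Icc s₀ s₃ := ⟨h01.le, by linarith⟩
    have hm2 : s₂ ∈ Icc s₀ s₃ := ⟨by linarith, h23.le⟩
    have hm0 : s₀ ∈ Icc s₀ s₃ := ⟨le_rfl, by linarith⟩
    have hm3 : s₃ ∈ Icc s₀ s₃ := ⟨by linarith, le_rfl⟩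
    have e1 := intervalIntegral.integral_add_adjacent_intervals (hFi _ _ hm0 hm1) (hFi _ _ hm1 hm2)
    have e2 := intervalIntegral.integral_add_adjacent_intervals (hFi _ _ hm0 hm2) (hFi _ _ hm2 hm3)
    have z1 : ∫ s in s₀..s₁, F s = 0 := r3_zero h01.le fun s hs => by
      have : h s = 0 := hsupp s (fun hm => absurd hm.1 (not_le.2 hs.2))
      simp [hF, hη, this]
    have z2 : ∫ s in s₂..s₃, F s = 0 := r3_zero h23.le fun s hs => by
      have : h s = 0 := hsupp s (fun hm => absurd hm.2 (not_le.2 hs.1))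
      simp [hF, hη, this]
    have e3 : ∫ s in s₁..s₂, F s = ∫ s in s₁..s₂, h s * (κs s / (gs s * I s)) :=
      intervalIntegral.integral_congr fun s _ => hFeq s
    rw [← e3]
    linarith
  constructor
  · have hcore := law_core' (a := a0) (c := c) (κs := κs) (gs := gs) (η := η) (p := τ₁) (q := τ₂)
      (Z := ∫ t in τ₂..(τ₁ + 1), κs (a0 t) * c t) (M := M) (P := P) (C := C₀) (s₀ := s₀) (s₁ := s₃)
      ham hcm hcb hadm.hκ hadm.hg hadm.hκ0 hadm.hg0 hadm.hκg (fun s hs => R.hκg1 s (hIcc s hs))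
      (fun s hs => R.hκpos s (hIcc s hs)) (fun s hs => R.hgpos s (hIcc s hs)) hs0pos.le
      (by linarith) h3M.le
      (fun κ₁ g₁ h1 h2 h3 h4 h5 => by
        have h6 := harc κ₁ g₁ κs gs ⟨h1, h2, h3, h4, h5⟩ hadm
        rw [hgadd g₁ h2] at h6
        linarith)
      (by
        rw [R.tight]
        linarith)
      hηc hηs
    rw [← hlevel, ← hcore]
    refine intervalIntegral.integral_congr_ae ?_
    have hk' := (ae_restrict_iff' measurableSet_Ioc).1 hkey
    filter_upwards [hk'] with t ht hmem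
    rw [uIoc_of_le h12] at hmem
    exact (ht ⟨hmem.1, by linarith [hmem.2]⟩).symm
  · have hcore := law_core' (a := a0) (c := c) (κs := κs) (gs := gs) (η := η) (p := τ₂) (q := τ₁ + 1)
      (Z := ∫ t in τ₁..τ₂, κs (a0 t) * c t) (M := M) (P := P) (C := C₀) (s₀ := s₀) (s₁ := s₃)
      ham hcm hcb hadm.hκ hadm.hg hadm.hκ0 hadm.hg0 hadm.hκg (fun s hs => R.hκg1 s (hIcc s hs))
      (fun s hs => R.hκpos s (hIcc s hs)) (fun s hs => R.hgpos s (hIcc s hs)) hs0pos.le
      (by linarith) h3M.le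
      (fun κ₂ g₂ h1 h2 h3 h4 h5 => by
        have h6 := harc κs gs κ₂ g₂ hadm ⟨h1, h2, h3, h4, h5⟩
        rw [hgadd' g₂ h2] at h6
        linarith)
      (by
        rw [R.tight]
        linarith)
      hηc hηs
    rw [← hlevel, ← hcore]
    refine intervalIntegral.integral_congr_ae ?_
    have hk' := (ae_restrict_iff' measurableSet_Ioc).1 hkey
    filter_upwards [hk'] with t ht hmem
    rw [uIoc_of_le h21] at hmem
    exact (ht ⟨by linarith [hmem.1], hmem.2⟩).symm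

end Vale.Agent.Lib.P232.Class
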