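import Vale.Agent.Lib.P232.Class.RigidDefs

/-! JOB R4 -/

open MeasureTheory Set Filter Topology

noncomputable section

namespace Vale.Agent.Lib.P232.Class

variable {a A N : ℕ → ℝ → ℝ} {a0 c : ℝ → ℝ} {P : ℝ} {κs gs I L : ℝ → ℝ} {lam M : ℝ}

/-- The approximations of the indicator of `(s₁, s₂]`. -/
def bumpR4 (s₁ s₂ : ℝ) (n : ℕ) (s : ℝ) : ℝ :=
  max 0 (min 1 (min (((n : ℝ) + 1) * (s - s₁)) (1 - ((n : ℝ) + 1) * (s - s₂))))

theorem bumpR4_continuous (s₁ s₂ : ℝ) (n : ℕ) : Continuous (bumpR4 s₁ s₂ n) := by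
  unfold bumpR4
  fun_prop

theorem bumpR4_nonneg (s₁ s₂ : ℝ) (n : ℕ) (s : ℝ) : 0 ≤ bumpR4 s₁ s₂ n s := le_max_left _ _

theorem bumpR4_le_one (s₁ s₂ : ℝ) (n : ℕ) (s : ℝ) : bumpR4 s₁ s₂ n s ≤ 1 :=
  max_le zero_le_one (min_le_left _ _)

theorem bumpR4_zero_left {s₁ s₂ s : ℝ} (n : ℕ) (hs : s ≤ s₁) : bumpR4 s₁ s₂ n s = 0 := by
  unfold bumpR4
  apply max_eq_left
  apply min_le_of_right_le
  apply min_le_of_left_le
  have h : (0:ℝ) ≤ (n : ℝ) + 1 := by positivity
  nlinarith

theorem bumpR4_zero_right {s₁ s₂ s : ℝ} (n : ℕ) (hs : s₂ + 1 / ((n : ℝ) + 1) ≤ s) :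
    bumpR4 s₁ s₂ n s = 0 := by
  unfold bumpR4
  apply max_eq_left
  apply min_le_of_right_le
  apply min_le_of_right_le
  have h : (0:ℝ) < (n : ℝ) + 1 := by positivity
  have h2 : 1 / ((n : ℝ) + 1) ≤ s - s₂ := by linarith
  rw [div_le_iff₀ h] at h2
  linarith

theorem bumpR4_tendsto {s₁ s₂ : ℝ} (s : ℝ) :
    Tendsto (fun n => bumpR4 s₁ s₂ n s) atTop (𝓝 (indicator (Ioc s₁ s₂) (fun _ => (1:ℝ)) s)) := by
  classical
  by_cases hs : s ∈ Ioc s₁ s₂
  · rw [indicator_of_mem hs]
    -- eventually equal to one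
    have hpos : 0 < s - s₁ := by linarith [hs.1]
    have hev : ∀ᶠ n : ℕ in atTop, 1 ≤ ((n : ℝ) + 1) * (s - s₁) := by
      have := (tendsto_natCast_atTop_atTop (R := ℝ)).eventually_ge_atTop (1 / (s - s₁))
      filter_upwards [this] with n hn
      have h1 : 1 / (s - s₁) ≤ (n : ℝ) + 1 := by linarith
      rwa [div_le_iff₀ hpos] at h1
    apply tendsto_const_nhds.congr'
    filter_upwards [hev] with n hn
    unfold bumpR4
    have h2 : 1 ≤ 1 - ((n : ℝ) + 1) * (s - s₂) := by
      have h : (0:ℝ) ≤ (n : ℝ) + 1 := by positivity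
      have h3 : s - s₂ ≤ 0 := by linarith [hs.2]
      nlinarith
    rw [min_eq_left (le_min hn h2), max_eq_right zero_le_one]
  · rw [indicator_of_notMem hs]
    rw [mem_Ioc, not_and_or, not_lt, not_le] at hs
    rcases hs with hs | hs
    · exact tendsto_const_nhds.congr (fun n => (bumpR4_zero_left n hs).symm)
    · have hpos : 0 < s - s₂ := by linarith
      have hev : ∀ᶠ n : ℕ in atTop, 1 / ((n : ℝ) + 1) ≤ s - s₂ := by
        have := (tendsto_natCast_atTop_atTop (R := ℝ)).eventually_ge_atTop (1 / (s - s₂))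
        filter_upwards [this] with n hn
        have h0 : (0:ℝ) < (n : ℝ) + 1 := by positivity
        rw [div_le_iff₀ h0]
        have h1 : 1 / (s - s₂) ≤ (n : ℝ) + 1 := by linarith
        rw [div_le_iff₀ hpos] at h1
        linarith
      apply tendsto_const_nhds.congr'
      filter_upwards [hev] with n hn
      exact (bumpR4_zero_right n (by linarith)).symm

/-- JOB R4 (counting). From `law_of_arcs`, `hLd`, by continuous approximation of the indicator of a level
interval: the time spent at levels in `(s₁, s₂]` on each arc is `L s₁ - L s₂`.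
Extra argument `D` (for the measurability of `a0`), compared with the original stub. -/
theorem count_of_law (D : SliceData a A N a0 c P) (R : RigidData a0 c κs gs I L lam M P) {p q : ℝ}
    (hpq : p ≤ q)
    (hlaw : ∀ (h : ℝ → ℝ) (s₁ s₂ : ℝ), Continuous h → 0 < s₁ → s₂ < M → (∀ s, s ∉ Icc s₁ s₂ → h s = 0) →
      (∫ t in p..q, h (a0 t)) = ∫ s in s₁..s₂, h s * (κs s / (gs s * I s)))
    {s₁ s₂ : ℝ} (hs1 : 0 < s₁) (hs12 : s₁ ≤ s₂) (hs2 : s₂ < M) :
    (volume {t | t ∈ Ioc p q ∧ s₁ < a0 t ∧ a0 t ≤ s₂}).toReal = L s₁ - L s₂ := by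
  classical
  set w : ℝ → ℝ := fun s => κs s / (gs s * I s) with hw
  set s₃ : ℝ := (s₂ + M) / 2 with hs3
  have h23 : s₂ < s₃ := by rw [hs3]; linarith
  have h3M : s₃ < M := by rw [hs3]; linarith
  have hIcc : Icc s₁ s₃ ⊆ Ioo 0 M := fun s hs => ⟨by linarith [hs.1], by linarith [hs.2]⟩
  have hwc : ContinuousOn w (Icc s₁ s₃) := by
    apply ContinuousOn.div R.adm.hκ.continuousOn
    · exact R.adm.hg.continuousOn.mul (R.hIc.mono hIcc)
    · intro s hs
      exact (mul_pos (R.hgpos s (hIcc hs)) (R.hIpos s (hIcc hs))).ne'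
  obtain ⟨B, hB⟩ := isCompact_Icc.exists_bound_of_continuousOn hwc
  -- the identity for large n
  have hev : ∀ᶠ n : ℕ in atTop, 1 / ((n : ℝ) + 1) ≤ s₃ - s₂ := by
    have hpos : 0 < s₃ - s₂ := by linarith
    have := (tendsto_natCast_atTop_atTop (R := ℝ)).eventually_ge_atTop (1 / (s₃ - s₂))
    filter_upwards [this] with n hn
    have h0 : (0:ℝ) < (n : ℝ) + 1 := by positivity
    rw [div_le_iff₀ h0]
    have h1 : 1 / (s₃ - s₂) ≤ (n : ℝ) + 1 := by linarith
    rw [div_le_iff₀ hpos] at h1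
    linarith
  have hid : ∀ᶠ n : ℕ in atTop, (∫ t in p..q, bumpR4 s₁ s₂ n (a0 t))
      = ∫ s in s₁..s₃, bumpR4 s₁ s₂ n s * w s := by
    filter_upwards [hev] with n hn
    apply hlaw _ _ _ (bumpR4_continuous s₁ s₂ n) hs1 h3M
    intro s hs
    rw [mem_Icc, not_and_or, not_le, not_le] at hs
    rcases hs with hs | hs
    · exact bumpR4_zero_left n hs.le
    · exact bumpR4_zero_right n (by linarith)
  have ha0 := D.ha0
  have hmset : MeasurableSet (a0 ⁻¹' Ioc s₁ s₂) := ha0 measurableSet_Ioc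
  -- limit on the left
  have hL : Tendsto (fun n : ℕ => ∫ t in p..q, bumpR4 s₁ s₂ n (a0 t)) atTop
      (𝓝 (∫ t in p..q, indicator (Ioc s₁ s₂) (fun _ => (1:ℝ)) (a0 t))) := by
    apply intervalIntegral.tendsto_integral_filter_of_dominated_convergence (fun _ => (1:ℝ))
    · exact Eventually.of_forall (fun n =>
        ((bumpR4_continuous s₁ s₂ n).measurable.comp ha0).aestronglyMeasurable)
    · refine Eventually.of_forall (fun n => Eventually.of_forall (fun t _ => ?_))
      rw [Real.norm_eq_abs, abs_of_nonneg (bumpR4_nonneg _ _ _ _)]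
      exact bumpR4_le_one _ _ _ _
    · exact intervalIntegrable_const
    · exact Eventually.of_forall (fun t _ => bumpR4_tendsto (a0 t))
  -- limit on the right
  have hR : Tendsto (fun n : ℕ => ∫ s in s₁..s₃, bumpR4 s₁ s₂ n s * w s) atTop
      (𝓝 (∫ s in s₁..s₃, indicator (Ioc s₁ s₂) (fun _ => (1:ℝ)) s * w s)) := by
    apply intervalIntegral.tendsto_integral_filter_of_dominated_convergence (fun _ => B)
    · refine Eventually.of_forall (fun n => ?_)
      rw [uIoc_of_le (by linarith)]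
      have : ContinuousOn (fun s => bumpR4 s₁ s₂ n s * w s) (Ioc s₁ s₃) :=
        (bumpR4_continuous s₁ s₂ n).continuousOn.mul (hwc.mono Ioc_subset_Icc_self)
      exact this.aestronglyMeasurable measurableSet_Ioc
    · refine Eventually.of_forall (fun n => Eventually.of_forall (fun s hs => ?_))
      rw [uIoc_of_le (by linarith)] at hs
      rw [norm_mul, Real.norm_eq_abs, abs_of_nonneg (bumpR4_nonneg _ _ _ _)]
      calc bumpR4 s₁ s₂ n s * ‖w s‖ ≤ 1 * ‖w s‖ :=
            mul_le_mul_of_nonneg_right (bumpR4_le_one _ _ _ _) (norm_nonneg _)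
        _ ≤ B := by rw [one_mul]; exact hB s (Ioc_subset_Icc_self hs)
    · exact intervalIntegrable_const
    · exact Eventually.of_forall (fun s _ => (bumpR4_tendsto s).mul_const _)
  have hlim : (∫ t in p..q, indicator (Ioc s₁ s₂) (fun _ => (1:ℝ)) (a0 t))
      = ∫ s in s₁..s₃, indicator (Ioc s₁ s₂) (fun _ => (1:ℝ)) s * w s :=
    tendsto_nhds_unique (hL.congr' hid) hR
  -- the left side is the measure
  have hleft : (∫ t in p..q, indicator (Ioc s₁ s₂) (fun _ => (1:ℝ)) (a0 t))
      = (volume {t | t ∈ Ioc p q ∧ s₁ < a0 t ∧ a0 t ≤ s₂}).toReal := by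
    rw [intervalIntegral.integral_of_le hpq]
    have h1 : ∀ t, indicator (Ioc s₁ s₂) (fun _ => (1:ℝ)) (a0 t)
        = indicator (a0 ⁻¹' Ioc s₁ s₂) (fun _ => (1:ℝ)) t := by
      intro t
      by_cases ht : a0 t ∈ Ioc s₁ s₂
      · rw [indicator_of_mem ht, indicator_of_mem (show t ∈ a0 ⁻¹' Ioc s₁ s₂ from ht)]
      · rw [indicator_of_notMem ht, indicator_of_notMem (show t ∉ a0 ⁻¹' Ioc s₁ s₂ from ht)]
    simp only [h1]
    rw [setIntegral_indicator hmset, setIntegral_const, smul_eq_mul, mul_one]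
    have hset : Ioc p q ∩ a0 ⁻¹' Ioc s₁ s₂ = {t | t ∈ Ioc p q ∧ s₁ < a0 t ∧ a0 t ≤ s₂} := by
      ext t
      simp [mem_Ioc]
    rw [hset]
    rfl
  -- the right side is the integral of the density
  have hright : (∫ s in s₁..s₃, indicator (Ioc s₁ s₂) (fun _ => (1:ℝ)) s * w s)
      = ∫ s in s₁..s₂, w s := by
    have hint : IntervalIntegrable (fun s => indicator (Ioc s₁ s₂) (fun _ => (1:ℝ)) s * w s)
        volume s₁ s₃ := by
      have hwi : IntervalIntegrable w volume s₁ s₃ := by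
        apply ContinuousOn.intervalIntegrable
        rwa [uIcc_of_le (by linarith)]
      have : (fun s => indicator (Ioc s₁ s₂) (fun _ => (1:ℝ)) s * w s)
          = indicator (Ioc s₁ s₂) w := by
        ext s
        by_cases hs : s ∈ Ioc s₁ s₂
        · rw [indicator_of_mem hs, indicator_of_mem hs, one_mul]
        · rw [indicator_of_notMem hs, indicator_of_notMem hs, zero_mul]
      rw [this]
      rw [intervalIntegrable_iff] at hwi ⊢
      exact hwi.indicator measurableSet_Ioc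
    have h13 : s₁ ≤ s₃ := by linarith
    rw [← intervalIntegral.integral_add_adjacent_intervals (b := s₂)
      (hint.mono_set (by
        rw [uIcc_of_le hs12, uIcc_of_le h13]; exact Icc_subset_Icc_right h23.le))
      (hint.mono_set (by
        rw [uIcc_of_le h23.le, uIcc_of_le h13]; exact Icc_subset_Icc_left hs12))]
    have e1 : (∫ s in s₁..s₂, indicator (Ioc s₁ s₂) (fun _ => (1:ℝ)) s * w s)
        = ∫ s in s₁..s₂, w s := by
      apply intervalIntegral.integral_congr_ae
      refine Eventually.of_forall (fun s hs => ?_)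
      rw [uIoc_of_le hs12] at hs
      rw [indicator_of_mem hs, one_mul]
    have e2 : (∫ s in s₂..s₃, indicator (Ioc s₁ s₂) (fun _ => (1:ℝ)) s * w s) = 0 := by
      apply intervalIntegral.integral_zero_ae
      refine Eventually.of_forall (fun s hs => ?_)
      rw [uIoc_of_le h23.le] at hs
      have : s ∉ Ioc s₁ s₂ := fun hc => absurd hc.2 (not_le.2 hs.1)
      rw [indicator_of_notMem this, zero_mul]
    rw [e1, e2, add_zero]
  -- fundamental theorem of calculus
  have hftc : ∫ s in s₁..s₂, w s = L s₁ - L s₂ := by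
    have hsub : uIcc s₁ s₂ ⊆ Ioo 0 M := by
      rw [uIcc_of_le hs12]
      exact fun s hs => ⟨by linarith [hs.1], by linarith [hs.2]⟩
    have hwi : IntervalIntegrable w volume s₁ s₂ := by
      apply ContinuousOn.intervalIntegrable
      apply hwc.mono
      rw [uIcc_of_le hs12]
      exact Icc_subset_Icc_right h23.le
    have := intervalIntegral.integral_eq_sub_of_hasDerivAt (f := L) (f' := fun s => - w s)
      (a := s₁) (b := s₂)
      (fun s hs => R.hLd s (hsub hs)) hwi.neg
    rw [intervalIntegral.integral_neg] at this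
    linarith
  rw [← hleft, hlim, hright, hftc]

end Vale.Agent.Lib.P232.Class
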