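import Vale.Agent.Lib.P232.Class.RigidDefs

/-! JOB R5 -/

open MeasureTheory Set Filter Topology

noncomputable section

namespace Vale.Agent.Lib.P232.Class

variable {a A N : ℕ → ℝ → ℝ} {a0 c : ℝ → ℝ} {P : ℝ} {κs gs I L : ℝ → ℝ} {lam M : ℝ}

theorem a0_intervalIntegrable (D : SliceData a A N a0 c P) (x y : ℝ) :
    IntervalIntegrable a0 volume x y := by
  rw [intervalIntegrable_iff]
  apply Measure.integrableOn_of_bounded (M := 1) (by simp) D.ha0.aestronglyMeasurable
  exact Eventually.of_forall (fun t => by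
    rw [Real.norm_eq_abs, abs_of_nonneg (D.hbd t).1]; exact (D.hbd t).2)

/-- One arc: the time above `s` is `L s + n`, with a constant `n ≥ 0`, and the integral of `a0` over
the arc is `∫ L + M n`. -/
theorem arc_const (D : SliceData a A N a0 c P) (R : RigidData a0 c κs gs I L lam M P) {p q : ℝ}
    (hpq : p ≤ q)
    (hc : ∀ s₁ s₂, 0 < s₁ → s₁ ≤ s₂ → s₂ < M →
      (volume {t | t ∈ Ioc p q ∧ s₁ < a0 t ∧ a0 t ≤ s₂}).toReal = L s₁ - L s₂) :
    ∃ n : ℝ, 0 ≤ n ∧ (∀ s ∈ Ioo 0 M, (volume {t | t ∈ Ioc p q ∧ s < a0 t}).toReal = L s + n) ∧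
      (∫ t in p..q, a0 t) = (∫ s in (0:ℝ)..M, L s) + M * n := by
  classical
  have hM := R.hM
  have ha0 := D.ha0
  set v : ℝ → ℝ := fun s => (volume {t | t ∈ Ioc p q ∧ s < a0 t}).toReal with hv
  -- finiteness
  have hfin : ∀ (Q : ℝ → Prop), volume {t | t ∈ Ioc p q ∧ Q t} ≠ ⊤ := by
    intro Q
    apply ne_top_of_le_ne_top (b := volume (Ioc p q))
    · rw [Real.volume_Ioc]; exact ENNReal.ofReal_ne_top
    · exact measure_mono (fun t ht => ht.1)
  have hadd : ∀ s s', 0 < s → s ≤ s' → s' < M → v s = (L s - L s') + v s' := by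
    intro s s' h0 hle hlt
    rw [← hc s s' h0 hle hlt]
    have hset : {t | t ∈ Ioc p q ∧ s < a0 t}
        = {t | t ∈ Ioc p q ∧ s < a0 t ∧ a0 t ≤ s'} ∪ {t | t ∈ Ioc p q ∧ s' < a0 t} := by
      ext t
      simp only [Set.mem_ofPred_eq, mem_union]
      constructor
      · rintro ⟨h1, h2⟩
        by_cases h3 : a0 t ≤ s'
        · exact Or.inl ⟨h1, h2, h3⟩
        · exact Or.inr ⟨h1, not_le.1 h3⟩
      · rintro (⟨h1, h2, _⟩ | ⟨h1, h2⟩)
        · exact ⟨h1, h2⟩
        · exact ⟨h1, lt_of_le_of_lt hle h2⟩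
    have hdisj : Disjoint {t | t ∈ Ioc p q ∧ s < a0 t ∧ a0 t ≤ s'} {t | t ∈ Ioc p q ∧ s' < a0 t} := by
      rw [Set.disjoint_left]
      rintro t ⟨_, _, h3⟩ ⟨_, h4⟩
      exact absurd h4 (not_lt.2 h3)
    have hmeas : MeasurableSet {t | t ∈ Ioc p q ∧ s' < a0 t} :=
      measurableSet_Ioc.inter (ha0 measurableSet_Ioi)
    simp only [hv]
    rw [hset, measure_union hdisj hmeas, ENNReal.toReal_add (hfin _) (hfin _)]
  set s0 : ℝ := M / 2 with hs0
  have hs0pos : 0 < s0 := by rw [hs0]; linarith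
  have hs0lt : s0 < M := by rw [hs0]; linarith
  set n : ℝ := v s0 - L s0 with hn
  have hform : ∀ s ∈ Ioo 0 M, v s = L s + n := by
    intro s hs
    rcases le_total s s0 with h | h
    · have := hadd s s0 hs.1 h hs0lt
      rw [this, hn]; ring
    · have := hadd s0 s hs0pos h hs.2
      rw [hn, this]; ring
  have hn0 : 0 ≤ n := by
    have h1 : ContinuousWithinAt L (Iic M) M :=
      (continuousWithinAt_Icc_iff_Iic hM).1 (R.hLc M ⟨hM.le, le_refl M⟩)
    have h2 : Tendsto L (𝓝[<] M) (𝓝 (L M)) := h1.mono Iio_subset_Iic_self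
    rw [R.hLM] at h2
    have h3 : Tendsto (fun s => L s + n) (𝓝[<] M) (𝓝 (0 + n)) := h2.add_const n
    rw [zero_add] at h3
    apply ge_of_tendsto h3
    filter_upwards [Ioo_mem_nhdsLT hM] with s hs
    rw [← hform s hs]
    exact ENNReal.toReal_nonneg
  refine ⟨n, hn0, hform, ?_⟩
  -- the layer cake
  set μ : Measure ℝ := volume.restrict (Ioc p q) with hμ
  have hint : Integrable a0 μ := by
    have := a0_intervalIntegrable D p q
    rw [intervalIntegrable_iff, uIoc_of_le hpq] at this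
    exact this
  have hnn : 0 ≤ᵐ[μ] a0 := Eventually.of_forall (fun t => (D.hbd t).1)
  have hcake := hint.integral_eq_integral_meas_lt hnn
  have hmeasure : ∀ s : ℝ, μ.real {x | s < a0 x} = v s := by
    intro s
    simp only [hv]
    have hms : MeasurableSet {x | s < a0 x} := ha0 measurableSet_Ioi
    rw [measureReal_def, hμ, Measure.restrict_apply hms]
    congr 2
    ext t
    simp only [Set.mem_ofPred_eq, mem_inter_iff]
    exact and_comm
  have hcut : ∫ s in Ioi (0:ℝ), μ.real {x | s < a0 x} = ∫ s in Ioo (0:ℝ) M, μ.real {x | s < a0 x} := by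
    apply setIntegral_eq_of_subset_of_forall_sdiff_eq_zero measurableSet_Ioi
      (fun s hs => hs.1)
    intro s hs
    have hs1 : M ≤ s := by
      by_contra hcon
      exact hs.2 ⟨hs.1, not_le.1 hcon⟩
    have hnull : volume {t | M < a0 t} = 0 := by
      have := R.hle
      rw [ae_iff] at this
      refine measure_mono_null ?_ this
      intro t ht
      simpa using ht
    rw [measureReal_def, ENNReal.toReal_eq_zero_iff]
    left
    apply measure_mono_null (t := {t | M < a0 t}) (fun t ht => lt_of_le_of_lt hs1 ht)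
    rw [hμ]
    exact Measure.restrict_le_self.absolutelyContinuous hnull
  have hL : IntervalIntegrable L volume 0 M := by
    apply ContinuousOn.intervalIntegrable
    rw [uIcc_of_le hM.le]
    exact R.hLc
  rw [intervalIntegral.integral_of_le hpq]
  change ∫ t, a0 t ∂μ = _
  rw [hcake, hcut]
  have e1 : ∫ s in Ioo (0:ℝ) M, μ.real {x | s < a0 x} = ∫ s in Ioo (0:ℝ) M, (L s + n) := by
    apply setIntegral_congr_fun measurableSet_Ioo
    intro s hs
    simp only
    rw [hmeasure s]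
    exact hform s hs
  rw [e1, ← integral_Ioc_eq_integral_Ioo, ← intervalIntegral.integral_of_le hM.le,
    intervalIntegral.integral_add hL intervalIntegrable_const, intervalIntegral.integral_const,
    sub_zero, smul_eq_mul]

/-- JOB R5 (layer cake, no mass at the top). With `balance`: the time at the top level vanishes on both
arcs, and the time above `s` is exactly `L s`.  Extra argument `D`, compared with the original stub. -/
theorem count_top (D : SliceData a A N a0 c P) (R : RigidData a0 c κs gs I L lam M P) {τ₁ τ₂ : ℝ}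
    (h12 : τ₁ ≤ τ₂) (h21 : τ₂ ≤ τ₁ + 1)
    (hc1 : ∀ s₁ s₂, 0 < s₁ → s₁ ≤ s₂ → s₂ < M →
      (volume {t | t ∈ Ioc τ₁ τ₂ ∧ s₁ < a0 t ∧ a0 t ≤ s₂}).toReal = L s₁ - L s₂)
    (hc2 : ∀ s₁ s₂, 0 < s₁ → s₁ ≤ s₂ → s₂ < M →
      (volume {t | t ∈ Ioc τ₂ (τ₁ + 1) ∧ s₁ < a0 t ∧ a0 t ≤ s₂}).toReal = L s₁ - L s₂) :
    (∀ s ∈ Ioo 0 M, (volume {t | t ∈ Ioc τ₁ τ₂ ∧ s < a0 t}).toReal = L s) ∧
    (∀ s ∈ Ioo 0 M, (volume {t | t ∈ Ioc τ₂ (τ₁ + 1) ∧ s < a0 t}).toReal = L s) := by
  obtain ⟨n₁, hn₁, hf₁, hi₁⟩ := arc_const D R h12 hc1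
  obtain ⟨n₂, hn₂, hf₂, hi₂⟩ := arc_const D R h21 hc2
  have hper : Function.Periodic a0 1 := fun t => D.hper0 t
  have hbal := R.balance
  have h01 : (∫ t in τ₁..(τ₁ + 1), a0 t) = ∫ t in (0:ℝ)..1, a0 t := by
    have := hper.intervalIntegral_add_eq τ₁ 0
    rwa [zero_add] at this
  have hsplit := intervalIntegral.integral_add_adjacent_intervals
    (a0_intervalIntegrable D τ₁ τ₂) (a0_intervalIntegrable D τ₂ (τ₁ + 1))
  have hM := R.hM
  have hsum : M * (n₁ + n₂) = 0 := by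
    have : (∫ t in (0:ℝ)..1, a0 t) = 2 * (∫ s in (0:ℝ)..M, L s) + M * (n₁ + n₂) := by
      rw [← h01, ← hsplit, hi₁, hi₂]; ring
    linarith
  have hn : n₁ + n₂ = 0 := by
    rcases mul_eq_zero.1 hsum with h | h
    · exact absurd h hM.ne'
    · exact h
  have hn₁0 : n₁ = 0 := by linarith
  have hn₂0 : n₂ = 0 := by linarith
  constructor
  · intro s hs
    rw [hf₁ s hs, hn₁0, add_zero]
  · intro s hs
    rw [hf₂ s hs, hn₂0, add_zero]

end Vale.Agent.Lib.P232.Class
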