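import Vale.Agent.Lib.P232.Class.RigidDefs

/-! JOB R6 -/

open MeasureTheory Set Filter Topology

noncomputable section

namespace Vale.Agent.Lib.P232.Class

variable {a A N : ℕ → ℝ → ℝ} {a0 c : ℝ → ℝ} {P : ℝ} {κs gs I L : ℝ → ℝ} {lam M : ℝ}

lemma toReal_le_of_ae {s t : Set ℝ} (ht : volume t ≠ ⊤) (h : ∀ᵐ x, x ∈ s → x ∈ t) :
    (volume s).toReal ≤ (volume t).toReal :=
  ENNReal.toReal_mono ht (measure_mono_ae (h.mono fun _ hx => hx))

/-- From the two one-sided comparisons to the value of `L` at a level. -/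
lemma level_eq {L : ℝ → ℝ} {M x d : ℝ} (hM : 0 < M) (hLc : ContinuousOn L (Icc 0 M)) (hLM : L M = 0)
    (hd : 0 < d) (hx : 0 < x)
    (hlow : ∀ s, 0 < s → s < M → s < x → d ≤ L s)
    (hup : ∀ s, 0 < s → s < M → x < s → L s ≤ d) : L x = d := by
  have hxM : x < M := by
    by_contra hc
    push Not at hc
    have h1 : Tendsto L (𝓝[Ioo 0 M] M) (𝓝 (L M)) :=
      ((hLc M ⟨hM.le, le_rfl⟩).mono Ioo_subset_Icc_self).tendsto
    haveI : (𝓝[Ioo 0 M] M).NeBot := right_nhdsWithin_Ioo_neBot hM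
    have h2 : d ≤ L M := ge_of_tendsto h1 (by
      filter_upwards [self_mem_nhdsWithin] with s hs
      exact hlow s hs.1 hs.2 (lt_of_lt_of_le hs.2 hc))
    rw [hLM] at h2
    linarith
  have hcont : ContinuousAt L x := hLc.continuousAt (Icc_mem_nhds hx hxM)
  apply le_antisymm
  · have h1 : Tendsto L (𝓝[>] x) (𝓝 (L x)) := hcont.tendsto.mono_left nhdsWithin_le_nhds
    exact le_of_tendsto h1 (by
      filter_upwards [Ioo_mem_nhdsGT hxM] with s hs
      exact hup s (hx.trans hs.1) hs.2 hs.1)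
  · have h1 : Tendsto L (𝓝[<] x) (𝓝 (L x)) := hcont.tendsto.mono_left nhdsWithin_le_nhds
    exact ge_of_tendsto h1 (by
      filter_upwards [Ioo_mem_nhdsLT hx] with s hs
      exact hlow s hs.1 (hs.2.trans hxM) hs.2)

/-- JOB R6 (monotone + law = exact). For a.e. `t` of the arc with `a0 t ∈ (0, M)`: the set above `a0 t` is
`(t, τ₂)` up to null sets. Also `a0 t = M` on a null set by `count_top`. -/
theorem exact_of_count (R : RigidData a0 c κs gs I L lam M P) {τ₁ τ₂ : ℝ} {G : Set ℝ}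
    (hG : ∀ᵐ t, t ∈ G)
    (hmono1 : ∀ u ∈ G, ∀ v ∈ G, τ₁ < u → u < v → v < τ₂ → a0 u ≤ a0 v)
    (hmono2 : ∀ u ∈ G, ∀ v ∈ G, τ₂ < u → u < v → v < τ₁ + 1 → a0 v ≤ a0 u)
    (hc1 : ∀ s ∈ Ioo 0 M, (volume {t | t ∈ Ioc τ₁ τ₂ ∧ s < a0 t}).toReal = L s)
    (hc2 : ∀ s ∈ Ioo 0 M, (volume {t | t ∈ Ioc τ₂ (τ₁ + 1) ∧ s < a0 t}).toReal = L s) :
    ∀ᵐ t, t ∈ Ioo τ₁ (τ₁ + 1) → 0 < a0 t → L (a0 t) = |t - τ₂| := by
  have hne : ∀ c : ℝ, ∀ᵐ t : ℝ, t ≠ c := fun c => by
    simp [ae_iff, measure_singleton]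
  have hfin : ∀ {p q : ℝ} {S : Set ℝ}, S ⊆ Ioc p q → volume S ≠ ⊤ := fun h =>
    ne_top_of_le_ne_top measure_Ioc_lt_top.ne (measure_mono h)
  filter_upwards [hG, hne τ₂] with t ht htne hmem hpos
  rcases lt_or_gt_of_ne htne with hlt | hgt
  · rw [abs_of_neg (by linarith), neg_sub]
    refine level_eq R.hM R.hLc R.hLM (by linarith) hpos ?_ ?_
    · intro s hs0 hsM hst
      rw [← hc1 s ⟨hs0, hsM⟩]
      have h1 : (volume (Ioo t τ₂)).toReal ≤ (volume {t | t ∈ Ioc τ₁ τ₂ ∧ s < a0 t}).toReal := by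
        apply toReal_le_of_ae (hfin (p := τ₁) (q := τ₂) fun x hx => hx.1)
        filter_upwards [hG] with x hx hxm
        have := hmono1 t ht x hx hmem.1 hxm.1 hxm.2
        exact ⟨⟨hmem.1.trans hxm.1, hxm.2.le⟩, by linarith⟩
      have e : (volume (Ioo t τ₂)).toReal = τ₂ - t := Real.volume_real_Ioo_of_le hlt.le
      linarith
    · intro s hs0 hsM hst
      rw [← hc1 s ⟨hs0, hsM⟩]
      have h1 : (volume {t | t ∈ Ioc τ₁ τ₂ ∧ s < a0 t}).toReal ≤ (volume (Ioc t τ₂)).toReal := by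
        apply toReal_le_of_ae measure_Ioc_lt_top.ne
        filter_upwards [hG] with x hx hxm
        refine ⟨?_, hxm.1.2⟩
        by_contra hc
        push Not at hc
        rcases hc.eq_or_lt with he | hl
        · rw [he] at hxm
          linarith [hxm.2]
        · have := hmono1 x hx t ht hxm.1.1 hl hlt
          linarith [hxm.2]
      have e : (volume (Ioc t τ₂)).toReal = τ₂ - t := Real.volume_real_Ioc_of_le hlt.le
      linarith
  · rw [abs_of_pos (by linarith)]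
    refine level_eq R.hM R.hLc R.hLM (by linarith) hpos ?_ ?_
    · intro s hs0 hsM hst
      rw [← hc2 s ⟨hs0, hsM⟩]
      have h1 : (volume (Ioo τ₂ t)).toReal ≤
          (volume {t | t ∈ Ioc τ₂ (τ₁ + 1) ∧ s < a0 t}).toReal := by
        apply toReal_le_of_ae (hfin (p := τ₂) (q := τ₁ + 1) fun x hx => hx.1)
        filter_upwards [hG] with x hx hxm
        have := hmono2 x hx t ht hxm.1 hxm.2 hmem.2
        exact ⟨⟨hxm.1, by linarith [hxm.2, hmem.2]⟩, by linarith⟩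
      have e : (volume (Ioo τ₂ t)).toReal = t - τ₂ := Real.volume_real_Ioo_of_le hgt.le
      linarith
    · intro s hs0 hsM hst
      rw [← hc2 s ⟨hs0, hsM⟩]
      have h1 : (volume {t | t ∈ Ioc τ₂ (τ₁ + 1) ∧ s < a0 t}).toReal ≤
          (volume (Ioc τ₂ t)).toReal := by
        apply toReal_le_of_ae measure_Ioc_lt_top.ne
        filter_upwards [hG, hne (τ₁ + 1)] with x hx hxne hxm
        refine ⟨hxm.1.1, ?_⟩
        by_contra hc
        push Not at hc
        have hx1 : x < τ₁ + 1 := lt_of_le_of_ne hxm.1.2 hxne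
        have := hmono2 t ht x hx hgt hc hx1
        linarith [hxm.2]
      have e : (volume (Ioc τ₂ t)).toReal = t - τ₂ := Real.volume_real_Ioc_of_le hgt.le
      linarith

end Vale.Agent.Lib.P232.Class
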