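import Vale.Agent.Lib.P232.Class.CanonDefs

/-! The regions of the conjecture: balls and tubes are embedded. -/

open MeasureTheory

noncomputable section

namespace Vale.Agent.Lib.P232

/-- `S` agrees up to a null set with an embedded periodic ball (radius `r < 1/2`), an embedded periodic
solid tube about a line parallel to a coordinate axis (radius `r < 1/2`), or a periodic slab of width
`w ∈ (0, 1)` normal to a coordinate axis. -/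
def IsRegion (S : Set R3) : Prop :=
  (∃ x₀ y₀ t₀ r, 0 < r ∧ r < 1 / 2 ∧ S =ᵐ[volume] ballSet x₀ y₀ t₀ r) ∨
  (∃ x₀ y₀ r, 0 < r ∧ r < 1 / 2 ∧ S =ᵐ[volume] tubeT x₀ y₀ r) ∨
  (∃ y₀ t₀ r, 0 < r ∧ r < 1 / 2 ∧ S =ᵐ[volume] tubeX y₀ t₀ r) ∨
  (∃ x₀ t₀ r, 0 < r ∧ r < 1 / 2 ∧ S =ᵐ[volume] tubeY x₀ t₀ r) ∨
  (∃ t₀ w, 0 < w ∧ w < 1 ∧ S =ᵐ[volume] slabT t₀ w) ∨
  (∃ x₀ w, 0 < w ∧ w < 1 ∧ S =ᵐ[volume] slabX x₀ w) ∨
  (∃ y₀ w, 0 < w ∧ w < 1 ∧ S =ᵐ[volume] slabY y₀ w)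

end Vale.Agent.Lib.P232
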