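import Vale.Agent.Lib.P232.Class.R2
import Vale.Agent.Lib.P232.Class.R3
import Vale.Agent.Lib.P232.Class.R4
import Vale.Agent.Lib.P232.Class.R5
import Vale.Agent.Lib.P232.Class.R6

/-! Rigidity, assembled. -/

open MeasureTheory Set Filter Topology

noncomputable section

namespace Vale.Agent.Lib.P232.Class

variable {a A N : ℕ → ℝ → ℝ} {a0 c : ℝ → ℝ} {P : ℝ} {κs gs I L : ℝ → ℝ} {lam M : ℝ}

/-- **Rigidity.** -/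
theorem rigid (D : SliceData a A N a0 c P) (R : RigidData a0 c κs gs I L lam M P) :
    ∃ τ₁ τ₂ : ℝ, τ₁ ≤ τ₂ ∧ τ₂ ≤ τ₁ + 1 ∧
      ∀ᵐ t, t ∈ Ioo τ₁ (τ₁ + 1) → 0 < a0 t → L (a0 t) = |t - τ₂| := by
  obtain ⟨τ₁, τ₂, G, h12, h21, hG, harc, hm1, hm2⟩ := exists_arcs D R
  refine ⟨τ₁, τ₂, h12, h21, ?_⟩
  have hlaw1 : ∀ (h : ℝ → ℝ) (s₁ s₂ : ℝ), Continuous h → 0 < s₁ → s₂ < M →
      (∀ s, s ∉ Icc s₁ s₂ → h s = 0) →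
      (∫ t in τ₁..τ₂, h (a0 t)) = ∫ s in s₁..s₂, h s * (κs s / (gs s * I s)) :=
    fun h s₁ s₂ hh h1 h2 h3 => (law_of_arcs D R h12 h21 harc hh h1 h2 h3).1
  have hlaw2 : ∀ (h : ℝ → ℝ) (s₁ s₂ : ℝ), Continuous h → 0 < s₁ → s₂ < M →
      (∀ s, s ∉ Icc s₁ s₂ → h s = 0) →
      (∫ t in τ₂..(τ₁ + 1), h (a0 t)) = ∫ s in s₁..s₂, h s * (κs s / (gs s * I s)) :=
    fun h s₁ s₂ hh h1 h2 h3 => (law_of_arcs D R h12 h21 harc hh h1 h2 h3).2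
  have hc := count_top D R h12 h21 (fun s₁ s₂ h1 h2 h3 => count_of_law D R h12 hlaw1 h1 h2 h3)
    (fun s₁ s₂ h1 h2 h3 => count_of_law D R h21 hlaw2 h1 h2 h3)
  exact exact_of_count R hG hm1 hm2 hc.1 hc.2


end Vale.Agent.Lib.P232.Class
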