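import Vale.Agent.Lib.P232.Slice

/-!
# P232, stage 4: rigidity of the area profile

`SliceData` packages the data of the slicing inequality (as in `generic_slice`).  `rigid`: if the
slicing inequality with the line `q = lam s` is tight, then the area profile `a0` is determined:
`L (a0 t) = |t - τ₂|` where `a0 > 0`, on the period `(τ₁, τ₁ + 1)`.
Used at level three (balls) and level two (discs).
See report `helper42 stage 4` for the paper proof.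
-/

open MeasureTheory Set Filter Topology

noncomputable section

namespace Vale.Agent.Lib.P232.Class

/-- The data of the slicing inequality. -/
structure SliceData (a A N : ℕ → ℝ → ℝ) (a0 c : ℝ → ℝ) (P : ℝ) : Prop where
  ha : ∀ k, ContDiff ℝ 1 (a k)
  hper : ∀ k t, a k (t + 1) = a k t
  hconv : ∀ᵐ t, Tendsto (fun k => a k t) atTop (𝓝 (a0 t))
  ha0 : Measurable a0
  hper0 : ∀ t, a0 (t + 1) = a0 t
  hbd : ∀ t, 0 ≤ a0 t ∧ a0 t ≤ 1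
  hA : ∀ k, Continuous (A k)
  hA0 : ∀ k t, 0 ≤ A k t
  hNc : ∀ k, Continuous (N k)
  hNper : ∀ k t, N k (t + 1) = N k t
  hN : ∀ k t α β, 0 ≤ α → α ^ 2 + β ^ 2 ≤ 1 → α * A k t + β * deriv (a k) t ≤ N k t
  hc : ∀ᵐ t, ∀ ε > 0, ∀ᶠ k in atTop, c t - ε ≤ A k t
  hcm : Measurable c
  hc0 : ∀ t, 0 ≤ c t
  hcb : ∃ C, ∀ t, c t ≤ C
  hP : ∀ ε > 0, ∃ᶠ k in atTop, ∫ t in (0 : ℝ)..1, N k t ≤ P + ε

/-- An admissible pair: `κ, g` continuous, nonnegative, `κ² + g² ≤ 1`. -/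
structure Adm (κ g : ℝ → ℝ) : Prop where
  hκ : Continuous κ
  hg : Continuous g
  hκ0 : ∀ s, 0 ≤ κ s
  hg0 : ∀ s, 0 ≤ g s
  hκg : ∀ s, κ s ^ 2 + g s ^ 2 ≤ 1

/-- A point of convergence. -/
def Good (a : ℕ → ℝ → ℝ) (a0 : ℝ → ℝ) (t : ℝ) : Prop := Tendsto (fun k => a k t) atTop (𝓝 (a0 t))

/-- The data of the rigidity statement: the tight line `q = lam s` for the slice bound `I`, with inverse
profile `L`. -/
structure RigidData (a0 c : ℝ → ℝ) (κs gs I L : ℝ → ℝ) (lam M P : ℝ) : Prop where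
  hM : 0 < M
  hM1 : M ≤ 1
  adm : Adm κs gs
  hκpos : ∀ s ∈ Ioo 0 M, 0 < κs s
  hgpos : ∀ s ∈ Ioo 0 M, 0 < gs s
  hκg1 : ∀ s ∈ Ioo 0 M, κs s ^ 2 + gs s ^ 2 = 1
  hIpos : ∀ s ∈ Ioo 0 M, 0 < I s
  hIc : ContinuousOn I (Ioo 0 M)
  hκI : ∀ s ∈ Icc 0 M, κs s * I s = lam * s
  hκ0 : κs 0 = 0
  hcI : ∀ᵐ t, 0 < a0 t → a0 t ≤ M → I (a0 t) ≤ c t
  hLc : ContinuousOn L (Icc 0 M)
  hLM : L M = 0
  hLd : ∀ s ∈ Ioo 0 M, HasDerivAt L (-(κs s / (gs s * I s))) s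
  hle : ∀ᵐ t, a0 t ≤ M
  hnear0 : ∀ ε > 0, 0 < volume {t | t ∈ Ioc (0 : ℝ) 1 ∧ a0 t < ε}
  hnearM : ∀ ε > 0, 0 < volume {t | t ∈ Ioc (0 : ℝ) 1 ∧ M - ε < a0 t}
  tight : P = lam * (∫ t in (0 : ℝ)..1, a0 t) + 2 * ∫ s in (0 : ℝ)..M, gs s
  balance : (∫ t in (0 : ℝ)..1, a0 t) = 2 * ∫ s in (0 : ℝ)..M, L s

end Vale.Agent.Lib.P232.Class
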