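import Vale.Agent.Lib.P232.Steiner2

/-! P232 stage 4, job J11: what a Steiner symmetrization remembers of the slice areas. -/

open MeasureTheory Set Filter Topology
open scoped ENNReal

noncomputable section

namespace Vale.Agent.Lib.P232

/-- The unit interval as a probability space. -/
abbrev mu01 : Measure ℝ := volume.restrict (Ioc (0 : ℝ) 1)

/-- The unit square, coordinates `(t, y)`. -/
abbrev nu01 : Measure (ℝ × ℝ) := mu01.prod mu01

instance tr_prob : IsProbabilityMeasure mu01 := ⟨by simp [mu01]⟩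

/-- Area of the slice at `x`. -/
def aX (χ : ℝ → ℝ → ℝ → ℝ) (x : ℝ) : ℝ := ∫ t in (0 : ℝ)..1, ∫ y in (0 : ℝ)..1, χ x y t
/-- Area of the slice at `y`. -/
def aY (χ : ℝ → ℝ → ℝ → ℝ) (y : ℝ) : ℝ := ∫ t in (0 : ℝ)..1, ∫ x in (0 : ℝ)..1, χ x y t

/-- Mass of the `x`-line over the point `z = (t, y)` of the square. -/
def cM (G : Set R3) (z : ℝ × ℝ) : ℝ := ∫ x in (0 : ℝ)..1, ind G x z.2 z.1

variable {G A E : Set R3}

theorem tr_ind_meas (hG : MeasurableSet G) : Measurable (fun p : R3 => ind G p.1 p.2.1 p.2.2) := by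
  have h1 : Measurable (G.indicator (fun _ => (1 : ℝ))) := measurable_const.indicator hG
  exact h1

theorem tr_ind_mem (G : Set R3) (x y t : ℝ) : 0 ≤ ind G x y t ∧ ind G x y t ≤ 1 := by
  by_cases h : (x, y, t) ∈ G
  · simp [ind, indicator_of_mem h]
  · simp [ind, indicator_of_notMem h]

theorem tr_ind_abs (G : Set R3) (x y t : ℝ) : |ind G x y t| ≤ 1 := by
  rw [abs_of_nonneg (tr_ind_mem G x y t).1]
  exact (tr_ind_mem G x y t).2

theorem tr_cM_meas (hG : MeasurableSet G) : Measurable (cM G) := by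
  refine measurable_intervalIntegral_param (F := fun (z : ℝ × ℝ) x => ind G x z.2 z.1) ?_
  exact (tr_ind_meas hG).comp (by fun_prop :
    Measurable (fun r : (ℝ × ℝ) × ℝ => ((r.2, r.1.2, r.1.1) : R3)))

theorem tr_line_ii (hG : MeasurableSet G) (y t : ℝ) :
    IntervalIntegrable (fun x => ind G x y t) volume 0 1 := by
  refine intervalIntegrable_of_bdd (C := 1) ((tr_ind_meas hG).comp (by fun_prop :
    Measurable (fun s : ℝ => ((s, y, t) : R3)))) (fun s => tr_ind_abs G s y t)

theorem tr_cM_mem (hG : MeasurableSet G) (z : ℝ × ℝ) : 0 ≤ cM G z ∧ cM G z ≤ 1 := by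
  constructor
  · exact intervalIntegral.integral_nonneg zero_le_one (fun x _ => (tr_ind_mem G x z.2 z.1).1)
  · have := intervalIntegral.integral_mono_on (a := (0 : ℝ)) (b := 1) zero_le_one
      (tr_line_ii hG z.2 z.1) (intervalIntegrable_const (c := (1 : ℝ)))
      (fun x _ => (tr_ind_mem G x z.2 z.1).2)
    simpa [cM] using this

/-- Iterated interval integrals as an integral over the square. -/
theorem tr_iter {f : ℝ × ℝ → ℝ} (hf : Measurable f) (hb : ∀ z, |f z| ≤ 1) :
    ∫ t in (0 : ℝ)..1, ∫ y in (0 : ℝ)..1, f (t, y) = ∫ z, f z ∂nu01 := by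
  have hint : Integrable f nu01 := by
    refine Integrable.of_bound (C := 1) hf.aestronglyMeasurable (ae_of_all _ fun z => ?_)
    simpa using hb z
  rw [integral_prod _ hint]
  simp only [intervalIntegral.integral_of_le (zero_le_one' ℝ)]

/-- The distribution function of the line mass. -/
def Phi (G : Set R3) (u : ℝ) : ℝ := (nu01 {z | u < cM G z}).toReal

theorem tr_set_meas (hG : MeasurableSet G) (u : ℝ) : MeasurableSet {z | u < cM G z} :=
  measurableSet_lt measurable_const (tr_cM_meas hG)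

theorem aX_stX (hG : MeasurableSet G) (x : ℝ) : aX (ind (stX G)) x = Phi G (uu x) := by
  have hpt : ∀ t y, ind (stX G) x y t = {z | uu x < cM G z}.indicator (fun _ => (1 : ℝ)) (t, y) := by
    intro t y
    have hiff : ((x, y, t) : R3) ∈ stX G ↔ (t, y) ∈ {z | uu x < cM G z} := Iff.rfl
    by_cases h : (t, y) ∈ {z | uu x < cM G z}
    · rw [indicator_of_mem h]
      simp [ind, indicator_of_mem (hiff.2 h)]
    · rw [indicator_of_notMem h]
      simp [ind, indicator_of_notMem (fun h' => h (hiff.1 h'))]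
  unfold aX
  simp only [hpt]
  rw [tr_iter (f := {z | uu x < cM G z}.indicator (fun _ => (1 : ℝ)))
    (measurable_const.indicator (tr_set_meas hG _))
    (fun z => by
      by_cases h : z ∈ {z | uu x < cM G z}
      · simp [indicator_of_mem h]
      · simp [indicator_of_notMem h])]
  rw [integral_indicator (tr_set_meas hG _)]
  simp [Phi, measureReal_def]

theorem Phi_anti (G : Set R3) {u u' : ℝ} (h : u ≤ u') : Phi G u' ≤ Phi G u := by
  unfold Phi
  refine ENNReal.toReal_mono (measure_ne_top _ _) (measure_mono ?_)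
  intro z hz
  exact lt_of_le_of_lt h hz

/-- The tent coordinate on the right half of the period. -/
theorem tr_uu_right {x : ℝ} (h1 : 1 / 2 ≤ x) (h2 : x < 1) : uu x = 2 * x - 1 := by
  have hfr : Int.fract x = x := Int.fract_eq_self.2 ⟨by linarith, h2⟩
  unfold uu
  rw [hfr, abs_of_nonneg (by linarith)]

/-- Every open subinterval of `(0,1)` contains a level with a property that holds for a.e. `x`. -/
theorem tr_dense {P : ℝ → Prop} (h : ∀ᵐ x ∂mu01, P (uu x)) {u u' : ℝ} (hu : 0 ≤ u) (huu : u < u')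
    (hu' : u' ≤ 1) : ∃ w, u < w ∧ w < u' ∧ P w := by
  set I := Ioo ((1 + u) / 2) ((1 + u') / 2) with hI
  have hsub : I ⊆ Ioc (0 : ℝ) 1 := by
    intro x hx
    rw [hI] at hx
    exact ⟨by linarith [hx.1], by linarith [hx.2]⟩
  have h' : ∀ᵐ x ∂(volume.restrict I), P (uu x) := ae_restrict_of_ae_restrict_of_subset hsub h
  have hne : volume I ≠ 0 := by
    rw [hI, Real.volume_Ioo]
    simp only [ne_eq, ENNReal.ofReal_eq_zero, not_le]
    linarith
  obtain ⟨x, hx, hP⟩ := Measure.exists_mem_of_measure_ne_zero_of_ae hne h'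
  rw [hI] at hx
  have hu2 := tr_uu_right (x := x) (by linarith [hx.1]) (by linarith [hx.2])
  refine ⟨uu x, ?_, ?_, hP⟩ <;> rw [hu2] <;> linarith [hx.1, hx.2]

/-- `Phi` is constant on `(0,1)` if the area of the slices of `stX G` is. -/
theorem Phi_const (hG : MeasurableSet G) {V : ℝ} (h : ∀ᵐ x ∂mu01, aX (ind (stX G)) x = V) {u : ℝ}
    (h0 : 0 < u) (h1 : u < 1) : Phi G u = V := by
  have h' : ∀ᵐ x ∂mu01, Phi G (uu x) = V := by
    filter_upwards [h] with x hx
    rw [← aX_stX hG]
    exact hx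
  obtain ⟨w1, _, hw1, hw1'⟩ := tr_dense (P := fun w => Phi G w = V) h' le_rfl h0 h1.le
  obtain ⟨w2, hw2, _, hw2'⟩ := tr_dense (P := fun w => Phi G w = V) h' h0.le h1 le_rfl
  apply le_antisymm
  · rw [← hw1']
    exact Phi_anti G hw1.le
  · rw [← hw2']
    exact Phi_anti G hw2.le

/-- If `Phi` is constant on `(0,1)`, the line masses are `0` or `1` a.e. -/
theorem cM_zero_one (hG : MeasurableSet G) {V : ℝ} (h : ∀ u, 0 < u → u < 1 → Phi G u = V) :
    ∀ᵐ z ∂nu01, cM G z = 0 ∨ cM G z = 1 := by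
  have hnull : ∀ n : ℕ, nu01 ({z | 1 / ((n : ℝ) + 3) < cM G z} \
      {z | 1 - 1 / ((n : ℝ) + 3) < cM G z}) = 0 := by
    intro n
    have hn : (0 : ℝ) < (n : ℝ) + 3 := by positivity
    have hn3 : (3 : ℝ) ≤ (n : ℝ) + 3 := by
      have : (0 : ℝ) ≤ n := Nat.cast_nonneg n
      linarith
    have hsmall : 1 / ((n : ℝ) + 3) ≤ 1 / 3 := one_div_le_one_div_of_le (by norm_num) hn3
    have hpos : 0 < 1 / ((n : ℝ) + 3) := by positivity
    have h1 := h (1 / ((n : ℝ) + 3)) hpos (by linarith)
    have h2 := h (1 - 1 / ((n : ℝ) + 3)) (by linarith) (by linarith)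
    have hsub : {z | 1 - 1 / ((n : ℝ) + 3) < cM G z} ⊆ {z | 1 / ((n : ℝ) + 3) < cM G z} := by
      intro z hz
      have : 1 - 1 / ((n : ℝ) + 3) < cM G z := hz
      show 1 / ((n : ℝ) + 3) < cM G z
      linarith
    rw [measure_sdiff hsub (tr_set_meas hG _).nullMeasurableSet (measure_ne_top _ _)]
    unfold Phi at h1 h2
    have heq : nu01 {z | 1 / ((n : ℝ) + 3) < cM G z} = nu01 {z | 1 - 1 / ((n : ℝ) + 3) < cM G z} := by
      rw [← ENNReal.ofReal_toReal (measure_ne_top nu01 {z | 1 / ((n : ℝ) + 3) < cM G z}),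
        ← ENNReal.ofReal_toReal (measure_ne_top nu01 {z | 1 - 1 / ((n : ℝ) + 3) < cM G z}), h1, h2]
    rw [heq, tsub_self]
  have hU := measure_iUnion_null hnull
  rw [measure_eq_zero_iff_ae_notMem] at hU
  filter_upwards [hU] with z hz
  by_contra hcon
  push Not at hcon
  have h0 := tr_cM_mem hG z
  have hc0 : 0 < cM G z := lt_of_le_of_ne h0.1 (Ne.symm hcon.1)
  have hc1 : cM G z < 1 := lt_of_le_of_ne h0.2 hcon.2
  apply hz
  obtain ⟨n, hn⟩ := exists_nat_gt (max (1 / cM G z) (1 / (1 - cM G z)))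
  have hn1 : 1 / cM G z < n := lt_of_le_of_lt (le_max_left _ _) hn
  have hn2 : 1 / (1 - cM G z) < n := lt_of_le_of_lt (le_max_right _ _) hn
  have hn0 : (0 : ℝ) < (n : ℝ) + 3 := by positivity
  rw [mem_iUnion]
  refine ⟨n, ?_, ?_⟩
  · show 1 / ((n : ℝ) + 3) < cM G z
    rw [div_lt_iff₀ hn0]
    rw [div_lt_iff₀ hc0] at hn1
    nlinarith
  · show ¬ 1 - 1 / ((n : ℝ) + 3) < cM G z
    have h1c : 0 < 1 - cM G z := by linarith
    rw [div_lt_iff₀ h1c] at hn2
    have : 1 / ((n : ℝ) + 3) ≤ 1 - cM G z := by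
      rw [div_le_iff₀ hn0]
      nlinarith
    linarith

/-- A line of mass `1` is full a.e., a line of mass `0` is empty a.e. -/
theorem tr_line_ae (hG : MeasurableSet G) (z : ℝ × ℝ) (h : cM G z = 0 ∨ cM G z = 1) :
    ∀ᵐ x ∂mu01, ind G x z.2 z.1 = cM G z := by
  have hi : Integrable (fun x => ind G x z.2 z.1) mu01 :=
    (intervalIntegrable_iff_integrableOn_Ioc_of_le zero_le_one).1 (tr_line_ii hG z.2 z.1)
  have hint : cM G z = ∫ x, ind G x z.2 z.1 ∂mu01 := by
    unfold cM
    rw [intervalIntegral.integral_of_le zero_le_one]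
  rcases h with h | h
  · rw [h] at hint ⊢
    have h0 := (integral_eq_zero_iff_of_nonneg_ae
      (ae_of_all _ fun x => (tr_ind_mem G x z.2 z.1).1) hi).1 hint.symm
    exact h0
  · rw [h] at hint ⊢
    have hi' : Integrable (fun x => 1 - ind G x z.2 z.1) mu01 := (integrable_const _).sub hi
    have h2 : ∫ x, (1 - ind G x z.2 z.1) ∂mu01 = 0 := by
      rw [integral_sub (integrable_const _) hi, ← hint]
      simp
    have h0 := (integral_eq_zero_iff_of_nonneg_ae
      (ae_of_all _ fun x => sub_nonneg.2 (tr_ind_mem G x z.2 z.1).2) hi').1 h2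
    filter_upwards [h0] with x hx
    have : 1 - ind G x z.2 z.1 = 0 := hx
    linarith

/-- The slice area of a cylinder: if the line masses are `0` or `1` a.e., then the slice at a.e. `x`
has the area of the set of full lines. -/
theorem aX_of_zero_one (hG : MeasurableSet G) (h : ∀ᵐ z ∂nu01, cM G z = 0 ∨ cM G z = 1) :
    ∀ᵐ x ∂mu01, aX (ind G) x = ∫ z, cM G z ∂nu01 := by
  have h1 : ∀ᵐ z ∂nu01, ∀ᵐ x ∂mu01, ind G x z.2 z.1 = cM G z := by
    filter_upwards [h] with z hz
    exact tr_line_ae hG z hz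
  have hmeas : MeasurableSet {p : (ℝ × ℝ) × ℝ | ind G p.2 p.1.2 p.1.1 = cM G p.1} := by
    refine measurableSet_eq_fun ?_ ((tr_cM_meas hG).comp measurable_fst)
    exact (tr_ind_meas hG).comp (by fun_prop :
      Measurable (fun r : (ℝ × ℝ) × ℝ => ((r.2, r.1.2, r.1.1) : R3)))
  have h2 := (Measure.ae_ae_comm hmeas).1 h1
  filter_upwards [h2] with x hx
  unfold aX
  have hm : Measurable (fun z : ℝ × ℝ => ind G x z.2 z.1) := (tr_ind_meas hG).comp (by fun_prop :
    Measurable (fun z : ℝ × ℝ => ((x, z.2, z.1) : R3)))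
  rw [tr_iter (f := fun z : ℝ × ℝ => ind G x z.2 z.1) hm (fun z => tr_ind_abs G x z.2 z.1)]
  exact integral_congr_ae hx

/-- The mean of the line masses is the volume. -/
theorem integral_cM (hG : MeasurableSet G) : ∫ z, cM G z ∂nu01 = vol (ind G) := by
  have h := tr_iter (f := cM G) (tr_cM_meas hG) (fun z => by
    rw [abs_of_nonneg (tr_cM_mem hG z).1]
    exact (tr_cM_mem hG z).2)
  rw [← h]
  rfl

/-- **Trace, constant area.** If the slices of `stX G` at a.e. `x` have area `V`, so have those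
of `G`, and the `x`-lines are full or empty a.e. -/
theorem trace_const (hG : MeasurableSet G) {V : ℝ} (h : ∀ᵐ x ∂mu01, aX (ind (stX G)) x = V) :
    (∀ᵐ z ∂nu01, cM G z = 0 ∨ cM G z = 1) ∧ ∀ᵐ x ∂mu01, aX (ind G) x = V := by
  have hΦ : ∀ u, 0 < u → u < 1 → Phi G u = V := fun u h0 h1 => Phi_const hG h h0 h1
  have h01 := cM_zero_one hG hΦ
  refine ⟨h01, ?_⟩
  have hV : ∫ z, cM G z ∂nu01 = V := by
    -- the mean of a `0-1` function is the measure of its upper level sets
    have hae : (fun z => cM G z) =ᵐ[nu01] {z | (1 / 2 : ℝ) < cM G z}.indicator (fun _ => (1 : ℝ)) := by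
      filter_upwards [h01] with z hz
      rcases hz with hz | hz
      · have : z ∉ {z | (1 / 2 : ℝ) < cM G z} := by
          show ¬ (1 / 2 : ℝ) < cM G z
          rw [hz]
          norm_num
        rw [indicator_of_notMem this, hz]
      · have : z ∈ {z | (1 / 2 : ℝ) < cM G z} := by
          show (1 / 2 : ℝ) < cM G z
          rw [hz]
          norm_num
        rw [indicator_of_mem this, hz]
    rw [integral_congr_ae hae, integral_indicator (tr_set_meas hG _)]
    have := hΦ (1 / 2) (by norm_num) (by norm_num)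
    simp only [Phi] at this
    rw [setIntegral_const, smul_eq_mul, mul_one, measureReal_def]
    exact this
  rw [← hV]
  exact aX_of_zero_one hG h01

/-- **Trace, areas `0` or `1`.** If the slices of `stX G` at a.e. `x` are null or full then all
`x`-lines have the same mass, the volume, if `0 < vol < 1`. -/
theorem trace_zero_one (hG : MeasurableSet G) (h : ∀ᵐ x ∂mu01, aX (ind (stX G)) x = 0 ∨
    aX (ind (stX G)) x = 1) (h0 : 0 < vol (ind G)) (h1 : vol (ind G) < 1) :
    ∀ᵐ z ∂nu01, cM G z = vol (ind G) := by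
  set V := vol (ind G) with hV
  have h' : ∀ᵐ x ∂mu01, Phi G (uu x) = 0 ∨ Phi G (uu x) = 1 := by
    filter_upwards [h] with x hx
    rw [← aX_stX hG]
    exact hx
  have hcM := integral_cM hG
  have hint : Integrable (cM G) nu01 := by
    refine Integrable.of_bound (C := 1) (tr_cM_meas hG).aestronglyMeasurable (ae_of_all _ fun z => ?_)
    rw [Real.norm_eq_abs, abs_of_nonneg (tr_cM_mem hG z).1]
    exact (tr_cM_mem hG z).2
  -- below the mean: the level set is everything
  have hlow : ∀ w, w < V → Phi G w = 0 ∨ Phi G w = 1 → nu01 {z | cM G z ≤ w} = 0 := by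
    intro w hw hP
    have hmem : MeasurableSet {z | cM G z ≤ w} := measurableSet_le (tr_cM_meas hG) measurable_const
    have hcompl : {z | cM G z ≤ w} = {z | w < cM G z}ᶜ := by
      ext z
      simp
    rcases hP with hP | hP
    · -- `c ≤ w` a.e., so the mean is at most `w`
      exfalso
      have hnull : nu01 {z | w < cM G z} = 0 := by
        have := (ENNReal.toReal_eq_zero_iff _).1 hP
        rcases this with h | h
        · exact h
        · exact absurd h (measure_ne_top _ _)
      have hae : ∀ᵐ z ∂nu01, cM G z ≤ w := by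
        rw [ae_iff]
        simpa using hnull
      have : ∫ z, cM G z ∂nu01 ≤ ∫ _z, w ∂nu01 := integral_mono_ae hint (integrable_const _) hae
      simp at this
      rw [hcM] at this
      linarith
    · rw [hcompl, prob_compl_eq_zero_iff (tr_set_meas hG _)]
      have := (ENNReal.toReal_eq_one_iff _).1 hP
      exact this
  -- above the mean: the level set is empty
  have hhigh : ∀ w, V < w → Phi G w = 0 ∨ Phi G w = 1 → nu01 {z | w < cM G z} = 0 := by
    intro w hw hP
    rcases hP with hP | hP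
    · have := (ENNReal.toReal_eq_zero_iff _).1 hP
      rcases this with h | h
      · exact h
      · exact absurd h (measure_ne_top _ _)
    · exfalso
      have hone := (ENNReal.toReal_eq_one_iff _).1 hP
      have hae : ∀ᵐ z ∂nu01, w < cM G z := by
        have := (prob_compl_eq_zero_iff (tr_set_meas hG w)).2 hone
        rw [ae_iff]
        simpa [compl_ofPred] using this
      have : ∫ _z, w ∂nu01 ≤ ∫ z, cM G z ∂nu01 :=
        integral_mono_ae (integrable_const _) hint (hae.mono fun z hz => hz.le)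
      simp at this
      rw [hcM] at this
      linarith
  -- sequences of good levels
  have hA : ∀ n : ℕ, ∃ w, V < w ∧ w < V + (1 - V) / ((n : ℝ) + 1) ∧ (Phi G w = 0 ∨ Phi G w = 1) := by
    intro n
    have hn : (0 : ℝ) < (n : ℝ) + 1 := by positivity
    have hp : 0 < (1 - V) / ((n : ℝ) + 1) := div_pos (by linarith) hn
    have hle : (1 - V) / ((n : ℝ) + 1) ≤ 1 - V := div_le_self (by linarith) (by
      have : (0 : ℝ) ≤ n := Nat.cast_nonneg n
      linarith)
    exact tr_dense (P := fun w => Phi G w = 0 ∨ Phi G w = 1) h' h0.le (by linarith) (by linarith)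
  have hB : ∀ n : ℕ, ∃ w, V - V / ((n : ℝ) + 1) < w ∧ w < V ∧ (Phi G w = 0 ∨ Phi G w = 1) := by
    intro n
    have hn : (0 : ℝ) < (n : ℝ) + 1 := by positivity
    have hp : 0 < V / ((n : ℝ) + 1) := div_pos h0 hn
    have hle : V / ((n : ℝ) + 1) ≤ V := div_le_self h0.le (by
      have : (0 : ℝ) ≤ n := Nat.cast_nonneg n
      linarith)
    have := tr_dense (P := fun w => Phi G w = 0 ∨ Phi G w = 1) h' (u := V - V / ((n : ℝ) + 1)) (u' := V)
      (by linarith) (by linarith) h1.le
    simpa using this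
  choose wA hA1 hA2 hA3 using hA
  choose wB hB1 hB2 hB3 using hB
  have hnA : nu01 (⋃ n, {z | wA n < cM G z}) = 0 :=
    measure_iUnion_null fun n => hhigh _ (hA1 n) (hA3 n)
  have hnB : nu01 (⋃ n, {z | cM G z ≤ wB n}) = 0 :=
    measure_iUnion_null fun n => hlow _ (hB2 n) (hB3 n)
  rw [measure_eq_zero_iff_ae_notMem] at hnA hnB
  filter_upwards [hnA, hnB] with z hz1 hz2
  apply le_antisymm
  · by_contra hcon
    have hlt : V < cM G z := not_le.1 hcon
    apply hz1
    obtain ⟨n, hn⟩ := exists_nat_gt ((1 - V) / (cM G z - V))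
    have hpos : 0 < cM G z - V := by linarith
    rw [div_lt_iff₀ hpos] at hn
    have hn0 : (0 : ℝ) < (n : ℝ) + 1 := by positivity
    rw [mem_iUnion]
    refine ⟨n, ?_⟩
    show wA n < cM G z
    have h2 := hA2 n
    have h3 : (1 - V) / ((n : ℝ) + 1) < cM G z - V := by
      rw [div_lt_iff₀ hn0]
      nlinarith
    linarith
  · by_contra hcon
    have hlt : cM G z < V := not_le.1 hcon
    apply hz2
    obtain ⟨n, hn⟩ := exists_nat_gt (V / (V - cM G z))
    have hpos : 0 < V - cM G z := by linarith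
    rw [div_lt_iff₀ hpos] at hn
    have hn0 : (0 : ℝ) < (n : ℝ) + 1 := by positivity
    rw [mem_iUnion]
    refine ⟨n, ?_⟩
    show cM G z ≤ wB n
    have h2 := hB1 n
    have h3 : V / ((n : ℝ) + 1) < V - cM G z := by
      rw [div_lt_iff₀ hn0]
      nlinarith
    linarith

/-! Symmetrization in `x` does not change the slice areas in the other two directions. -/

/-- The mass of the symmetrized line. -/
private theorem tr_line_eq {c : ℝ} (h0 : 0 ≤ c) (h1 : c ≤ 1) :
    ∫ x in (0 : ℝ)..1, ({x | uu x < c}.indicator (fun _ => (1 : ℝ)) x) = c := by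
  set a := (1 - c) / 2 with ha
  set b := (1 + c) / 2 with hb
  have hab : a ≤ b := by rw [ha, hb]; linarith
  have hcongr : ∫ x in (0 : ℝ)..1, ({x | uu x < c}.indicator (fun _ => (1 : ℝ)) x) =
      ∫ x in (0 : ℝ)..1, ((Ioo a b).indicator (fun _ => (1 : ℝ)) x) := by
    apply intervalIntegral.integral_congr_ae
    refine Eventually.of_forall fun x hx => ?_
    rw [uIoc_of_le zero_le_one] at hx
    have hiff : x ∈ {x | uu x < c} ↔ x ∈ Ioo a b := by
      rcases hx.2.eq_or_lt with hx1 | hx1
      · subst hx1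
        constructor
        · intro h
          have h2 : uu 1 = 1 := by simp [uu]
          have h3 : uu 1 < c := h
          rw [h2] at h3
          linarith
        · intro h
          have h3 := h.2
          rw [hb] at h3
          linarith
      · have hfr : Int.fract x = x := Int.fract_eq_self.2 ⟨hx.1.le, hx1⟩
        have hu : uu x = |2 * x - 1| := by simp [uu, hfr]
        constructor
        · intro h
          have h3 : uu x < c := h
          rw [hu, abs_lt] at h3
          exact ⟨by rw [ha]; linarith [h3.1], by rw [hb]; linarith [h3.2]⟩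
        · intro h
          show uu x < c
          rw [hu, abs_lt]
          have h4 := h.1
          have h5 := h.2
          rw [ha] at h4
          rw [hb] at h5
          constructor <;> linarith
    by_cases hm : x ∈ Ioo a b
    · rw [indicator_of_mem hm, indicator_of_mem (hiff.2 hm)]
    · rw [indicator_of_notMem hm, indicator_of_notMem (fun h => hm (hiff.1 h))]
  rw [hcongr, intervalIntegral.integral_of_le zero_le_one, setIntegral_indicator measurableSet_Ioo]
  have hset : Ioc (0 : ℝ) 1 ∩ Ioo a b = Ioo a b := by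
    apply inter_eq_right.2
    intro x hx
    have h3 := hx.1
    have h4 := hx.2
    rw [ha] at h3
    rw [hb] at h4
    exact ⟨by linarith, by linarith⟩
  rw [hset]
  simp only [integral_const, smul_eq_mul, mul_one, MeasurableSet.univ, measureReal_restrict_apply,
    univ_inter]
  rw [measureReal_def, Real.volume_Ioo, ENNReal.toReal_ofReal (by linarith)]
  rw [ha, hb]
  ring

theorem tr_line_stX (hG : MeasurableSet G) (y t : ℝ) :
    ∫ x in (0 : ℝ)..1, ind (stX G) x y t = ∫ x in (0 : ℝ)..1, ind G x y t := by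
  have hm := tr_cM_mem hG (t, y)
  have := tr_line_eq hm.1 hm.2
  exact this

theorem aY_stX (hG : MeasurableSet G) (y : ℝ) : aY (ind (stX G)) y = aY (ind G) y := by
  unfold aY
  simp only [tr_line_stX hG]

theorem tr_massT_stX (hG : MeasurableSet G) (t : ℝ) : massT (ind (stX G)) t = massT (ind G) t := by
  show (∫ y in (0 : ℝ)..1, ∫ x in (0 : ℝ)..1, ind (stX G) x y t) =
    ∫ y in (0 : ℝ)..1, ∫ x in (0 : ℝ)..1, ind G x y t
  simp only [tr_line_stX hG]

/-! The cycle of the coordinates on the slice areas. -/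

theorem aX_permSet (A : Set R3) (x : ℝ) : aX (ind (permSet A)) x = massT (ind A) x := by
  rw [← permSet_ind]
  rfl

theorem aY_permSet (hA : MeasurableSet A) (y : ℝ) : aY (ind (permSet A)) y = aX (ind A) y := by
  rw [← permSet_ind]
  have hm : Measurable (fun p : ℝ × ℝ => ind A y p.1 p.2) := (tr_ind_meas hA).comp (by fun_prop :
    Measurable (fun p : ℝ × ℝ => ((y, p.1, p.2) : R3)))
  exact (interval_swap (F := fun u v => ind A y u v) hm (fun u v => tr_ind_abs A y u v)).symm

theorem massT_permSet (hA : MeasurableSet A) (t : ℝ) : massT (ind (permSet A)) t = aY (ind A) t := by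
  rw [← permSet_ind]
  have hm : Measurable (fun p : ℝ × ℝ => ind A p.1 t p.2) := (tr_ind_meas hA).comp (by fun_prop :
    Measurable (fun p : ℝ × ℝ => ((p.1, t, p.2) : R3)))
  exact (interval_swap (F := fun u v => ind A u t v) hm (fun u v => tr_ind_abs A u t v)).symm

/-- One step of the iteration. -/
abbrev Fst (A : Set R3) : Set R3 := stX (permSet A)

theorem aY_Fst (hA : MeasurableSet A) (y : ℝ) : aY (ind (Fst A)) y = aX (ind A) y := by
  rw [aY_stX (permSet_measurable hA), aY_permSet hA]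

theorem massT_Fst (hA : MeasurableSet A) (t : ℝ) : massT (ind (Fst A)) t = aY (ind A) t := by
  rw [tr_massT_stX (permSet_measurable hA), massT_permSet hA]

/-- Constant area in the first slot of a step. -/
theorem Fst_const (hA : MeasurableSet A) {V : ℝ} (h : ∀ᵐ x ∂mu01, aX (ind (Fst A)) x = V) :
    ∀ᵐ x ∂mu01, massT (ind A) x = V := by
  have := (trace_const (permSet_measurable hA) h).2
  filter_upwards [this] with x hx
  rw [← aX_permSet]
  exact hx

/-- **Steiner trace, constant areas**: for the three-step symmetrization `D`. -/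
theorem trace3_x (hE : MeasurableSet E) (hp1 : MeasurableSet (Fst E)) (hp2 : MeasurableSet (Fst (Fst E)))
    {V : ℝ} (h : ∀ᵐ x ∂mu01, aX (ind (Fst (Fst (Fst E)))) x = V) : ∀ᵐ x ∂mu01, aX (ind E) x = V := by
  have h1 := Fst_const hp2 h
  filter_upwards [h1] with x hx
  rw [massT_Fst hp1, aY_Fst hE] at hx
  exact hx

theorem trace3_y (hE : MeasurableSet E) (hp1 : MeasurableSet (Fst E)) (hp2 : MeasurableSet (Fst (Fst E)))
    {V : ℝ} (h : ∀ᵐ y ∂mu01, aY (ind (Fst (Fst (Fst E)))) y = V) : ∀ᵐ y ∂mu01, aY (ind E) y = V := by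
  have h0 : ∀ᵐ y ∂mu01, aX (ind (Fst (Fst E))) y = V := by
    filter_upwards [h] with y hy
    rw [aY_Fst hp2] at hy
    exact hy
  have h1 := Fst_const hp1 h0
  filter_upwards [h1] with y hy
  rw [massT_Fst hE] at hy
  exact hy

theorem trace3_t (hE : MeasurableSet E) (hp1 : MeasurableSet (Fst E)) (hp2 : MeasurableSet (Fst (Fst E)))
    {V : ℝ} (h : ∀ᵐ t ∂mu01, massT (ind (Fst (Fst (Fst E)))) t = V) :
    ∀ᵐ t ∂mu01, massT (ind E) t = V := by
  have h0 : ∀ᵐ t ∂mu01, aX (ind (Fst E)) t = V := by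
    filter_upwards [h] with t ht
    rw [massT_Fst hp2, aY_Fst hp1] at ht
    exact ht
  exact Fst_const hE h0

/-- Areas `0` or `1` in the first slot of a step, given the cylinder lemma for the previous set. -/
theorem Fst_zero_one (hA : MeasurableSet A) (h : ∀ᵐ x ∂mu01, aX (ind (Fst A)) x = 0 ∨ aX (ind (Fst A)) x = 1)
    (h0 : 0 < vol (ind (permSet A))) (h1 : vol (ind (permSet A)) < 1)
    (hcyl : (∀ᵐ z ∂nu01, cM (permSet A) z = vol (ind (permSet A))) →
      ∀ᵐ x ∂mu01, aX (ind (permSet A)) x = 0 ∨ aX (ind (permSet A)) x = 1) :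
    ∀ᵐ x ∂mu01, massT (ind A) x = 0 ∨ massT (ind A) x = 1 := by
  have h2 := hcyl (trace_zero_one (permSet_measurable hA) h h0 h1)
  filter_upwards [h2] with x hx
  rw [aX_permSet] at hx
  exact hx

/-- **The reduction with its trace.** `cyl` is the cylinder lemma: a set of perimeter at most `2` all of
whose `x`-lines have the same mass in `(0,1)` has null or full slices. -/
theorem tr_exists_mono_trace (hE : MeasurableSet E) (hper : IsZ3Periodic E) :
    ∃ E' : Set R3, MeasurableSet E' ∧ IsZ3Periodic E' ∧ Mono3 (ind E') ∧ vol (ind E') = vol (ind E) ∧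
      Perim E' ≤ Perim E ∧
      (∀ V : ℝ, (∀ᵐ x ∂mu01, aX (ind E') x = V) → ∀ᵐ x ∂mu01, aX (ind E) x = V) ∧
      (∀ V : ℝ, (∀ᵐ y ∂mu01, aY (ind E') y = V) → ∀ᵐ y ∂mu01, aY (ind E) y = V) ∧
      (∀ V : ℝ, (∀ᵐ t ∂mu01, massT (ind E') t = V) → ∀ᵐ t ∂mu01, massT (ind E) t = V) ∧
      (0 < vol (ind E) → vol (ind E) < 1 →
      (∀ G : Set R3, MeasurableSet G → IsZ3Periodic G → Perim G ≤ Perim E → 0 < vol (ind G) →
        vol (ind G) < 1 → (∀ᵐ z ∂nu01, cM G z = vol (ind G)) →
        ∀ᵐ x ∂mu01, aX (ind G) x = 0 ∨ aX (ind G) x = 1) →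
      ((∀ᵐ x ∂mu01, aX (ind E') x = 0 ∨ aX (ind E') x = 1) →
        ∀ᵐ x ∂mu01, aX (ind E) x = 0 ∨ aX (ind E) x = 1) ∧
      ((∀ᵐ y ∂mu01, aY (ind E') y = 0 ∨ aY (ind E') y = 1) →
        ∀ᵐ y ∂mu01, aY (ind E) y = 0 ∨ aY (ind E) y = 1) ∧
      ((∀ᵐ t ∂mu01, massT (ind E') t = 0 ∨ massT (ind E') t = 1) →
        ∀ᵐ t ∂mu01, massT (ind E) t = 0 ∨ massT (ind E) t = 1)) := by
  have hFm : ∀ {A}, MeasurableSet A → IsZ3Periodic A → MeasurableSet (Fst A) := fun h h' =>
    measurableSet_stX (permSet_measurable h) (permSet_periodic h')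
  have hFp : ∀ {A}, MeasurableSet A → IsZ3Periodic A → IsZ3Periodic (Fst A) := fun h h' =>
    periodic_stX (permSet_measurable h) (permSet_periodic h')
  have hPv : ∀ {A}, MeasurableSet A → IsZ3Periodic A → vol (ind (permSet A)) = vol (ind A) := fun h h' => by
    rw [← permSet_ind]
    exact vol_perm (ind3_ind h h')
  have hFv : ∀ {A}, MeasurableSet A → IsZ3Periodic A → vol (ind (Fst A)) = vol (ind A) := fun h h' => by
    rw [vol_stX (permSet_measurable h) (permSet_periodic h'), hPv h h']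
  have hFP : ∀ {A}, MeasurableSet A → IsZ3Periodic A → Perim (Fst A) ≤ Perim A := fun h h' =>
    (perim_stX (permSet_measurable h) (permSet_periodic h')).trans (perim_permSet h)
  have hm1 := hFm hE hper
  have hp1 := hFp hE hper
  have hm2 := hFm hm1 hp1
  have hp2 := hFp hm1 hp1
  have hm3 := hFm hm2 hp2
  have hp3 := hFp hm2 hp2
  have hX : MonoX (Fst (Fst (Fst E))) := monoX_stX _
  have hY : MonoY (Fst (Fst (Fst E))) :=
    monoY_stX (permSet_measurable hm2) (monoY_permSet (monoX_stX _))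
  have hT : MonoT (Fst (Fst (Fst E))) :=
    monoT_stX (permSet_measurable hm2) (monoT_permSet
      (monoY_stX (permSet_measurable hm1) (monoY_permSet (monoX_stX _))))
  have hv1 := hFv hE hper
  have hv2 := hFv hm1 hp1
  -- the three perimeter bounds for the cylinder lemma
  have hP0 : Perim (permSet E) ≤ Perim E := perim_permSet hE
  have hP1 : Perim (permSet (Fst E)) ≤ Perim E :=
    (perim_permSet hm1).trans (hFP hE hper)
  have hP2 : Perim (permSet (Fst (Fst E))) ≤ Perim E :=
    (perim_permSet hm2).trans ((hFP hm1 hp1).trans (hFP hE hper))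
  refine ⟨Fst (Fst (Fst E)), hm3, hp3, ⟨ind3_ind hm3 hp3, ?_⟩, ?_, ?_, fun V h => trace3_x hE hm1 hm2 h,
    fun V h => trace3_y hE hm1 hm2 h, fun V h => trace3_t hE hm1 hm2 h, ?_⟩
  · intro x y t x' y' t' hx hy ht h
    rw [s2_ind_eq_one] at h ⊢
    exact hT x' y' t t' ht (hY x' y y' t hy (hX x x' y t hx h))
  · rw [hFv hm2 hp2, hv2, hv1]
  · exact (hFP hm2 hp2).trans ((hFP hm1 hp1).trans (hFP hE hper))
  · intro h0 h1 cyl
    have hcyl : ∀ {A}, MeasurableSet A → IsZ3Periodic A → Perim (permSet A) ≤ Perim E →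
        vol (ind A) = vol (ind E) →
        (∀ᵐ z ∂nu01, cM (permSet A) z = vol (ind (permSet A))) →
        ∀ᵐ x ∂mu01, aX (ind (permSet A)) x = 0 ∨ aX (ind (permSet A)) x = 1 := by
      intro A hA hAp hAP hAv hz
      refine cyl _ (permSet_measurable hA) (permSet_periodic hAp) hAP ?_ ?_ hz
      · rw [hPv hA hAp, hAv]
        exact h0
      · rw [hPv hA hAp, hAv]
        exact h1
    have hvv : ∀ {A}, MeasurableSet A → IsZ3Periodic A → vol (ind A) = vol (ind E) →
        0 < vol (ind (permSet A)) ∧ vol (ind (permSet A)) < 1 := by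
      intro A hA hAp hAv
      rw [hPv hA hAp, hAv]
      exact ⟨h0, h1⟩
    refine ⟨?_, ?_, ?_⟩
    · -- direction `x`
      intro h
      have hv := hvv hm2 hp2 (hv2.trans hv1)
      have h2 := Fst_zero_one hm2 h hv.1 hv.2 (hcyl hm2 hp2 hP2 (hv2.trans hv1))
      filter_upwards [h2] with x hx
      rw [massT_Fst hm1, aY_Fst hE] at hx
      exact hx
    · -- direction `y`
      intro h
      have h0' : ∀ᵐ y ∂mu01, aX (ind (Fst (Fst E))) y = 0 ∨ aX (ind (Fst (Fst E))) y = 1 := by
        filter_upwards [h] with y hy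
        rw [aY_Fst hm2] at hy
        exact hy
      have hv := hvv hm1 hp1 hv1
      have h2 := Fst_zero_one hm1 h0' hv.1 hv.2 (hcyl hm1 hp1 hP1 hv1)
      filter_upwards [h2] with y hy
      rw [massT_Fst hE] at hy
      exact hy
    · -- direction `t`
      intro h
      have h0' : ∀ᵐ t ∂mu01, aX (ind (Fst E)) t = 0 ∨ aX (ind (Fst E)) t = 1 := by
        filter_upwards [h] with t ht
        rw [massT_Fst hm2, aY_Fst hm1] at ht
        exact ht
      have hv := hvv hE hper rfl
      exact Fst_zero_one hE h0' hv.1 hv.2 (hcyl hE hper hP0 rfl)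


end Vale.Agent.Lib.P232
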