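import Vale.Agent.Lib.P232.Class.TieDefs
import Vale.Agent.Lib.P232.Steiner2
import Vale.Agent.Lib.P232.Class.Trace

/-! JOBS T1, T2, T3, T4, T6: what a symmetrization remembers -/

open MeasureTheory Set Filter Topology Real

noncomputable section

namespace Vale.Agent.Lib.P232

variable {G : Set R3} {E : Set R3} {χ : ℝ → ℝ → ℝ → ℝ}

theorem t1_ae_of_periodic {P : ℝ → Prop} (hper : ∀ t, P (t + 1) ↔ P t)
    (h : ∀ᵐ t ∂(volume.restrict (Ioc (0 : ℝ) 1)), P t) : ∀ᵐ t : ℝ, P t := by
  have h0 : ∀ᵐ t : ℝ, t ∈ Ioc (0 : ℝ) 1 → P t := (ae_restrict_iff' measurableSet_Ioc).1 h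
  have hP : Function.Periodic P 1 := fun t => propext (hper t)
  have hn : ∀ n : ℤ, ∀ᵐ t : ℝ, t + (n : ℝ) ∈ Ioc (0 : ℝ) 1 → P (t + (n : ℝ)) := by
    intro n
    exact (measurePreserving_add_right volume (n : ℝ)).quasiMeasurePreserving.ae h0
  filter_upwards [ae_all_iff.2 hn] with t ht
  have hmem : t + ((1 - ⌈t⌉ : ℤ) : ℝ) ∈ Ioc (0 : ℝ) 1 := by
    push_cast
    constructor
    · have := Int.ceil_lt_add_one t
      linarith
    · have := Int.le_ceil t
      linarith
  have hPt := ht (1 - ⌈t⌉) hmem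
  have hper2 := (hP.int_mul (1 - ⌈t⌉)) t
  rw [mul_one] at hper2
  rw [hper2] at hPt
  exact hPt

/-- From iterated almost everywhere statements to the product. -/
theorem ae3_of_iter {Q : R3 → Prop} (hQ : MeasurableSet {p | Q p})
    (h : ∀ᵐ t : ℝ, ∀ᵐ y : ℝ, ∀ᵐ x : ℝ, Q (x, y, t)) : ∀ᵐ p : R3, Q p := by
  have h1 : ∀ᵐ z : R3, Q (s2tau z) := by
    have hm : MeasurableSet {z : R3 | Q (s2tau z)} := s2tau_mp.measurable hQ
    rw [Measure.volume_eq_prod, Measure.ae_prod_iff_ae_ae hm]
    filter_upwards [h] with t ht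
    have hm2 : MeasurableSet {q : ℝ × ℝ | Q (q.1, q.2, t)} :=
      (by fun_prop : Measurable (fun q : ℝ × ℝ => ((q.1, q.2, t) : R3))) hQ
    have hm3 : MeasurableSet {q : ℝ × ℝ | Q (q.2, q.1, t)} :=
      (by fun_prop : Measurable (fun q : ℝ × ℝ => ((q.2, q.1, t) : R3))) hQ
    have h2 : ∀ᵐ q : ℝ × ℝ, Q (q.1, q.2, t) := by
      rw [Measure.volume_eq_prod, Measure.ae_prod_iff_ae_ae hm2]
      exact (Measure.ae_ae_comm (p := fun y x => Q (x, y, t)) hm3).1 ht
    exact h2
  rw [← s2tau_mp.map_eq]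
  exact (ae_map_iff s2tau_mp.aemeasurable hQ).2 h1

/-- A nonnegative bounded periodic function with zero mean vanishes a.e. -/
theorem t1_zero {g : ℝ → ℝ} (hm : Measurable g) (h0 : ∀ x, 0 ≤ g x) {C : ℝ}
    (hb : ∀ x, |g x| ≤ C) (hper : ∀ x, g (x + 1) = g x) (hz : ∫ x in (0 : ℝ)..1, g x = 0) :
    ∀ᵐ x, g x = 0 := by
  rw [intervalIntegral.integral_of_le zero_le_one] at hz
  have hi : IntegrableOn g (Ioc (0 : ℝ) 1) volume :=
    (intervalIntegrable_iff_integrableOn_Ioc_of_le zero_le_one).1 (intervalIntegrable_of_bdd hm hb)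
  have hae := (integral_eq_zero_iff_of_nonneg_ae (Eventually.of_forall h0) hi).1 hz
  exact t1_ae_of_periodic (P := fun x => g x = 0) (fun x => by rw [hper]) hae

theorem t1_abs (h : Ind3 χ) (x y t : ℝ) : |χ x y t| ≤ 1 := by
  rcases h.bool x y t with h1 | h1 <;> simp [h1]

theorem t1_row_meas (h : Ind3 χ) (t : ℝ) : Measurable (fun p : ℝ × ℝ => χ p.1 p.2 t) :=
  h.meas.comp (by fun_prop : Measurable (fun p : ℝ × ℝ => ((p.1, p.2, t) : R3)))

/-- Null or full slice. -/
theorem t1_slice_zero (h : Ind3 χ) {t : ℝ} (ht : massT χ t = 0) : ∀ᵐ y, ∀ᵐ x, χ x y t = 0 := by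
  have hm := t1_row_meas h t
  have hint : Measurable (fun y => ∫ x in (0 : ℝ)..1, χ x y t) := by
    refine measurable_intervalIntegral_param (F := fun y x => χ x y t) ?_
    exact hm.comp (by fun_prop : Measurable (fun q : ℝ × ℝ => ((q.2, q.1) : ℝ × ℝ)))
  have hnn : ∀ x y, 0 ≤ χ x y t := fun x y => by
    rcases h.bool x y t with h1 | h1 <;> simp [h1]
  have h1 := t1_zero hint (fun y => intervalIntegral.integral_nonneg zero_le_one fun x _ => hnn x y)
    (C := 1) (fun y => t3_abs_int_le fun x => t1_abs h x y t) (fun y => by simp only [h.per_y]) ht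
  filter_upwards [h1] with y hy
  exact t1_zero (hm.comp (by fun_prop : Measurable (fun x : ℝ => ((x, y) : ℝ × ℝ)))) (fun x => hnn x y)
    (C := 1) (fun x => t1_abs h x y t) (fun x => h.per_x x y t) hy

theorem t1_slice_one (h : Ind3 χ) {t : ℝ} (ht : massT χ t = 1) : ∀ᵐ y, ∀ᵐ x, χ x y t = 1 := by
  have hm := t1_row_meas h t
  have hm' : Measurable (fun p : ℝ × ℝ => 1 - χ p.1 p.2 t) := measurable_const.sub hm
  have hii : ∀ y, IntervalIntegrable (fun x => χ x y t) volume 0 1 := fun y =>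
    intervalIntegrable_of_bdd (C := 1) (hm.comp (by fun_prop : Measurable (fun x : ℝ => ((x, y) : ℝ × ℝ))))
      (fun x => t1_abs h x y t)
  have hrow : ∀ y, (∫ x in (0 : ℝ)..1, (1 - χ x y t)) = 1 - ∫ x in (0 : ℝ)..1, χ x y t := fun y => by
    rw [intervalIntegral.integral_sub intervalIntegrable_const (hii y)]
    simp
  have hint0 : Measurable (fun y => ∫ x in (0 : ℝ)..1, χ x y t) := by
    refine measurable_intervalIntegral_param (F := fun y x => χ x y t) ?_
    exact hm.comp (by fun_prop : Measurable (fun q : ℝ × ℝ => ((q.2, q.1) : ℝ × ℝ)))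
  have hint : Measurable (fun y => 1 - ∫ x in (0 : ℝ)..1, χ x y t) := measurable_const.sub hint0
  have hnn : ∀ x y, 0 ≤ 1 - χ x y t := fun x y => by
    rcases h.bool x y t with h1 | h1 <;> simp [h1]
  have habs : ∀ x y, |1 - χ x y t| ≤ 1 := fun x y => by
    rcases h.bool x y t with h1 | h1 <;> simp [h1]
  have hmean : ∫ y in (0 : ℝ)..1, (1 - ∫ x in (0 : ℝ)..1, χ x y t) = 0 := by
    rw [intervalIntegral.integral_sub intervalIntegrable_const
      (intervalIntegrable_of_bdd (C := 1) hint0 (fun y => t3_abs_int_le fun x => t1_abs h x y t))]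
    have ht' : ∫ y in (0 : ℝ)..1, ∫ x in (0 : ℝ)..1, χ x y t = 1 := ht
    rw [ht']
    simp
  have h1 := t1_zero hint (fun y => by
      rw [← hrow]
      exact intervalIntegral.integral_nonneg zero_le_one fun x _ => hnn x y)
    (C := 1) (fun y => by
      rw [← hrow]
      exact t3_abs_int_le fun x => habs x y) (fun y => by simp only [h.per_y]) hmean
  filter_upwards [h1] with y hy
  rw [← hrow] at hy
  have h2 := t1_zero (g := fun x => 1 - χ x y t)
    (hm'.comp (by fun_prop : Measurable (fun x : ℝ => ((x, y) : ℝ × ℝ)))) (fun x => hnn x y)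
    (C := 1) (fun x => habs x y) (fun x => by simp only [h.per_x]) hy
  filter_upwards [h2] with x hx
  linarith

/-- Dependence on `t` only means null or full slices. -/
theorem depT_of_bool (h : Ind3 χ) (hz : ∀ᵐ t, massT χ t = 0 ∨ massT χ t = 1) : DepT χ := by
  have hQ : MeasurableSet {p : R3 | χ p.1 p.2.1 p.2.2 = massT χ p.2.2} :=
    measurableSet_eq_fun h.meas (h.measurable_massT.comp (by fun_prop))
  refine ae3_of_iter (Q := fun p : R3 => χ p.1 p.2.1 p.2.2 = massT χ p.2.2) hQ ?_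
  filter_upwards [hz] with t ht
  rcases ht with ht | ht
  · filter_upwards [t1_slice_zero h ht] with y hy
    filter_upwards [hy] with x hx
    rw [ht]
    exact hx
  · filter_upwards [t1_slice_one h ht] with y hy
    filter_upwards [hy] with x hx
    rw [ht]
    exact hx

theorem bool_of_depT (h : Ind3 χ) (hd : DepT χ) : ∀ᵐ t, massT χ t = 0 ∨ massT χ t = 1 := by
  have h1 := ae_slices (P := fun x y t => χ x y t = massT χ t) hd
  filter_upwards [h1] with t ht
  obtain ⟨q, hq⟩ := ht.exists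
  rw [← hq]
  exact h.bool _ _ _

theorem depT_iff (h : Ind3 χ) : DepT χ ↔ ∀ᵐ t, massT χ t = 0 ∨ massT χ t = 1 :=
  ⟨bool_of_depT h, depT_of_bool h⟩

/-- JOB T1. `t`-slices are preserved. -/
theorem massT_stX (hG : MeasurableSet G) (_hper : IsZ3Periodic G) (t : ℝ) :
    massT (ind (stX G)) t = massT (ind G) t := tr_massT_stX hG t

/-- The area of a `y`-slice. -/
theorem massT_perm_ind (hG : MeasurableSet G) (t : ℝ) : massT (P232.perm (ind G)) t = aY (ind G) t := by
  rw [permSet_ind]
  exact massT_permSet hG t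

/-- The area of an `x`-slice. -/
theorem massT_perm2 (χ : ℝ → ℝ → ℝ → ℝ) (t : ℝ) : massT (P232.perm (P232.perm χ)) t = aX χ t := rfl

/-- JOB T2. `y`-slices are preserved. -/
theorem massY_stX (hG : MeasurableSet G) (hper : IsZ3Periodic G) (t : ℝ) :
    massT (P232.perm (ind (stX G))) t = massT (P232.perm (ind G)) t := by
  rw [massT_perm_ind (measurableSet_stX hG hper), massT_perm_ind hG, aY_stX hG]

/-- JOB T3. `x`-lines are preserved. -/
theorem line_stX (hG : MeasurableSet G) (_hper : IsZ3Periodic G) (y t : ℝ) :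
    (∫ x in (0 : ℝ)..1, ind (stX G) x y t) = ∫ x in (0 : ℝ)..1, ind G x y t := tr_line_stX hG y t

theorem aX_per (hG : MeasurableSet G) (hper : IsZ3Periodic G) (x : ℝ) : aX (ind G) (x + 1) = aX (ind G) x := by
  have h := ind3_ind hG hper
  simp only [aX, h.per_x]

/-- JOB T4. If the `x`-slices of `stX G` have constant area then `G` is an `x`-cylinder:
`|{c > u}| = V` for a.e. `u ∈ (0,1)`, so `c ∈ {0,1}` a.e., so the slices of `G` have area `V` too. -/
theorem massX_const_stX (hG : MeasurableSet G) (hper : IsZ3Periodic G) {V : ℝ}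
    (hc : ∀ᵐ t, massT (P232.perm (P232.perm (ind (stX G)))) t = V) :
    ∀ᵐ t, massT (P232.perm (P232.perm (ind G))) t = V := by
  have h1 : ∀ᵐ x ∂mu01, aX (ind (stX G)) x = V := ae_restrict_of_ae hc
  have h2 := (trace_const hG h1).2
  exact t1_ae_of_periodic (P := fun t => aX (ind G) t = V) (fun t => by rw [aX_per hG hper]) h2

/-- JOB T6. `t`- and `y`-dependence: the areas of the slices are in `{0,1}` a.e. and are preserved. -/
theorem depT_stX (hG : MeasurableSet G) (hper : IsZ3Periodic G) (hd : DepT (ind (stX G))) : DepT (ind G) := by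
  have h1 := ind3_ind hG hper
  have h2 := ind3_ind (measurableSet_stX hG hper) (periodic_stX hG hper)
  rw [depT_iff h2] at hd
  rw [depT_iff h1]
  filter_upwards [hd] with t ht
  rw [massT_stX hG hper] at ht
  exact ht

theorem depY_stX (hG : MeasurableSet G) (hper : IsZ3Periodic G)
    (hd : DepT (P232.perm (ind (stX G)))) : DepT (P232.perm (ind G)) := by
  have h1 := (ind3_ind hG hper).perm
  have h2 := (ind3_ind (measurableSet_stX hG hper) (periodic_stX hG hper)).perm
  rw [depT_iff h2] at hd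
  rw [depT_iff h1]
  filter_upwards [hd] with t ht
  rw [massY_stX hG hper] at ht
  exact ht

end Vale.Agent.Lib.P232
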