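import Vale.Agent.Lib.P232.Class.T1
import Vale.Agent.Lib.P232.Class.A2
import Vale.Agent.Lib.P232.Mollify

/-! JOB T5 -/

open MeasureTheory Set Filter Topology Real

noncomputable section

namespace Vale.Agent.Lib.P232

variable {G : Set R3} {E : Set R3}

/-- A bound on the perimeter bounds the tests. -/
theorem t5_test {c : ℝ} (hc : 0 ≤ c) (hP : Perim G ≤ ENNReal.ofReal c) (φ : TestField) :
    ∫ p in G ∩ Q3, φ.div p ≤ c := by
  have h1 : ENNReal.ofReal (∫ p in G ∩ Q3, φ.div p) ≤ Perim G :=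
    le_iSup (fun φ : TestField => ENNReal.ofReal (∫ p in G ∩ Q3, φ.div p)) φ
  exact (ENNReal.ofReal_le_ofReal_iff hc).1 (h1.trans hP)

/-- Approximants with the energy of the perimeter. -/
theorem t5_approx (hG : MeasurableSet G) (hper : IsZ3Periodic G) {c : ℝ} (hc : 0 ≤ c)
    (hP : Perim G ≤ ENNReal.ofReal c) :
    ∃ U : ℕ → ℝ → ℝ → ℝ → ℝ, Approx3 U (ind G) ∧ ∀ k, En3 (U k) ≤ c := by
  obtain ⟨ρ, hρ, h⟩ := exists_kernels hG hper
  exact ⟨_, h, fun k => moll_energy (hρ k) hG hper (t5_test hc hP)⟩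

theorem t5_cM_y (hG : MeasurableSet G) (hper : IsZ3Periodic G) (t y : ℝ) :
    cM G (t, y + 1) = cM G (t, y) := by
  have h := ind3_ind hG hper
  simp only [cM, h.per_y]

theorem t5_cM_t (hG : MeasurableSet G) (hper : IsZ3Periodic G) (t y : ℝ) :
    cM G (t + 1, y) = cM G (t, y) := by
  have h := ind3_ind hG hper
  simp only [cM, h.per_t]

/-- From the square to the plane. -/
theorem t5_plane (hG : MeasurableSet G) (hper : IsZ3Periodic G) {V : ℝ}
    (hz : ∀ᵐ z ∂nu01, cM G z = V) : ∀ᵐ q : ℝ × ℝ, cM G (q.2, q.1) = V := by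
  have hm : MeasurableSet {z | cM G z = V} := measurableSet_eq_fun (tr_cM_meas hG) measurable_const
  have h1 : ∀ᵐ t ∂mu01, ∀ᵐ y ∂mu01, cM G (t, y) = V := (Measure.ae_prod_iff_ae_ae hm).1 hz
  have h2 : ∀ᵐ t ∂mu01, ∀ᵐ y, cM G (t, y) = V := by
    filter_upwards [h1] with t ht
    exact t1_ae_of_periodic (P := fun y => cM G (t, y) = V)
      (fun y => by rw [t5_cM_y hG hper]) ht
  have h3 : ∀ᵐ t, ∀ᵐ y, cM G (t, y) = V :=
    t1_ae_of_periodic (P := fun t => ∀ᵐ y, cM G (t, y) = V)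
      (fun t => by simp only [t5_cM_t hG hper]) h2
  have h4 : ∀ᵐ z : ℝ × ℝ, cM G z = V := by
    rw [Measure.volume_eq_prod, Measure.ae_prod_iff_ae_ae hm]
    exact h3
  exact (Measure.measurePreserving_swap (μ := (volume : Measure ℝ))
    (ν := (volume : Measure ℝ))).quasiMeasurePreserving.ae h4

/-- The ind of the twice-permuted set. -/
theorem t5_ind2 (G : Set R3) : ind (permSet (permSet G)) = P232.perm (P232.perm (ind G)) := by
  rw [← permSet_ind, ← permSet_ind]

/-- All `x`-lines have the same mass: the set depends on `x` only. -/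
theorem t5_lines (hG : MeasurableSet G) (hper : IsZ3Periodic G) (hP : Perim G ≤ 2)
    (hV0 : 0 < vol (ind G)) (hV1 : vol (ind G) < 1) (hz : ∀ᵐ z ∂nu01, cM G z = vol (ind G)) :
    DepT (P232.perm (P232.perm (ind G))) := by
  have hm2 := permSet_measurable (permSet_measurable hG)
  have hp2 := permSet_periodic (permSet_periodic hper)
  have hP2 : Perim (permSet (permSet G)) ≤ ENNReal.ofReal 2 := by
    rw [ENNReal.ofReal_ofNat]
    exact (perim_permSet (permSet_measurable hG)).trans ((perim_permSet hG).trans hP)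
  obtain ⟨U, hU, hEn⟩ := t5_approx hm2 hp2 (by norm_num : (0 : ℝ) ≤ 2) hP2
  rw [t5_ind2] at hU
  refine dep_of_lines hU hEn ?_
  filter_upwards [t5_plane hG hper hz] with q hq
  have e : (∫ t in (0 : ℝ)..1, P232.perm (P232.perm (ind G)) q.1 q.2 t) = cM G (q.2, q.1) := rfl
  rw [e, hq]
  exact ⟨hV0, hV1⟩

/-- JOB T5. `stX G` depends on `x` only and `Perim G ≤ 2`: all `x`-lines of `G` have the same mass `V ∈ (0,1)`,
`exists_kernels`, `moll_energy`, `dep_of_lines` for `perm (perm (ind G))`. -/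
theorem depX_stX (hG : MeasurableSet G) (hper : IsZ3Periodic G) (hP : Perim G ≤ 2)
    (hV0 : 0 < vol (ind G)) (hV1 : vol (ind G) < 1)
    (hd : DepT (P232.perm (P232.perm (ind (stX G))))) : DepT (P232.perm (P232.perm (ind G))) := by
  have hi := (ind3_ind (measurableSet_stX hG hper) (periodic_stX hG hper)).perm.perm
  have hd' := bool_of_depT hi hd
  have h1 : ∀ᵐ x ∂mu01, aX (ind (stX G)) x = 0 ∨ aX (ind (stX G)) x = 1 := ae_restrict_of_ae hd'
  exact t5_lines hG hper hP hV0 hV1 (trace_zero_one hG h1 hV0 hV1)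

end Vale.Agent.Lib.P232
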