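import Vale.Agent.Lib.P232.Class.T5

/-! JOB T7 -/

open MeasureTheory Set Filter Topology Real

noncomputable section

namespace Vale.Agent.Lib.P232

variable {G : Set R3} {E : Set R3} {χ : ℝ → ℝ → ℝ → ℝ}

theorem t7_up (hi : Ind3 χ) {Q : ℝ → Prop} (h : ∀ᵐ t ∂mu01, Q (massT χ t)) : ∀ᵐ t, Q (massT χ t) := by
  refine t1_ae_of_periodic (P := fun t => Q (massT χ t)) (fun t => ?_) h
  have e : massT χ (t + 1) = massT χ t := by
    simp only [massT, area, slc, hi.per_t]
  rw [e]

/-- JOB T7. `exists_mono` with the memory of the symmetrizations (three steps `A ↦ stX (permSet A)`;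
a step shifts the index of the direction by one). -/
theorem exists_mono_trace (hE : MeasurableSet E) (hper : IsZ3Periodic E) :
    ∃ E' : Set R3, MeasurableSet E' ∧ IsZ3Periodic E' ∧ Mono3 (ind E') ∧ vol (ind E') = vol (ind E) ∧
      Perim E' ≤ Perim E ∧
      (∀ V, ((∀ᵐ t, massT (ind E') t = V) → ∀ᵐ t, massT (ind E) t = V) ∧
        ((∀ᵐ t, massT (P232.perm (ind E')) t = V) → ∀ᵐ t, massT (P232.perm (ind E)) t = V) ∧
        ((∀ᵐ t, massT (P232.perm (P232.perm (ind E'))) t = V) →
          ∀ᵐ t, massT (P232.perm (P232.perm (ind E))) t = V)) ∧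
      (Perim E ≤ 2 → 0 < vol (ind E) → vol (ind E) < 1 →
        (DepT (ind E') → DepT (ind E)) ∧ (DepT (P232.perm (ind E')) → DepT (P232.perm (ind E))) ∧
        (DepT (P232.perm (P232.perm (ind E'))) → DepT (P232.perm (P232.perm (ind E))))) := by
  obtain ⟨E', hm, hp, hmono, hv, hPerim, hx, hy, ht, hrest⟩ := tr_exists_mono_trace hE hper
  have hi := ind3_ind hE hper
  have hi' := ind3_ind hm hp
  refine ⟨E', hm, hp, hmono, hv, hPerim, fun V => ⟨?_, ?_, ?_⟩, fun hP2 h0 h1 => ?_⟩
  · intro h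
    exact t7_up hi (Q := fun s => s = V) (ht V (ae_restrict_of_ae h))
  · intro h
    refine t7_up hi.perm (Q := fun s => s = V) ?_
    have h1 : ∀ᵐ y ∂mu01, aY (ind E') y = V := by
      filter_upwards [ae_restrict_of_ae h] with y hy'
      rw [massT_perm_ind hm] at hy'
      exact hy'
    filter_upwards [hy V h1] with y hy'
    rw [massT_perm_ind hE]
    exact hy'
  · intro h
    exact t7_up hi.perm.perm (Q := fun s => s = V) (hx V (ae_restrict_of_ae h))
  · have cyl : ∀ G : Set R3, MeasurableSet G → IsZ3Periodic G → Perim G ≤ Perim E → 0 < vol (ind G) →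
        vol (ind G) < 1 → (∀ᵐ z ∂nu01, cM G z = vol (ind G)) →
        ∀ᵐ x ∂mu01, aX (ind G) x = 0 ∨ aX (ind G) x = 1 := by
      intro G hG hGp hGP hG0 hG1 hz
      have h3 := t5_lines hG hGp (hGP.trans hP2) hG0 hG1 hz
      exact ae_restrict_of_ae (bool_of_depT (ind3_ind hG hGp).perm.perm h3)
    obtain ⟨hX, hY, hT⟩ := hrest h0 h1 cyl
    refine ⟨fun h => ?_, fun h => ?_, fun h => ?_⟩
    · rw [depT_iff hi] 
      rw [depT_iff hi'] at h
      exact t7_up hi (Q := fun s => s = 0 ∨ s = 1) (hT (ae_restrict_of_ae h))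
    · rw [depT_iff hi.perm]
      rw [depT_iff hi'.perm] at h
      refine t7_up hi.perm (Q := fun s => s = 0 ∨ s = 1) ?_
      have h2 : ∀ᵐ y ∂mu01, aY (ind E') y = 0 ∨ aY (ind E') y = 1 := by
        filter_upwards [ae_restrict_of_ae h] with y hy'
        rw [massT_perm_ind hm] at hy'
        exact hy'
      filter_upwards [hY h2] with y hy'
      rw [massT_perm_ind hE]
      exact hy'
    · rw [depT_iff hi.perm.perm]
      rw [depT_iff hi'.perm.perm] at h
      exact t7_up hi.perm.perm (Q := fun s => s = 0 ∨ s = 1) (hX (ae_restrict_of_ae h))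

end Vale.Agent.Lib.P232
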