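import Vale.Agent.Lib.P232.Class.T7
import Vale.Agent.Lib.P232.Class.A1
import Vale.Agent.Lib.P232.Class.CanonPerm

/-! JOB T8 -/

open MeasureTheory Set Filter Topology Real

noncomputable section

namespace Vale.Agent.Lib.P232

variable {G : Set R3} {E : Set R3}

/-- The strict form of the certificates for monotone sets (stage 3, strict): in some direction `i`, tie. -/
def StrictMono (V2 V3 : ℝ) : Prop :=
  ∀ (U : ℕ → ℝ → ℝ → ℝ → ℝ) (χ : ℝ → ℝ → ℝ → ℝ), Approx3 U χ → Mono3 χ →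
    (∀ k, En3 (U k) ≤ Jf (vol χ)) → V2 ≤ vol χ → vol χ ≤ V3 →
    ∃ χ' : ℝ → ℝ → ℝ → ℝ, (χ' = χ ∨ χ' = P232.perm χ ∨ χ' = P232.perm (P232.perm χ)) ∧
      ((∀ᵐ t, massT χ' t = vol χ) ∨ EssBounds (massT χ') 0 1 ∨
        (∀ᵐ t, 1 / π ≤ massT χ' t ∧ massT χ' t ≤ 1 - 1 / π))

/-- The band of the disc profile. -/
theorem t8_IT_band {s : ℝ} (h1 : 1 / π ≤ s) (h2 : s ≤ 1 - 1 / π) : IT s = 2 := by
  have hpi := Real.pi_pos
  have key : ∀ u : ℝ, 1 / π ≤ u → 2 ≤ 2 * √(π * u) := by
    intro u hu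
    have h3 : 1 ≤ π * u := by
      have := mul_le_mul_of_nonneg_left hu hpi.le
      rwa [mul_one_div_cancel hpi.ne'] at this
    have h4 : 1 ≤ √(π * u) := by
      rw [show (1 : ℝ) = √1 by simp]
      exact Real.sqrt_le_sqrt h3
    linarith
  unfold IT
  rw [min_eq_right (key s h1), min_eq_left (key (1 - s) (by linarith))]

/-- Area of the slices of a cylinder. -/
theorem t8_const_area {χ : ℝ → ℝ → ℝ → ℝ} {t₀ : ℝ}
    (hc : ∀ᵐ p : R3, χ p.1 p.2.1 p.2.2 = χ p.1 p.2.1 t₀) : ∀ᵐ t, massT χ t = vol χ := by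
  have h1 := ae_slices (P := fun x y t => χ x y t = χ x y t₀) hc
  have h2 : ∀ᵐ t, massT χ t = massT χ t₀ := by
    filter_upwards [h1] with t ht
    have h3 := ae_rows (P := fun x y => χ x y t = χ x y t₀) ht
    refine intervalIntegral.integral_congr_ae ?_
    filter_upwards [h3] with y hy _
    exact intervalIntegral.integral_congr_ae (hy.mono fun x hx _ => hx)
  have h3 : vol χ = massT χ t₀ := by
    have : (∫ t in (0 : ℝ)..1, massT χ t) = ∫ t in (0 : ℝ)..1, massT χ t₀ :=
      intervalIntegral.integral_congr_ae (h2.mono fun t ht _ => ht)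
    rw [vol, this]
    simp
  rw [h3]
  exact h2

/-- One direction of the middle range. -/
theorem t8_dir {G G' : Set R3} {V : ℝ} (hG : MeasurableSet G) (hGp : IsZ3Periodic G)
    (hG' : MeasurableSet G') (hGp' : IsZ3Periodic G') (hP : Perim G ≤ ENNReal.ofReal (IT V))
    (hP' : Perim G' ≤ ENNReal.ofReal (IT V)) (hv : vol (ind G) = V) (hv' : vol (ind G') = V)
    (hV0 : 0 < V) (hV1 : V ≤ 1 / 2) (hIT0 : 0 ≤ IT V) (hIT2 : IT V ≤ 2)
    (tr1 : (∀ᵐ t, massT (ind G') t = V) → ∀ᵐ t, massT (ind G) t = V)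
    (tr2 : DepT (ind G') → DepT (ind G))
    (tie : (∀ᵐ t, massT (ind G') t = V) ∨ EssBounds (massT (ind G')) 0 1 ∨
      (∀ᵐ t, 1 / π ≤ massT (ind G') t ∧ massT (ind G') t ≤ 1 - 1 / π)) : CanonInd (ind G) := by
  obtain ⟨U, hU, hEn⟩ := t5_approx hG hGp hIT0 hP
  obtain ⟨U', hU', hEn'⟩ := t5_approx hG' hGp' hIT0 hP'
  have caseA : (∀ᵐ t, massT (ind G') t = V) → CanonInd (ind G) := by
    intro h
    refine canon_of_slices hU hEn (by rw [hv]; exact hV0) (by rw [hv]; exact hV1) (by rw [hv]) ?_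
    filter_upwards [tr1 h] with t ht
    rw [ht]
  rcases tie with h | h | h
  · exact caseA h
  · have hd := dep_of_bounds hU' (fun k => (hEn' k).trans hIT2) h
    exact slab_of_dep hU (fun k => (hEn k).trans hIT2) (by rw [hv]; exact hV0)
      (by rw [hv]; linarith) (tr2 hd)
  · refine caseA ?_
    have hc : ∀ᵐ t, ∀ ε > 0, ∀ᶠ k in atTop, IT V - ε ≤ En2 (slc (U' k) t) := by
      filter_upwards [hU'.slices, h] with t ht hb ε hε
      filter_upwards [E1 ht ε hε] with k hk
      have e : IT (area (slc (ind G') t)) = 2 := t8_IT_band hb.1 hb.2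
      rw [e] at hk
      linarith
    obtain ⟨t₀, -, -, hcyl⟩ := cyl_t hU' hEn' hc
    have := t8_const_area hcyl
    rw [hv'] at this
    exact this

/-- JOB T8. The middle range. `exists_mono_trace`, `StrictMono` for `E'`. First and third tie: area of the slices of
`E` constant `V`, `canon_of_slices` for `E` (directly; `IT V = Jf V`, third tie: the slices of `E'`, `exists_kernels`,
`cyl_t` first gives constant area). Second tie: `dep_of_bounds` for `E'`, trace, `slab_of_dep`. -/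
theorem class_mid {V2 V3 : ℝ} (S : StrictMono V2 V3) (hV3 : V3 ≤ 1 / 2) (hE : MeasurableSet E)
    (hper : IsZ3Periodic E) (hV2 : V2 ≤ vol (ind E)) (hV : vol (ind E) ≤ V3) (hV0 : 0 < V2)
    (hJ : ∀ V, V2 ≤ V → V ≤ V3 → Jf V = IT V)
    (hP : Perim E ≤ ENNReal.ofReal (Jf (vol (ind E)))) : CanonInd (ind E) := by
  obtain ⟨E', hm, hp, hmono, hv, hPerim, htr, hdep⟩ := exists_mono_trace hE hper
  set V := vol (ind E) with hVdef
  have hJV : Jf V = IT V := hJ V hV2 hV
  rw [hJV] at hP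
  have hV00 : 0 < V := lt_of_lt_of_le hV0 hV2
  have hV1 : V ≤ 1 / 2 := hV.trans hV3
  have hIT2 : IT V ≤ 2 := (min_le_left _ _).trans (min_le_right _ _)
  have hIT0 : 0 ≤ IT V := by
    refine le_min (le_min ?_ (by norm_num)) ?_ <;> positivity
  have hP' : Perim E' ≤ ENNReal.ofReal (IT V) := hPerim.trans hP
  have hP2 : Perim E ≤ 2 := by
    refine hP.trans ?_
    rw [← ENNReal.ofReal_ofNat]
    exact ENNReal.ofReal_le_ofReal hIT2
  obtain ⟨hd1, hd2, hd3⟩ := hdep hP2 hV00 (by linarith)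
  obtain ⟨U', hU', hEn'⟩ := t5_approx hm hp hIT0 hP'
  obtain ⟨χ', hχ', htie⟩ := S U' (ind E') hU' hmono (fun k => by
      rw [hv, hJV]
      exact hEn' k) (by rw [hv]; exact hV2) (by rw [hv]; exact hV)
  rw [hv] at htie
  have hi := ind3_ind hE hper
  have hi' := ind3_ind hm hp
  obtain ⟨tr1, tr2, tr3⟩ := htr V
  have pm := permSet_measurable hE
  have pp := permSet_periodic hper
  have pm' := permSet_measurable hm
  have pp' := permSet_periodic hp
  rcases hχ' with rfl | rfl | rfl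
  · exact t8_dir hE hper hm hp hP hP' hVdef.symm hv hV00 hV1 hIT0 hIT2 tr1 hd1 htie
  · refine CanonInd.perm ?_
    rw [permSet_ind] at htie tr2 hd2 ⊢
    have hv1 : vol (ind (permSet E)) = V := by rw [← permSet_ind, vol_perm hi]
    have hv2 : vol (ind (permSet E')) = V := by rw [← permSet_ind, vol_perm hi', hv]
    exact t8_dir pm pp pm' pp' ((perim_permSet hE).trans hP) ((perim_permSet hm).trans hP') hv1 hv2
      hV00 hV1 hIT0 hIT2 tr2 hd2 htie
  · refine CanonInd.perm (CanonInd.perm ?_)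
    rw [← t5_ind2] at htie tr3 hd3 ⊢
    have hv1 : vol (ind (permSet (permSet E))) = V := by rw [t5_ind2, vol_perm hi.perm, vol_perm hi]
    have hv2 : vol (ind (permSet (permSet E'))) = V := by
      rw [t5_ind2, vol_perm hi'.perm, vol_perm hi', hv]
    exact t8_dir (permSet_measurable pm) (permSet_periodic pp) (permSet_measurable pm')
      (permSet_periodic pp') ((perim_permSet pm).trans ((perim_permSet hE).trans hP))
      ((perim_permSet pm').trans ((perim_permSet hm).trans hP')) hv1 hv2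
      hV00 hV1 hIT0 hIT2 tr3 hd3 htie

end Vale.Agent.Lib.P232
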