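import Vale.Agent.Lib.P232.Class.CanonDefs
import Vale.Agent.Lib.P232.Profiles

/-! Dependence on `t` only; strict forms of the certificates. -/

open MeasureTheory Set Filter Topology Real

noncomputable section

namespace Vale.Agent.Lib.P232

/-- The indicator depends on `t` only. -/
def DepT (χ : ℝ → ℝ → ℝ → ℝ) : Prop := ∀ᵐ p : R3, χ p.1 p.2.1 p.2.2 = massT χ p.2.2

/-- The tie cases of the one-dimensional inequality in the ball and tube range. -/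
def Tie1 (V m M : ℝ) : Prop :=
  (m = V ∧ M = V) ∨ (m = 0 ∧ ∃ r : ℝ, 0 < r ∧ r ≤ 1 / 3 ∧ V = 4 / 3 * π * r ^ 3 ∧ M = π * r ^ 2)

/-- The strict one-dimensional inequality for `V ≤ V2`. -/
def StrictFinal1D (V2 : ℝ) : Prop :=
  ∀ V m M : ℝ, 0 < V → V ≤ V2 → 0 ≤ m → m ≤ V → V ≤ M → M ≤ 1 →
    (∃ l b, LineAdm IT l b m M ∧ JJ V < lineValue IT l b V m M) ∨
    (∃ l b, LineAdm IE l b m M ∧ JJ V + 4 * m < lineValue IE l b V m M) ∨ Tie1 V m M

/-- The strict inequality in the slab range. -/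
def StrictSlab (V3 : ℝ) : Prop :=
  ∀ V m M : ℝ, V3 ≤ V → V ≤ 1 / 2 → 0 ≤ m → m ≤ V → V ≤ M → M ≤ 1 →
    (∃ l b, LineAdm IT l b m M ∧ 2 < lineValue IT l b V m M) ∨ (m = 0 ∧ M = 1) ∨
      (1 / π ≤ m ∧ M ≤ 1 - 1 / π)


end Vale.Agent.Lib.P232
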