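import Vale.Agent.Lib.P232.Class.CanonDefs
import Vale.Agent.Lib.P232.Mollify3

/-! JOB U, radial part: the perimeter of the periodic ball and of the periodic tube, by radial cut-offs
and integration by parts. -/

open MeasureTheory Set Filter Topology Real

noncomputable section

namespace Vale.Agent.Lib.P232

/-- The cut-off profile: one below `s₀`, zero above `s₁`. -/
def rpH (s₀ s₁ s : ℝ) : ℝ := 1 - Real.smoothTransition ((s - s₀) / (s₁ - s₀))

/-- The radial density of the gradient. -/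
def rpF (s₀ s₁ ρ : ℝ) : ℝ := -(deriv (rpH s₀ s₁) (ρ ^ 2)) * (2 * ρ)

section Profile

variable {s₀ s₁ : ℝ}

lemma rpH_contDiff (h : s₀ < s₁) : ContDiff ℝ 1 (rpH s₀ s₁) := by
  unfold rpH
  exact contDiff_const.sub (Real.smoothTransition.contDiff.comp
    ((contDiff_id.sub contDiff_const).div_const _))

lemma rpH_one (h : s₀ < s₁) {s : ℝ} (hs : s ≤ s₀) : rpH s₀ s₁ s = 1 := by
  unfold rpH
  rw [Real.smoothTransition.zero_of_nonpos
    (div_nonpos_of_nonpos_of_nonneg (by linarith) (by linarith))]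
  ring

lemma rpH_zero (h : s₀ < s₁) {s : ℝ} (hs : s₁ ≤ s) : rpH s₀ s₁ s = 0 := by
  unfold rpH
  rw [Real.smoothTransition.one_of_one_le ((one_le_div (by linarith)).2 (by linarith))]
  ring

lemma rpH_nonneg (s : ℝ) : 0 ≤ rpH s₀ s₁ s :=
  sub_nonneg.2 (Real.smoothTransition.le_one _)

lemma rpH_le_one (s : ℝ) : rpH s₀ s₁ s ≤ 1 := by
  unfold rpH
  linarith [Real.smoothTransition.nonneg ((s - s₀) / (s₁ - s₀))]

lemma rpH_anti (h : s₀ < s₁) : Antitone (rpH s₀ s₁) := by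
  intro a b hab
  unfold rpH
  have := Real.smoothTransition.monotone
    (div_le_div_of_nonneg_right (sub_le_sub_right hab s₀) (by linarith : 0 ≤ s₁ - s₀))
  linarith

lemma rpH_hasDeriv (h : s₀ < s₁) (s : ℝ) : HasDerivAt (rpH s₀ s₁) (deriv (rpH s₀ s₁) s) s :=
  ((rpH_contDiff h).differentiable (by norm_num) s).hasDerivAt

lemma rpH_deriv_cont (h : s₀ < s₁) : Continuous (deriv (rpH s₀ s₁)) :=
  (rpH_contDiff h).continuous_deriv le_rfl

lemma rpH_deriv_nonpos (h : s₀ < s₁) (s : ℝ) : deriv (rpH s₀ s₁) s ≤ 0 :=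
  (rpH_anti h).deriv_nonpos

lemma rpH_deriv_zero (h : s₀ < s₁) {s : ℝ} (hs : s₁ ≤ s) : deriv (rpH s₀ s₁) s = 0 := by
  have hmin : IsLocalMin (rpH s₀ s₁) s := Eventually.of_forall fun u => by
    rw [rpH_zero h hs]
    exact rpH_nonneg u
  exact hmin.deriv_eq_zero

lemma rpF_cont (h : s₀ < s₁) : Continuous (rpF s₀ s₁) := by
  unfold rpF
  exact ((rpH_deriv_cont h).comp (continuous_pow 2)).neg.mul (continuous_const.mul continuous_id)

lemma rpF_nonneg (h : s₀ < s₁) {ρ : ℝ} (hρ : 0 ≤ ρ) : 0 ≤ rpF s₀ s₁ ρ := by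
  unfold rpF
  have := rpH_deriv_nonpos h (ρ ^ 2)
  exact mul_nonneg (by linarith) (by linarith)

lemma rpF_zero (h : s₀ < s₁) {ρ : ℝ} (hρ : s₁ ≤ ρ ^ 2) : rpF s₀ s₁ ρ = 0 := by
  simp [rpF, rpH_deriv_zero h hρ]

lemma rpF_int (h : s₀ < s₁) (h0 : 0 ≤ s₀) {R : ℝ} (hR : s₁ ≤ R ^ 2) :
    ∫ ρ in (0 : ℝ)..R, rpF s₀ s₁ ρ = 1 := by
  have hd : ∀ ρ : ℝ, HasDerivAt (fun ρ : ℝ => -(rpH s₀ s₁ (ρ ^ 2))) (rpF s₀ s₁ ρ) ρ := by
    intro ρ
    have h4 : HasDerivAt (fun ρ : ℝ => ρ ^ 2) (2 * ρ) ρ := by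
      simpa using hasDerivAt_pow 2 ρ
    have h1 : HasDerivAt (fun ρ : ℝ => rpH s₀ s₁ (ρ ^ 2)) (deriv (rpH s₀ s₁) (ρ ^ 2) * (2 * ρ)) ρ :=
      HasDerivAt.comp (h₂ := rpH s₀ s₁) (h := fun ρ : ℝ => ρ ^ 2) ρ (rpH_hasDeriv h (ρ ^ 2)) h4
    have e : rpF s₀ s₁ ρ = -(deriv (rpH s₀ s₁) (ρ ^ 2) * (2 * ρ)) := by
      unfold rpF
      ring
    rw [e]
    exact h1.neg
  rw [intervalIntegral.integral_eq_sub_of_hasDerivAt (fun ρ _ => hd ρ)
    ((rpF_cont h).intervalIntegrable _ _)]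
  rw [rpH_zero h hR, rpH_one h (by simpa using h0)]
  ring

lemma rpF_moment (h : s₀ < s₁) (h0 : 0 ≤ s₀) {R : ℝ} (hR0 : 0 < R) (hR : s₁ ≤ R ^ 2) (k : ℕ) :
    ∫ ρ in Ioi (0 : ℝ), ρ ^ k • rpF s₀ s₁ ρ ≤ R ^ k := by
  have e : ∫ ρ in Ioi (0 : ℝ), ρ ^ k • rpF s₀ s₁ ρ = ∫ ρ in Ioc (0 : ℝ) R, ρ ^ k • rpF s₀ s₁ ρ := by
    refine setIntegral_eq_of_subset_of_forall_sdiff_eq_zero measurableSet_Ioi Ioc_subset_Ioi_self ?_
    intro ρ hρ
    have h1 : R < ρ := by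
      by_contra hcon
      exact hρ.2 ⟨hρ.1, not_lt.1 hcon⟩
    rw [rpF_zero h (hR.trans (by nlinarith)), smul_zero]
  rw [e, ← intervalIntegral.integral_of_le hR0.le]
  have hc : Continuous fun ρ : ℝ => ρ ^ k • rpF s₀ s₁ ρ := (continuous_pow k).smul (rpF_cont h)
  calc ∫ ρ in (0 : ℝ)..R, ρ ^ k • rpF s₀ s₁ ρ
      ≤ ∫ ρ in (0 : ℝ)..R, R ^ k * rpF s₀ s₁ ρ := by
        refine intervalIntegral.integral_mono_on hR0.le (hc.intervalIntegrable _ _)
          ((continuous_const.mul (rpF_cont h)).intervalIntegrable _ _) fun ρ hρ => ?_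
        rw [smul_eq_mul]
        exact mul_le_mul_of_nonneg_right (pow_le_pow_left₀ hρ.1 hρ.2 k) (rpF_nonneg h hρ.1)
    _ = R ^ k := by
        rw [intervalIntegral.integral_const_mul, rpF_int h h0 hR, mul_one]

end Profile

/-! ### Radial integrals -/

/-- The coordinates on Euclidean three-space. -/
def rpE3 : EuclideanSpace ℝ (Fin 3) ≃ᵐ R3 :=
  (MeasurableEquiv.toLp 2 (Fin 3 → ℝ)).symm.trans
    ((MeasurableEquiv.piFinSuccAbove (fun _ : Fin 3 => ℝ) 0).trans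
      ((MeasurableEquiv.refl ℝ).prodCongr (MeasurableEquiv.finTwoArrow)))

lemma rpE3_mp : MeasurePreserving rpE3 := by
  unfold rpE3
  refine (EuclideanSpace.volume_preserving_symm_measurableEquiv_toLp (Fin 3)).trans ?_
  refine (volume_preserving_piFinSuccAbove (fun _ : Fin 3 => ℝ) 0).trans ?_
  exact (MeasurePreserving.id _).prod (volume_preserving_finTwoArrow ℝ)

lemma rpE3_apply (v : EuclideanSpace ℝ (Fin 3)) : rpE3 v = (v 0, v 1, v 2) := rfl

lemma rpE3_norm (v : EuclideanSpace ℝ (Fin 3)) :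
    ‖v‖ = √((rpE3 v).1 ^ 2 + (rpE3 v).2.1 ^ 2 + (rpE3 v).2.2 ^ 2) := by
  rw [EuclideanSpace.norm_eq, Fin.sum_univ_three, rpE3_apply]
  simp only [Real.norm_eq_abs, sq_abs]

/-- The polar formula in three dimensions. -/
lemma radial3 (f : ℝ → ℝ) :
    ∫ p : R3, f (√(p.1 ^ 2 + p.2.1 ^ 2 + p.2.2 ^ 2)) = 4 * π * ∫ ρ in Ioi (0 : ℝ), ρ ^ 2 • f ρ := by
  have h1 := integral_fun_norm_addHaar (volume : Measure (EuclideanSpace ℝ (Fin 3))) f
  have h2 := rpE3_mp.integral_comp' (fun p : R3 => f (√(p.1 ^ 2 + p.2.1 ^ 2 + p.2.2 ^ 2)))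
  rw [← h2]
  simp only [← rpE3_norm]
  rw [h1]
  have hd : Module.finrank ℝ (EuclideanSpace ℝ (Fin 3)) = 3 := finrank_euclideanSpace_fin
  rw [hd]
  have hv : (volume : Measure (EuclideanSpace ℝ (Fin 3))).real (Metric.ball 0 1) = π * 4 / 3 := by
    rw [Measure.real, EuclideanSpace.volume_ball_fin_three]
    simp
    positivity
  rw [hv, nsmul_eq_mul, smul_eq_mul]
  norm_num
  ring

/-! ### Level three: integration by parts against the cut-off -/

/-- The squared distance to the centre `c`. -/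
def rpQ3 (c p : R3) : ℝ := (p.1 - c.1) ^ 2 + (p.2.1 - c.2.1) ^ 2 + (p.2.2 - c.2.2) ^ 2

lemma rpQ3_nonneg (c p : R3) : 0 ≤ rpQ3 c p := by
  unfold rpQ3
  positivity

lemma rpQ3_contDiff (c : R3) : ContDiff ℝ 1 (rpQ3 c) := by
  unfold rpQ3
  fun_prop

lemma rp_mem_ball3 (c p : R3) {R : ℝ} (hR : 0 < R) (hq : rpQ3 c p ≤ R ^ 2) :
    p ∈ Metric.closedBall c R := by
  have h1 := sq_nonneg (p.1 - c.1)
  have h2 := sq_nonneg (p.2.1 - c.2.1)
  have h3 := sq_nonneg (p.2.2 - c.2.2)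
  unfold rpQ3 at hq
  rw [Metric.mem_closedBall, Prod.dist_eq, Prod.dist_eq, Real.dist_eq, Real.dist_eq, Real.dist_eq]
  refine max_le ?_ (max_le ?_ ?_) <;> exact abs_le_of_sq_le_sq (by linarith) hR.le

lemma rp_sq (a u : ℝ) : HasDerivAt (fun s : ℝ => (s - a) ^ 2) (2 * (u - a)) u := by
  simpa using ((hasDerivAt_id' u).sub_const a).fun_pow 2

lemma rp_hasDeriv_x (c p : R3) {s₀ s₁ : ℝ} (h : s₀ < s₁) :
    HasDerivAt (fun s => rpH s₀ s₁ (rpQ3 c (s, p.2.1, p.2.2)))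
      (deriv (rpH s₀ s₁) (rpQ3 c p) * (2 * (p.1 - c.1))) p.1 := by
  have h4 : HasDerivAt (fun s : ℝ => rpQ3 c (s, p.2.1, p.2.2)) (2 * (p.1 - c.1)) p.1 := by
    unfold rpQ3
    exact ((rp_sq c.1 p.1).add_const ((p.2.1 - c.2.1) ^ 2)).add_const ((p.2.2 - c.2.2) ^ 2)
  exact HasDerivAt.comp (h₂ := rpH s₀ s₁) (h := fun s : ℝ => rpQ3 c (s, p.2.1, p.2.2)) p.1
    (rpH_hasDeriv h _) h4

lemma rp_hasDeriv_y (c p : R3) {s₀ s₁ : ℝ} (h : s₀ < s₁) :
    HasDerivAt (fun s => rpH s₀ s₁ (rpQ3 c (p.1, s, p.2.2)))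
      (deriv (rpH s₀ s₁) (rpQ3 c p) * (2 * (p.2.1 - c.2.1))) p.2.1 := by
  have h4 : HasDerivAt (fun s : ℝ => rpQ3 c (p.1, s, p.2.2)) (2 * (p.2.1 - c.2.1)) p.2.1 := by
    unfold rpQ3
    exact ((rp_sq c.2.1 p.2.1).const_add ((p.1 - c.1) ^ 2)).add_const ((p.2.2 - c.2.2) ^ 2)
  exact HasDerivAt.comp (h₂ := rpH s₀ s₁) (h := fun s : ℝ => rpQ3 c (p.1, s, p.2.2)) p.2.1
    (rpH_hasDeriv h _) h4

lemma rp_hasDeriv_t (c p : R3) {s₀ s₁ : ℝ} (h : s₀ < s₁) :
    HasDerivAt (fun s => rpH s₀ s₁ (rpQ3 c (p.1, p.2.1, s)))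
      (deriv (rpH s₀ s₁) (rpQ3 c p) * (2 * (p.2.2 - c.2.2))) p.2.2 := by
  have h4 : HasDerivAt (fun s : ℝ => rpQ3 c (p.1, p.2.1, s)) (2 * (p.2.2 - c.2.2)) p.2.2 := by
    unfold rpQ3
    exact (rp_sq c.2.2 p.2.2).const_add ((p.1 - c.1) ^ 2 + (p.2.1 - c.2.1) ^ 2)
  exact HasDerivAt.comp (h₂ := rpH s₀ s₁) (h := fun s : ℝ => rpQ3 c (p.1, p.2.1, s)) p.2.2
    (rpH_hasDeriv h _) h4

/-- Integration by parts and the radial formula. -/
theorem rp_ibp3 {f₁ f₂ f₃ : R3 → ℝ} (h₁ : ContDiff ℝ 1 f₁) (h₂ : ContDiff ℝ 1 f₂)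
    (h₃ : ContDiff ℝ 1 f₃) (hn : ∀ p, f₁ p ^ 2 + f₂ p ^ 2 + f₃ p ^ 2 ≤ 1) (c : R3) {s₀ s₁ R : ℝ}
    (h : s₀ < s₁) (h0 : 0 ≤ s₀) (hR0 : 0 < R) (hR : s₁ ≤ R ^ 2) :
    ∫ p : R3, rpH s₀ s₁ (rpQ3 c p) *
      (fderiv ℝ f₁ p (1, 0, 0) + fderiv ℝ f₂ p (0, 1, 0) + fderiv ℝ f₃ p (0, 0, 1)) ≤ 4 * π * R ^ 2 := by
  have := volR3_haar
  set ψ : R3 → ℝ := fun p => rpH s₀ s₁ (rpQ3 c p) with hψdef
  have hψc : ContDiff ℝ 1 ψ := (rpH_contDiff h).comp (rpQ3_contDiff c)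
  have hout : ∀ p, p ∉ Metric.closedBall c R → s₁ ≤ rpQ3 c p := by
    intro p hp
    by_contra hcon
    exact hp (rp_mem_ball3 c p hR0 ((not_le.1 hcon).le.trans hR))
  have hψ : HasCompactSupport ψ := HasCompactSupport.intro (isCompact_closedBall c R) fun p hp =>
    rpH_zero h (hout p hp)
  have hint : ∀ (g : R3 → ℝ) (v : R3), ContDiff ℝ 1 g →
      Integrable (fun p => ψ p * fderiv ℝ g p v) := by
    intro g v hg
    have hcg' : Continuous fun p => fderiv ℝ g p v :=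
      (hg.continuous_fderiv one_ne_zero).clm_apply continuous_const
    exact (hψc.continuous.mul hcg').integrable_of_hasCompactSupport hψ.mul_right
  have hint' : ∀ (g : R3 → ℝ) (v : R3), ContDiff ℝ 1 g →
      Integrable (fun p => fderiv ℝ ψ p v * g p) := by
    intro g v hg
    have hcψ' : Continuous fun p => fderiv ℝ ψ p v :=
      (hψc.continuous_fderiv one_ne_zero).clm_apply continuous_const
    exact (hcψ'.mul hg.continuous).integrable_of_hasCompactSupport (hψ.fderiv_apply ℝ v).mul_right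
  have ibp : ∀ (g : R3 → ℝ) (v : R3), ContDiff ℝ 1 g →
      ∫ p, ψ p * fderiv ℝ g p v = -∫ p, fderiv ℝ ψ p v * g p := by
    intro g v hg
    exact integral_mul_fderiv_eq_neg_fderiv_mul_of_integrable (hint' g v hg) (hint g v hg)
      ((hψc.continuous.mul hg.continuous).integrable_of_hasCompactSupport hψ.mul_right)
      (fun x _ => hψc.differentiable one_ne_zero x)
      (fun x _ => hg.differentiable one_ne_zero x)
  -- the three derivatives of the cut-off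
  have dx : ∀ p, fderiv ℝ ψ p (1, 0, 0) = deriv (rpH s₀ s₁) (rpQ3 c p) * (2 * (p.1 - c.1)) := fun p => by
    rw [← m3_dx hψc p]
    exact (rp_hasDeriv_x c p h).deriv
  have dy : ∀ p, fderiv ℝ ψ p (0, 1, 0) = deriv (rpH s₀ s₁) (rpQ3 c p) * (2 * (p.2.1 - c.2.1)) := fun p => by
    rw [← m3_dy hψc p]
    exact (rp_hasDeriv_y c p h).deriv
  have dt : ∀ p, fderiv ℝ ψ p (0, 0, 1) = deriv (rpH s₀ s₁) (rpQ3 c p) * (2 * (p.2.2 - c.2.2)) := fun p => by
    rw [← m3_dt hψc p]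
    exact (rp_hasDeriv_t c p h).deriv
  -- the split
  have e1 : ∫ p : R3, ψ p * (fderiv ℝ f₁ p (1, 0, 0) + fderiv ℝ f₂ p (0, 1, 0) + fderiv ℝ f₃ p (0, 0, 1)) =
      ∫ p : R3, -(fderiv ℝ ψ p (1, 0, 0) * f₁ p) - fderiv ℝ ψ p (0, 1, 0) * f₂ p -
        fderiv ℝ ψ p (0, 0, 1) * f₃ p := by
    have a1 := hint f₁ (1, 0, 0) h₁
    have a2 := hint f₂ (0, 1, 0) h₂
    have a3 := hint f₃ (0, 0, 1) h₃
    have b1 := hint' f₁ (1, 0, 0) h₁
    have b2 := hint' f₂ (0, 1, 0) h₂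
    have b3 := hint' f₃ (0, 0, 1) h₃
    have s1 : ∫ p : R3, ψ p * (fderiv ℝ f₁ p (1, 0, 0) + fderiv ℝ f₂ p (0, 1, 0) + fderiv ℝ f₃ p (0, 0, 1)) =
        (∫ p : R3, ψ p * fderiv ℝ f₁ p (1, 0, 0)) + (∫ p : R3, ψ p * fderiv ℝ f₂ p (0, 1, 0)) +
          ∫ p : R3, ψ p * fderiv ℝ f₃ p (0, 0, 1) := by
      calc ∫ p : R3, ψ p * (fderiv ℝ f₁ p (1, 0, 0) + fderiv ℝ f₂ p (0, 1, 0) + fderiv ℝ f₃ p (0, 0, 1))
          = ∫ p : R3, (ψ p * fderiv ℝ f₁ p (1, 0, 0) + ψ p * fderiv ℝ f₂ p (0, 1, 0)) +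
              ψ p * fderiv ℝ f₃ p (0, 0, 1) :=
            integral_congr_ae (Eventually.of_forall fun p => by
              show ψ p * _ = _
              ring)
        _ = (∫ p : R3, ψ p * fderiv ℝ f₁ p (1, 0, 0) + ψ p * fderiv ℝ f₂ p (0, 1, 0)) +
              ∫ p : R3, ψ p * fderiv ℝ f₃ p (0, 0, 1) := integral_add (a1.add a2) a3
        _ = _ := by rw [integral_add a1 a2]
    have s2 : ∫ p : R3, -(fderiv ℝ ψ p (1, 0, 0) * f₁ p) - fderiv ℝ ψ p (0, 1, 0) * f₂ p -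
        fderiv ℝ ψ p (0, 0, 1) * f₃ p =
        -(∫ p : R3, fderiv ℝ ψ p (1, 0, 0) * f₁ p) - (∫ p : R3, fderiv ℝ ψ p (0, 1, 0) * f₂ p) -
          ∫ p : R3, fderiv ℝ ψ p (0, 0, 1) * f₃ p := by
      calc ∫ p : R3, -(fderiv ℝ ψ p (1, 0, 0) * f₁ p) - fderiv ℝ ψ p (0, 1, 0) * f₂ p -
            fderiv ℝ ψ p (0, 0, 1) * f₃ p
          = (∫ p : R3, -(fderiv ℝ ψ p (1, 0, 0) * f₁ p) - fderiv ℝ ψ p (0, 1, 0) * f₂ p) -
              ∫ p : R3, fderiv ℝ ψ p (0, 0, 1) * f₃ p := integral_sub (b1.neg.sub b2) b3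
        _ = ((∫ p : R3, -(fderiv ℝ ψ p (1, 0, 0) * f₁ p)) -
              ∫ p : R3, fderiv ℝ ψ p (0, 1, 0) * f₂ p) -
              ∫ p : R3, fderiv ℝ ψ p (0, 0, 1) * f₃ p := by
            have k := integral_sub b1.neg b2
            simp only [Pi.neg_apply] at k
            rw [k]
        _ = _ := by rw [integral_neg]
    rw [s1, s2, ibp f₁ _ h₁, ibp f₂ _ h₂, ibp f₃ _ h₃]
    ring
  -- the pointwise bound
  have hrad : ∀ p, -(fderiv ℝ ψ p (1, 0, 0) * f₁ p) - fderiv ℝ ψ p (0, 1, 0) * f₂ p -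
      fderiv ℝ ψ p (0, 0, 1) * f₃ p ≤ rpF s₀ s₁ √(rpQ3 c p) := by
    intro p
    rw [dx, dy, dt]
    unfold rpF
    rw [Real.sq_sqrt (rpQ3_nonneg c p)]
    set K := deriv (rpH s₀ s₁) (rpQ3 c p) with hK
    have hK0 : K ≤ 0 := rpH_deriv_nonpos h _
    set S := (p.1 - c.1) * f₁ p + (p.2.1 - c.2.1) * f₂ p + (p.2.2 - c.2.2) * f₃ p with hS
    have hS2 : S ^ 2 ≤ rpQ3 c p := by
      have hn' := hn p
      have hq := rpQ3_nonneg c p
      have hcs : S ^ 2 ≤ rpQ3 c p * (f₁ p ^ 2 + f₂ p ^ 2 + f₃ p ^ 2) := by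
        rw [hS]
        unfold rpQ3
        nlinarith [sq_nonneg ((p.1 - c.1) * f₂ p - (p.2.1 - c.2.1) * f₁ p),
          sq_nonneg ((p.1 - c.1) * f₃ p - (p.2.2 - c.2.2) * f₁ p),
          sq_nonneg ((p.2.1 - c.2.1) * f₃ p - (p.2.2 - c.2.2) * f₂ p)]
      nlinarith
    have hS3 : S ≤ √(rpQ3 c p) := (le_abs_self S).trans (Real.abs_le_sqrt hS2)
    have : -(K * (2 * (p.1 - c.1)) * f₁ p) - K * (2 * (p.2.1 - c.2.1)) * f₂ p -
        K * (2 * (p.2.2 - c.2.2)) * f₃ p = -K * (2 * S) := by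
      rw [hS]
      ring
    rw [this]
    exact mul_le_mul_of_nonneg_left (by linarith) (by linarith)
  have hFc : Continuous fun p => rpF s₀ s₁ √(rpQ3 c p) :=
    (rpF_cont h).comp (rpQ3_contDiff c).continuous.sqrt
  have hFs : HasCompactSupport fun p => rpF s₀ s₁ √(rpQ3 c p) :=
    HasCompactSupport.intro (isCompact_closedBall c R) fun p hp => by
      refine rpF_zero h ?_
      rw [Real.sq_sqrt (rpQ3_nonneg c p)]
      exact hout p hp
  have hLi : Integrable fun p : R3 => -(fderiv ℝ ψ p (1, 0, 0) * f₁ p) - fderiv ℝ ψ p (0, 1, 0) * f₂ p -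
      fderiv ℝ ψ p (0, 0, 1) * f₃ p :=
    ((hint' f₁ _ h₁).neg.sub (hint' f₂ _ h₂)).sub (hint' f₃ _ h₃)
  have hle := integral_mono hLi (hFc.integrable_of_hasCompactSupport hFs) hrad
  rw [← e1] at hle
  refine hle.trans ?_
  have hshift : ∫ p : R3, rpF s₀ s₁ √(rpQ3 c p) =
      ∫ p : R3, rpF s₀ s₁ √(p.1 ^ 2 + p.2.1 ^ 2 + p.2.2 ^ 2) :=
    integral_sub_right_eq_self (fun p : R3 => rpF s₀ s₁ √(p.1 ^ 2 + p.2.1 ^ 2 + p.2.2 ^ 2)) c
  rw [hshift, radial3]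
  exact mul_le_mul_of_nonneg_left (rpF_moment h h0 hR0 hR 2) (by positivity)

/-- The parameters of the cut-offs. -/
def rpS0 (a : ℝ) (n : ℕ) : ℝ := a * (1 - 2 / ((n : ℝ) + 2))
def rpS1 (a : ℝ) (n : ℕ) : ℝ := a * (1 - 1 / ((n : ℝ) + 2))

lemma rpS_lt {a : ℝ} (ha : 0 < a) (n : ℕ) : rpS0 a n < rpS1 a n := by
  unfold rpS0 rpS1
  have h : (0 : ℝ) < (n : ℝ) + 2 := by positivity
  have h2 : 1 / ((n : ℝ) + 2) < 2 / ((n : ℝ) + 2) := by
    rw [div_lt_div_iff_of_pos_right h]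
    norm_num
  exact mul_lt_mul_of_pos_left (by linarith) ha

lemma rpS0_nonneg {a : ℝ} (ha : 0 < a) (n : ℕ) : 0 ≤ rpS0 a n := by
  unfold rpS0
  have h : (0 : ℝ) < (n : ℝ) + 2 := by positivity
  have h2 : 2 / ((n : ℝ) + 2) ≤ 1 := by
    rw [div_le_one h]
    have : (0 : ℝ) ≤ n := Nat.cast_nonneg n
    linarith
  exact mul_nonneg ha.le (by linarith)

lemma rpS1_le {a : ℝ} (ha : 0 < a) (n : ℕ) : rpS1 a n ≤ a := by
  unfold rpS1
  have h : (0 : ℝ) < (n : ℝ) + 2 := by positivity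
  have h2 : 0 ≤ 1 / ((n : ℝ) + 2) := by positivity
  nlinarith

lemma rpS0_tendsto (a : ℝ) : Tendsto (rpS0 a) atTop (𝓝 a) := by
  have h1 : Tendsto (fun n : ℕ => (2 : ℝ) / ((n : ℝ) + 2)) atTop (𝓝 0) := by
    have h2 : Tendsto (fun n : ℕ => (n : ℝ) + 2) atTop atTop :=
      tendsto_atTop_add_const_right _ _ tendsto_natCast_atTop_atTop
    exact h2.const_div_atTop 2
  have h3 : Tendsto (fun n : ℕ => a * (1 - 2 / ((n : ℝ) + 2))) atTop (𝓝 (a * (1 - 0))) :=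
    (tendsto_const_nhds.sub h1).const_mul a
  have e : rpS0 a = fun n : ℕ => a * (1 - 2 / ((n : ℝ) + 2)) := rfl
  rw [e]
  simpa using h3

/-- The divergence integrated on a ball. -/
theorem rp_ball (φ : TestField) (c : R3) {r : ℝ} (hr : 0 < r) :
    ∫ p in {p | rpQ3 c p < r ^ 2}, φ.div p ≤ 4 * π * r ^ 2 := by
  have hg := m3_div_cont φ
  have ha : 0 < r ^ 2 := by positivity
  set B : Set R3 := {p | rpQ3 c p < r ^ 2} with hB
  have hBm : MeasurableSet B :=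
    measurableSet_lt (rpQ3_contDiff c).continuous.measurable measurable_const
  have hF : ∀ n, Continuous fun p => rpH (rpS0 (r ^ 2) n) (rpS1 (r ^ 2) n) (rpQ3 c p) * φ.div p := fun n =>
    (((rpH_contDiff (rpS_lt ha n)).comp (rpQ3_contDiff c)).continuous).mul hg
  have hconv : Tendsto (fun n => ∫ p, rpH (rpS0 (r ^ 2) n) (rpS1 (r ^ 2) n) (rpQ3 c p) * φ.div p) atTop
      (𝓝 (∫ p, B.indicator φ.div p)) := by
    refine tendsto_integral_of_dominated_convergence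
      ((Metric.closedBall c r).indicator fun p => |φ.div p|)
      (fun n => (hF n).aestronglyMeasurable) ?_ ?_ ?_
    · exact (hg.abs.continuousOn.integrableOn_compact (isCompact_closedBall c r)).integrable_indicator
        Metric.isClosed_closedBall.measurableSet
    · intro n
      refine Eventually.of_forall fun p => ?_
      by_cases hp : p ∈ Metric.closedBall c r
      · rw [indicator_of_mem hp, norm_mul, Real.norm_eq_abs, Real.norm_eq_abs,
          abs_of_nonneg (rpH_nonneg _)]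
        exact mul_le_of_le_one_left (abs_nonneg _) (rpH_le_one _)
      · rw [indicator_of_notMem hp]
        have hq : r ^ 2 ≤ rpQ3 c p := by
          by_contra hcon
          exact hp (rp_mem_ball3 c p hr (not_le.1 hcon).le)
        rw [rpH_zero (rpS_lt ha n) ((rpS1_le ha n).trans hq)]
        simp
    · refine Eventually.of_forall fun p => ?_
      by_cases hp : p ∈ B
      · rw [indicator_of_mem hp]
        have hlt : rpQ3 c p < r ^ 2 := hp
        have hev : ∀ᶠ n in atTop, rpQ3 c p ≤ rpS0 (r ^ 2) n :=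
          ((rpS0_tendsto (r ^ 2)).eventually (lt_mem_nhds hlt)).mono fun n hn => le_of_lt hn
        refine tendsto_const_nhds.congr' ?_
        filter_upwards [hev] with n hn
        rw [rpH_one (rpS_lt ha n) hn, one_mul]
      · rw [indicator_of_notMem hp]
        have hq : r ^ 2 ≤ rpQ3 c p := not_lt.1 hp
        refine tendsto_const_nhds.congr fun n => ?_
        rw [rpH_zero (rpS_lt ha n) ((rpS1_le ha n).trans hq), zero_mul]
  rw [← integral_indicator hBm]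
  refine le_of_tendsto' hconv fun n => ?_
  have e : ∀ p, φ.div p = fderiv ℝ φ.f₁ p (1, 0, 0) + fderiv ℝ φ.f₂ p (0, 1, 0) +
      fderiv ℝ φ.f₃ p (0, 0, 1) := m3_div_eq φ
  simp only [e]
  exact rp_ibp3 φ.c₁ φ.c₂ φ.c₃ φ.norm_le c (rpS_lt ha n) (rpS0_nonneg ha n) hr (rpS1_le ha n)

/-! ### Periodic sets -/

lemma rp_int_zero {u r : ℝ} {a : ℤ} (hu : u ∈ Ico (0 : ℝ) 1) (hr : r ≤ 1 / 2) (hr0 : 0 < r)
    (h : (u - 1 / 2 - a) ^ 2 < r ^ 2) : a = 0 := by
  have h1 : (u - 1 / 2 - a) ^ 2 < (1 / 2) ^ 2 := h.trans_le (by nlinarith)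
  have h2 := abs_lt.1 (abs_lt_of_sq_lt_sq h1 (by norm_num))
  have h3 : (-1 : ℝ) < a := by linarith [hu.1, hu.2, h2.2]
  have h4 : (a : ℝ) < 1 := by linarith [hu.1, hu.2, h2.1]
  have h5 : (-1 : ℤ) < a := by exact_mod_cast h3
  have h6 : a < (1 : ℤ) := by exact_mod_cast h4
  omega

lemma ballSet_periodic (x₀ y₀ t₀ r : ℝ) : IsZ3Periodic (ballSet x₀ y₀ t₀ r) where
  per_x x y t := by
    constructor
    · rintro ⟨a, b, c, h⟩
      refine ⟨a - 1, b, c, ?_⟩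
      push_cast
      convert h using 3
      ring
    · rintro ⟨a, b, c, h⟩
      refine ⟨a + 1, b, c, ?_⟩
      push_cast
      convert h using 3
      ring
  per_y x y t := by
    constructor
    · rintro ⟨a, b, c, h⟩
      refine ⟨a, b - 1, c, ?_⟩
      push_cast
      convert h using 4
      ring
    · rintro ⟨a, b, c, h⟩
      refine ⟨a, b + 1, c, ?_⟩
      push_cast
      convert h using 4
      ring
  per_t x y t := by
    constructor
    · rintro ⟨a, b, c, h⟩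
      refine ⟨a, b, c - 1, ?_⟩
      push_cast
      convert h using 3
      ring
    · rintro ⟨a, b, c, h⟩
      refine ⟨a, b, c + 1, ?_⟩
      push_cast
      convert h using 3
      ring

lemma ballSet_measurable (x₀ y₀ t₀ r : ℝ) : MeasurableSet (ballSet x₀ y₀ t₀ r) := by
  have e : ballSet x₀ y₀ t₀ r = ⋃ a : ℤ, ⋃ b : ℤ, ⋃ c : ℤ,
      {p : R3 | (p.1 - x₀ - a) ^ 2 + (p.2.1 - y₀ - b) ^ 2 + (p.2.2 - t₀ - c) ^ 2 < r ^ 2} := by
    ext p
    simp [ballSet]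
  rw [e]
  refine MeasurableSet.iUnion fun a => MeasurableSet.iUnion fun b => MeasurableSet.iUnion fun c => ?_
  exact measurableSet_lt (by fun_prop) measurable_const

/-- The integral of the indicator of a periodic set times a periodic function over the cube, in
terms of a set in a translated cube. -/
lemma rp_indicator_periodic {E : Set R3} (hper : IsZ3Periodic E) {g : R3 → ℝ} (pg : IsZ3PeriodicFun g) :
    IsZ3PeriodicFun (E.indicator g) where
  per_x x y t := by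
    by_cases h : (x, y, t) ∈ E
    · rw [indicator_of_mem h, indicator_of_mem ((hper.per_x x y t).2 h), pg.per_x]
    · rw [indicator_of_notMem h, indicator_of_notMem (fun h' => h ((hper.per_x x y t).1 h'))]
  per_y x y t := by
    by_cases h : (x, y, t) ∈ E
    · rw [indicator_of_mem h, indicator_of_mem ((hper.per_y x y t).2 h), pg.per_y]
    · rw [indicator_of_notMem h, indicator_of_notMem (fun h' => h ((hper.per_y x y t).1 h'))]
  per_t x y t := by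
    by_cases h : (x, y, t) ∈ E
    · rw [indicator_of_mem h, indicator_of_mem ((hper.per_t x y t).2 h), pg.per_t]
    · rw [indicator_of_notMem h, indicator_of_notMem (fun h' => h ((hper.per_t x y t).1 h'))]

/-- The periodic ball in the cube and the ball in space. -/
theorem ball_window (x₀ y₀ t₀ : ℝ) {r : ℝ} (hr : 0 < r) (hr2 : r ≤ 1 / 2) {g : R3 → ℝ}
    (hg : Continuous g) (pg : IsZ3PeriodicFun g) :
    ∫ p in ballSet x₀ y₀ t₀ r ∩ Q3, g p = ∫ p in {p | rpQ3 (x₀, y₀, t₀) p < r ^ 2}, g p := by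
  have := volR3_haar
  set E := ballSet x₀ y₀ t₀ r with hE
  set c : R3 := (x₀, y₀, t₀) with hc
  set B : Set R3 := {p | rpQ3 c p < r ^ 2} with hB
  have hBm : MeasurableSet B :=
    measurableSet_lt (rpQ3_contDiff c).continuous.measurable measurable_const
  have hEm : MeasurableSet E := ballSet_measurable _ _ _ _
  have hper := ballSet_periodic x₀ y₀ t₀ r
  obtain ⟨C, hC⟩ := m3_bdd hg pg
  set z : R3 := ((1 / 2 : ℝ) - x₀, (1 / 2 : ℝ) - y₀, (1 / 2 : ℝ) - t₀) with hz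
  have hFm : Measurable (E.indicator g) := hg.measurable.indicator hEm
  have hFb : ∀ p, |E.indicator g p| ≤ C := by
    intro p
    by_cases hp : p ∈ E
    · rw [indicator_of_mem hp]
      exact hC p
    · rw [indicator_of_notMem hp, abs_zero]
      exact (abs_nonneg _).trans (hC 0)
  have hQ3m : MeasurableSet Q3 := measurableSet_Ico.prod (measurableSet_Ico.prod measurableSet_Ico)
  have h1 : ∫ p in E ∩ Q3, g p = ∫ p in Q3, E.indicator g p := by
    rw [setIntegral_indicator hEm, inter_comm]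
  have h2 := m3_translate hFm hFb (rp_indicator_periodic hper pg) z
  -- on the cube, the periodic set is the ball
  have hcoord : ∀ p : R3, rpQ3 c (p - z) = (p.1 - 1 / 2) ^ 2 + (p.2.1 - 1 / 2) ^ 2 + (p.2.2 - 1 / 2) ^ 2 := by
    intro p
    simp only [rpQ3, hz, hc, Prod.fst_sub, Prod.snd_sub]
    ring
  have h3 : ∫ p in Q3, E.indicator g (p - z) = ∫ p in Q3, B.indicator g (p - z) := by
    refine setIntegral_congr_fun hQ3m fun p hp => ?_
    have hiff : p - z ∈ E ↔ p - z ∈ B := by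
      constructor
      · rintro ⟨a, b, d, h⟩
        have e1 : (p - z).1 - x₀ - a = p.1 - 1 / 2 - a := by
          simp only [hz, Prod.fst_sub]
          ring
        have e2 : (p - z).2.1 - y₀ - b = p.2.1 - 1 / 2 - b := by
          simp only [hz, Prod.fst_sub, Prod.snd_sub]
          ring
        have e3 : (p - z).2.2 - t₀ - d = p.2.2 - 1 / 2 - d := by
          simp only [hz, Prod.snd_sub]
          ring
        rw [e1, e2, e3] at h
        have ha : a = 0 := rp_int_zero hp.1 hr2 hr (by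
          nlinarith [sq_nonneg (p.2.1 - 1 / 2 - b), sq_nonneg (p.2.2 - 1 / 2 - d)])
        have hb : b = 0 := rp_int_zero hp.2.1 hr2 hr (by
          nlinarith [sq_nonneg (p.1 - 1 / 2 - a), sq_nonneg (p.2.2 - 1 / 2 - d)])
        have hd : d = 0 := rp_int_zero hp.2.2 hr2 hr (by
          nlinarith [sq_nonneg (p.1 - 1 / 2 - a), sq_nonneg (p.2.1 - 1 / 2 - b)])
        subst ha hb hd
        show rpQ3 c (p - z) < r ^ 2
        rw [hcoord]
        simpa using h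
      · intro h
        refine ⟨0, 0, 0, ?_⟩
        have h' : rpQ3 c (p - z) < r ^ 2 := h
        rw [hcoord] at h'
        have e1 : (p - z).1 - x₀ - ((0 : ℤ) : ℝ) = p.1 - 1 / 2 := by
          simp only [hz, Prod.fst_sub]
          push_cast
          ring
        have e2 : (p - z).2.1 - y₀ - ((0 : ℤ) : ℝ) = p.2.1 - 1 / 2 := by
          simp only [hz, Prod.fst_sub, Prod.snd_sub]
          push_cast
          ring
        have e3 : (p - z).2.2 - t₀ - ((0 : ℤ) : ℝ) = p.2.2 - 1 / 2 := by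
          simp only [hz, Prod.snd_sub]
          push_cast
          ring
        rw [e1, e2, e3]
        exact h'
    by_cases hm : p - z ∈ E
    · rw [indicator_of_mem hm, indicator_of_mem (hiff.1 hm)]
    · rw [indicator_of_notMem hm, indicator_of_notMem (fun h => hm (hiff.2 h))]
  -- the ball in the cube
  have h4 : ∫ p in Q3, B.indicator g (p - z) = ∫ p, B.indicator g (p - z) := by
    refine setIntegral_eq_integral_of_forall_compl_eq_zero fun p hp => ?_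
    refine indicator_of_notMem (fun hm => hp ?_) _
    have h' : rpQ3 c (p - z) < r ^ 2 := hm
    rw [hcoord] at h'
    have hbox : ∀ u v w : ℝ, (u - 1 / 2) ^ 2 + v ^ 2 + w ^ 2 < r ^ 2 → u ∈ Ico (0 : ℝ) 1 := by
      intro u v w hh
      have h5 : (u - 1 / 2) ^ 2 < (1 / 2) ^ 2 :=
        lt_of_le_of_lt (by nlinarith [sq_nonneg v, sq_nonneg w]) (hh.trans_le (by nlinarith))
      have h6 := abs_lt.1 (abs_lt_of_sq_lt_sq h5 (by norm_num))
      exact ⟨by linarith [h6.1], by linarith [h6.2]⟩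
    refine ⟨hbox _ _ _ h', hbox _ (p.1 - 1 / 2) (p.2.2 - 1 / 2) ?_, hbox _ (p.1 - 1 / 2) (p.2.1 - 1 / 2) ?_⟩
    · nlinarith
    · nlinarith
  have h5 : ∫ p, B.indicator g (p - z) = ∫ p, B.indicator g p :=
    integral_sub_right_eq_self (B.indicator g) z
  have h6 : ∫ p, B.indicator g p = ∫ p in B, g p := integral_indicator hBm
  rw [h1, ← h2, h3, h4, h5, h6]

/-- JOB U, ball. -/
theorem perim_ball_le (x₀ y₀ t₀ : ℝ) {r : ℝ} (hr : 0 < r) (hr2 : r ≤ 1 / 2) :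
    Perim (ballSet x₀ y₀ t₀ r) ≤ ENNReal.ofReal (4 * π * r ^ 2) := by
  refine iSup_le fun φ => ENNReal.ofReal_le_ofReal ?_
  rw [ball_window x₀ y₀ t₀ hr hr2 (m3_div_cont φ) (m3_div_per φ)]
  exact rp_ball φ _ hr

/-- The volume of the periodic ball. -/
theorem vol_ball (x₀ y₀ t₀ : ℝ) {r : ℝ} (hr : 0 < r) (hr2 : r ≤ 1 / 2) :
    (volume (ballSet x₀ y₀ t₀ r ∩ Q3)).toReal = 4 / 3 * π * r ^ 3 := by
  have := volR3_haar
  have hw := ball_window x₀ y₀ t₀ hr hr2 (g := fun _ => (1 : ℝ)) continuous_const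
    ⟨fun _ _ _ => rfl, fun _ _ _ => rfl, fun _ _ _ => rfl⟩
  simp only [setIntegral_const, smul_eq_mul, mul_one] at hw
  have h1 : (volume (ballSet x₀ y₀ t₀ r ∩ Q3)).toReal =
      (volume {p | rpQ3 (x₀, y₀, t₀) p < r ^ 2}).toReal := hw
  rw [h1]
  -- translation
  set c : R3 := (x₀, y₀, t₀) with hc
  have h2 : (fun p : R3 => p - c) ⁻¹' {p : R3 | p.1 ^ 2 + p.2.1 ^ 2 + p.2.2 ^ 2 < r ^ 2} =
      {p | rpQ3 c p < r ^ 2} := rfl
  have hm : MeasurableSet {p : R3 | p.1 ^ 2 + p.2.1 ^ 2 + p.2.2 ^ 2 < r ^ 2} :=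
    measurableSet_lt (by fun_prop) measurable_const
  have h3 : volume {p | rpQ3 c p < r ^ 2} = volume {p : R3 | p.1 ^ 2 + p.2.1 ^ 2 + p.2.2 ^ 2 < r ^ 2} := by
    rw [← h2]
    exact (measurePreserving_sub_right volume c).measure_preimage hm.nullMeasurableSet
  rw [h3]
  -- Euclidean space
  have h4 : rpE3 ⁻¹' {p : R3 | p.1 ^ 2 + p.2.1 ^ 2 + p.2.2 ^ 2 < r ^ 2} = Metric.ball 0 r := by
    ext v
    simp only [mem_preimage, Set.mem_ofPred_eq, mem_ball_zero_iff, rpE3_norm]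
    rw [Real.sqrt_lt' hr]
  have h5 := rpE3_mp.measure_preimage hm.nullMeasurableSet
  rw [h4, EuclideanSpace.volume_ball_fin_three] at h5
  rw [← h5, ENNReal.toReal_mul, ENNReal.toReal_pow, ENNReal.toReal_ofReal hr.le,
    ENNReal.toReal_ofReal (by positivity)]
  ring

end Vale.Agent.Lib.P232
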