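import Vale.Agent.Lib.P232.Class.UpperRadial

/-! JOB U: the slab (perimeter and volume), the volume of the tube. -/

open MeasureTheory Set Filter Topology Real

noncomputable section

namespace Vale.Agent.Lib.P232

/-! ### Periodicity and measurability -/

lemma slabT_periodic (t₀ w : ℝ) : IsZ3Periodic (slabT t₀ w) where
  per_x _ _ _ := Iff.rfl
  per_y _ _ _ := Iff.rfl
  per_t x y t := by
    constructor
    · rintro ⟨c, h1, h2⟩
      refine ⟨c - 1, ?_, ?_⟩ <;> push_cast <;> simp only at h1 h2 ⊢ <;> linarith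
    · rintro ⟨c, h1, h2⟩
      refine ⟨c + 1, ?_, ?_⟩ <;> push_cast <;> simp only at h1 h2 ⊢ <;> linarith

lemma slabT_measurable (t₀ w : ℝ) : MeasurableSet (slabT t₀ w) := by
  have e : slabT t₀ w = ⋃ c : ℤ, {p : R3 | t₀ + c < p.2.2} ∩ {p : R3 | p.2.2 < t₀ + c + w} := by
    ext p
    simp [slabT]
  rw [e]
  refine MeasurableSet.iUnion fun c => MeasurableSet.inter ?_ ?_
  · exact measurableSet_lt measurable_const (by fun_prop)
  · exact measurableSet_lt (by fun_prop) measurable_const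

lemma tubeT_periodic (x₀ y₀ r : ℝ) : IsZ3Periodic (tubeT x₀ y₀ r) where
  per_x x y t := by
    constructor
    · rintro ⟨a, b, h⟩
      refine ⟨a - 1, b, ?_⟩
      push_cast
      convert h using 3
      ring
    · rintro ⟨a, b, h⟩
      refine ⟨a + 1, b, ?_⟩
      push_cast
      convert h using 3
      ring
  per_y x y t := by
    constructor
    · rintro ⟨a, b, h⟩
      refine ⟨a, b - 1, ?_⟩
      push_cast
      convert h using 3
      ring
    · rintro ⟨a, b, h⟩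
      refine ⟨a, b + 1, ?_⟩
      push_cast
      convert h using 3
      ring
  per_t _ _ _ := Iff.rfl

lemma tubeT_measurable (x₀ y₀ r : ℝ) : MeasurableSet (tubeT x₀ y₀ r) := by
  have e : tubeT x₀ y₀ r = ⋃ a : ℤ, ⋃ b : ℤ,
      {p : R3 | (p.1 - x₀ - a) ^ 2 + (p.2.1 - y₀ - b) ^ 2 < r ^ 2} := by
    ext p
    simp [tubeT]
  rw [e]
  refine MeasurableSet.iUnion fun a => MeasurableSet.iUnion fun b => ?_
  exact measurableSet_lt (by fun_prop) measurable_const

/-! ### The slab in the cube -/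

/-- The translated slab in the cube. -/
theorem slab_window (t₀ : ℝ) {w : ℝ} (hw0 : 0 < w) (hw1 : w < 1) {g : R3 → ℝ}
    (hg : Continuous g) (pg : IsZ3PeriodicFun g) :
    ∫ p in slabT t₀ w ∩ Q3, g p =
      ∫ p in Ico (0 : ℝ) 1 ×ˢ (Ico (0 : ℝ) 1 ×ˢ Ioo (0 : ℝ) w), g (p - ((0 : ℝ), (0 : ℝ), -t₀)) := by
  set E := slabT t₀ w with hE
  have hEm : MeasurableSet E := slabT_measurable _ _
  have hper := slabT_periodic t₀ w
  obtain ⟨C, hC⟩ := m3_bdd hg pg
  set z : R3 := ((0 : ℝ), (0 : ℝ), -t₀) with hz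
  have hFm : Measurable (E.indicator g) := hg.measurable.indicator hEm
  have hFb : ∀ p, |E.indicator g p| ≤ C := by
    intro p
    by_cases hp : p ∈ E
    · rw [indicator_of_mem hp]
      exact hC p
    · rw [indicator_of_notMem hp, abs_zero]
      exact (abs_nonneg _).trans (hC 0)
  have hQ3m : MeasurableSet Q3 := measurableSet_Ico.prod (measurableSet_Ico.prod measurableSet_Ico)
  have h1 : ∫ p in E ∩ Q3, g p = ∫ p in Q3, E.indicator g p := by
    rw [setIntegral_indicator hEm, inter_comm]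
  have h2 := m3_translate hFm hFb (rp_indicator_periodic hper pg) z
  set S : Set R3 := {p | 0 < p.2.2 ∧ p.2.2 < w} with hS
  have hSm : MeasurableSet S := by
    have e : S = {p : R3 | 0 < p.2.2} ∩ {p : R3 | p.2.2 < w} := rfl
    rw [e]
    exact (measurableSet_lt measurable_const (by fun_prop)).inter
      (measurableSet_lt (by fun_prop) measurable_const)
  have h3 : ∫ p in Q3, E.indicator g (p - z) = ∫ p in Q3, S.indicator (fun p => g (p - z)) p := by
    refine setIntegral_congr_fun hQ3m fun p hp => ?_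
    have hu := hp.2.2
    have hcoord : (p - z).2.2 = p.2.2 + t₀ := by
      simp only [hz, Prod.snd_sub]
      ring
    have hiff : p - z ∈ E ↔ p ∈ S := by
      constructor
      · rintro ⟨c, h1, h2⟩
        rw [hcoord] at h1 h2
        have h3 : (c : ℝ) < 1 := by linarith [hu.2]
        have h4 : (-1 : ℝ) < c := by linarith [hu.1]
        have h5 : c < (1 : ℤ) := by exact_mod_cast h3
        have h6 : (-1 : ℤ) < c := by exact_mod_cast h4
        have h7 : c = 0 := by omega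
        subst h7
        simp only [Int.cast_zero, add_zero] at h1 h2
        exact ⟨by linarith, by linarith⟩
      · intro h
        refine ⟨0, ?_, ?_⟩ <;> rw [hcoord] <;> simp only [Int.cast_zero, add_zero]
        · linarith [h.1]
        · linarith [h.2]
    by_cases hm : p ∈ S
    · rw [indicator_of_mem hm, indicator_of_mem (hiff.2 hm)]
    · rw [indicator_of_notMem hm, indicator_of_notMem (fun h => hm (hiff.1 h))]
  have h4 : Q3 ∩ S = Ico (0 : ℝ) 1 ×ˢ (Ico (0 : ℝ) 1 ×ˢ Ioo (0 : ℝ) w) := by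
    ext p
    simp only [Q3, hS, mem_inter_iff, mem_prod, mem_Ico, Set.mem_ofPred_eq, mem_Ioo]
    constructor
    · rintro ⟨⟨a, b, c⟩, d⟩
      exact ⟨a, b, d⟩
    · rintro ⟨a, b, d⟩
      exact ⟨⟨a, b, ⟨d.1.le, by linarith [d.2]⟩⟩, d⟩
  rw [h1, ← h2, h3, setIntegral_indicator hSm, h4]

/-- The volume of the periodic slab. -/
theorem vol_slab (t₀ : ℝ) {w : ℝ} (hw0 : 0 < w) (hw1 : w < 1) :
    (volume (slabT t₀ w ∩ Q3)).toReal = w := by
  have hw := slab_window t₀ hw0 hw1 (g := fun _ => (1 : ℝ)) continuous_const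
    ⟨fun _ _ _ => rfl, fun _ _ _ => rfl, fun _ _ _ => rfl⟩
  simp only [setIntegral_const, smul_eq_mul, mul_one] at hw
  have h1 : (volume (slabT t₀ w ∩ Q3)).toReal =
      (volume (Ico (0 : ℝ) 1 ×ˢ (Ico (0 : ℝ) 1 ×ˢ Ioo (0 : ℝ) w))).toReal := hw
  rw [h1, Measure.volume_eq_prod, Measure.prod_prod, Measure.volume_eq_prod, Measure.prod_prod]
  simp [hw0.le]

/-! ### The flux through the slab -/

lemma rp_swap {F : ℝ → ℝ → ℝ} (hF : Continuous (fun p : ℝ × ℝ => F p.1 p.2)) (a b c d : ℝ) :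
    ∫ u in a..b, ∫ v in c..d, F u v = ∫ v in c..d, ∫ u in a..b, F u v := by
  apply intervalIntegral_intervalIntegral_swap
  have hK : IsCompact (Set.uIcc a b ×ˢ Set.uIcc c d) := isCompact_uIcc.prod isCompact_uIcc
  refine (hF.continuousOn.integrableOn_compact hK).mono_set ?_
  exact Set.prod_mono uIoc_subset_uIcc uIoc_subset_uIcc

/-- The flux formula on a slab for a test field. -/
theorem slab_flux (ψ : TestField) (w : ℝ) :
    ∫ x in (0 : ℝ)..1, ∫ y in (0 : ℝ)..1, ∫ t in (0 : ℝ)..w, ψ.div (x, y, t) =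
      ∫ x in (0 : ℝ)..1, ∫ y in (0 : ℝ)..1, (ψ.f₃ (x, y, w) - ψ.f₃ (x, y, 0)) := by
  -- the three pieces
  have cA : Continuous fun p : R3 => deriv (fun s => ψ.f₁ (s, p.2.1, p.2.2)) p.1 := by
    simp only [m3_dx ψ.c₁]
    exact (ψ.c₁.continuous_fderiv one_ne_zero).clm_apply continuous_const
  have cB : Continuous fun p : R3 => deriv (fun s => ψ.f₂ (p.1, s, p.2.2)) p.2.1 := by
    simp only [m3_dy ψ.c₂]
    exact (ψ.c₂.continuous_fderiv one_ne_zero).clm_apply continuous_const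
  have cC : Continuous fun p : R3 => deriv (fun s => ψ.f₃ (p.1, p.2.1, s)) p.2.2 := by
    simp only [m3_dt ψ.c₃]
    exact (ψ.c₃.continuous_fderiv one_ne_zero).clm_apply continuous_const
  -- continuity of the integrals in the last variable
  have hcT : ∀ {G : R3 → ℝ}, Continuous G →
      Continuous fun q : ℝ × ℝ => ∫ t in (0 : ℝ)..w, G (q.1, q.2, t) := by
    intro G hG
    refine intervalIntegral.continuous_parametric_intervalIntegral_of_continuous'
      (f := fun (q : ℝ × ℝ) t => G (q.1, q.2, t)) ?_ 0 w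
    exact hG.comp (by fun_prop : Continuous fun q : (ℝ × ℝ) × ℝ => ((q.1.1, q.1.2, q.2) : R3))
  have hcY : ∀ {G : R3 → ℝ}, Continuous G →
      Continuous fun x : ℝ => ∫ y in (0 : ℝ)..1, ∫ t in (0 : ℝ)..w, G (x, y, t) := by
    intro G hG
    refine intervalIntegral.continuous_parametric_intervalIntegral_of_continuous'
      (f := fun (x : ℝ) y => ∫ t in (0 : ℝ)..w, G (x, y, t)) ?_ 0 1
    exact hcT hG
  have hsplit3 : ∀ x y : ℝ, ∫ t in (0 : ℝ)..w, ψ.div (x, y, t) =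
      (∫ t in (0 : ℝ)..w, deriv (fun s => ψ.f₁ (s, y, t)) x) +
      (∫ t in (0 : ℝ)..w, deriv (fun s => ψ.f₂ (x, s, t)) y) +
      ∫ t in (0 : ℝ)..w, deriv (fun s => ψ.f₃ (x, y, s)) t := by
    intro x y
    have i1 : IntervalIntegrable (fun t => deriv (fun s => ψ.f₁ (s, y, t)) x) volume 0 w :=
      (cA.comp (by fun_prop : Continuous fun t : ℝ => ((x, y, t) : R3))).intervalIntegrable _ _
    have i2 : IntervalIntegrable (fun t => deriv (fun s => ψ.f₂ (x, s, t)) y) volume 0 w :=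
      (cB.comp (by fun_prop : Continuous fun t : ℝ => ((x, y, t) : R3))).intervalIntegrable _ _
    have i3 : IntervalIntegrable (fun t => deriv (fun s => ψ.f₃ (x, y, s)) t) volume 0 w :=
      (cC.comp (by fun_prop : Continuous fun t : ℝ => ((x, y, t) : R3))).intervalIntegrable _ _
    rw [← intervalIntegral.integral_add i1 i2, ← intervalIntegral.integral_add (i1.add i2) i3]
    rfl
  have hsplit2 : ∀ x : ℝ, ∫ y in (0 : ℝ)..1, ∫ t in (0 : ℝ)..w, ψ.div (x, y, t) =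
      (∫ y in (0 : ℝ)..1, ∫ t in (0 : ℝ)..w, deriv (fun s => ψ.f₁ (s, y, t)) x) +
      (∫ y in (0 : ℝ)..1, ∫ t in (0 : ℝ)..w, deriv (fun s => ψ.f₂ (x, s, t)) y) +
      ∫ y in (0 : ℝ)..1, ∫ t in (0 : ℝ)..w, deriv (fun s => ψ.f₃ (x, y, s)) t := by
    intro x
    simp_rw [hsplit3]
    have hcy : ∀ {G : R3 → ℝ}, Continuous G →
        Continuous fun y : ℝ => ∫ t in (0 : ℝ)..w, G (x, y, t) := fun hG =>
      (hcT hG).comp (by fun_prop : Continuous fun y : ℝ => ((x, y) : ℝ × ℝ))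
    have i1 : IntervalIntegrable (fun y => ∫ t in (0 : ℝ)..w, deriv (fun s => ψ.f₁ (s, y, t)) x) volume 0 1 :=
      (hcy cA).intervalIntegrable 0 1
    have i2 : IntervalIntegrable (fun y => ∫ t in (0 : ℝ)..w, deriv (fun s => ψ.f₂ (x, s, t)) y) volume 0 1 :=
      (hcy cB).intervalIntegrable 0 1
    have i3 : IntervalIntegrable (fun y => ∫ t in (0 : ℝ)..w, deriv (fun s => ψ.f₃ (x, y, s)) t) volume 0 1 :=
      (hcy cC).intervalIntegrable 0 1
    rw [← intervalIntegral.integral_add i1 i2, ← intervalIntegral.integral_add (i1.add i2) i3]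
  simp_rw [hsplit2]
  have i1 : IntervalIntegrable (fun x => ∫ y in (0 : ℝ)..1, ∫ t in (0 : ℝ)..w,
      deriv (fun s => ψ.f₁ (s, y, t)) x) volume 0 1 := (hcY cA).intervalIntegrable 0 1
  have i2 : IntervalIntegrable (fun x => ∫ y in (0 : ℝ)..1, ∫ t in (0 : ℝ)..w,
      deriv (fun s => ψ.f₂ (x, s, t)) y) volume 0 1 := (hcY cB).intervalIntegrable 0 1
  have i3 : IntervalIntegrable (fun x => ∫ y in (0 : ℝ)..1, ∫ t in (0 : ℝ)..w,
      deriv (fun s => ψ.f₃ (x, y, s)) t) volume 0 1 := (hcY cC).intervalIntegrable 0 1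
  have e123 : ∫ x in (0 : ℝ)..1, ((∫ y in (0 : ℝ)..1, ∫ t in (0 : ℝ)..w, deriv (fun s => ψ.f₁ (s, y, t)) x) +
      (∫ y in (0 : ℝ)..1, ∫ t in (0 : ℝ)..w, deriv (fun s => ψ.f₂ (x, s, t)) y) +
      ∫ y in (0 : ℝ)..1, ∫ t in (0 : ℝ)..w, deriv (fun s => ψ.f₃ (x, y, s)) t) =
      (∫ x in (0 : ℝ)..1, ∫ y in (0 : ℝ)..1, ∫ t in (0 : ℝ)..w, deriv (fun s => ψ.f₁ (s, y, t)) x) +
      (∫ x in (0 : ℝ)..1, ∫ y in (0 : ℝ)..1, ∫ t in (0 : ℝ)..w, deriv (fun s => ψ.f₂ (x, s, t)) y) +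
      ∫ x in (0 : ℝ)..1, ∫ y in (0 : ℝ)..1, ∫ t in (0 : ℝ)..w, deriv (fun s => ψ.f₃ (x, y, s)) t := by
    rw [← intervalIntegral.integral_add i1 i2, ← intervalIntegral.integral_add (i1.add i2) i3]
  rw [e123]
  -- the first piece vanishes
  have z1 : ∫ x in (0 : ℝ)..1, ∫ y in (0 : ℝ)..1, ∫ t in (0 : ℝ)..w, deriv (fun s => ψ.f₁ (s, y, t)) x = 0 := by
    have e1 := rp_swap (F := fun x y => ∫ t in (0 : ℝ)..w, deriv (fun s => ψ.f₁ (s, y, t)) x) (hcT cA) 0 1 0 1
    rw [e1]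
    refine (intervalIntegral.integral_congr (g := fun _ => (0 : ℝ)) fun y _ => ?_).trans (by simp)
    have hc2 : Continuous fun p : ℝ × ℝ => deriv (fun s => ψ.f₁ (s, y, p.2)) p.1 :=
      cA.comp (by fun_prop : Continuous fun p : ℝ × ℝ => ((p.1, y, p.2) : R3))
    have e2 := rp_swap (F := fun x t => deriv (fun s => ψ.f₁ (s, y, t)) x) hc2 0 1 0 w
    show ∫ x in (0 : ℝ)..1, ∫ t in (0 : ℝ)..w, deriv (fun s => ψ.f₁ (s, y, t)) x = 0
    rw [e2]
    refine (intervalIntegral.integral_congr (g := fun _ => (0 : ℝ)) fun t _ => ?_).trans (by simp)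
    show ∫ x in (0 : ℝ)..1, deriv (fun s => ψ.f₁ (s, y, t)) x = 0
    have hd : ∀ x : ℝ, HasDerivAt (fun s => ψ.f₁ (s, y, t)) (deriv (fun s => ψ.f₁ (s, y, t)) x) x := fun x => by
      have h1 : Differentiable ℝ fun s : ℝ => ψ.f₁ (s, y, t) :=
        (ψ.c₁.differentiable one_ne_zero).comp (by fun_prop : Differentiable ℝ fun s : ℝ => ((s, y, t) : R3))
      exact (h1 x).hasDerivAt
    have hi : IntervalIntegrable (fun x => deriv (fun s => ψ.f₁ (s, y, t)) x) volume 0 1 :=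
      (cA.comp (by fun_prop : Continuous fun x : ℝ => ((x, y, t) : R3))).intervalIntegrable _ _
    rw [intervalIntegral.integral_eq_sub_of_hasDerivAt (fun x _ => hd x) hi]
    have := ψ.p₁.per_x 0 y t
    rw [zero_add] at this
    rw [this, sub_self]
  -- the second piece vanishes
  have z2 : ∫ x in (0 : ℝ)..1, ∫ y in (0 : ℝ)..1, ∫ t in (0 : ℝ)..w, deriv (fun s => ψ.f₂ (x, s, t)) y = 0 := by
    refine (intervalIntegral.integral_congr (g := fun _ => (0 : ℝ)) fun x _ => ?_).trans (by simp)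
    have hc2 : Continuous fun p : ℝ × ℝ => deriv (fun s => ψ.f₂ (x, s, p.2)) p.1 :=
      cB.comp (by fun_prop : Continuous fun p : ℝ × ℝ => ((x, p.1, p.2) : R3))
    have e2 := rp_swap (F := fun y t => deriv (fun s => ψ.f₂ (x, s, t)) y) hc2 0 1 0 w
    show ∫ y in (0 : ℝ)..1, ∫ t in (0 : ℝ)..w, deriv (fun s => ψ.f₂ (x, s, t)) y = 0
    rw [e2]
    refine (intervalIntegral.integral_congr (g := fun _ => (0 : ℝ)) fun t _ => ?_).trans (by simp)
    show ∫ y in (0 : ℝ)..1, deriv (fun s => ψ.f₂ (x, s, t)) y = 0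
    have hd : ∀ y : ℝ, HasDerivAt (fun s => ψ.f₂ (x, s, t)) (deriv (fun s => ψ.f₂ (x, s, t)) y) y := fun y => by
      have h1 : Differentiable ℝ fun s : ℝ => ψ.f₂ (x, s, t) :=
        (ψ.c₂.differentiable one_ne_zero).comp (by fun_prop : Differentiable ℝ fun s : ℝ => ((x, s, t) : R3))
      exact (h1 y).hasDerivAt
    have hi : IntervalIntegrable (fun y => deriv (fun s => ψ.f₂ (x, s, t)) y) volume 0 1 :=
      (cB.comp (by fun_prop : Continuous fun y : ℝ => ((x, y, t) : R3))).intervalIntegrable _ _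
    rw [intervalIntegral.integral_eq_sub_of_hasDerivAt (fun y _ => hd y) hi]
    have := ψ.p₂.per_y x 0 t
    rw [zero_add] at this
    rw [this, sub_self]
  rw [z1, z2, zero_add, zero_add]
  -- the third piece
  refine intervalIntegral.integral_congr fun x _ => intervalIntegral.integral_congr fun y _ => ?_
  show ∫ t in (0 : ℝ)..w, deriv (fun s => ψ.f₃ (x, y, s)) t = _
  have hd : ∀ t : ℝ, HasDerivAt (fun s => ψ.f₃ (x, y, s)) (deriv (fun s => ψ.f₃ (x, y, s)) t) t := fun t => by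
    have h1 : Differentiable ℝ fun s : ℝ => ψ.f₃ (x, y, s) :=
      (ψ.c₃.differentiable one_ne_zero).comp (by fun_prop : Differentiable ℝ fun s : ℝ => ((x, y, s) : R3))
    exact (h1 t).hasDerivAt
  have hi : IntervalIntegrable (fun t => deriv (fun s => ψ.f₃ (x, y, s)) t) volume 0 w :=
    (cC.comp (by fun_prop : Continuous fun t : ℝ => ((x, y, t) : R3))).intervalIntegrable _ _
  exact intervalIntegral.integral_eq_sub_of_hasDerivAt (fun t _ => hd t) hi

lemma box_iter {G : R3 → ℝ} (hG : Continuous G) {w : ℝ} (hw0 : 0 ≤ w) :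
    ∫ p in Ico (0 : ℝ) 1 ×ˢ (Ico (0 : ℝ) 1 ×ˢ Ioo (0 : ℝ) w), G p =
      ∫ x in (0 : ℝ)..1, ∫ y in (0 : ℝ)..1, ∫ t in (0 : ℝ)..w, G (x, y, t) := by
  have hI : IntegrableOn G (Ico (0 : ℝ) 1 ×ˢ (Ico (0 : ℝ) 1 ×ˢ Ioo (0 : ℝ) w)) := by
    have hsub : Ico (0 : ℝ) 1 ×ˢ (Ico (0 : ℝ) 1 ×ˢ Ioo (0 : ℝ) w) ⊆
        Icc (0 : ℝ) 1 ×ˢ (Icc (0 : ℝ) 1 ×ˢ Icc (0 : ℝ) w) :=
      prod_mono Ico_subset_Icc_self (prod_mono Ico_subset_Icc_self Ioo_subset_Icc_self)
    exact (hG.continuousOn.integrableOn_compact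
      (isCompact_Icc.prod (isCompact_Icc.prod isCompact_Icc))).mono_set hsub
  rw [Measure.volume_eq_prod] at hI ⊢
  rw [setIntegral_prod _ hI, intervalIntegral.integral_of_le zero_le_one, integral_Ico_eq_integral_Ioc]
  refine setIntegral_congr_fun measurableSet_Ioc fun x _ => ?_
  have hI' : IntegrableOn (fun q : ℝ × ℝ => G (x, q)) (Ico (0 : ℝ) 1 ×ˢ Ioo (0 : ℝ) w)
      ((volume : Measure ℝ).prod (volume : Measure ℝ)) := by
    have hsub : Ico (0 : ℝ) 1 ×ˢ Ioo (0 : ℝ) w ⊆ Icc (0 : ℝ) 1 ×ˢ Icc (0 : ℝ) w :=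
      prod_mono Ico_subset_Icc_self Ioo_subset_Icc_self
    have hc : Continuous fun q : ℝ × ℝ => G (x, q) := hG.comp (by fun_prop)
    have := (hc.continuousOn (s := Icc (0 : ℝ) 1 ×ˢ Icc (0 : ℝ) w)).integrableOn_compact
      (μ := (volume : Measure (ℝ × ℝ))) (isCompact_Icc.prod isCompact_Icc)
    rw [Measure.volume_eq_prod] at this
    exact this.mono_set hsub
  show ∫ q in Ico (0 : ℝ) 1 ×ˢ Ioo (0 : ℝ) w, G (x, q) ∂((volume : Measure ℝ).prod (volume : Measure ℝ)) = _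
  rw [setIntegral_prod _ hI', intervalIntegral.integral_of_le zero_le_one, integral_Ico_eq_integral_Ioc]
  refine setIntegral_congr_fun measurableSet_Ioc fun y _ => ?_
  show ∫ t in Ioo (0 : ℝ) w, G (x, y, t) = _
  rw [intervalIntegral.integral_of_le hw0, integral_Ioc_eq_integral_Ioo]

/-- JOB U, slab. -/
theorem perim_slab_le (t₀ : ℝ) {w : ℝ} (hw0 : 0 < w) (hw1 : w < 1) :
    Perim (slabT t₀ w) ≤ ENNReal.ofReal 2 := by
  refine iSup_le fun φ => ENNReal.ofReal_le_ofReal ?_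
  rw [slab_window t₀ hw0 hw1 (m3_div_cont φ) (m3_div_per φ)]
  set z : R3 := ((0 : ℝ), (0 : ℝ), -t₀) with hz
  set ψ := φ.trans (-z) with hψ
  have e : ∀ p, φ.div (p - z) = -ψ.div p := fun p => by
    rw [hψ, TestField.trans_div, neg_neg, sub_eq_add_neg]
  simp only [e]
  rw [integral_neg, box_iter (m3_div_cont ψ) hw0.le, slab_flux]
  have hb : ∀ p, |ψ.f₃ p| ≤ 1 := fun p => by
    have := ψ.norm_le p
    exact abs_le_of_sq_le_sq (by nlinarith [sq_nonneg (ψ.f₁ p), sq_nonneg (ψ.f₂ p)]) zero_le_one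
  have h1 : ∀ x : ℝ, ‖∫ y in (0 : ℝ)..1, (ψ.f₃ (x, y, w) - ψ.f₃ (x, y, 0))‖ ≤ 2 := by
    intro x
    have := intervalIntegral.norm_integral_le_of_norm_le_const (a := (0 : ℝ)) (b := 1) (C := 2)
      (f := fun y => ψ.f₃ (x, y, w) - ψ.f₃ (x, y, 0)) (fun y _ => by
        rw [Real.norm_eq_abs]
        have h2 := abs_sub (ψ.f₃ (x, y, w)) (ψ.f₃ (x, y, 0))
        linarith [hb (x, y, w), hb (x, y, 0)])
    simpa using this
  have h2 := intervalIntegral.norm_integral_le_of_norm_le_const (a := (0 : ℝ)) (b := 1) (C := 2)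
    (f := fun x => ∫ y in (0 : ℝ)..1, (ψ.f₃ (x, y, w) - ψ.f₃ (x, y, 0))) (fun x _ => h1 x)
  simp only [sub_zero, abs_one, mul_one] at h2
  have h3 := neg_le_abs (∫ x in (0 : ℝ)..1, ∫ y in (0 : ℝ)..1, (ψ.f₃ (x, y, w) - ψ.f₃ (x, y, 0)))
  rw [Real.norm_eq_abs] at h2
  linarith

/-! ### The volume of the tube -/

/-- The coordinates on the Euclidean plane. -/
def rpE2 : EuclideanSpace ℝ (Fin 2) ≃ᵐ ℝ × ℝ :=
  (MeasurableEquiv.toLp 2 (Fin 2 → ℝ)).symm.trans MeasurableEquiv.finTwoArrow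

lemma rpE2_mp : MeasurePreserving rpE2 := by
  unfold rpE2
  exact (EuclideanSpace.volume_preserving_symm_measurableEquiv_toLp (Fin 2)).trans
    (volume_preserving_finTwoArrow ℝ)

lemma rpE2_apply (v : EuclideanSpace ℝ (Fin 2)) : rpE2 v = (v 0, v 1) := rfl

lemma rpE2_norm (v : EuclideanSpace ℝ (Fin 2)) : ‖v‖ = √((rpE2 v).1 ^ 2 + (rpE2 v).2 ^ 2) := by
  rw [EuclideanSpace.norm_eq, Fin.sum_univ_two, rpE2_apply]
  simp only [Real.norm_eq_abs, sq_abs]

/-- The area of a disc in the plane. -/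
lemma area_disc {a b r : ℝ} (hr : 0 < r) :
    volume {q : ℝ × ℝ | (q.1 - a) ^ 2 + (q.2 - b) ^ 2 < r ^ 2} = ENNReal.ofReal (π * r ^ 2) := by
  have := volR3_haar
  have hm : MeasurableSet {q : ℝ × ℝ | q.1 ^ 2 + q.2 ^ 2 < r ^ 2} :=
    measurableSet_lt (by fun_prop) measurable_const
  have h2 : (fun q : ℝ × ℝ => q - (a, b)) ⁻¹' {q : ℝ × ℝ | q.1 ^ 2 + q.2 ^ 2 < r ^ 2} =
      {q : ℝ × ℝ | (q.1 - a) ^ 2 + (q.2 - b) ^ 2 < r ^ 2} := rfl
  rw [← h2, (measurePreserving_sub_right volume ((a, b) : ℝ × ℝ)).measure_preimage hm.nullMeasurableSet]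
  have h4 : rpE2 ⁻¹' {q : ℝ × ℝ | q.1 ^ 2 + q.2 ^ 2 < r ^ 2} = Metric.ball 0 r := by
    ext v
    simp only [mem_preimage, Set.mem_ofPred_eq, mem_ball_zero_iff, rpE2_norm]
    rw [Real.sqrt_lt' hr]
  have h5 := rpE2_mp.measure_preimage hm.nullMeasurableSet
  rw [h4, EuclideanSpace.volume_ball_fin_two] at h5
  rw [← h5, mul_comm, ENNReal.ofReal_mul Real.pi_pos.le, ENNReal.ofReal_pow hr.le, mul_comm]

/-- The volume of the periodic tube. -/
theorem vol_tube (x₀ y₀ : ℝ) {r : ℝ} (hr : 0 < r) (hr2 : r ≤ 1 / 2) :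
    (volume (tubeT x₀ y₀ r ∩ Q3)).toReal = π * r ^ 2 := by
  have := volR3_haar
  set E := tubeT x₀ y₀ r with hE
  have hEm : MeasurableSet E := tubeT_measurable _ _ _
  have hper := tubeT_periodic x₀ y₀ r
  set z : R3 := ((1 / 2 : ℝ) - x₀, (1 / 2 : ℝ) - y₀, 0) with hz
  set g : R3 → ℝ := fun _ => 1 with hg
  have pg : IsZ3PeriodicFun g := ⟨fun _ _ _ => rfl, fun _ _ _ => rfl, fun _ _ _ => rfl⟩
  have hFm : Measurable (E.indicator g) := measurable_const.indicator hEm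
  have hFb : ∀ p, |E.indicator g p| ≤ 1 := by
    intro p
    by_cases hp : p ∈ E
    · rw [indicator_of_mem hp]
      simp [hg]
    · rw [indicator_of_notMem hp]
      simp
  have hQ3m : MeasurableSet Q3 := measurableSet_Ico.prod (measurableSet_Ico.prod measurableSet_Ico)
  have h1 : ∫ p in E ∩ Q3, g p = ∫ p in Q3, E.indicator g p := by
    rw [setIntegral_indicator hEm, inter_comm]
  have h2 := m3_translate hFm hFb (rp_indicator_periodic hper pg) z
  set D : Set (ℝ × ℝ) := {q | (q.1 - 1 / 2) ^ 2 + (q.2 - 1 / 2) ^ 2 < r ^ 2} with hD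
  have hDm : MeasurableSet D := measurableSet_lt (by fun_prop) measurable_const
  set S : Set R3 := {p | (p.1, p.2.1) ∈ D} with hS
  have hSm : MeasurableSet S := hDm.preimage (by fun_prop : Measurable fun p : R3 => ((p.1, p.2.1) : ℝ × ℝ))
  have h3 : ∫ p in Q3, E.indicator g (p - z) = ∫ p in Q3, S.indicator g p := by
    refine setIntegral_congr_fun hQ3m fun p hp => ?_
    have e1 : ∀ a : ℤ, (p - z).1 - x₀ - a = p.1 - 1 / 2 - a := fun a => by
      simp only [hz, Prod.fst_sub]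
      ring
    have e2 : ∀ b : ℤ, (p - z).2.1 - y₀ - b = p.2.1 - 1 / 2 - b := fun b => by
      simp only [hz, Prod.fst_sub, Prod.snd_sub]
      ring
    have hiff : p - z ∈ E ↔ p ∈ S := by
      constructor
      · rintro ⟨a, b, h⟩
        rw [e1, e2] at h
        have ha : a = 0 := rp_int_zero hp.1 hr2 hr (by nlinarith [sq_nonneg (p.2.1 - 1 / 2 - b)])
        have hb : b = 0 := rp_int_zero hp.2.1 hr2 hr (by nlinarith [sq_nonneg (p.1 - 1 / 2 - a)])
        subst ha hb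
        simpa [hS, hD] using h
      · intro h
        refine ⟨0, 0, ?_⟩
        rw [e1, e2]
        simpa [hS, hD] using h
    by_cases hm : p ∈ S
    · rw [indicator_of_mem hm, indicator_of_mem (hiff.2 hm)]
    · rw [indicator_of_notMem hm, indicator_of_notMem (fun h => hm (hiff.1 h))]
  have h4 : ∫ p in E ∩ Q3, g p = ∫ p in Q3 ∩ S, g p := by
    rw [h1, ← h2, h3, setIntegral_indicator hSm]
  simp only [hg, setIntegral_const, smul_eq_mul, mul_one] at h4
  have h5 : (volume (E ∩ Q3)).toReal = (volume (Q3 ∩ S)).toReal := h4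
  rw [h5]
  -- the cylinder over the disc
  have hbox : ∀ u v : ℝ, (u - 1 / 2) ^ 2 + v ^ 2 < r ^ 2 → u ∈ Ico (0 : ℝ) 1 := by
    intro u v hh
    have h5 : (u - 1 / 2) ^ 2 < (1 / 2) ^ 2 :=
      lt_of_le_of_lt (by nlinarith [sq_nonneg v]) (hh.trans_le (by nlinarith))
    have h6 := abs_lt.1 (abs_lt_of_sq_lt_sq h5 (by norm_num))
    exact ⟨by linarith [h6.1], by linarith [h6.2]⟩
  have h6 : (MeasurableEquiv.prodAssoc : (ℝ × ℝ) × ℝ ≃ᵐ ℝ × ℝ × ℝ) ⁻¹' (Q3 ∩ S) = D ×ˢ Ico (0 : ℝ) 1 := by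
    ext ⟨⟨x, y⟩, t⟩
    constructor
    · rintro ⟨⟨_, _, h⟩, h2⟩
      exact ⟨h2, h⟩
    · rintro ⟨h2, h⟩
      refine ⟨⟨hbox x (y - 1 / 2) h2, hbox y (x - 1 / 2) ?_, h⟩, h2⟩
      have h7 : (x - 1 / 2) ^ 2 + (y - 1 / 2) ^ 2 < r ^ 2 := h2
      nlinarith
  have h7 := (measurePreserving_prodAssoc (volume : Measure ℝ) (volume : Measure ℝ)
    (volume : Measure ℝ)).measure_preimage (hQ3m.inter hSm).nullMeasurableSet
  rw [h6, Measure.prod_prod] at h7
  have h8 : volume (Q3 ∩ S) = ENNReal.ofReal (π * r ^ 2) := by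
    have hA : volume D = ENNReal.ofReal (π * r ^ 2) := area_disc hr
    have e : (volume : Measure (ℝ × ℝ)) = (volume : Measure ℝ).prod (volume : Measure ℝ) :=
      Measure.volume_eq_prod ℝ ℝ
    rw [e] at hA
    rw [hA] at h7
    simp only [Real.volume_Ico, sub_zero, ENNReal.ofReal_one, mul_one] at h7
    exact h7.symm
  rw [h8, ENNReal.toReal_ofReal (by positivity)]

end Vale.Agent.Lib.P232
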